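import Vale.Agent.P018.Steps

namespace Vale.Agent.P018

open NumberField Polynomial Filter

variable {d : ℕ} {L : Type} [Field L]

/-- leading data of `Φ` -/
structure Par.Lead (p : Par d L) (I : Finset (Fin d)) (Φ : RR d L) (ν : Fin d → ℕ)
    (ε : Fin d →₀ ℕ) (g : ℕ) : Prop where
  top : (Φ.coeff ε).coeff g ≠ 0
  deg : ∀ m, (Φ.coeff m).natDegree ≤ g
  tot : ∀ m, (Φ.coeff m).coeff g ≠ 0 → m.degree ≤ ε.degree
  val : ∀ l ∈ I, ∀ m j, (taylor (p.θL l) (Φ.coeff m)).coeff j ≠ 0 → ν l ≤ m l + p.k * j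
  inE : InE p.k I (fun l => (ε l : ℤ) - ν l) g
  ind : ∀ s : Ix d → Prop, (∀ u, s u → Normal p.k u ∧
    ¬ InE p.k I (fun l => iexp p.k u l - ((ε l : ℤ) - ν l)) ((gdeg u : ℤ) - g)) → p.Indep I Φ s

theorem exists_lead [NumberField L] {p : Par d L} (hp : p.Ok) (I : Finset (Fin d)) {Φ : RR d L}
    (h0 : Φ ≠ 0) : ∃ ν ε g, p.Lead I Φ ν ε g := by
  obtain ⟨ν, ε, g, h1, h2, h3, h4, h5, h6⟩ := lead_indep p.θL
    (fun a b h => hp.inj (RingOfIntegers.coe_injective h)) p.cL (cL_ne_zero hp) p.k hp.k_pos I Φ h0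
  refine ⟨ν, ε, g, h1, h2, h3, h4, h5, fun s hs E B lam hB hl hdvd => ?_⟩
  obtain ⟨u, hu, h⟩ := h6 E B lam (fun u hu => (hB u hu).2)
    (fun u hu u' hu' => normal_inj (hs u (hB u hu).1).1 (hs u' (hB u' hu').1).1) hl hdvd
  exact (hs u (hB u hu).1).2 h

theorem gdeg_eq {I : Finset (Fin d)} {u : Ix d} (hu : Supp I u) :
    gdeg u = ∑ l ∈ I, (u.1 l).2 + u.2 := by
  unfold gdeg
  rw [← Finset.sum_subset (Finset.subset_univ I) (fun l _ hl => by rw [hu l hl])]

theorem not_inE_of_lt {k : ℕ} {I : Finset (Fin d)} {e : Fin d → ℤ} {g : ℤ} (h : g < 0) :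
    ¬ InE k I e g := by
  rintro ⟨j, _, h2⟩
  omega

theorem not_inE {k : ℕ} {I : Finset (Fin d)} {u : Ix d} (hu : Supp I u) (hn : Normal k u)
    (h2 : u.2 = 0) {μ : Fin d → ℤ} {g : ℕ} (j₂ : Fin d → ℕ)
    (hj : ∀ l ∈ I, 0 ≤ μ l + (k : ℤ) * (j₂ l : ℤ)) (hsum : ∑ l ∈ I, j₂ l ≤ g)
    (hlt : ∑ l ∈ I, j₂ l < g ∨ ∃ l ∈ I, ((u.1 l).2 = 0 ∧ 1 ≤ j₂ l) ∨ ((u.1 l).1 : ℤ) < μ l) :
    ¬ InE k I (fun l => iexp k u l - μ l) ((gdeg u : ℤ) - g) := by
  rintro ⟨j, h3, h4⟩
  have hle : ∀ l ∈ I, (u.1 l).2 ≤ j l + j₂ l := by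
    intro l hl
    have a1 := h3 l hl
    have a2 := hj l hl
    simp only [iexp] at a1
    rcases hn l with h | h
    · omega
    · by_contra hcon
      have a3 : (j l : ℤ) + j₂ l + 1 ≤ (u.1 l).2 := by omega
      have a4 : ((u.1 l).1 : ℤ) < k := by omega
      nlinarith [Int.natCast_nonneg k]
  rw [gdeg_eq hu, h2] at h4
  rcases hlt with h | ⟨l, hl, h⟩
  · have := Finset.sum_le_sum hle
    rw [Finset.sum_add_distrib] at this
    omega
  · have : ∑ l ∈ I, (u.1 l).2 < ∑ l ∈ I, (j l + j₂ l) := by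
      refine Finset.sum_lt_sum hle ⟨l, hl, ?_⟩
      rcases h with h | h
      · omega
      · have a1 := h3 l hl
        simp only [iexp] at a1
        by_contra hcon
        have a3 : (j l : ℤ) ≤ (u.1 l).2 := by omega
        nlinarith [Int.natCast_nonneg k]
    rw [Finset.sum_add_distrib] at this
    omega

variable {p : Par d L} {I : Finset (Fin d)} {Φ : RR d L} {ν : Fin d → ℕ} {ε : Fin d →₀ ℕ}

theorem Par.Lead.typeB {g : ℕ} (h : p.Lead I Φ ν ε g) (hg : 1 ≤ g) (hI : I.Nonempty) :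
    ∃ l ∈ I, p.Indep I Φ (typeB p.k I l) := by
  obtain ⟨j₂, h1, h2⟩ := h.inE
  by_cases h3 : ∃ l ∈ I, 1 ≤ j₂ l
  · obtain ⟨l, hl, h3⟩ := h3
    exact ⟨l, hl, h.ind _ fun u hu => ⟨hu.2.1, not_inE hu.1 hu.2.1 hu.2.2.1 j₂ h1 (by omega)
      (Or.inr ⟨l, hl, Or.inl ⟨hu.2.2.2, h3⟩⟩)⟩⟩
  · push Not at h3
    obtain ⟨l, hl⟩ := hI
    have : ∑ l ∈ I, j₂ l = 0 := Finset.sum_eq_zero fun l hl => by have := h3 l hl; omega
    exact ⟨l, hl, h.ind _ fun u hu => ⟨hu.2.1, not_inE hu.1 hu.2.1 hu.2.2.1 j₂ h1 (by omega)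
      (Or.inl (by omega))⟩⟩

theorem Par.Lead.indep_zero (h : p.Lead I Φ ν ε 0) {s : Ix d → Prop}
    (hs : ∀ u, s u → Supp I u ∧ Normal p.k u ∧ u.2 = 0 ∧ ∃ l ∈ I, (u.1 l).1 + ν l < ε l) :
    p.Indep I Φ s := by
  obtain ⟨j₂, h1, h2⟩ := h.inE
  refine h.ind _ fun u hu => ?_
  obtain ⟨a1, a2, a3, l, hl, a4⟩ := hs u hu
  exact ⟨a2, not_inE a1 a2 a3 j₂ h1 (by omega) (Or.inr ⟨l, hl, Or.inr (by omega)⟩)⟩

theorem Par.Lead.nu_le (h : p.Lead I Φ ν ε 0) {m : Fin d →₀ ℕ} (hm : m ∈ Φ.support) :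
    m.degree ≤ ε.degree ∧ ∀ l ∈ I, ν l ≤ m l := by
  have h1 := eq_C_of_natDegree_le_zero (h.deg m)
  have h2 : (Φ.coeff m).coeff 0 ≠ 0 := fun h0 =>
    MvPolynomial.mem_support_iff.1 hm (by rw [h1, h0, map_zero])
  refine ⟨h.tot m h2, fun l hl => ?_⟩
  have := h.val l hl m 0 (by rw [h1, taylor_C]; simpa using h2)
  simpa using this

theorem Par.Lead.mem {g : ℕ} (h : p.Lead I Φ ν ε g) : ε ∈ Φ.support :=
  MvPolynomial.mem_support_iff.2 fun h0 => h.top (by simp [h0])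

theorem supp_zero (hv : Φ.vars ⊆ I) {m : Fin d →₀ ℕ} (hm : m ∈ Φ.support) {l : Fin d}
    (hl : l ∉ I) : m l = 0 := by
  by_contra h0
  exact hl (hv ((MvPolynomial.mem_vars_iff_mem_support l).2
    ⟨m, hm, Finsupp.mem_support_iff.2 h0⟩))

theorem degree_eq_of_vars (hv : Φ.vars ⊆ I) {m : Fin d →₀ ℕ} (hm : m ∈ Φ.support) :
    m.degree = ∑ l ∈ I, m l := by
  rw [Finsupp.degree_eq_sum,
    ← Finset.sum_subset (Finset.subset_univ I) (fun l _ hl => supp_zero hv hm hl)]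

theorem case_general [NumberField L] (hp : p.Ok) {I : Finset (Fin d)} (hI : I.Nonempty)
    {Φ : RR d L} (h0 : Φ ≠ 0) (hv : Φ.vars ⊆ I) :
    (∀ (al : Fin d → L) (n : L), (∀ l, al l ≠ 0) → ev al n Φ ≠ 0) ∨
      ∃ l₀ ∈ I, p.Indep I Φ (typeA p.k I l₀) ∨ p.Indep I Φ (typeB p.k I l₀) := by
  obtain ⟨ν, ε, g, h⟩ := exists_lead hp I h0
  rcases Nat.eq_zero_or_pos g with rfl | hg
  swap
  · obtain ⟨l, hl, h1⟩ := h.typeB hg hI
    exact Or.inr ⟨l, hl, Or.inr h1⟩
  by_cases h1 : ∃ l ∈ I, ν l < ε l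
  · obtain ⟨l, hl, h1⟩ := h1
    exact Or.inr ⟨l, hl, Or.inl (h.indep_zero fun u hu =>
      ⟨hu.1, hu.2.1, hu.2.2.1, l, hl, by have := hu.2.2.2; omega⟩)⟩
  push Not at h1
  left
  have h2 : ∀ m ∈ Φ.support, m = ε := by
    intro m hm
    obtain ⟨a1, a2⟩ := h.nu_le hm
    rw [degree_eq_of_vars hv hm, degree_eq_of_vars hv h.mem] at a1
    have a3 : ∀ l ∈ I, ε l ≤ m l := fun l hl => (h1 l hl).trans (a2 l hl)
    have a4 := (Finset.sum_eq_sum_iff_of_le a3).1 (le_antisymm (Finset.sum_le_sum a3) a1)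
    ext l
    by_cases hl : l ∈ I
    · exact (a4 l hl).symm
    · rw [supp_zero hv hm hl, supp_zero hv h.mem hl]
  have h3 : Φ.support = {ε} := Finset.eq_singleton_iff_unique_mem.2 ⟨h.mem, h2⟩
  intro al n hal
  rw [Φ.as_sum, h3, Finset.sum_singleton, ev_monomial, eq_C_of_natDegree_le_zero (h.deg ε), eval_C]
  exact mul_ne_zero h.top (Finset.prod_ne_zero_iff.2 fun l _ => pow_ne_zero _ (hal l))

theorem Par.Lead.cases_zero {i j : Fin d} (h : p.Lead {j, i} Φ ν ε 0) (hij : i ≠ j)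
    (hΦ : Irreducible Φ) (hv : Φ.vars ⊆ {j, i}) (hi : i ∈ Φ.vars) :
    (∃ κ κ' : L, ∀ (al : Fin d → L) (n : L), (∀ l, al l ≠ 0) → ev al n Φ = 0 →
        al i = κ * al j + κ') ∨
      (∃ l ∈ ({j, i} : Finset (Fin d)), ν l + 2 ≤ ε l) ∨ (ν i < ε i ∧ ν j < ε j) := by
  classical
  by_cases h1 : ∃ l ∈ ({j, i} : Finset (Fin d)), 1 ≤ ν l
  · left
    obtain ⟨l, hl, h1⟩ := h1
    have h2 : MvPolynomial.X l ∣ Φ := by
      rw [Φ.as_sum]
      refine Finset.dvd_sum fun m hm => MvPolynomial.X_dvd_monomial.2 (Or.inr ?_)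
      have := (h.nu_le hm).2 l hl
      omega
    obtain ⟨w, hw⟩ := h2
    refine ⟨0, 0, fun al n hal h0 => ?_⟩
    exfalso
    rcases hΦ.isUnit_or_isUnit hw with hu | hu
    · have := (hu.map (ev (fun _ => (0 : L)) 0)).ne_zero
      simp [ev] at this
    · rw [hw, map_mul] at h0
      rcases mul_eq_zero.1 h0 with h3 | h3
      · exact hal l (by simpa [ev] using h3)
      · exact (hu.map (ev al n)).ne_zero h3
  push Not at h1
  have hνi : ν i = 0 := by have := h1 i (by simp); omega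
  have hνj : ν j = 0 := by have := h1 j (by simp); omega
  by_cases h2 : 2 ≤ ε i
  · exact Or.inr (Or.inl ⟨i, by simp, by omega⟩)
  by_cases h3 : 2 ≤ ε j
  · exact Or.inr (Or.inl ⟨j, by simp, by omega⟩)
  by_cases h4 : 1 ≤ ε i ∧ 1 ≤ ε j
  · exact Or.inr (Or.inr ⟨by omega, by omega⟩)
  left
  have h5 : ∀ m ∈ Φ.support, m = 0 ∨ m = Finsupp.single j 1 ∨ m = Finsupp.single i 1 := by
    intro m hm
    have a1 := (h.nu_le hm).1
    rw [degree_eq_of_vars hv hm, degree_eq_of_vars hv h.mem, Finset.sum_pair hij.symm,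
      Finset.sum_pair hij.symm] at a1
    have a2 : ∀ m' : Fin d →₀ ℕ, m j = m' j → m i = m' i → (∀ l, l ≠ j → l ≠ i → m' l = 0) →
        m = m' := by
      intro m' b1 b2 b3
      ext l
      by_cases c1 : l = j
      · rw [c1, b1]
      by_cases c2 : l = i
      · rw [c2, b2]
      rw [b3 l c1 c2, supp_zero hv hm (by simp [c1, c2])]
    have a3 : (m j = 0 ∧ m i = 0) ∨ (m j = 1 ∧ m i = 0) ∨ (m j = 0 ∧ m i = 1) := by omega
    rcases a3 with a3 | a3 | a3
    · exact Or.inl (a2 _ (by simp [a3.1]) (by simp [a3.2]) (by simp))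
    · exact Or.inr (Or.inl (a2 _ (by simp [a3.1]) (by simp [a3.2, hij])
        fun l c1 _ => by simp [c1]))
    · exact Or.inr (Or.inr (a2 _ (by simp [a3.1, hij.symm]) (by simp [a3.2])
        fun l _ c2 => by simp [c2]))
  have hne1 : (0 : Fin d →₀ ℕ) ≠ Finsupp.single j 1 := (Finsupp.single_ne_zero.2 one_ne_zero).symm
  have hne2 : (0 : Fin d →₀ ℕ) ≠ Finsupp.single i 1 := (Finsupp.single_ne_zero.2 one_ne_zero).symm
  have hne3 : (Finsupp.single j 1 : Fin d →₀ ℕ) ≠ Finsupp.single i 1 := fun h0 =>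
    hij.symm (Finsupp.single_left_injective one_ne_zero h0)
  have h6 : ∀ (al : Fin d → L) (n : L), ev al n Φ = (Φ.coeff 0).coeff 0 +
      (Φ.coeff (Finsupp.single j 1)).coeff 0 * al j +
      (Φ.coeff (Finsupp.single i 1)).coeff 0 * al i := by
    intro al n
    have a1 : Φ = ∑ m ∈ {0, Finsupp.single j 1, Finsupp.single i 1},
        MvPolynomial.monomial m (Φ.coeff m) := by
      conv_lhs => rw [Φ.as_sum]
      refine Finset.sum_subset (fun m hm => by simpa using h5 m hm) fun m _ hm => ?_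
      rw [MvPolynomial.notMem_support_iff.1 hm, map_zero]
    have a2 : ∀ (l : Fin d), ∏ l', al l' ^ (Finsupp.single l 1 : Fin d →₀ ℕ) l' = al l := by
      intro l
      rw [Finset.prod_eq_single l (fun l' _ hl' => by simp [hl']) (by simp)]
      simp
    have a3 : ∀ m, (Φ.coeff m).eval n = (Φ.coeff m).coeff 0 := fun m => by
      conv_lhs => rw [eq_C_of_natDegree_le_zero (h.deg m), eval_C]
    conv_lhs => rw [a1]
    rw [Finset.sum_insert (by simp [hne1, hne2]), Finset.sum_pair hne3, map_add, map_add,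
      ev_monomial, ev_monomial, ev_monomial, a2, a2, a3, a3, a3]
    simp [add_assoc]
  have h7 : (Φ.coeff (Finsupp.single i 1)).coeff 0 ≠ 0 := by
    obtain ⟨m, hm, hmi⟩ := (MvPolynomial.mem_vars_iff_mem_support i).1 hi
    rcases h5 m hm with rfl | rfl | rfl
    · simp at hmi
    · simp [hij] at hmi
    · intro h0
      exact MvPolynomial.mem_support_iff.1 hm
        (by rw [eq_C_of_natDegree_le_zero (h.deg _), h0, map_zero])
  refine ⟨-(Φ.coeff (Finsupp.single j 1)).coeff 0 / (Φ.coeff (Finsupp.single i 1)).coeff 0,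
    -(Φ.coeff 0).coeff 0 / (Φ.coeff (Finsupp.single i 1)).coeff 0, fun al n _ h0 => ?_⟩
  rw [h6] at h0
  field_simp
  linear_combination h0

theorem case_pair [NumberField L] (hp : p.Ok) {i j : Fin d} (hij : i ≠ j) {Φ : RR d L}
    (hΦ : Irreducible Φ) (hv : Φ.vars ⊆ {j, i}) (hi : i ∈ Φ.vars) :
    (∃ κ κ' : L, ∀ (al : Fin d → L) (n : L), (∀ l, al l ≠ 0) → ev al n Φ = 0 →
        al i = κ * al j + κ') ∨
      (∃ l ∈ ({j, i} : Finset (Fin d)), p.Indep {j, i} Φ (typeB p.k {j, i} l) ∨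
        p.Indep {j, i} Φ (famN1 p.k {j, i} l)) ∨ p.Indep {j, i} Φ (famN2 p.k i j) := by
  obtain ⟨ν, ε, g, h⟩ := exists_lead hp {j, i} hΦ.ne_zero
  rcases Nat.eq_zero_or_pos g with rfl | hg
  swap
  · obtain ⟨l, hl, h1⟩ := h.typeB hg (by simp)
    exact Or.inr (Or.inl ⟨l, hl, Or.inl h1⟩)
  rcases h.cases_zero hij hΦ hv hi with h1 | ⟨l, hl, h1⟩ | h1
  · exact Or.inl h1
  · exact Or.inr (Or.inl ⟨l, hl, Or.inr (h.indep_zero fun u hu =>
      ⟨hu.1, hu.2.1, hu.2.2.1, l, hl, by have := hu.2.2.2; omega⟩)⟩)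
  · refine Or.inr (Or.inr (h.indep_zero fun u hu => ⟨hu.1, hu.2.1, hu.2.2.1, ?_⟩))
    rcases hu.2.2.2 with h2 | h2
    · exact ⟨i, by simp, by omega⟩
    · exact ⟨j, by simp, by omega⟩

theorem normal_of_gdeg {k : ℕ} {u : Ix d} (h : gdeg u = 0) : Normal k u ∧ u.2 = 0 := by
  unfold gdeg at h
  refine ⟨fun l => Or.inl ?_, by omega⟩
  have := Finset.single_le_sum (f := fun l => (u.1 l).2) (fun _ _ => Nat.zero_le _)
    (Finset.mem_univ l)
  omega

theorem case_free [NumberField L] (hp : p.Ok) {i j : Fin d} (hij : i ≠ j) {Φ : RR d L}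
    (hΦ : Irreducible Φ) (hv : Φ.vars ⊆ {j, i}) (hi : i ∈ Φ.vars)
    (hn : ∀ m, (Φ.coeff m).natDegree ≤ 0) :
    (∃ κ κ' : L, ∀ (al : Fin d → L) (n : L), (∀ l, al l ≠ 0) → ev al n Φ = 0 →
        al i = κ * al j + κ') ∨
      (∃ l ∈ ({j, i} : Finset (Fin d)), p.Indep {j, i} Φ (famF1 {j, i} l)) ∨
      p.Indep {j, i} Φ (famF2 i j) := by
  obtain ⟨ν, ε, g, h⟩ := exists_lead hp {j, i} hΦ.ne_zero
  obtain rfl : g = 0 := by
    have := (le_natDegree_of_ne_zero h.top).trans (hn ε)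
    omega
  rcases h.cases_zero hij hΦ hv hi with h1 | ⟨l, hl, h1⟩ | h1
  · exact Or.inl h1
  · exact Or.inr (Or.inl ⟨l, hl, h.indep_zero fun u hu =>
      ⟨hu.1, (normal_of_gdeg hu.2.1).1, (normal_of_gdeg (k := 0) hu.2.1).2, l, hl,
        by have := hu.2.2; omega⟩⟩)
  · refine Or.inr (Or.inr (h.indep_zero fun u hu =>
      ⟨hu.1, (normal_of_gdeg hu.2.1).1, (normal_of_gdeg (k := 0) hu.2.1).2, ?_⟩))
    rcases hu.2.2 with h2 | h2
    · exact ⟨i, by simp, by omega⟩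
    · exact ⟨j, by simp, by omega⟩

theorem ev_tilde (p : Par d L) {E : ℕ} {I : Finset (Fin d)} {B : Finset (Ix d)} (lam : Ix d → L)
    (hB : ∀ u ∈ B, IxOk p.k E I u) (al be : Fin d → L) (n : L)
    (h : ∀ l, al l ^ p.k * be l = p.cL * (n - p.θL l)) :
    ev al n (p.tilde E I B lam) = (∏ l ∈ I, al l ^ E) *
      ∑ u ∈ B, lam u * ((∏ l, al l ^ (u.1 l).1 * be l ^ (u.1 l).2) * n ^ u.2) := by
  unfold Par.tilde
  rw [map_sum, Finset.mul_sum]
  refine Finset.sum_congr rfl fun u hu => ?_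
  rw [map_mul, ev_monoP _ _ _ _ _ _ (hB u hu) _ be _ h]
  simp only [ev, MvPolynomial.eval₂Hom_C, coe_evalRingHom, eval_C]
  ring

theorem Par.Lead.struct {l : Fin d} (h : p.Lead {l} Φ ν ε 1) (hv : Φ.vars ⊆ {l})
    (hν : ε l + p.k ≤ ν l) (hc : p.cL ≠ 0) :
    ∃ (a : L) (q : L[X]), a ≠ 0 ∧ ∀ (al : Fin d → L) (n : L), ev al n Φ =
      a * al l ^ ε l * (p.cL * (n - p.θL l) - al l ^ p.k * q.eval (al l)) := by
  classical
  have hdeg : ∀ m ∈ Φ.support, m.degree = m l := fun m hm => by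
    rw [degree_eq_of_vars hv hm, Finset.sum_singleton]
  have hprod : ∀ (al : Fin d → L), ∀ m ∈ Φ.support, ∏ l', al l' ^ m l' = al l ^ m l := by
    intro al m hm
    rw [Finset.prod_eq_single l (fun l' _ hl' => by
      rw [supp_zero hv hm (by simpa using hl'), pow_zero]) (by simp)]
  have hev : ∀ m (n : L), (Φ.coeff m).eval n =
      (Φ.coeff m).coeff 1 * (n - p.θL l) + (Φ.coeff m).eval (p.θL l) := by
    intro m n
    rw [eq_X_add_C_of_natDegree_le_one (h.deg m)]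
    simp
    ring
  have hA : ∀ m ∈ Φ.support, m ≠ ε → (Φ.coeff m).coeff 1 = 0 := by
    intro m hm hne
    by_contra h0
    have a1 := h.tot m h0
    rw [hdeg m hm, hdeg ε h.mem] at a1
    have a2 := h.val l (by simp) m 1 (by
      rw [taylor_coeff_one, eq_X_add_C_of_natDegree_le_one (h.deg m)]
      simpa using h0)
    refine hne (Finsupp.ext fun l' => ?_)
    by_cases hl' : l' = l
    · rw [hl']; omega
    · rw [supp_zero hv hm (by simpa using hl'), supp_zero hv h.mem (by simpa using hl')]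
  have hB : ∀ m, (Φ.coeff m).eval (p.θL l) ≠ 0 → ε l + p.k ≤ m l := by
    intro m h0
    have a2 := h.val l (by simp) m 0 (by rwa [taylor_coeff_zero])
    omega
  have ha := h.top
  refine ⟨(Φ.coeff ε).coeff 1 / p.cL, -C (p.cL / (Φ.coeff ε).coeff 1) *
    ∑ m ∈ Φ.support, C ((Φ.coeff m).eval (p.θL l)) * X ^ (m l - (ε l + p.k)),
    div_ne_zero ha hc, fun al n => ?_⟩
  have h1 : ev al n Φ = ∑ m ∈ Φ.support, ((Φ.coeff m).coeff 1 * (n - p.θL l) * al l ^ m l +
      al l ^ ε l * al l ^ p.k * ((Φ.coeff m).eval (p.θL l) * al l ^ (m l - (ε l + p.k)))) := by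
    conv_lhs => rw [Φ.as_sum]
    rw [map_sum]
    refine Finset.sum_congr rfl fun m hm => ?_
    rw [ev_monomial, hprod al m hm, hev m n, add_mul]
    congr 1
    by_cases h0 : (Φ.coeff m).eval (p.θL l) = 0
    · simp [h0]
    · obtain ⟨e, he⟩ := Nat.exists_eq_add_of_le (hB m h0)
      rw [he, Nat.add_sub_cancel_left]
      ring
  rw [h1, Finset.sum_add_distrib, Finset.sum_eq_single_of_mem ε h.mem
    (fun m hm hne => by rw [hA m hm hne]; ring), ← Finset.mul_sum]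
  simp only [eval_mul, eval_neg, eval_C, eval_finsetSum, eval_pow, eval_X]
  field_simp
  ring

theorem sum_ne_zero_of_deg {ι : Type} (B : Finset ι) (lam : ι → L) (f : ι → L[X])
    (hf : ∀ u ∈ B, f u ≠ 0) (hinj : ∀ u ∈ B, ∀ u' ∈ B, (f u).natDegree = (f u').natDegree → u = u')
    (hl : ∃ u ∈ B, lam u ≠ 0) : ∑ u ∈ B, C (lam u) * f u ≠ 0 := by
  classical
  obtain ⟨u₀, hu₀, hmax⟩ := Finset.exists_max_image (B.filter fun u => lam u ≠ 0)
    (fun u => (f u).natDegree) (by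
      obtain ⟨u, hu, h⟩ := hl
      exact ⟨u, Finset.mem_filter.2 ⟨hu, h⟩⟩)
  obtain ⟨h1, h2⟩ := Finset.mem_filter.1 hu₀
  intro h0
  have := congrArg (fun P : L[X] => P.coeff (f u₀).natDegree) h0
  simp only [finsetSum_coeff, coeff_C_mul, coeff_zero] at this
  rw [Finset.sum_eq_single_of_mem u₀ h1 (fun u hu hne => ?_)] at this
  · exact mul_ne_zero h2 (leadingCoeff_ne_zero.2 (hf u₀ h1)) this
  · by_cases h3 : lam u = 0
    · simp [h3]
    · have h4 := hmax u (Finset.mem_filter.2 ⟨hu, h3⟩)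
      rw [coeff_eq_zero_of_natDegree_lt (lt_of_le_of_ne h4 fun h => hne (hinj u hu u₀ h1 h)),
        mul_zero]

theorem case_single [NumberField L] (hp : p.Ok) {l : Fin d} {Φ : RR d L} (h0 : Φ ≠ 0)
    (hv : Φ.vars ⊆ {l}) :
    (∀ m, (Φ.coeff m).natDegree ≤ 0) ∨
      (∃ q : L[X], q.natDegree ≤ 2 ∧ ∀ (al : Fin d → L) (be n : L), al l ≠ 0 →
        al l ^ p.k * be = p.cL * (n - p.θL l) → ev al n Φ = 0 → be = q.eval (al l)) ∨
      p.Indep {l} Φ (famL1 l) ∨ p.Indep {l} Φ (famL2 l) ∨ p.Indep {l} Φ (famL3 l) := by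
  classical
  obtain ⟨ν, ε, g, h⟩ := exists_lead hp {l} h0
  have hk := hp.k_pos
  have hc := cL_ne_zero hp
  have hnorm : ∀ u : Ix d, Supp {l} u → ((u.1 l).1 = 0 ∨ (u.1 l).2 = 0) → Normal p.k u := by
    intro u hu h1 l'
    by_cases hl' : l' = l
    · rw [hl']; omega
    · rw [hu l' (by simpa using hl')]; simp
  rcases Nat.lt_or_ge g 1 with hg | hg
  · exact Or.inl fun m => (h.deg m).trans (by omega)
  rcases Nat.lt_or_ge 1 g with hg' | hg'
  · refine Or.inr (Or.inr (Or.inl (h.ind _ fun u hu => ⟨hnorm u hu.1 (Or.inr hu.2.1),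
      not_inE_of_lt ?_⟩)))
    rw [gdeg_eq hu.1, Finset.sum_singleton]
    have := hu.2.1
    have := hu.2.2
    omega
  obtain rfl : g = 1 := by omega
  by_cases hν : ν l < ε l + p.k
  · refine Or.inr (Or.inr (Or.inr (Or.inl (h.ind _ fun u hu => ⟨hnorm u hu.1 hu.2.2, ?_⟩))))
    rintro ⟨j, h1, h2⟩
    rw [gdeg_eq hu.1, Finset.sum_singleton, Finset.sum_singleton, hu.2.1] at h2
    have h3 := h1 l (by simp)
    simp only [iexp] at h3
    rcases hu.2.2 with h4 | h4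
    · have h5 : (j l : ℤ) + 1 ≤ (u.1 l).2 := by omega
      have h6 : (ν l : ℤ) < ε l + p.k := by omega
      rw [h4] at h3
      push_cast at h3
      nlinarith [Int.natCast_nonneg p.k]
    · omega
  obtain ⟨a, q, ha, hq⟩ := h.struct hv (by omega) hc
  by_cases hq2 : q.natDegree ≤ 2
  · refine Or.inr (Or.inl ⟨q, hq2, fun al be n hal h1 h2 => ?_⟩)
    rw [hq, ← h1, ← mul_sub] at h2
    simpa [ha, hal, sub_eq_zero] using h2
  refine Or.inr (Or.inr (Or.inr (Or.inr fun E B lam hB hl hdvd => ?_)))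
  have hq0 : q ≠ 0 := by
    rintro rfl
    simp at hq2
  have hne := sum_ne_zero_of_deg B lam (fun u => X ^ (u.1 l).1 * q ^ (u.1 l).2)
    (fun u _ => mul_ne_zero (pow_ne_zero _ X_ne_zero) (pow_ne_zero _ hq0)) (fun u hu u' hu' h1 => by
      simp only [natDegree_mul (pow_ne_zero _ X_ne_zero) (pow_ne_zero _ hq0), natDegree_pow,
        natDegree_X, mul_one] at h1
      obtain ⟨a1, a2, a3⟩ := (hB u hu).1
      obtain ⟨b1, b2, b3⟩ := (hB u' hu').1
      have c1 : (u.1 l).2 = (u'.1 l).2 := by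
        rcases lt_trichotomy (u.1 l).2 (u'.1 l).2 with c | c | c
        · exfalso; nlinarith
        · exact c
        · exfalso; nlinarith
      refine Prod.ext (funext fun l' => ?_) (a2.trans b2.symm)
      by_cases hl' : l' = l
      · rw [hl']
        rw [c1] at h1
        exact Prod.ext (by omega) c1
      · rw [a1 l' (by simpa using hl'), b1 l' (by simpa using hl')]) hl
  refine mul_ne_zero (pow_ne_zero E X_ne_zero) hne (Polynomial.funext fun z => ?_)
  set n : L := p.θL l + z ^ p.k * q.eval z / p.cL with hn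
  have hrel : ∀ l', (fun l' => if l' = l then z else 1) l' ^ p.k *
      (fun l' => if l' = l then q.eval z else p.cL * (n - p.θL l')) l' = p.cL * (n - p.θL l') := by
    intro l'
    by_cases hl' : l' = l
    · simp only [hl', if_true, hn]
      field_simp
      ring
    · simp [hl']
  have h1 := ev_tilde p lam (fun u hu => (hB u hu).2) _ _ n hrel
  obtain ⟨w, hw⟩ := hdvd
  have h2 : ev (fun l' => if l' = l then z else 1) n Φ = 0 := by
    have := hrel l
    simp only [if_true] at this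
    rw [hq]
    simp only [if_true]
    rw [this, sub_self, mul_zero]
  rw [hw, map_mul, h2, zero_mul] at h1
  simp only [eval_mul, eval_pow, eval_X, eval_finsetSum, eval_C, eval_zero]
  rw [h1]
  simp only [Finset.prod_singleton, if_true]
  congr 1
  refine Finset.sum_congr rfl fun u hu => ?_
  rw [(hB u hu).1.2.1, pow_zero, mul_one, Finset.prod_eq_single l (fun l' _ hl' => by
    rw [(hB u hu).1.1 l' (by simpa using hl')]; simp) (by simp)]
  simp

theorem rel_L {Z : ℝ} {S : Finset (Pt d L)} {pool : Finset ℕ} (hA : p.Adm Z S pool) {x : Pt d L}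
    (hx : x ∈ S) (l : Fin d) :
    p.alL x l ^ p.k * (x.be l : L) = p.cL * (((x.N : ℤ) : L) - p.θL l) := by
  have := congrArg (algebraMap (𝓞 L) L) (hA.rel x hx l)
  simpa [Par.alL, Par.cL, Par.θL] using this

theorem aeval_X_facts (u : L[X]) (j : Fin d) {D : ℕ} (hu : u.natDegree ≤ D) :
    ∃ Q : RR d L, Q.vars ⊆ {j} ∧ DegLe Q D 0 ∧
      ∀ (al : Fin d → L) (n : L), ev al n Q = u.eval (al j) := by
  classical
  refine ⟨∑ e ∈ Finset.range (D + 1), MvPolynomial.C (C (u.coeff e)) * MvPolynomial.X j ^ e,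
    ?_, ?_, fun al n => ?_⟩
  · refine (MvPolynomial.vars_sum_subset _ _).trans (Finset.biUnion_subset.2 fun e _ => ?_)
    refine (MvPolynomial.vars_mul _ _).trans ?_
    rw [MvPolynomial.vars_C, Finset.empty_union]
    exact (MvPolynomial.vars_pow _ _).trans (by simp)
  · refine DegLe.sum _ fun e he => ?_
    refine ((DegLe.C (C (u.coeff e)) (E := 0) (by simp)).mul ((DegLe.X j).pow e)).mono ?_ (by simp)
    have := Finset.mem_range.1 he
    omega
  · rw [eval_eq_sum_range' (Nat.lt_succ_of_le hu)]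
    simp [ev]

theorem imp_eqn_of_pol [NumberField L] (hp : p.Ok) {i j : Fin d} (hij : i ≠ j) :
    p.Imp (fun D A => ∀ l, p.Pol l D A) (p.Eqn true {j, i}) := by
  classical
  intro D
  refine ⟨p.k + 2, Eventually.of_forall fun Z S pool hA A hS h => ?_⟩
  obtain ⟨qi, hi1, hi2⟩ := h i
  obtain ⟨qj, hj1, hj2⟩ := h j
  have hdeg : ∀ (s c : L) (q : L[X]), q.natDegree ≤ 2 →
      (C s * X ^ p.k * q + C c).natDegree ≤ p.k + 2 := by
    intro s c q hq
    refine (natDegree_add_le _ _).trans (max_le (natDegree_mul_le.trans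
      (add_le_add ((natDegree_C_mul_le _ _).trans (by simp)) hq)) (by simp))
  obtain ⟨Qi, a1, a2, a3⟩ := aeval_X_facts (d := d) _ i (hdeg (-1) 0 qi hi1)
  obtain ⟨Qj, b1, b2, b3⟩ := aeval_X_facts (d := d) _ j (hdeg 1 (p.cL * (p.θL j - p.θL i)) qj hj1)
  refine ⟨Qi + Qj, fun h0 => ?_, ?_, a2.add b2, fun x hx => ?_⟩
  · have := congrArg (ev (fun _ => (0 : L)) 0) h0
    rw [map_add, a3, b3] at this
    have hk : p.k ≠ 0 := by have := hp.k_pos; omega
    simp only [eval_add, eval_mul, eval_C, eval_pow, eval_X, zero_pow hk, mul_zero, zero_mul,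
      zero_add, mul_eq_zero, cL_ne_zero hp, false_or, sub_eq_zero, map_zero, eval_zero] at this
    exact hij (hp.inj (RingOfIntegers.coe_injective this)).symm
  · refine (MvPolynomial.vars_add_subset _ _).trans (Finset.union_subset (a1.trans ?_) (b1.trans ?_))
    · simp
    · simp
  · rw [Par.evx, map_add, a3, b3]
    simp only [eval_add, eval_mul, eval_C, eval_pow, eval_X]
    rw [← hi2 x hx, ← hj2 x hx]
    linear_combination rel_L hA (hS hx) j - rel_L hA (hS hx) i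

theorem imp_of_line [NumberField L] (hp : p.Ok) (j : Fin d) :
    p.Imp (fun D A => ∀ i, i ≠ j → p.Lin j i D A) (fun D A => FinP D A ∨ p.GenLine j D A) := by
  intro D
  refine ⟨2 * d, ?_⟩
  have h1 : ∀ e : {e : Fin d × Fin d // e.1 ≠ e.2}, ∀ᶠ Z : ℝ in atTop,
      ∀ (S : Finset (Pt d L)) (pool : Finset ℕ), p.Adm Z S pool → ∀ A ⊆ S, ∀ κ : L,
      (∀ x ∈ A, p.alL x e.1.2 = κ * p.alL x e.1.1) → A.card ≤ 2 * d :=
    fun e => card_le_of_ratio hp _ _ e.2
  filter_upwards [eventually_all.2 h1, eventually_gt_atTop |(p.c : ℝ)|] with Z h1 hZ S pool hA A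
    hS h
  have h2 : ∀ i, ∃ κ κ' : L, ∀ x ∈ A, p.alL x i = κ * p.alL x j + κ' := by
    intro i
    by_cases hi : i = j
    · exact ⟨1, 0, by simp [hi]⟩
    · exact h i hi
  choose κ κ' h2 using h2
  by_cases h3 : ∃ l, κ l = 0
  · obtain ⟨l, hl⟩ := h3
    exact Or.inl (card_le_of_al_eq hp hA hZ hS l fun x hx y hy => by
      rw [h2 l x hx, h2 l y hy, hl]; ring)
  push Not at h3
  by_cases h4 : ∃ l l', l ≠ l' ∧ κ l * κ' l' = κ l' * κ' l
  · obtain ⟨l, l', hl, h4⟩ := h4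
    refine Or.inl (h1 ⟨(l, l'), hl⟩ S pool hA A hS (κ l' / κ l) fun x hx => ?_)
    simp only
    rw [h2 l x hx, h2 l' x hx]
    have := h3 l
    field_simp
    linear_combination h4
  push Not at h4
  exact Or.inr ⟨κ, κ', h3, h4, fun x hx l => h2 l x hx⟩

theorem imp_fin_of_pol_lin [NumberField L] (hp : p.Ok) (hk : 2 ≤ p.k) (hd : p.k + 2 ≤ d)
    (j : Fin d) :
    p.Imp (fun D A => (∀ l, p.Pol l D A) ∧ ∀ i, i ≠ j → p.Lin j i D A) FinP := by
  classical
  intro D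
  obtain ⟨D', h1⟩ := imp_of_line hp j D
  refine ⟨D' + 2 * d * d + 1, ?_⟩
  filter_upwards [h1, eventually_gt_atTop |(p.c : ℝ)|] with Z h1 hZ S pool hA A hS h
  rcases h1 S pool hA A hS h.2 with h2 | ⟨κ, κ', a1, a2, a3⟩
  · exact le_trans h2 (by omega)
  choose q hq1 hq2 using h.1
  have hc := cL_ne_zero hp
  set P : Fin d → L[X] := fun l => (C (κ l) * X + C (κ' l)) ^ p.k *
    (q l).comp (C (κ l) * X + C (κ' l)) + C (p.cL * p.θL l) with hP
  have hPe : ∀ l, ∀ x ∈ A, (P l).eval (p.alL x j) = p.cL * ((x.N : ℤ) : L) := by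
    intro l x hx
    simp only [hP, eval_add, eval_mul, eval_pow, eval_C, eval_X, eval_comp]
    rw [← a3 x hx l, ← hq2 l x hx, rel_L hA (hS hx) l]
    ring
  have hPd : ∀ l, (P l).natDegree ≤ d := by
    intro l
    have b1 : (C (κ l) * X + C (κ' l)).natDegree ≤ 1 := natDegree_linear_le
    refine (natDegree_add_le _ _).trans (max_le (natDegree_mul_le.trans ?_)
      (by rw [natDegree_C]; omega))
    have b2 := natDegree_pow_le_of_le p.k b1
    have b3 : ((q l).comp (C (κ l) * X + C (κ' l))).natDegree ≤ 2 * 1 :=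
      natDegree_comp_le.trans (Nat.mul_le_mul (hq1 l) b1)
    omega
  by_cases h3 : ∃ l, P l ≠ P j
  · obtain ⟨l, hl⟩ := h3
    refine le_trans (card_le_of_root hp hA hZ hS j (sub_ne_zero.2 hl) (D := d)
      ((natDegree_sub_le _ _).trans (max_le (hPd l) (hPd j))) fun x hx => ?_) (by omega)
    rw [eval_sub, hPe l x hx, hPe j x hx, sub_self]
  push Not at h3
  have h4 : derivative (P j) = 0 := by
    refine eq_zero_of_natDegree_lt_card_of_eval_eq_zero _ (f := fun l => -κ' l / κ l)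
      (fun l l' hl => ?_) (fun l => ?_) ?_
    · by_contra hne
      refine a2 l l' hne ?_
      have := a1 l
      have := a1 l'
      field_simp at hl
      linear_combination hl
    · rw [← h3 l]
      have b1 : (C (κ l) * X + C (κ' l)).eval (-κ' l / κ l) = 0 := by
        have := a1 l
        simp only [eval_add, eval_mul, eval_C, eval_X]
        field_simp
        ring
      simp only [hP, derivative_add, derivative_mul, derivative_pow, eval_add, eval_mul, eval_pow,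
        b1, derivative_C, eval_zero, zero_pow (show p.k ≠ 0 by omega),
        zero_pow (show p.k - 1 ≠ 0 by omega)]
      ring
    · have := natDegree_derivative_le (P j)
      have := hPd j
      rw [Fintype.card_fin]
      omega
  have h5 := eq_C_of_derivative_eq_zero h4
  refine le_trans (Finset.card_le_one.2 fun x hx y hy => ?_) (by omega)
  refine hA.injN (hS hx) (hS hy) (Int.cast_injective (α := L) (mul_left_cancel₀ hc ?_))
  rw [← hPe j x hx, ← hPe j y hy, h5, eval_C, eval_C]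

end Vale.Agent.P018
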