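import Mathlib

namespace Vale.Agent.P018

open Finset

theorem ramsey_ext {s m : ℕ} {Q₁ Q₂ : Finset ℕ} {a : ℕ} {c : Finset ℕ → Prop} (ha : a ∉ Q₁)
    (h21 : Q₂ ⊆ Q₁) (h1 : ∀ U ⊆ Q₁, U.card = s → c (insert a U))
    (h2 : ∀ U ⊆ Q₂, U.card = s + 1 → c U) (hm : m ≤ Q₂.card) :
    m + 1 ≤ (insert a Q₂).card ∧ ∀ U ⊆ insert a Q₂, U.card = s + 1 → c U := by
  have ha2 : a ∉ Q₂ := fun h => ha (h21 h)
  refine ⟨by rw [card_insert_of_notMem ha2]; omega, fun U hU hc => ?_⟩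
  by_cases haU : a ∈ U
  · have hsub : U.erase a ⊆ Q₂ := by
      intro x hx
      have h3 := mem_erase.1 hx
      rcases mem_insert.1 (hU h3.2) with h4 | h4
      · exact absurd h4 h3.1
      · exact h4
    have := h1 (U.erase a) (hsub.trans h21) (by rw [card_erase_of_mem haU]; omega)
    rwa [insert_erase haU] at this
  · refine h2 U (fun x hx => ?_) hc
    rcases mem_insert.1 (hU hx) with h4 | h4
    · exact absurd (h4 ▸ hx) haU
    · exact h4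

theorem ramsey_two (s : ℕ) : ∀ m₁ m₂ : ℕ, ∃ M : ℕ, ∀ (Q : Finset ℕ) (col : Finset ℕ → Prop),
    M ≤ Q.card → ∃ Q' ⊆ Q, (m₁ ≤ Q'.card ∧ ∀ U ⊆ Q', U.card = s → col U) ∨
      (m₂ ≤ Q'.card ∧ ∀ U ⊆ Q', U.card = s → ¬ col U) := by
  induction s with
  | zero =>
    intro m₁ m₂
    refine ⟨m₁ + m₂, fun Q col h => ⟨Q, Subset.refl _, ?_⟩⟩
    by_cases hc : col ∅
    · refine Or.inl ⟨by omega, fun U _ hU => ?_⟩
      rw [card_eq_zero.1 hU]; exact hc
    · refine Or.inr ⟨by omega, fun U _ hU => ?_⟩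
      rw [card_eq_zero.1 hU]; exact hc
  | succ s ihs =>
    intro m₁
    induction m₁ with
    | zero =>
      intro m₂
      refine ⟨0, fun Q col _ => ⟨∅, empty_subset _, Or.inl ⟨le_rfl, fun U hU hc => ?_⟩⟩⟩
      rw [subset_empty.1 hU] at hc
      simp at hc
    | succ m₁ ih₁ =>
      intro m₂
      induction m₂ with
      | zero =>
        refine ⟨0, fun Q col _ => ⟨∅, empty_subset _, Or.inr ⟨le_rfl, fun U hU hc => ?_⟩⟩⟩
        rw [subset_empty.1 hU] at hc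
        simp at hc
      | succ m₂ ih₂ =>
        obtain ⟨M₁, hM₁⟩ := ih₁ (m₂ + 1)
        obtain ⟨M₂, hM₂⟩ := ih₂
        obtain ⟨M₀, hM₀⟩ := ihs M₁ M₂
        refine ⟨M₀ + 1, fun Q col h => ?_⟩
        obtain ⟨a, ha⟩ : Q.Nonempty := card_pos.1 (by omega)
        obtain ⟨Q₁, hQ₁, hcase⟩ := hM₀ (Q.erase a) (fun U => col (insert a U))
          (by rw [card_erase_of_mem ha]; omega)
        have ha1 : a ∉ Q₁ := fun h' => by simpa using hQ₁ h'
        have hQ1Q : Q₁ ⊆ Q := hQ₁.trans (erase_subset _ _)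
        rcases hcase with ⟨hc, h1⟩ | ⟨hc, h1⟩
        · obtain ⟨Q₂, h21, h2 | h2⟩ := hM₁ Q₁ col hc
          · exact ⟨insert a Q₂, insert_subset ha (h21.trans hQ1Q),
              Or.inl (ramsey_ext ha1 h21 h1 h2.2 h2.1)⟩
          · exact ⟨Q₂, h21.trans hQ1Q, Or.inr h2⟩
        · obtain ⟨Q₂, h21, h2 | h2⟩ := hM₂ Q₁ col hc
          · exact ⟨Q₂, h21.trans hQ1Q, Or.inl h2⟩
          · exact ⟨insert a Q₂, insert_subset ha (h21.trans hQ1Q),
              Or.inr (ramsey_ext (c := fun U => ¬ col U) ha1 h21 h1 h2.2 h2.1)⟩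

/-- a function that agrees on the `t`-subsets of each `(t+1)`-set is constant -/
theorem const_of_swap {β : Type} (f : Finset ℕ → β) (Q : Finset ℕ) (t : ℕ)
    (h : ∀ U ⊆ Q, U.card = t + 1 → ∀ T₁ ⊆ U, T₁.card = t → ∀ T₂ ⊆ U, T₂.card = t → f T₁ = f T₂)
    (T₀ : Finset ℕ) (h0 : T₀ ⊆ Q) (hc0 : T₀.card = t) :
    ∀ (n : ℕ) (T : Finset ℕ), T ⊆ Q → T.card = t → (T \ T₀).card ≤ n → f T = f T₀ := by
  intro n
  induction n with
  | zero =>
    intro T _ hc hn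
    have h1 : T ⊆ T₀ := sdiff_eq_empty_iff_subset.1 (card_eq_zero.1 (by omega))
    rw [eq_of_subset_of_card_le h1 (by omega)]
  | succ n ih =>
    intro T hT hc hn
    by_cases h1 : T ⊆ T₀
    · rw [eq_of_subset_of_card_le h1 (by omega)]
    obtain ⟨c, hcT, hc0'⟩ := not_subset.1 h1
    have h2 : ¬ T₀ ⊆ T := fun h2 => h1 (by rw [eq_of_subset_of_card_le h2 (by omega)])
    obtain ⟨a, haT₀, haT⟩ := not_subset.1 h2
    have hpos : 0 < T.card := card_pos.2 ⟨c, hcT⟩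
    have hcard : (insert a (T.erase c)).card = t := by
      rw [card_insert_of_notMem (fun h' => haT (mem_of_mem_erase h')), card_erase_of_mem hcT]
      omega
    have hsub : insert a (T.erase c) ⊆ insert a T := insert_subset_insert _ (erase_subset _ _)
    have hU : insert a T ⊆ Q := insert_subset (h0 haT₀) hT
    have e1 : f T = f (insert a (T.erase c)) :=
      h (insert a T) hU (by rw [card_insert_of_notMem haT, hc]) T (subset_insert _ _) hc _ hsub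
        hcard
    rw [e1]
    refine ih _ (hsub.trans hU) hcard ?_
    have h3 : insert a (T.erase c) \ T₀ ⊆ (T \ T₀).erase c := by
      intro x hx
      rw [mem_sdiff, mem_insert, mem_erase] at hx
      rw [mem_erase, mem_sdiff]
      rcases hx with ⟨h4 | h4, h5⟩
      · exact absurd (h4 ▸ haT₀) h5
      · exact ⟨h4.1, h4.2, h5⟩
    have h4 := card_le_card h3
    rw [card_erase_of_mem (mem_sdiff.2 ⟨hcT, hc0'⟩)] at h4
    omega

/-- finite hypergraph Ramsey theorem, two colours -/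
theorem ramsey (s m : ℕ) : ∃ M : ℕ, ∀ (Q : Finset ℕ) (col : Finset ℕ → Prop), M ≤ Q.card →
    ∃ Q' ⊆ Q, m ≤ Q'.card ∧
      ((∀ U ⊆ Q', U.card = s → col U) ∨ (∀ U ⊆ Q', U.card = s → ¬ col U)) := by
  obtain ⟨M, hM⟩ := ramsey_two s m m
  refine ⟨M, fun Q col h => ?_⟩
  obtain ⟨Q', hQ', h1 | h1⟩ := hM Q col h
  · exact ⟨Q', hQ', h1.1, Or.inl h1.2⟩
  · exact ⟨Q', hQ', h1.1, Or.inr h1.2⟩

variable {X κ : Type} [DecidableEq X] [DecidableEq κ]

/-- `x` and `y` have the same residue at every prime of `T` -/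
def Cong (key : ℕ → X → κ) (T : Finset ℕ) (x y : X) : Prop := ∀ π ∈ T, key π x = key π y

instance (key : ℕ → X → κ) (T : Finset ℕ) (x : X) : DecidablePred (Cong key T x) :=
  fun _ => Finset.decidableDforallFinset

/-- `P` passes to subsets -/
def Hered (P : Finset X → Prop) : Prop := ∀ A A' : Finset X, P A → A' ⊆ A → P A'

open Classical in
/-- a system of cells -/
def Cov (key : ℕ → X → κ) (S : Finset X) (pool : Finset ℕ) (P : Finset X → Prop)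
    (t m B : ℕ) (G : ℝ) : Prop :=
  ∃ F : Finset ℕ → Finset (Finset X),
    (∀ T ⊆ pool, T.card = t →
      (∀ A ∈ F T, A ⊆ S ∧ P A ∧ ∀ x ∈ A, ∀ y ∈ A, Cong key T x y) ∧
      ((F T).card : ℝ) ≤ G ∧
      ∀ x : X, ((F T).filter (fun A => ∃ y ∈ A, Cong key T x y)).card ≤ B) ∧
    ∀ x ∈ S, ∃ Q ⊆ pool, m ≤ Q.card ∧ ∀ T ⊆ Q, T.card = t → ∃ A ∈ F T, x ∈ A

theorem cov_init (key : ℕ → X → κ) (S : Finset X) (pool : Finset ℕ) (P : Finset X → Prop)
    (m : ℕ) (hP : P S) (hm : m ≤ pool.card) : Cov key S pool P 0 m 1 1 := by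
  refine ⟨fun _ => {S}, fun T _ hT => ⟨fun A hA => ?_, by simp, fun x => ?_⟩, fun x hx => ?_⟩
  · rw [mem_singleton.1 hA]
    refine ⟨Subset.refl _, hP, fun x _ y _ π hπ => ?_⟩
    rw [card_eq_zero.1 hT] at hπ
    simp at hπ
  · exact (card_le_card (filter_subset _ _)).trans (by simp)
  · exact ⟨pool, Subset.refl _, hm, fun T _ _ => ⟨S, mem_singleton_self _, hx⟩⟩

theorem Cov.mono {key : ℕ → X → κ} {S : Finset X} {pool : Finset ℕ} {P P' : Finset X → Prop}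
    {t m m' B B' : ℕ} {G G' : ℝ} (h : Cov key S pool P t m B G)
    (hP : ∀ T ⊆ pool, T.card = t → ∀ A ⊆ S, P A → (∀ x ∈ A, ∀ y ∈ A, Cong key T x y) → P' A)
    (hm : m' ≤ m) (hB : B ≤ B') (hG : G ≤ G') : Cov key S pool P' t m' B' G' := by
  obtain ⟨F, h1, h2⟩ := h
  refine ⟨F, fun T hT hc => ?_, fun x hx => ?_⟩
  · obtain ⟨a, b, c⟩ := h1 T hT hc
    exact ⟨fun A hA => ⟨(a A hA).1, hP T hT hc A (a A hA).1 (a A hA).2.1 (a A hA).2.2,
      (a A hA).2.2⟩, b.trans hG, fun x => (c x).trans hB⟩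
  · obtain ⟨Q, a, b, c⟩ := h2 x hx
    exact ⟨Q, a, hm.trans b, c⟩

theorem Cong.refl (key : ℕ → X → κ) (T : Finset ℕ) (x : X) : Cong key T x x := fun _ _ => rfl

theorem Cong.symm {key : ℕ → X → κ} {T : Finset ℕ} {x y : X} (h : Cong key T x y) :
    Cong key T y x := fun π hπ => (h π hπ).symm

theorem Cong.trans {key : ℕ → X → κ} {T : Finset ℕ} {x y z : X} (h : Cong key T x y)
    (h' : Cong key T y z) : Cong key T x z := fun π hπ => (h π hπ).trans (h' π hπ)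

theorem Cong.subset {key : ℕ → X → κ} {T U : Finset ℕ} {x y : X} (h : Cong key U x y)
    (hT : T ⊆ U) : Cong key T x y := fun π hπ => h π (hT hπ)

/-- the refined family of cells -/
def refFam (key : ℕ → X → κ) (F : Finset ℕ → Finset (Finset X)) (t : ℕ) (U : Finset ℕ) :
    Finset (Finset X) :=
  (powersetCard t U).biUnion fun T => (F T).biUnion fun A =>
    A.image fun x₀ => A.filter (Cong key U x₀)

theorem mem_refFam {key : ℕ → X → κ} {F : Finset ℕ → Finset (Finset X)} {t : ℕ} {U : Finset ℕ}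
    {c : Finset X} : c ∈ refFam key F t U ↔
      ∃ T ⊆ U, T.card = t ∧ ∃ A ∈ F T, ∃ x₀ ∈ A, A.filter (Cong key U x₀) = c := by
  simp only [refFam, mem_biUnion, mem_powersetCard, mem_image, and_assoc]

theorem card_biUnion_le_real {α β : Type} [DecidableEq β] (s : Finset α) (f : α → Finset β)
    (K : ℝ) (h : ∀ a ∈ s, ((f a).card : ℝ) ≤ K) : ((s.biUnion f).card : ℝ) ≤ s.card * K := by
  have h1 : ((s.biUnion f).card : ℝ) ≤ ∑ a ∈ s, ((f a).card : ℝ) := by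
    exact_mod_cast card_biUnion_le
  refine h1.trans ?_
  have := sum_le_card_nsmul s _ K h
  rwa [nsmul_eq_mul] at this

theorem refFam_cell {key : ℕ → X → κ} {S : Finset X} {pool : Finset ℕ} {P : Finset X → Prop}
    {t : ℕ} {F : Finset ℕ → Finset (Finset X)} (hP : Hered P)
    (h : ∀ T ⊆ pool, T.card = t → ∀ A ∈ F T, A ⊆ S ∧ P A ∧ ∀ x ∈ A, ∀ y ∈ A, Cong key T x y)
    {U : Finset ℕ} (hU : U ⊆ pool) :
    ∀ c ∈ refFam key F t U, c ⊆ S ∧ P c ∧ ∀ x ∈ c, ∀ y ∈ c, Cong key U x y := by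
  intro c hc
  obtain ⟨T, hT, hTc, A, hA, x₀, -, rfl⟩ := mem_refFam.1 hc
  obtain ⟨a, b, -⟩ := h T (hT.trans hU) hTc A hA
  exact ⟨(filter_subset _ _).trans a, hP A _ b (filter_subset _ _),
    fun x hx y hy => (mem_filter.1 hx).2.symm.trans (mem_filter.1 hy).2⟩

theorem refFam_card {key : ℕ → X → κ} {S : Finset X} {pool : Finset ℕ} {P : Finset X → Prop}
    {t : ℕ} {G K : ℝ} {F : Finset ℕ → Finset (Finset X)} (hK0 : 0 ≤ K)
    (h : ∀ T ⊆ pool, T.card = t → ∀ A ∈ F T, A ⊆ S ∧ P A ∧ ∀ x ∈ A, ∀ y ∈ A, Cong key T x y)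
    (hG : ∀ T ⊆ pool, T.card = t → ((F T).card : ℝ) ≤ G)
    (hK : ∀ π ∈ pool, ∀ A ⊆ S, P A → ((A.image (key π)).card : ℝ) ≤ K)
    {U : Finset ℕ} (hU : U ⊆ pool) (hc : U.card = t + 1) :
    ((refFam key F t U).card : ℝ) ≤ (t + 1) * G * K := by
  have h1 : ((powersetCard t U).card : ℝ) = t + 1 := by
    rw [card_powersetCard, hc, Nat.choose_succ_self_right]; push_cast; ring
  rw [← h1, mul_assoc]
  refine card_biUnion_le_real _ _ _ fun T hT => ?_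
  obtain ⟨hTU, hTc⟩ := mem_powersetCard.1 hT
  refine (card_biUnion_le_real _ _ K fun A hA => ?_).trans
    (mul_le_mul_of_nonneg_right (hG T (hTU.trans hU) hTc) hK0)
  obtain ⟨a, b, c⟩ := h T (hTU.trans hU) hTc A hA
  obtain ⟨π, hπ, hπT⟩ : ∃ π ∈ U, π ∉ T := by
    by_contra hcon
    push Not at hcon
    have := card_le_card (show U ⊆ T from hcon)
    omega
  have hUe : insert π T = U :=
    eq_of_subset_of_card_le (insert_subset hπ hTU) (by rw [card_insert_of_notMem hπT]; omega)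
  refine le_trans ?_ (hK π (hU hπ) A a b)
  have h2 : (A.image fun x₀ => A.filter (Cong key U x₀)) ⊆
      (A.image (key π)).image fun k => A.filter fun y => k = key π y := by
    intro c' hc'
    obtain ⟨x₀, hx₀, rfl⟩ := mem_image.1 hc'
    refine mem_image.2 ⟨key π x₀, mem_image_of_mem _ hx₀, ?_⟩
    ext y
    simp only [mem_filter]
    refine ⟨fun hy => ⟨hy.1, fun ρ hρ => ?_⟩, fun hy => ⟨hy.1, hy.2 π hπ⟩⟩
    rw [← hUe] at hρ
    rcases mem_insert.1 hρ with h3 | h3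
    · rw [h3]; exact hy.2
    · exact c x₀ hx₀ y hy.1 ρ h3
  exact_mod_cast (card_le_card h2).trans card_image_le

theorem refFam_compat {key : ℕ → X → κ} {pool : Finset ℕ} {t B : ℕ}
    {F : Finset ℕ → Finset (Finset X)}
    (hB : ∀ T ⊆ pool, T.card = t → ∀ (x : X) (Z : Finset (Finset X)), Z ⊆ F T →
      (∀ A ∈ Z, ∃ y ∈ A, Cong key T x y) → Z.card ≤ B)
    {U : Finset ℕ} (hU : U ⊆ pool) (hc : U.card = t + 1) (x : X) (Z : Finset (Finset X))
    (hZ : Z ⊆ refFam key F t U) (hx : ∀ A ∈ Z, ∃ y ∈ A, Cong key U x y) :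
    Z.card ≤ (t + 1) * B := by
  classical
  have h1 : (powersetCard t U).card = t + 1 := by
    rw [card_powersetCard, hc, Nat.choose_succ_self_right]
  have h2 : Z ⊆ (powersetCard t U).biUnion fun T =>
      ((F T).filter fun A => ∃ y ∈ A, Cong key T x y).image fun A => A.filter (Cong key U x) := by
    intro c hc'
    obtain ⟨T, hT, hTc, A, hA, x₀, -, rfl⟩ := mem_refFam.1 (hZ hc')
    obtain ⟨y, hy, hxy⟩ := hx _ hc'
    have hy' := mem_filter.1 hy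
    refine mem_biUnion.2 ⟨T, mem_powersetCard.2 ⟨hT, hTc⟩, mem_image.2 ⟨A,
      mem_filter.2 ⟨hA, y, hy'.1, hxy.subset hT⟩, ?_⟩⟩
    ext z
    simp only [mem_filter]
    exact ⟨fun hz => ⟨hz.1, hy'.2.trans (hxy.symm.trans hz.2)⟩,
      fun hz => ⟨hz.1, hxy.trans (hy'.2.symm.trans hz.2)⟩⟩
  refine (card_le_card h2).trans ?_
  rw [← h1]
  refine card_biUnion_le_card_mul _ _ _ fun T hT => ?_
  obtain ⟨hTU, hTc⟩ := mem_powersetCard.1 hT
  exact card_image_le.trans (hB T (hTU.trans hU) hTc x _ (filter_subset _ _)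
    fun A hA => (mem_filter.1 hA).2)

theorem Cov.unpack {key : ℕ → X → κ} {S : Finset X} {pool : Finset ℕ} {P : Finset X → Prop}
    {t m B : ℕ} {G : ℝ} : Cov key S pool P t m B G ↔ ∃ F : Finset ℕ → Finset (Finset X),
    (∀ T ⊆ pool, T.card = t → ∀ A ∈ F T, A ⊆ S ∧ P A ∧ ∀ x ∈ A, ∀ y ∈ A, Cong key T x y) ∧
    (∀ T ⊆ pool, T.card = t → ((F T).card : ℝ) ≤ G) ∧
    (∀ T ⊆ pool, T.card = t → ∀ (x : X) (Z : Finset (Finset X)), Z ⊆ F T →
      (∀ A ∈ Z, ∃ y ∈ A, Cong key T x y) → Z.card ≤ B) ∧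
    ∀ x ∈ S, ∃ Q ⊆ pool, m ≤ Q.card ∧ ∀ T ⊆ Q, T.card = t → ∃ A ∈ F T, x ∈ A := by
  constructor
  · rintro ⟨F, h1, h2⟩
    refine ⟨F, fun T hT hc => (h1 T hT hc).1, fun T hT hc => (h1 T hT hc).2.1,
      fun T hT hc x Z hZ hx => le_trans (card_le_card fun A hA => ?_) ((h1 T hT hc).2.2 x), h2⟩
    exact mem_filter.2 ⟨hZ hA, hx A hA⟩
  · rintro ⟨F, h1, h2, h3, h4⟩
    exact ⟨F, fun T hT hc => ⟨h1 T hT hc, h2 T hT hc, fun x => h3 T hT hc x _ (filter_subset _ _)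
      fun A hA => (mem_filter.1 hA).2⟩, h4⟩

theorem Cov.refine {key : ℕ → X → κ} {S : Finset X} {pool : Finset ℕ} {P : Finset X → Prop}
    {t m B : ℕ} {G K : ℝ} (h : Cov key S pool P t m B G) (hP : Hered P) (hG : 0 ≤ G) (hK0 : 0 ≤ K)
    (hK : ∀ π ∈ pool, ∀ A ⊆ S, P A → ((A.image (key π)).card : ℝ) ≤ K) :
    Cov key S pool P (t + 1) m ((t + 1) * B) ((t + 1) * G * K) := by
  have _ := hG
  obtain ⟨F, h1, h2, h3, h4⟩ := Cov.unpack.1 h
  refine Cov.unpack.2 ⟨refFam key F t, fun U hU _ => refFam_cell hP h1 hU,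
    fun U hU hc => refFam_card hK0 h1 h2 hK hU hc,
    fun U hU hc => refFam_compat h3 hU hc, fun x hx => ?_⟩
  obtain ⟨Q, a, b, c⟩ := h4 x hx
  refine ⟨Q, a, b, fun U hU hc => ?_⟩
  obtain ⟨T, hT, hTc⟩ := exists_subset_card_eq (show t ≤ U.card by omega)
  obtain ⟨A, hA, hxA⟩ := c T (hT.trans hU) hTc
  exact ⟨_, mem_refFam.2 ⟨T, hT, hTc, A, hA, x, hxA, rfl⟩,
    mem_filter.2 ⟨hxA, Cong.refl _ _ _⟩⟩

open Classical in
/-- all labels of cells compatible with `c` -/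
noncomputable def labP (key : ℕ → X → κ) (F : Finset ℕ → Finset (Finset X))
    (Lab : Finset X → Finset (Finset X)) (t : ℕ) (U : Finset ℕ) (c : Finset X) :
    Finset (Finset X) :=
  (powersetCard t U).biUnion fun T =>
    ((F T).filter fun A => ∃ y ∈ A, ∃ x ∈ c, Cong key T x y).biUnion Lab

theorem mem_labP {key : ℕ → X → κ} {F : Finset ℕ → Finset (Finset X)}
    {Lab : Finset X → Finset (Finset X)} {t : ℕ} {U : Finset ℕ} {c Y : Finset X}
    {T : Finset ℕ} (hT : T ⊆ U) (hTc : T.card = t) {A : Finset X} (hA : A ∈ F T) {x : X}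
    (hxA : x ∈ A) (hxc : x ∈ c) (hY : Y ∈ Lab A) : Y ∈ labP key F Lab t U c := by
  refine mem_biUnion.2 ⟨T, mem_powersetCard.2 ⟨hT, hTc⟩, mem_biUnion.2 ⟨A, ?_, hY⟩⟩
  exact mem_filter.2 ⟨hA, x, hxA, x, hxc, Cong.refl _ _ _⟩

theorem labP_card {key : ℕ → X → κ} {pool : Finset ℕ} {t B B₁ : ℕ}
    {F : Finset ℕ → Finset (Finset X)} {Lab : Finset X → Finset (Finset X)}
    (hB : ∀ T ⊆ pool, T.card = t → ∀ (x : X) (Z : Finset (Finset X)), Z ⊆ F T →
      (∀ A ∈ Z, ∃ y ∈ A, Cong key T x y) → Z.card ≤ B)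
    (hL : ∀ T ⊆ pool, T.card = t → ∀ A ∈ F T, (Lab A).card ≤ B₁)
    {U : Finset ℕ} (hU : U ⊆ pool) (hc : U.card = t + 1) {c : Finset X}
    (hcc : ∀ x ∈ c, ∀ y ∈ c, Cong key U x y) :
    (labP key F Lab t U c).card ≤ (t + 1) * B * B₁ := by
  have h1 : (powersetCard t U).card = t + 1 := by
    rw [card_powersetCard, hc, Nat.choose_succ_self_right]
  rw [← h1, mul_assoc]
  refine card_biUnion_le_card_mul _ _ _ fun T hT => ?_
  obtain ⟨hTU, hTc⟩ := mem_powersetCard.1 hT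
  refine (card_biUnion_le_card_mul _ _ B₁ fun A hA =>
    hL T (hTU.trans hU) hTc A (mem_filter.1 hA).1).trans (Nat.mul_le_mul_right _ ?_)
  rcases c.eq_empty_or_nonempty with h0 | ⟨x₀, hx₀⟩
  · subst h0
    simp
  · refine hB T (hTU.trans hU) hTc x₀ _ (filter_subset _ _) fun A hA => ?_
    obtain ⟨y, hy, x, hx, hxy⟩ := (mem_filter.1 hA).2
    exact ⟨y, hy, ((hcc x₀ hx₀ x hx).subset hTU).trans hxy⟩

open Classical in
/-- the cells after a swap -/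
noncomputable def swapFam (key : ℕ → X → κ) (F : Finset ℕ → Finset (Finset X))
    (Lab : Finset X → Finset (Finset X)) (Q : Finset X → Prop) (t : ℕ) (U : Finset ℕ)
    (c : Finset X) : Finset (Finset X) :=
  ((labP key F Lab t U c ×ˢ labP key F Lab t U c).image fun p => c ∩ p.1 ∩ p.2).filter Q

open Classical in
theorem swapFam_sub {key : ℕ → X → κ} {F : Finset ℕ → Finset (Finset X)}
    {Lab : Finset X → Finset (Finset X)} {Q : Finset X → Prop} {t : ℕ} {U : Finset ℕ}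
    {c A : Finset X} (h : A ∈ swapFam key F Lab Q t U c) : A ⊆ c ∧ Q A := by
  obtain ⟨h1, h2⟩ := mem_filter.1 h
  obtain ⟨p, -, rfl⟩ := mem_image.1 h1
  exact ⟨inter_subset_left.trans inter_subset_left, h2⟩

open Classical in
theorem mem_swapFam {key : ℕ → X → κ} {F : Finset ℕ → Finset (Finset X)}
    {Lab : Finset X → Finset (Finset X)} {Q : Finset X → Prop} {t : ℕ} {U : Finset ℕ}
    {c Y Y' : Finset X} (hY : Y ∈ labP key F Lab t U c) (hY' : Y' ∈ labP key F Lab t U c)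
    (hQ : Q (c ∩ Y ∩ Y')) : c ∩ Y ∩ Y' ∈ swapFam key F Lab Q t U c :=
  mem_filter.2 ⟨mem_image.2 ⟨(Y, Y'), mem_product.2 ⟨hY, hY'⟩, rfl⟩, hQ⟩

open Classical in
theorem swapFam_card {key : ℕ → X → κ} {F : Finset ℕ → Finset (Finset X)}
    {Lab : Finset X → Finset (Finset X)} {Q : Finset X → Prop} {t : ℕ} {U : Finset ℕ}
    {c : Finset X} {n : ℕ} (h : (labP key F Lab t U c).card ≤ n) :
    (swapFam key F Lab Q t U c).card ≤ n ^ 2 := by
  refine (card_le_card (filter_subset _ _)).trans (card_image_le.trans ?_)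
  rw [card_product, sq]
  exact Nat.mul_le_mul h h

theorem cov_swap (t m b : ℕ) : ∃ M : ℕ, ∀ (X κ : Type) [DecidableEq X] [DecidableEq κ]
    (key : ℕ → X → κ) (S : Finset X) (pool : Finset ℕ) (P Q Valid : Finset X → Prop)
    (B B₁ : ℕ) (G K : ℝ), Cov key S pool P t M B G → Hered P → Hered Q → 0 ≤ G → 0 ≤ K →
    (∀ π ∈ pool, ∀ A ⊆ S, P A → ((A.image (key π)).card : ℝ) ≤ K) →
    (∀ A ⊆ S, P A → ∃ Lab : Finset (Finset X), Lab.card ≤ B₁ ∧ (∀ Y ∈ Lab, Valid Y) ∧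
      ∀ x ∈ A, ∃ Y ∈ Lab, x ∈ Y) →
    (∀ Y Y', Valid Y → Valid Y' → Y ≠ Y' → Q (Y ∩ Y')) →
    (∀ Y, Valid Y → ∀ x₀ ∈ Y, ∃ bad : Finset ℕ, bad.card ≤ b ∧
      ∀ T ⊆ pool, T.card = t → Disjoint T bad → Q (Y.filter (Cong key T x₀))) →
    Cov key S pool (fun A => P A ∧ Q A) (t + 1) m
      ((t + 1) * B * ((t + 1) * B * B₁) ^ 2)
      ((t + 1) * G * K * (((t + 1) * B * B₁ : ℕ) : ℝ) ^ 2) := by
  obtain ⟨M, hM⟩ := ramsey (t + 1) (m + b)
  refine ⟨M, ?_⟩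
  intro X κ _ _ key S pool P Q Valid B B₁ G K h hP hQ _ hK0 hK H1 H2 H3
  classical
  obtain ⟨F, h1, h2, h3, h4⟩ := Cov.unpack.1 h
  choose! Lab hLab1 hLab2 hLab3 using H1
  have hL : ∀ T ⊆ pool, T.card = t → ∀ A ∈ F T, (Lab A).card ≤ B₁ := fun T hT hc A hA =>
    hLab1 A (h1 T hT hc A hA).1 (h1 T hT hc A hA).2.1
  have hsw : ∀ U ⊆ pool, U.card = t + 1 → ∀ c ∈ refFam key F t U,
      (swapFam key F Lab Q t U c).card ≤ ((t + 1) * B * B₁) ^ 2 := fun U hU hc c hcm =>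
    swapFam_card (labP_card h3 hL hU hc (refFam_cell hP h1 hU c hcm).2.2)
  refine Cov.unpack.2 ⟨fun U => (refFam key F t U).biUnion (swapFam key F Lab Q t U),
    fun U hU _ A hA => ?_, fun U hU hc => ?_, fun U hU hc x Z hZ hx => ?_, fun x hx => ?_⟩
  · obtain ⟨c, hc, hA⟩ := mem_biUnion.1 hA
    obtain ⟨a1, a2⟩ := swapFam_sub hA
    obtain ⟨b1, b2, b3⟩ := refFam_cell hP h1 hU c hc
    exact ⟨a1.trans b1, ⟨hP c A b2 a1, a2⟩, fun x hx y hy => b3 x (a1 hx) y (a1 hy)⟩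
  · refine (card_biUnion_le_real _ _ ((((t + 1) * B * B₁ : ℕ) : ℝ) ^ 2) fun c hcm => ?_).trans
      (mul_le_mul_of_nonneg_right (refFam_card hK0 h1 h2 hK hU hc) (by positivity))
    exact_mod_cast hsw U hU hc c hcm
  · have h5 : Z ⊆ ((refFam key F t U).filter fun c => ∃ y ∈ c, Cong key U x y).biUnion
        (swapFam key F Lab Q t U) := by
      intro A hA
      obtain ⟨c, hcm, hA'⟩ := mem_biUnion.1 (hZ hA)
      obtain ⟨y, hy, hxy⟩ := hx A hA
      exact mem_biUnion.2 ⟨c, mem_filter.2 ⟨hcm, y, (swapFam_sub hA').1 hy, hxy⟩, hA'⟩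
    refine (card_le_card h5).trans ((card_biUnion_le_card_mul _ _ _ fun c hcm =>
      hsw U hU hc c (mem_filter.1 hcm).1).trans (Nat.mul_le_mul_right _ ?_))
    exact refFam_compat h3 hU hc x _ (filter_subset _ _) fun c hcm => (mem_filter.1 hcm).2
  · obtain ⟨Qx, hQx, hQc, hcov⟩ := h4 x hx
    have hcov' : ∀ T ⊆ Qx, T.card = t → ∃ A Y : Finset X, A ∈ F T ∧ x ∈ A ∧ Y ∈ Lab A ∧
        x ∈ Y ∧ Valid Y := by
      intro T hT hc
      obtain ⟨A, hA, hxA⟩ := hcov T hT hc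
      obtain ⟨a1, a2, -⟩ := h1 T (hT.trans hQx) hc A hA
      obtain ⟨Y, hY, hxY⟩ := hLab3 A a1 a2 x hxA
      exact ⟨A, Y, hA, hxA, hY, hxY, hLab2 A a1 a2 Y hY⟩
    choose! AT YT hA1 hA2 hA3 hA4 hA5 using hcov'
    -- the cell built from two `t`-subsets of `U`
    have key2 : ∀ U ⊆ Qx, ∀ T₁ ⊆ U, T₁.card = t → ∀ T₂ ⊆ U, T₂.card = t →
        Q ((AT T₁).filter (Cong key U x) ∩ YT T₁ ∩ YT T₂) →
        ∃ A ∈ (refFam key F t U).biUnion (swapFam key F Lab Q t U), x ∈ A := by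
      intro U hU T₁ hT₁ hc₁ T₂ hT₂ hc₂ hq
      have s₁ := hT₁.trans hU
      have s₂ := hT₂.trans hU
      have hxc : x ∈ (AT T₁).filter (Cong key U x) :=
        mem_filter.2 ⟨hA2 T₁ s₁ hc₁, Cong.refl _ _ _⟩
      refine ⟨_, mem_biUnion.2 ⟨_, mem_refFam.2
        ⟨T₁, hT₁, hc₁, AT T₁, hA1 T₁ s₁ hc₁, x, hA2 T₁ s₁ hc₁, rfl⟩, mem_swapFam
        (mem_labP hT₁ hc₁ (hA1 T₁ s₁ hc₁) (hA2 T₁ s₁ hc₁) hxc (hA3 T₁ s₁ hc₁))
        (mem_labP hT₂ hc₂ (hA1 T₂ s₂ hc₂) (hA2 T₂ s₂ hc₂) hxc (hA3 T₂ s₂ hc₂)) hq⟩, ?_⟩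
      exact mem_inter.2 ⟨mem_inter.2 ⟨hxc, hA4 T₁ s₁ hc₁⟩, hA4 T₂ s₂ hc₂⟩
    obtain ⟨Q', hQ', hQ'c, hcase⟩ := hM Qx
      (fun U => ∃ T₁ ⊆ U, T₁.card = t ∧ ∃ T₂ ⊆ U, T₂.card = t ∧ YT T₁ ≠ YT T₂) hQc
    rcases hcase with hred | hblue
    · refine ⟨Q', hQ'.trans hQx, by omega, fun U hU hc => ?_⟩
      obtain ⟨T₁, hT₁, hc₁, T₂, hT₂, hc₂, hne⟩ := hred U hU hc
      have hUx := hU.trans hQ'
      refine key2 U hUx T₁ hT₁ hc₁ T₂ hT₂ hc₂ (hQ _ _
        (H2 _ _ (hA5 T₁ (hT₁.trans hUx) hc₁) (hA5 T₂ (hT₂.trans hUx) hc₂) hne) ?_)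
      rw [inter_assoc]
      exact inter_subset_right
    · by_cases hex : ∃ T₀ ⊆ Q', T₀.card = t
      · obtain ⟨T₀, h0, hc0⟩ := hex
        have hconst : ∀ T ⊆ Q', T.card = t → YT T = YT T₀ := fun T hT hc =>
          const_of_swap YT Q' t (fun U hU hc' T₁ hT₁ hc₁ T₂ hT₂ hc₂ => by
            by_contra hne
            exact hblue U hU hc' ⟨T₁, hT₁, hc₁, T₂, hT₂, hc₂, hne⟩) T₀ h0 hc0 _ T hT hc le_rfl
        obtain ⟨bad, hbad, hgood⟩ := H3 (YT T₀) (hA5 T₀ (h0.trans hQ') hc0) x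
          (hA4 T₀ (h0.trans hQ') hc0)
        refine ⟨Q' \ bad, sdiff_subset.trans (hQ'.trans hQx), ?_, fun U hU hc => ?_⟩
        · have := le_card_sdiff bad Q'
          omega
        · obtain ⟨T, hT, hTc⟩ := exists_subset_card_eq (show t ≤ U.card by omega)
          have hUQ : U ⊆ Q' := hU.trans sdiff_subset
          have hq := hgood T (hT.trans (hUQ.trans (hQ'.trans hQx))) hTc
            (disjoint_of_subset_left (hT.trans hU) sdiff_disjoint)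
          refine key2 U (hUQ.trans hQ') T hT hTc T hT hTc (hQ _ _ hq fun y hy => ?_)
          rw [hconst T (hT.trans hUQ) hTc] at hy
          obtain ⟨hy1, hy2⟩ := mem_inter.1 hy
          exact mem_filter.2 ⟨hy2, ((mem_filter.1 (mem_inter.1 hy1).1).2).subset hT⟩
      · refine ⟨Q', hQ'.trans hQx, by omega, fun U hU hc => ?_⟩
        obtain ⟨T, hT, hTc⟩ := exists_subset_card_eq (show t ≤ U.card by omega)
        exact absurd ⟨T, hT.trans hU, hTc⟩ hex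

theorem Cov.final {key : ℕ → X → κ} {S : Finset X} {pool : Finset ℕ} {t m B B₀ : ℕ} {G : ℝ}
    (h : Cov key S pool (fun A => A.card ≤ B₀) t m B G) (htm : t ≤ m) (hG : 0 ≤ G) :
    (S.card : ℝ) ≤ 2 ^ pool.card * G * B₀ := by
  obtain ⟨F, h1, h2, -, h4⟩ := Cov.unpack.1 h
  have h5 : S ⊆ (powersetCard t pool).biUnion fun T => (F T).biUnion id := by
    intro x hx
    obtain ⟨Q, a, b, c⟩ := h4 x hx
    obtain ⟨T, hT, hTc⟩ := exists_subset_card_eq (show t ≤ Q.card by omega)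
    obtain ⟨A, hA, hxA⟩ := c T hT hTc
    exact mem_biUnion.2 ⟨T, mem_powersetCard.2 ⟨hT.trans a, hTc⟩, mem_biUnion.2 ⟨A, hA, hxA⟩⟩
  have h6 : ((powersetCard t pool).card : ℝ) ≤ 2 ^ pool.card := by
    rw [card_powersetCard]
    exact_mod_cast Nat.choose_le_two_pow _ _
  have h7 : (S.card : ℝ) ≤ (powersetCard t pool).card * (G * B₀) := by
    refine le_trans (by exact_mod_cast card_le_card h5) (card_biUnion_le_real _ _ _ fun T hT => ?_)
    obtain ⟨hTU, hTc⟩ := mem_powersetCard.1 hT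
    refine (card_biUnion_le_real _ _ (B₀ : ℝ) fun A hA => ?_).trans
      (mul_le_mul_of_nonneg_right (h2 T hTU hTc) (by positivity))
    exact_mod_cast (h1 T hTU hTc A hA).2.1
  rw [mul_assoc]
  exact h7.trans (mul_le_mul_of_nonneg_right h6 (by positivity))

end Vale.Agent.P018
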