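import Vale.Agent.P018.Poly

namespace Vale.Agent.P018

open Polynomial

/-- the residue class of `(N, v)` modulo `π` -/
def resKey {d : ℕ} (π : ℕ) (N : ℤ) (v : Fin d → ℤ) : ℤ × (Fin d → ℤ) :=
  (N % (π : ℤ), fun j => v j % (π : ℤ))

section Aux

variable {d : ℕ}

/-- the weight of an exponent -/
def ccOm (D : ℕ) (μ : Fin d → ℕ) : ℕ := ∑ i, μ i * (D + 1) ^ (i : ℕ)

theorem ccOm_add (D : ℕ) (μ ν : Fin d → ℕ) : ccOm D (μ + ν) = ccOm D μ + ccOm D ν := by
  simp [ccOm, add_mul, Finset.sum_add_distrib]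

theorem ccOm_ge (D : ℕ) (μ : Fin d → ℕ) (i : Fin d) : μ i ≤ ccOm D μ := by
  refine le_trans ?_ (Finset.single_le_sum (f := fun i : Fin d => μ i * (D + 1) ^ (i : ℕ))
    (fun _ _ => Nat.zero_le _) (Finset.mem_univ i))
  exact Nat.le_mul_of_pos_right _ (by positivity)

theorem ccOm_le (D : ℕ) (μ : Fin d → ℕ) : ccOm D μ ≤ (∑ i, μ i) * (D + 1) ^ d := by
  rw [ccOm, Finset.sum_mul]
  exact Finset.sum_le_sum fun i _ =>
    Nat.mul_le_mul_left _ (Nat.pow_le_pow_right (by omega) i.2.le)

theorem ccOm_inj {D : ℕ} {μ ν : Fin d → ℕ} (hμ : ∀ i, μ i ≤ D) (hν : ∀ i, ν i ≤ D)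
    (h : ccOm D μ = ccOm D ν) : μ = ν := by
  have h1 : finFunctionFinEquiv (fun i => (⟨μ i, Nat.lt_succ_of_le (hμ i)⟩ : Fin (D + 1))) =
      finFunctionFinEquiv (fun i => (⟨ν i, Nat.lt_succ_of_le (hν i)⟩ : Fin (D + 1))) := by
    apply Fin.ext
    rw [finFunctionFinEquiv_apply, finFunctionFinEquiv_apply]
    exact h
  have h2 := finFunctionFinEquiv.injective h1
  funext i
  exact congrArg Fin.val (congrFun h2 i)

/-- standard exponents -/
def ccStd (d D r k : ℕ) : Finset (Fin d → ℕ) :=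
  ((Finset.univ : Finset (Fin d)).powerset.filter fun J => J.card < r).biUnion fun J =>
    Fintype.piFinset fun i => if i ∈ J then Finset.range (k + 1) else Finset.range (D + 1)

theorem ccStd_mono {D r k k' : ℕ} (h : k ≤ k') : ccStd d D r k ⊆ ccStd d D r k' := by
  intro μ hμ
  obtain ⟨J, hJ, hμ⟩ := Finset.mem_biUnion.1 hμ
  refine Finset.mem_biUnion.2 ⟨J, hJ, Fintype.mem_piFinset.2 fun i => ?_⟩
  have := Fintype.mem_piFinset.1 hμ i
  split_ifs at this ⊢
  · rw [Finset.mem_range] at this ⊢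
    omega
  · exact this

theorem mem_ccStd {D r k : ℕ} {μ : Fin d → ℕ}
    (h : (Finset.univ.filter fun i => D < μ i).card < r) (hk : ∀ i, μ i ≤ k) :
    μ ∈ ccStd d D r k := by
  refine Finset.mem_biUnion.2 ⟨Finset.univ.filter fun i => D < μ i, Finset.mem_filter.2
    ⟨Finset.mem_powerset.2 (Finset.subset_univ _), h⟩, Fintype.mem_piFinset.2 fun i => ?_⟩
  have := hk i
  split_ifs with hi
  · rw [Finset.mem_range]
    omega
  · rw [Finset.mem_range]
    simp only [Finset.mem_filter, Finset.mem_univ, true_and] at hi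
    omega

theorem ccStd_card (d D r k : ℕ) :
    (ccStd d D r k).card ≤ 2 ^ d * ((k + 1) ^ (r - 1) * (D + 1) ^ d) := by
  refine (Finset.card_biUnion_le_card_mul _ _ ((k + 1) ^ (r - 1) * (D + 1) ^ d)
    fun J hJ => ?_).trans (Nat.mul_le_mul_right _ ?_)
  · have hJr := (Finset.mem_filter.1 hJ).2
    rw [Fintype.card_piFinset]
    have h1 : ∀ i : Fin d, (if i ∈ J then Finset.range (k + 1) else Finset.range (D + 1)).card ≤
        (if i ∈ J then k + 1 else 1) * (D + 1) := by
      intro i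
      split_ifs
      · rw [Finset.card_range]
        exact Nat.le_mul_of_pos_right _ (by omega)
      · simp
    refine (Finset.prod_le_prod' fun i _ => h1 i).trans ?_
    rw [Finset.prod_mul_distrib, Finset.prod_const, Finset.card_univ, Fintype.card_fin,
      Finset.prod_ite_mem, Finset.univ_inter, Finset.prod_const]
    exact Nat.mul_le_mul_right _ (Nat.pow_le_pow_right (by omega) (by omega))
  · refine (Finset.card_filter_le _ _).trans ?_
    simp

variable {L : Type} [Field L] {Y : Type}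

/-- the monomial functions -/
def ccGen (n : Y → L) (al : Y → Fin d → L) (p : ℕ × (Fin d → ℕ)) : Y → L :=
  fun y => n y ^ p.1 * ∏ i, al y i ^ p.2 i

/-- the span of the standard monomial functions -/
def ccSp (n : Y → L) (al : Y → Fin d → L) (D r g k : ℕ) : Submodule L (Y → L) :=
  Submodule.span L (ccGen n al '' ↑(Finset.range (g + 1) ×ˢ ccStd d D r k))

theorem ccSp_mono (n : Y → L) (al : Y → Fin d → L) {D r g k g' k' : ℕ} (hg : g ≤ g')
    (hk : k ≤ k') : ccSp n al D r g k ≤ ccSp n al D r g' k' := by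
  refine Submodule.span_mono (Set.image_mono (Finset.coe_subset.2 ?_))
  exact Finset.product_subset_product (Finset.range_subset_range.2 (by omega)) (ccStd_mono hk)

theorem ccSp_mul (n : Y → L) (al : Y → Fin d → L) {D r g k E : ℕ} {u : L[X]}
    (hu : u.natDegree ≤ E) {f : Y → L} (hf : f ∈ ccSp n al D r g k) :
    (fun y => u.eval (n y) * f y) ∈ ccSp n al D r (g + E) k := by
  induction hf using Submodule.span_induction with
  | mem f hf =>
    obtain ⟨p, hp, rfl⟩ := hf
    obtain ⟨hp1, hp2⟩ := Finset.mem_product.1 (Finset.mem_coe.1 hp)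
    have h1 : (fun y => u.eval (n y) * ccGen n al p y) =
        ∑ j ∈ Finset.range (E + 1), u.coeff j • ccGen n al (p.1 + j, p.2) := by
      funext y
      rw [eval_eq_sum_range' (Nat.lt_succ_of_le hu), Finset.sum_mul, Finset.sum_apply]
      refine Finset.sum_congr rfl fun j _ => ?_
      simp only [ccGen, Pi.smul_apply, smul_eq_mul, pow_add]
      ring
    rw [h1]
    refine Submodule.sum_mem _ fun j hj => Submodule.smul_mem _ _ (Submodule.subset_span
      ⟨(p.1 + j, p.2), Finset.mem_coe.2 (Finset.mem_product.2 ⟨?_, hp2⟩), rfl⟩)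
    rw [Finset.mem_range] at hj hp1 ⊢
    show p.1 + j < g + E + 1
    omega
  | zero =>
    have : (fun y => u.eval (n y) * (0 : Y → L) y) = 0 := by
      funext y
      simp
    rw [this]
    exact Submodule.zero_mem _
  | add f f' _ _ h1 h2 =>
    have : (fun y => u.eval (n y) * (f + f') y) =
        (fun y => u.eval (n y) * f y) + fun y => u.eval (n y) * f' y := by
      funext y
      simp [mul_add]
    rw [this]
    exact Submodule.add_mem _ h1 h2
  | smul a f _ h1 =>
    have : (fun y => u.eval (n y) * (a • f) y) = a • fun y => u.eval (n y) * f y := by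
      funext y
      simp only [Pi.smul_apply, smul_eq_mul]
      ring
    rw [this]
    exact Submodule.smul_mem _ _ h1

/-- a reduction rule for every `r`-subset -/
def ccRule (n : Y → L) (al : Y → Fin d → L) (D r E : ℕ) (c : L[X]) : Prop :=
  ∀ I : Finset (Fin d), I.card = r → ∃ (μ : Fin d → ℕ) (s : Finset (Fin d →₀ ℕ))
    (u : (Fin d →₀ ℕ) → L[X]), (∀ i, μ i ≤ D) ∧ (∀ i, i ∉ I → μ i = 0) ∧
    (∀ ν ∈ s, ccOm D ν < ccOm D μ ∧ (u ν).natDegree ≤ E) ∧
    ∀ y, c.eval (n y) * ∏ i, al y i ^ μ i = ∑ ν ∈ s, (u ν).eval (n y) * ∏ i, al y i ^ ν i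

theorem ccRule_mem {n : Y → L} {al : Y → Fin d → L} {D r E : ℕ} {c : L[X]} (hr : 1 ≤ r)
    (hc : c.natDegree ≤ E) (h : ccRule n al D r E c) (k : ℕ) : ∀ μ : Fin d → ℕ, ccOm D μ ≤ k →
    (fun y => c.eval (n y) ^ k * ∏ i, al y i ^ μ i) ∈ ccSp n al D r (k * E) k := by
  induction k using Nat.strong_induction_on with
  | _ k ih =>
  intro μ hμ
  by_cases hs : (Finset.univ.filter fun i => D < μ i).card < r
  · have h1 : ccGen n al (0, μ) ∈ ccSp n al D r 0 k :=
      Submodule.subset_span ⟨(0, μ), Finset.mem_coe.2 (Finset.mem_product.2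
        ⟨by simp, mem_ccStd hs fun i => (ccOm_ge D μ i).trans hμ⟩), rfl⟩
    have h2 := ccSp_mul n al (u := c ^ k) (E := k * E)
      (natDegree_pow_le.trans (Nat.mul_le_mul_left _ hc)) h1
    simpa [ccGen] using h2
  · obtain ⟨I, hI, hIc⟩ := Finset.exists_subset_card_eq (not_lt.1 hs)
    obtain ⟨μ₀, s, u, h1, h2, h3, h4⟩ := h I hIc
    have hle : ∀ i, μ₀ i ≤ μ i := by
      intro i
      by_cases hi : i ∈ I
      · have := (Finset.mem_filter.1 (hI hi)).2
        have := h1 i
        omega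
      · rw [h2 i hi]
        exact Nat.zero_le _
    obtain ⟨ρ, hρ⟩ : ∃ ρ : Fin d → ℕ, μ = μ₀ + ρ :=
      ⟨fun i => μ i - μ₀ i, funext fun i => by have := hle i; simp only [Pi.add_apply]; omega⟩
    rcases k with _ | k
    · have h6 : μ = 0 := funext fun i => by
        have := ccOm_ge D μ i
        simp only [Pi.zero_apply]
        omega
      have hr' : 0 < r := hr
      exact absurd (by simpa [h6] using hr') hs
    · have h5 : (fun y => c.eval (n y) ^ (k + 1) * ∏ i, al y i ^ μ i) =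
          ∑ ν ∈ s, fun y => (u ν).eval (n y) *
            (c.eval (n y) ^ k * ∏ i, al y i ^ ((ν : Fin d → ℕ) + ρ) i) := by
        funext y
        rw [Finset.sum_apply]
        have h6 : c.eval (n y) ^ (k + 1) * ∏ i, al y i ^ μ i =
            (c.eval (n y) * ∏ i, al y i ^ μ₀ i) * (c.eval (n y) ^ k * ∏ i, al y i ^ ρ i) := by
          rw [hρ]
          simp only [Pi.add_apply, pow_add, Finset.prod_mul_distrib]
          ring
        rw [h6, h4, Finset.sum_mul]
        refine Finset.sum_congr rfl fun ν _ => ?_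
        simp only [Pi.add_apply, pow_add, Finset.prod_mul_distrib]
        ring
      rw [h5]
      refine Submodule.sum_mem _ fun ν hν => ?_
      have h7 : ccOm D ((ν : Fin d → ℕ) + ρ) ≤ k := by
        have := (h3 ν hν).1
        rw [hρ, ccOm_add] at hμ
        rw [ccOm_add]
        omega
      have h8 := ccSp_mul n al (h3 ν hν).2 (ih k (Nat.lt_succ_self k) _ h7)
      exact ccSp_mono n al (by rw [add_mul, one_mul]) (Nat.le_succ k) h8

theorem ev_eq_sum (al : Fin d → L) (n : L) (P : RR d L) :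
    ev al n P = ∑ m ∈ P.support, (P.coeff m).eval n * ∏ i, al i ^ m i := by
  rw [ev, MvPolynomial.coe_eval₂Hom, MvPolynomial.eval₂_eq']
  rfl

theorem cc_sum_le {P : RR d L} {m : Fin d →₀ ℕ} (hm : m ∈ P.support) :
    ∑ i, m i ≤ P.totalDegree := by
  refine le_trans (le_of_eq ?_) (MvPolynomial.le_totalDegree hm)
  rw [Finsupp.sum_fintype _ _ fun _ => rfl]

theorem exists_ccRule (n : Y → L) (al : Y → Fin d → L) (D r : ℕ)
    (h : ∀ I : Finset (Fin d), I.card = r → ∃ Q : RR d L, Q ≠ 0 ∧ Q.vars ⊆ I ∧ DegLe Q D D ∧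
      ∀ y, ev (al y) (n y) Q = 0) :
    ∃ c : L[X], c ≠ 0 ∧ c.natDegree ≤ 2 ^ d * D ∧ ccRule n al D r (2 ^ d * D) c := by
  classical
  have h' : ∀ I : Finset (Fin d), I.card = r → ∃ (Q : RR d L) (μ : Fin d →₀ ℕ),
      μ ∈ Q.support ∧ (∀ ν ∈ Q.support, ccOm D ν ≤ ccOm D μ) ∧ Q.vars ⊆ I ∧ DegLe Q D D ∧
      ∀ y, ev (al y) (n y) Q = 0 := by
    intro I hI
    obtain ⟨Q, h0, h1, h2, h3⟩ := h I hI
    obtain ⟨μ, hμ, hmax⟩ := Finset.exists_max_image Q.support (fun ν => ccOm D ν)
      (MvPolynomial.support_nonempty.2 h0)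
    exact ⟨Q, μ, hμ, hmax, h1, h2, h3⟩
  choose! Q μ h1 h2 h3 h4 h5 using h'
  have hcard : (Finset.powersetCard r (Finset.univ : Finset (Fin d))).card ≤ 2 ^ d := by
    rw [Finset.card_powersetCard, Finset.card_univ, Fintype.card_fin]
    exact Nat.choose_le_two_pow _ _
  have hdeg : ∀ s ⊆ Finset.powersetCard r (Finset.univ : Finset (Fin d)),
      (∏ J ∈ s, (Q J).coeff (μ J)).natDegree ≤ s.card * D := by
    intro s hs
    refine (natDegree_prod_le _ _).trans ?_
    rw [← smul_eq_mul]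
    exact Finset.sum_le_card_nsmul _ _ _ fun J hJ =>
      (h4 J (Finset.mem_powersetCard.1 (hs hJ)).2).2 _
  have hle : ∀ I : Finset (Fin d), I.card = r → ∀ ν ∈ (Q I).support, ∀ i, ν i ≤ D :=
    fun I hI ν hν i => (MvPolynomial.monomial_le_degreeOf i hν).trans
      ((MvPolynomial.degreeOf_le_totalDegree _ _).trans (h4 I hI).1)
  refine ⟨∏ J ∈ Finset.powersetCard r Finset.univ, (Q J).coeff (μ J),
    Finset.prod_ne_zero_iff.2 fun J hJ =>
      MvPolynomial.mem_support_iff.1 (h1 J (Finset.mem_powersetCard.1 hJ).2),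
    (hdeg _ (Finset.Subset.refl _)).trans (Nat.mul_le_mul_right _ hcard), fun I hI => ?_⟩
  have hIm : I ∈ Finset.powersetCard r (Finset.univ : Finset (Fin d)) :=
    Finset.mem_powersetCard.2 ⟨Finset.subset_univ _, hI⟩
  refine ⟨μ I, (Q I).support.erase (μ I), fun ν =>
    -((∏ J ∈ (Finset.powersetCard r Finset.univ).erase I, (Q J).coeff (μ J)) * (Q I).coeff ν),
    hle I hI _ (h1 I hI), fun i hi => ?_, fun ν hν => ⟨?_, ?_⟩, fun y => ?_⟩
  · by_contra hne
    exact hi (h3 I hI (MvPolynomial.support_subset_vars_of_mem_support (h1 I hI)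
      (Finsupp.mem_support_iff.2 hne)))
  · obtain ⟨hne, hν⟩ := Finset.mem_erase.1 hν
    refine lt_of_le_of_ne (h2 I hI ν hν) fun he => hne ?_
    exact DFunLike.coe_injective (ccOm_inj (hle I hI ν hν) (hle I hI _ (h1 I hI)) he)
  · rw [natDegree_neg]
    refine natDegree_mul_le.trans ((add_le_add (hdeg _ (Finset.erase_subset _ _))
      ((h4 I hI).2 ν)).trans ?_)
    rw [Finset.card_erase_of_mem hIm]
    have h6 : 0 < (Finset.powersetCard r (Finset.univ : Finset (Fin d))).card :=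
      Finset.card_pos.2 ⟨I, hIm⟩
    calc _ = ((Finset.powersetCard r (Finset.univ : Finset (Fin d))).card - 1 + 1) * D := by ring
      _ ≤ 2 ^ d * D := Nat.mul_le_mul_right _ (by omega)
  · have h6 := h5 I hI y
    rw [ev_eq_sum, ← Finset.add_sum_erase _ _ (h1 I hI)] at h6
    rw [← Finset.mul_prod_erase _ _ hIm]
    simp only [eval_neg, eval_mul, neg_mul, mul_assoc, Finset.sum_neg_distrib, ← Finset.mul_sum]
    linear_combination (eval (n y)
      (∏ J ∈ (Finset.powersetCard r Finset.univ).erase I, (Q J).coeff (μ J))) * h6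

theorem ccRule.comp {n : Y → L} {al : Y → Fin d → L} {D r E : ℕ} {c : L[X]}
    (h : ccRule n al D r E c) {Y' : Type} (φ : Y' → Y) :
    ccRule (fun y => n (φ y)) (fun y => al (φ y)) D r E c := by
  intro I hI
  obtain ⟨μ, s, u, h1, h2, h3, h4⟩ := h I hI
  exact ⟨μ, s, u, h1, h2, h3, fun y => h4 (φ y)⟩

theorem cc_ev_mem {n : Y → L} {al : Y → Fin d → L} {D r E : ℕ} {c : L[X]} (hr : 1 ≤ r)
    (hc : c.natDegree ≤ E) (h : ccRule n al D r E c) {P : RR d L} {D' E' k : ℕ}
    (hP : DegLe P D' E') (hk : D' * (D + 1) ^ d ≤ k) :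
    (fun y => c.eval (n y) ^ k * ev (al y) (n y) P) ∈ ccSp n al D r (k * E + E') k := by
  have h1 : (fun y => c.eval (n y) ^ k * ev (al y) (n y) P) = ∑ m ∈ P.support,
      fun y => (P.coeff m).eval (n y) * (c.eval (n y) ^ k * ∏ i, al y i ^ m i) := by
    funext y
    rw [ev_eq_sum, Finset.sum_apply, Finset.mul_sum]
    exact Finset.sum_congr rfl fun m _ => by ring
  rw [h1]
  refine Submodule.sum_mem _ fun m hm => ccSp_mul n al (hP.2 m) (ccRule_mem hr hc h k m ?_)
  exact (ccOm_le D m).trans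
    ((Nat.mul_le_mul_right _ ((cc_sum_le hm).trans hP.1)).trans hk)

theorem paGood.mono {I : Finset (Fin d)} {D E D' E' : ℕ} {P : RR d L} (h : paGood I D E P)
    (hD : D ≤ D') (hE : E ≤ E') : paGood I D' E' P := ⟨h.1, h.2.mono hD hE⟩

theorem paGood.pow {I : Finset (Fin d)} {D E : ℕ} {P : RR d L} (h : paGood I D E P) (k : ℕ) :
    paGood I (k * D) (k * E) (P ^ k) := by
  have := paGood.prod (Finset.range k) (fun _ => P) fun _ _ => h
  rwa [Finset.prod_const, Finset.card_range] at this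

theorem paGood.const (I : Finset (Fin d)) (u : L[X]) :
    paGood I 0 u.natDegree (MvPolynomial.C u : RR d L) := by
  refine ⟨by simp [MvPolynomial.vars_C], by simp, fun m => ?_⟩
  rw [MvPolynomial.coeff_C]
  split_ifs <;> simp

theorem paGood.var (l : Fin d) : paGood Finset.univ 1 0 (MvPolynomial.X l : RR d L) := by
  refine ⟨Finset.subset_univ _, by simp, fun m => ?_⟩
  rw [MvPolynomial.coeff_X]
  split_ifs <;> simp

/-- the indicator polynomial of a residue class -/
noncomputable def ccInd (w : Fin d → Fin d → L) (e : ℕ) (N₀ : L) (v₀ : Fin d → L) : RR d L :=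
  (∏ j, (1 - (∑ l, MvPolynomial.C (Polynomial.C (w j l)) * MvPolynomial.X l -
    MvPolynomial.C (Polynomial.C (v₀ j))) ^ e)) *
    (1 - MvPolynomial.C (Polynomial.X - Polynomial.C N₀) ^ e)

theorem ccInd_deg (w : Fin d → Fin d → L) (e : ℕ) (N₀ : L) (v₀ : Fin d → L) :
    DegLe (ccInd w e N₀ v₀) (d * e) e := by
  have hC : ∀ a : L, paGood Finset.univ 0 0 (MvPolynomial.C (Polynomial.C a) : RR d L) := by
    intro a
    simpa using paGood.const Finset.univ (Polynomial.C a)
  have h1 : ∀ j, paGood Finset.univ e 0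
      (1 - (∑ l, MvPolynomial.C (Polynomial.C (w j l)) * MvPolynomial.X l -
        MvPolynomial.C (Polynomial.C (v₀ j))) ^ e : RR d L) := by
    intro j
    have h2 : paGood Finset.univ 1 0
        (∑ l, MvPolynomial.C (Polynomial.C (w j l)) * MvPolynomial.X l -
          MvPolynomial.C (Polynomial.C (v₀ j)) : RR d L) := by
      rw [sub_eq_add_neg]
      exact (paGood.sum _ _ fun l _ => (hC _).mul (paGood.var l)).add
        ((hC _).neg.mono (by omega) le_rfl)
    rw [sub_eq_add_neg]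
    exact ((paGood.one _).mono (by omega) le_rfl).add
      ((h2.pow e).neg.mono (by omega) (by omega))
  have h3 : paGood Finset.univ 0 e
      (1 - MvPolynomial.C (Polynomial.X - Polynomial.C N₀) ^ e : RR d L) := by
    rw [sub_eq_add_neg]
    refine ((paGood.one _).mono le_rfl (by omega)).add
      (((paGood.const Finset.univ (Polynomial.X - Polynomial.C N₀)).pow e).neg.mono
        (by omega) ?_)
    rw [natDegree_X_sub_C, mul_one]
  have h4 := (paGood.prod Finset.univ _ fun j _ => h1 j).mul h3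
  rw [Finset.card_univ, Fintype.card_fin] at h4
  exact h4.2.mono (by omega) (by omega)

theorem ccInd_ev (w : Fin d → Fin d → L) (e : ℕ) (N₀ : L) (v₀ al : Fin d → L) (n : L) :
    ev al n (ccInd w e N₀ v₀) =
      (∏ j, (1 - (∑ l, w j l * al l - v₀ j) ^ e)) * (1 - (n - N₀) ^ e) := by
  simp [ccInd, ev]

theorem cc_det_ne_zero [Fintype Y] [DecidableEq Y] {π : ℕ} (hπ : π.Prime) (N : Y → ℤ)
    (v : Y → Fin d → ℤ) (hinj : Function.Injective fun y => resKey π (N y) (v y)) :
    (Matrix.of fun i y : Y => (∏ j, (1 - (v y j - v i j) ^ (π - 1))) *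
      (1 - (N y - N i) ^ (π - 1))).det ≠ 0 := by
  have := Fact.mk hπ
  have he : π - 1 ≠ 0 := by
    have := hπ.two_le
    omega
  intro h0
  have h1 := congrArg (Int.castRingHom (ZMod π)) h0
  rw [RingHom.map_det, map_zero] at h1
  have h2 : (Int.castRingHom (ZMod π)).mapMatrix (Matrix.of fun i y : Y =>
      (∏ j, (1 - (v y j - v i j) ^ (π - 1))) * (1 - (N y - N i) ^ (π - 1))) = 1 := by
    ext i y
    simp only [RingHom.mapMatrix_apply, Matrix.map_apply, Matrix.of_apply, eq_intCast]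
    push_cast
    by_cases hiy : i = y
    · subst hiy
      simp [he]
    · rw [Matrix.one_apply_ne hiy]
      by_cases hN : (N y : ZMod π) = N i
      · have h3 : ∃ j, (v y j : ZMod π) ≠ v i j := by
          by_contra hcon
          push Not at hcon
          apply hiy
          apply hinj
          refine Prod.ext ?_ (funext fun j => ?_)
          · exact ((ZMod.intCast_eq_intCast_iff' _ _ _).1 hN).symm
          · exact ((ZMod.intCast_eq_intCast_iff' _ _ _).1 (hcon j)).symm
        obtain ⟨j, hj⟩ := h3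
        rw [Finset.prod_eq_zero (Finset.mem_univ j), zero_mul]
        rw [ZMod.pow_card_sub_one_eq_one (sub_ne_zero.2 hj), sub_self]
      · rw [ZMod.pow_card_sub_one_eq_one (sub_ne_zero.2 hN), sub_self, mul_zero]
  rw [h2, Matrix.det_one] at h1
  exact one_ne_zero h1

theorem cc_card [CharZero L] [Fintype Y] {π : ℕ} (hπ : π.Prime) (N : Y → ℤ) (v : Y → Fin d → ℤ)
    (al : Y → Fin d → L) (w : Fin d → Fin d → L)
    (hv : ∀ y j, ((v y j : ℤ) : L) = ∑ l, w j l * al y l)
    (hinj : Function.Injective fun y => resKey π (N y) (v y)) {D r E : ℕ} {c : L[X]} (hr : 1 ≤ r)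
    (hc : c.natDegree ≤ E) (h : ccRule (fun y => (N y : L)) al D r E c)
    (hc0 : ∀ y, c.eval (N y : L) ≠ 0) {k : ℕ} (hk : d * (π - 1) * (D + 1) ^ d ≤ k) :
    Fintype.card Y ≤ (k * E + (π - 1) + 1) * (ccStd d D r k).card := by
  classical
  have h1 := cc_det_ne_zero hπ N v hinj
  set M : Matrix Y Y ℤ := Matrix.of fun i y : Y => (∏ j, (1 - (v y j - v i j) ^ (π - 1))) *
      (1 - (N y - N i) ^ (π - 1)) with hM
  have h2 : ((Int.castRingHom L).mapMatrix M *
      Matrix.diagonal fun y => c.eval (N y : L) ^ k).det ≠ 0 := by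
    rw [Matrix.det_mul, ← RingHom.map_det, Matrix.det_diagonal]
    refine mul_ne_zero (by simpa using h1)
      (Finset.prod_ne_zero_iff.2 fun y _ => pow_ne_zero _ (hc0 y))
  have h3 := Matrix.linearIndependent_rows_of_det_ne_zero h2
  have h4 := linearIndependent_le_span_aux' _ h3 (((Finset.range (k * E + (π - 1) + 1) ×ˢ
    ccStd d D r k).image (ccGen (fun y => (N y : L)) al) : Finset (Y → L)) : Set (Y → L)) ?_
  · simp only [Finset.coe_sort_coe, Fintype.card_coe] at h4
    refine h4.trans (Finset.card_image_le.trans ?_)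
    rw [Finset.card_product, Finset.card_range]
  · rintro _ ⟨i, rfl⟩
    have h5 := cc_ev_mem hr hc h (ccInd_deg w (π - 1) (N i : L) fun j => (v i j : L)) hk
    rw [Finset.coe_image]
    have h6 : ((Int.castRingHom L).mapMatrix M *
        Matrix.diagonal fun y => c.eval (N y : L) ^ k) i = fun y => c.eval (N y : L) ^ k *
          ev (al y) (N y : L) (ccInd w (π - 1) (N i : L) fun j => (v i j : L)) := by
      funext y
      rw [Matrix.mul_diagonal, ccInd_ev, mul_comm]
      simp only [hM, RingHom.mapMatrix_apply, Matrix.map_apply, Matrix.of_apply, eq_intCast]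
      push_cast
      simp only [hv y]
    show ((Int.castRingHom L).mapMatrix M *
        Matrix.diagonal fun y => c.eval (N y : L) ^ k) i ∈ _
    rw [h6]
    exact h5

end Aux

theorem classCount (d D r : ℕ) (hr : 1 ≤ r) : ∃ C : ℕ, ∀ (L : Type) [Field L] [CharZero L]
    (X : Type) [DecidableEq X] (A : Finset X) (al : X → Fin d → L) (N : X → ℤ) (v : X → Fin d → ℤ)
    (w : Fin d → Fin d → L), (∀ x ∈ A, ∀ j, ((v x j : ℤ) : L) = ∑ l, w j l * al x l) →
    Set.InjOn N A →
    (∀ I : Finset (Fin d), I.card = r → ∃ Q : RR d L, Q ≠ 0 ∧ Q.vars ⊆ I ∧ DegLe Q D D ∧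
      ∀ x ∈ A, ev (al x) ((N x : ℤ) : L) Q = 0) →
    ∀ π : ℕ, π.Prime → (A.image (fun x => resKey π (N x) (v x))).card ≤ C * π ^ r := by
  refine ⟨2 ^ d * D + (d * (D + 1) ^ d * (2 ^ d * D) + 1) *
    (2 ^ d * ((d * (D + 1) ^ d + 1) ^ (r - 1) * (D + 1) ^ d)), ?_⟩
  intro L _ _ X _ A al N v w hv hN hQ π hπ
  classical
  obtain ⟨c, hc0, hc, hrule⟩ := exists_ccRule (fun x : A => ((N x : ℤ) : L)) (fun x : A => al x)
    D r fun I hI => by
      obtain ⟨Q, a1, a2, a3, a4⟩ := hQ I hI
      exact ⟨Q, a1, a2, a3, fun y => a4 y y.2⟩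
  have hπ1 : 1 ≤ π := hπ.one_le
  have hZ : (A.filter fun x => c.eval ((N x : ℤ) : L) = 0).card ≤ 2 ^ d * D := by
    have hinj : Set.InjOn (fun x => ((N x : ℤ) : L))
        (A.filter fun x => c.eval ((N x : ℤ) : L) = 0 : Finset X) := by
      intro x hx y hy hxy
      exact hN (Finset.mem_coe.2 (Finset.mem_filter.1 (Finset.mem_coe.1 hx)).1)
        (Finset.mem_coe.2 (Finset.mem_filter.1 (Finset.mem_coe.1 hy)).1) (Int.cast_injective hxy)
    rw [← Finset.card_image_of_injOn hinj]
    refine le_trans (card_le_degree_of_subset_roots (p := c) fun z hz => ?_) hc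
    obtain ⟨x, hx, rfl⟩ := Finset.mem_image.1 hz
    exact (mem_roots hc0).2 (Finset.mem_filter.1 hx).2
  obtain ⟨R, hR, hRinj, hRim⟩ := Finset.exists_subset_injOn_image_eq_of_surjOn
    (f := fun x => resKey π (N x) (v x))
    (↑(A.filter fun x => ¬ c.eval ((N x : ℤ) : L) = 0) : Set X)
    ((A.filter fun x => ¬ c.eval ((N x : ℤ) : L) = 0).image fun x => resKey π (N x) (v x))
    (by rw [Finset.coe_image]; exact Set.surjOn_image _ _)
  have hRA : ∀ y : R, y.1 ∈ A ∧ ¬ c.eval ((N y : ℤ) : L) = 0 := fun y =>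
    Finset.mem_filter.1 (Finset.mem_coe.1 (hR (Finset.mem_coe.2 y.2)))
  have hcard := cc_card (L := L) (Y := R) hπ (fun y => N y) (fun y => v y) (fun y => al y) w
    (fun y j => hv y (hRA y).1 j)
    (fun y y' h => Subtype.ext (hRinj (Finset.mem_coe.2 y.2) (Finset.mem_coe.2 y'.2) h)) hr hc
    (hrule.comp fun y : R => ⟨y.1, (hRA y).1⟩) (fun y => (hRA y).2) le_rfl
  rw [Fintype.card_coe] at hcard
  have h1 : (A.image fun x => resKey π (N x) (v x)).card ≤ 2 ^ d * D + R.card := by
    conv_lhs => rw [← Finset.filter_union_filter_not_eq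
      (fun x => c.eval ((N x : ℤ) : L) = 0) A, Finset.image_union]
    refine (Finset.card_union_le _ _).trans (add_le_add (Finset.card_image_le.trans hZ) ?_)
    rw [← hRim]
    exact Finset.card_image_le
  set a := d * (D + 1) ^ d with ha
  have hk : d * (π - 1) * (D + 1) ^ d = a * (π - 1) := by rw [ha]; ring
  rw [hk] at hcard
  have h2 : a * (π - 1) + 1 ≤ (a + 1) * π := by
    have : a * (π - 1) ≤ a * π := Nat.mul_le_mul_left _ (by omega)
    nlinarith
  have h3 : a * (π - 1) * (2 ^ d * D) + (π - 1) + 1 ≤ (a * (2 ^ d * D) + 1) * π := by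
    have h4 : a * (π - 1) * (2 ^ d * D) ≤ a * π * (2 ^ d * D) :=
      Nat.mul_le_mul_right _ (Nat.mul_le_mul_left _ (by omega))
    have h5 : π - 1 + 1 = π := by omega
    calc _ = a * (π - 1) * (2 ^ d * D) + (π - 1 + 1) := by ring
      _ ≤ a * π * (2 ^ d * D) + π := by rw [h5]; exact Nat.add_le_add_right h4 _
      _ = _ := by ring
  have h6 : (ccStd d D r (a * (π - 1))).card ≤
      2 ^ d * (((a + 1) * π) ^ (r - 1) * (D + 1) ^ d) :=
    (ccStd_card _ _ _ _).trans (Nat.mul_le_mul_left _ (Nat.mul_le_mul_right _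
      (Nat.pow_le_pow_left h2 _)))
  have h7 : π ^ r = π * π ^ (r - 1) := by
    rw [← pow_succ', Nat.sub_add_cancel hr]
  have h8 : R.card ≤ (a * (2 ^ d * D) + 1) * (2 ^ d * ((a + 1) ^ (r - 1) * (D + 1) ^ d)) *
      π ^ r := by
    refine hcard.trans ((Nat.mul_le_mul h3 h6).trans (le_of_eq ?_))
    rw [h7, mul_pow]
    ring
  have h9 : 2 ^ d * D ≤ 2 ^ d * D * π ^ r := Nat.le_mul_of_pos_right _ (by positivity)
  rw [add_mul]
  omega

end Vale.Agent.P018
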