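import Mathlib

namespace Vale.Agent.P018

open NumberField Polynomial Finset

theorem cx_enum_roots {L : Type} [Field L] (f : L[X]) (hm : f.Monic) (hsp : f.Splits)
    (hsep : f.Separable) {d : ℕ} (hd : f.natDegree = d) :
    ∃ r : Fin d → L, Function.Injective r ∧ f = ∏ l, (X - C (r l)) := by
  classical
  have hnd : f.roots.Nodup := nodup_roots hsep
  obtain ⟨s, hs⟩ : ∃ s : Finset L, s.val = f.roots := ⟨⟨f.roots, hnd⟩, rfl⟩
  have hcard : s.card = d := by
    rw [Finset.card_def, hs, ← hsp.natDegree_eq_card_roots, hd]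
  let e : Fin d ≃ s := (Finset.equivFinOfCardEq hcard).symm
  refine ⟨fun l => e l, fun l l' h => e.injective (Subtype.ext h), ?_⟩
  have h1 := hsp.eq_prod_roots_of_monic hm
  rw [← hs] at h1
  have h2 : (Multiset.map (fun x => X - C x) s.val).prod = ∏ x ∈ s, (X - C x) := rfl
  rw [h1, h2, ← Finset.prod_coe_sort]
  exact (e.prod_comp (fun x : s => X - C (x : L))).symm

theorem cx_roots_of_splits (g : ℤ[X]) (hm : g.Monic) {d : ℕ} (hd : g.natDegree = d)
    (hi : Irreducible (g.map (Int.castRingHom ℚ))) (L : Type) [Field L] [NumberField L]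
    (hsp : ((g.map (Int.castRingHom ℚ)).map (algebraMap ℚ L)).Splits) :
    ∃ (θ : Fin d → 𝓞 L), Function.Injective θ ∧
      g.map (algebraMap ℤ (𝓞 L)) = ∏ l, (X - C (θ l)) ∧
      ∀ q : ℤ[X], q ≠ 0 → q.natDegree < d → ∀ l, aeval (θ l) q ≠ 0 := by
  have hmq : (g.map (Int.castRingHom ℚ)).Monic := hm.map _
  have hdq : (g.map (Int.castRingHom ℚ)).natDegree = d := by rw [hm.natDegree_map, hd]
  have hgL : (g.map (Int.castRingHom ℚ)).map (algebraMap ℚ L) = g.map (algebraMap ℤ L) := by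
    rw [Polynomial.map_map]
    congr 1
    exact RingHom.ext_int _ _
  obtain ⟨r, hr, hf⟩ := cx_enum_roots _ (hmq.map (algebraMap ℚ L)) hsp hi.separable.map
    (d := d) (by rw [hmq.natDegree_map, hdq])
  have hroot : ∀ l, eval (r l) ((g.map (Int.castRingHom ℚ)).map (algebraMap ℚ L)) = 0 := by
    intro l
    rw [hf, eval_prod]
    exact Finset.prod_eq_zero (Finset.mem_univ l) (by simp)
  have hint : ∀ l, IsIntegral ℤ (r l) := by
    intro l
    refine ⟨g, hm, ?_⟩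
    have h2 := hroot l
    rw [hgL, eval_map] at h2
    exact h2
  let θ : Fin d → 𝓞 L := fun l => ⟨r l, hint l⟩
  have hθ : ∀ l, algebraMap (𝓞 L) L (θ l) = r l := fun l => rfl
  refine ⟨θ, ?_, ?_, ?_⟩
  · intro l l' h
    apply hr
    rw [← hθ, ← hθ, h]
  · apply Polynomial.map_injective (algebraMap (𝓞 L) L) (RingOfIntegers.coe_injective)
    rw [Polynomial.map_map, Polynomial.map_prod]
    have h1 : (algebraMap (𝓞 L) L).comp (algebraMap ℤ (𝓞 L)) = algebraMap ℤ L :=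
      RingHom.ext_int _ _
    rw [h1, ← hgL, hf]
    simp only [Polynomial.map_sub, map_X, map_C, hθ]
  · intro q hq hqd l h
    have h1 : aeval (r l) (q.map (Int.castRingHom ℚ)) = 0 := by
      have h2 : aeval (algebraMap (𝓞 L) L (θ l)) q = 0 := by
        rw [aeval_algebraMap_apply, h, map_zero]
      rw [hθ] at h2
      rw [← algebraMap_int_eq, aeval_map_algebraMap]
      exact h2
    have hr0 : aeval (r l) (g.map (Int.castRingHom ℚ)) = 0 := by
      rw [← eval_map_algebraMap]; exact hroot l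
    have hmin := minpoly.eq_of_irreducible_of_monic hi hr0 hmq
    have hq' : q.map (Int.castRingHom ℚ) ≠ 0 :=
      (Polynomial.map_ne_zero_iff (RingHom.injective_int _)).mpr hq
    have h3 := minpoly.degree_le_of_ne_zero ℚ (r l) hq' h1
    rw [← hmin] at h3
    have h4 := natDegree_le_natDegree h3
    rw [hdq, natDegree_map_eq_of_injective (RingHom.injective_int _)] at h4
    omega

/-- the roots of a monic irreducible integer polynomial inside its splitting field -/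
theorem cx_exists_roots (g : ℤ[X]) (hm : g.Monic) {d : ℕ} (hd : g.natDegree = d)
    (hi : Irreducible (g.map (Int.castRingHom ℚ))) :
    ∃ (L : Type) (_ : Field L) (_ : NumberField L) (θ : Fin d → 𝓞 L), Function.Injective θ ∧
      g.map (algebraMap ℤ (𝓞 L)) = ∏ l, (X - C (θ l)) ∧
      ∀ q : ℤ[X], q ≠ 0 → q.natDegree < d → ∀ l, aeval (θ l) q ≠ 0 := by
  have h1 : CharZero (g.map (Int.castRingHom ℚ)).SplittingField := algebraRat.charZero _
  have h2 : NumberField (g.map (Int.castRingHom ℚ)).SplittingField :=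
    { to_finiteDimensional := inferInstance }
  refine ⟨(g.map (Int.castRingHom ℚ)).SplittingField, inferInstance, h2, ?_⟩
  apply cx_roots_of_splits g hm hd hi
  exact SplittingField.splits _

variable {L : Type} [Field L] [NumberField L] {d : ℕ}

/-- the polynomial with coefficient vector `v` -/
noncomputable def cxPoly (v : Fin d → ℤ) : ℤ[X] := ∑ j : Fin d, C (v j) * X ^ (j : ℕ)

theorem cxPoly_natDegree (hd : 1 ≤ d) (v : Fin d → ℤ) : (cxPoly v).natDegree < d := by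
  have : (cxPoly v).natDegree ≤ d - 1 := by
    unfold cxPoly
    apply natDegree_sum_le_of_forall_le
    intro j _
    refine (natDegree_C_mul_X_pow_le _ _).trans ?_
    have := j.2
    omega
  omega

theorem cxPoly_coeff (v : Fin d → ℤ) (j : Fin d) : (cxPoly v).coeff j = v j := by
  unfold cxPoly
  rw [finsetSum_coeff, Finset.sum_eq_single j]
  · simp
  · intro i _ hi
    rw [coeff_C_mul_X_pow, if_neg]
    intro h
    exact hi (Fin.ext h.symm)
  · simp

theorem cxPoly_ne_zero {v : Fin d → ℤ} (hv : v ≠ 0) : cxPoly v ≠ 0 := by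
  intro h
  apply hv
  funext j
  rw [← cxPoly_coeff v j, h]
  simp

theorem cxPoly_aeval {A : Type} [CommRing A] (v : Fin d → ℤ) (x : A) :
    aeval x (cxPoly v) = ∑ j : Fin d, (v j : A) * x ^ (j : ℕ) := by
  unfold cxPoly
  simp [map_sum]

theorem cxPoly_eval (v : Fin d → ℤ) (x : ℤ) :
    eval x (cxPoly v) = ∑ j : Fin d, v j * x ^ (j : ℕ) := by
  unfold cxPoly
  simp [eval_finsetSum]

omit [NumberField L] in
theorem cx_prod_eq_resultant (g q : ℤ[X]) (θ : Fin d → 𝓞 L)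
    (hg : g.map (algebraMap ℤ (𝓞 L)) = ∏ l, (X - C (θ l))) (hq : q.natDegree ≤ d) :
    ∏ l, aeval (θ l) q = ((resultant g q d d : ℤ) : 𝓞 L) := by
  have h1 := resultant_map_map g q d d (algebraMap ℤ (𝓞 L))
  have hdeg : (∏ l, (X - C (θ l)) : (𝓞 L)[X]).natDegree = d := by
    rw [natDegree_prod_of_monic _ _ (fun l _ => monic_X_sub_C _)]
    simp
  have h2 := resultant_prod_left Finset.univ (fun l => (X - C (θ l) : (𝓞 L)[X]))
    (q.map (algebraMap ℤ (𝓞 L))) d (by simp) (natDegree_map_le.trans hq)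
  rw [hdeg, ← hg, h1] at h2
  rw [← eq_intCast (algebraMap ℤ (𝓞 L)), h2]
  refine Finset.prod_congr rfl fun l _ => ?_
  rw [natDegree_X_sub_C, resultant_X_sub_C_left _ _ _ (natDegree_map_le.trans hq),
    eval_map_algebraMap]

theorem cx_dvd_resultant (hd : 1 ≤ d) (g q : ℤ[X]) (hg : g.natDegree ≤ d) (hq : q.natDegree ≤ d)
    (p N : ℤ) (h1 : p ∣ g.eval N) (h2 : p ∣ q.eval N) : p ∣ resultant g q d d := by
  obtain ⟨u, w, -, -, h⟩ := exists_mul_add_mul_eq_C_resultant g q hg hq (Or.inl (by omega))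
  have h3 := congrArg (eval N) h
  rw [eval_add, eval_mul, eval_mul, eval_C] at h3
  rw [← h3]
  exact dvd_add (h1.mul_right _) (h2.mul_right _)

/-- the cofactor of `α_l` times `N - θ_l` has `k`-th power divisible by `p ^ k` -/
theorem cx_exists_be {A : Type} [CommRing A] (θ : Fin d → A) (α : Fin d → A) (N p : A) (k : ℕ)
    (hα : ∀ j, ∃ u w, α j = p * u + (N - θ j) * w)
    (hN : p ^ k ∣ ∏ j, (N - θ j)) (l : Fin d) :
    p ^ k ∣ (N - θ l) * (∏ j ∈ Finset.univ.erase l, α j) ^ k := by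
  classical
  choose u w huw using hα
  have h1 : p ∣ ∏ j ∈ Finset.univ.erase l, α j - ∏ j ∈ Finset.univ.erase l, ((N - θ j) * w j) := by
    rw [← Ideal.mem_span_singleton, ← Ideal.Quotient.eq, map_prod, map_prod]
    refine Finset.prod_congr rfl fun j _ => ?_
    rw [Ideal.Quotient.eq, Ideal.mem_span_singleton, huw j]
    exact ⟨u j, by ring⟩
  obtain ⟨s, hs⟩ := h1
  rw [Finset.prod_mul_distrib] at hs
  set h := ∏ j ∈ Finset.univ.erase l, (N - θ j) with hh
  set ww := ∏ j ∈ Finset.univ.erase l, w j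
  have h2 : (N - θ l) * h = ∏ j, (N - θ j) := Finset.mul_prod_erase _ (fun j => N - θ j) (by simp)
  have h3 : ∏ j ∈ Finset.univ.erase l, α j = p * s + h * ww := by rw [← hs]; ring
  have h4 : h * ww ∣ (p * s + h * ww) ^ k - (p * s) ^ k := by
    have := sub_dvd_pow_sub_pow (p * s + h * ww) (p * s) k
    rwa [add_sub_cancel_left] at this
  obtain ⟨t, ht⟩ := h4
  have h5 : (N - θ l) * (p * s + h * ww) ^ k
      = ((N - θ l) * h) * (ww * t) + p ^ k * ((N - θ l) * s ^ k) := by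
    have : (p * s + h * ww) ^ k = h * ww * t + (p * s) ^ k := by rw [← ht]; ring
    rw [this, mul_pow]; ring
  rw [h3, h5, h2]
  exact dvd_add (hN.mul_right _) (Dvd.intro _ rfl)

/-- pigeonhole: a small nonzero vector killed modulo `p` -/
theorem cx_pigeon (p A : ℕ) (hp : 0 < p) (hA : p < (A + 1) ^ d) (N : ℤ) :
    ∃ v : Fin d → ℤ, v ≠ 0 ∧ (∀ j, |v j| ≤ A) ∧ (p : ℤ) ∣ ∑ j : Fin d, v j * N ^ (j : ℕ) := by
  classical
  have : NeZero p := ⟨hp.ne'⟩
  let F : (Fin d → Fin (A + 1)) → ZMod p :=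
    fun x => ((∑ j : Fin d, ((x j : ℕ) : ℤ) * N ^ (j : ℕ) : ℤ) : ZMod p)
  obtain ⟨x, y, hxy, hF⟩ := Fintype.exists_ne_map_eq_of_card_lt F (by simpa using hA)
  refine ⟨fun j => ((x j : ℕ) : ℤ) - ((y j : ℕ) : ℤ), ?_, ?_, ?_⟩
  · intro h
    apply hxy
    funext j
    have := congrFun h j
    simp only [Pi.zero_apply] at this
    apply Fin.ext
    omega
  · intro j
    have h1 := (x j).2
    have h2 := (y j).2
    dsimp only
    rw [abs_le]
    constructor <;> omega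
  · have := (ZMod.intCast_eq_intCast_iff_dvd_sub _ _ p).mp hF.symm
    simp only [sub_mul, Finset.sum_sub_distrib]
    exact this

theorem cx_exists_A (hd : 1 ≤ d) (p : ℕ) : ∃ A : ℕ, A ^ d ≤ p ∧ p < (A + 1) ^ d := by
  have hex : ∃ A : ℕ, p < (A + 1) ^ d := ⟨p, by
    calc p < p + 1 := Nat.lt_succ_self p
      _ ≤ (p + 1) ^ d := Nat.le_self_pow (by omega) _⟩
  classical
  refine ⟨Nat.find hex, ?_, Nat.find_spec hex⟩
  rcases h : Nat.find hex with _ | B
  · rw [zero_pow (by omega)]; exact Nat.zero_le _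
  · have := Nat.find_min hex (m := B) (by omega)
    omega

/-- `M` primes in a bounded dilation of `[n, 2 n]` -/
theorem cx_pool (M n : ℕ) (hn : 1 ≤ n) :
    ∃ T : Finset ℕ, T.card = M ∧ ∀ π ∈ T, π.Prime ∧ n < π ∧ π ≤ 2 ^ M * n := by
  induction M with
  | zero => exact ⟨∅, rfl, by simp⟩
  | succ M ih =>
    obtain ⟨T, hT, h⟩ := ih
    have hpos : 0 < 2 ^ M := by positivity
    obtain ⟨q, hq, h1, h2⟩ := Nat.exists_prime_lt_and_le_two_mul (2 ^ M * n) (by positivity)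
    have hnq : q ∉ T := fun hq' => by have := (h q hq').2.2; omega
    refine ⟨insert q T, by rw [Finset.card_insert_of_notMem hnq, hT], ?_⟩
    intro π hπ
    have h3 : n ≤ 2 ^ M * n := Nat.le_mul_of_pos_left _ hpos
    have h4 : 2 ^ (M + 1) * n = 2 * (2 ^ M * n) := by ring
    rcases Finset.mem_insert.mp hπ with rfl | hπ
    · exact ⟨hq, by omega, by omega⟩
    · obtain ⟨a1, a2, a3⟩ := h π hπ
      exact ⟨a1, a2, by omega⟩

/-- few integers of a short interval are roots of a monic polynomial modulo a large prime -/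
theorem cx_fiber (g : ℤ[X]) (hm : g.Monic) (hd : g.natDegree = d) (p X₀ : ℕ) (hp : p.Prime)
    (hX : X₀ < p) (T : Finset ℤ) (hT : ∀ N ∈ T, |N| ≤ X₀ ∧ (p : ℤ) ∣ g.eval N) :
    T.card ≤ 2 * d := by
  classical
  have : Fact p.Prime := ⟨hp⟩
  let gp := g.map (Int.castRingHom (ZMod p))
  have hgp : gp.Monic := hm.map _
  have hcard : gp.roots.toFinset.card ≤ d := by
    refine (Multiset.toFinset_card_le _).trans ((card_roots' gp).trans ?_)
    rw [hm.natDegree_map, hd]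
  let F : ℤ → ZMod p × Bool := fun N => ((N : ZMod p), decide (0 ≤ N))
  have h1 : T.card ≤ (gp.roots.toFinset ×ˢ (Finset.univ : Finset Bool)).card := by
    apply Finset.card_le_card_of_injOn F
    · intro N hN
      simp only [Finset.coe_product, Set.mem_prod, Finset.mem_coe, Finset.mem_univ, and_true,
        Multiset.mem_toFinset, F]
      rw [mem_roots hgp.ne_zero, IsRoot.def]
      have h2 : eval ((Int.castRingHom (ZMod p)) N) gp = (Int.castRingHom (ZMod p)) (eval N g) := by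
        rw [eval_map, eval₂_at_apply]
      simp only [eq_intCast] at h2
      rw [h2, ZMod.intCast_zmod_eq_zero_iff_dvd]
      exact (hT N hN).2
    · intro N hN N' hN' h
      simp only [F, Prod.mk.injEq, decide_eq_decide] at h
      obtain ⟨h2, h3⟩ := h
      have h4 := (ZMod.intCast_eq_intCast_iff_dvd_sub _ _ p).mp h2
      have h5 := abs_le.mp (hT N hN).1
      have h6 := abs_le.mp (hT N' hN').1
      have h7 : |N' - N| < p := by
        rw [abs_lt]
        by_cases h0 : 0 ≤ N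
        · have := h3.mp h0
          constructor <;> omega
        · have : ¬ 0 ≤ N' := fun h' => h0 (h3.mpr h')
          constructor <;> omega
      have := Int.eq_zero_of_abs_lt_dvd h4 h7
      omega
  rw [Finset.card_product] at h1
  simp only [Finset.card_univ, Fintype.card_bool] at h1
  omega

omit [NumberField L] in
theorem cx_eval_eq_prod (g : ℤ[X]) (θ : Fin d → 𝓞 L)
    (hg : g.map (algebraMap ℤ (𝓞 L)) = ∏ l, (X - C (θ l))) (N : ℤ) :
    ((g.eval N : ℤ) : 𝓞 L) = ∏ l, ((N : 𝓞 L) - θ l) := by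
  have h1 := congrArg (eval (algebraMap ℤ (𝓞 L) N)) hg
  rw [eval_map, eval₂_at_apply, eval_prod] at h1
  simpa using h1

theorem cx_exists_bound (θ : Fin d → 𝓞 L) :
    ∃ B : ℝ, 1 ≤ B ∧ (∀ (φ : L →+* ℂ) l, ‖φ (θ l : L)‖ ≤ B) ∧
      ∀ (φ : L →+* ℂ) l (v : Fin d → ℤ) (A : ℝ), 0 ≤ A → (∀ j, |(v j : ℝ)| ≤ A) →
        ‖φ ((∑ j : Fin d, (v j : 𝓞 L) * θ l ^ (j : ℕ) : 𝓞 L) : L)‖ ≤ A * B := by
  obtain ⟨R₀, hR₀⟩ := (Set.finite_range (fun x : (L →+* ℂ) × Fin d => ‖x.1 (θ x.2 : L)‖)).bddAbove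
  set R := max R₀ 1 with hR
  have hR1 : 1 ≤ R := le_max_right _ _
  have hRb : ∀ (φ : L →+* ℂ) l, ‖φ (θ l : L)‖ ≤ R :=
    fun φ l => (hR₀ ⟨(φ, l), rfl⟩).trans (le_max_left _ _)
  have hRd : 1 ≤ R ^ d := one_le_pow₀ hR1
  have hd0 : (0 : ℝ) ≤ d := Nat.cast_nonneg d
  refine ⟨R + d * R ^ d, by nlinarith, fun φ l => (hRb φ l).trans (by nlinarith), ?_⟩
  intro φ l v A hA hv
  have h1 : ((∑ j : Fin d, (v j : 𝓞 L) * θ l ^ (j : ℕ) : 𝓞 L) : L)
      = ∑ j : Fin d, (v j : L) * (θ l : L) ^ (j : ℕ) := by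
    simp [RingOfIntegers.coe_eq_algebraMap]
  rw [h1, map_sum]
  refine (norm_sum_le _ _).trans ?_
  have h2 : ∀ j : Fin d, ‖φ ((v j : L) * (θ l : L) ^ (j : ℕ))‖ ≤ A * R ^ d := by
    intro j
    rw [map_mul, map_pow, norm_mul, norm_pow, map_intCast, Complex.norm_intCast]
    refine mul_le_mul (hv j) ?_ (by positivity) hA
    exact (pow_le_pow_left₀ (norm_nonneg _) (hRb φ l) _).trans (pow_le_pow_right₀ hR1 j.2.le)
  refine (Finset.sum_le_sum fun j _ => h2 j).trans ?_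
  rw [Finset.sum_const, Finset.card_univ, Fintype.card_fin, nsmul_eq_mul]
  nlinarith

/-- algebraic part of the construction -/
theorem cx_alg (hd : 1 ≤ d) (g : ℤ[X]) (hgd : g.natDegree = d) (θ : Fin d → 𝓞 L)
    (hg : g.map (algebraMap ℤ (𝓞 L)) = ∏ l, (X - C (θ l)))
    (hmin : ∀ q : ℤ[X], q ≠ 0 → q.natDegree < d → ∀ l, aeval (θ l) q ≠ 0)
    {k : ℕ} (hk : 1 ≤ k) (N : ℤ) (p A : ℕ) (hp : 0 < p) (hA : p < (A + 1) ^ d)
    (hdiv : (p : ℤ) ^ k ∣ g.eval N) :
    ∃ (v : Fin d → ℤ) (be : Fin d → 𝓞 L) (c : ℤ), c ≠ 0 ∧ (∀ j, |v j| ≤ A) ∧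
      ∏ l, (∑ j : Fin d, (v j : 𝓞 L) * θ l ^ (j : ℕ)) = ((c * p : ℤ) : 𝓞 L) ∧
      ∀ l, (∑ j : Fin d, (v j : 𝓞 L) * θ l ^ (j : ℕ)) ^ k * be l
        = (c : 𝓞 L) ^ k * ((N : 𝓞 L) - θ l) := by
  classical
  obtain ⟨v, hv0, hvA, hv⟩ := cx_pigeon (d := d) p A hp hA N
  have hq := cxPoly_natDegree hd v
  have hres := cx_prod_eq_resultant g (cxPoly v) θ hg hq.le
  have hp1 : (p : ℤ) ∣ g.eval N := (dvd_pow_self _ (by omega)).trans hdiv
  obtain ⟨c, hc⟩ := cx_dvd_resultant hd g (cxPoly v) hgd.le hq.le p N hp1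
    (by rw [cxPoly_eval]; exact hv)
  simp only [cxPoly_aeval] at hres
  set α : Fin d → 𝓞 L := fun l => ∑ j : Fin d, (v j : 𝓞 L) * θ l ^ (j : ℕ) with hα
  have hα0 : ∀ l, α l ≠ 0 := fun l => by
    have := hmin _ (cxPoly_ne_zero hv0) hq l
    rwa [cxPoly_aeval] at this
  have hprod : ∏ l, α l = ((c * p : ℤ) : 𝓞 L) := by rw [hres, hc, mul_comm]
  have hc0 : c ≠ 0 := by
    rintro rfl
    exact Finset.prod_ne_zero_iff.mpr (fun l _ => hα0 l) (by rw [hprod]; simp)
  have hαd : ∀ j, ∃ u w, α j = (p : 𝓞 L) * u + ((N : 𝓞 L) - θ j) * w := by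
    intro j
    obtain ⟨u, hu⟩ := hv
    obtain ⟨w, hw⟩ := sub_dvd_eval_sub (N : 𝓞 L) (θ j) ((cxPoly v).map (algebraMap ℤ (𝓞 L)))
    rw [eval_map_algebraMap, eval_map_algebraMap, cxPoly_aeval, cxPoly_aeval] at hw
    have hu' := congrArg (Int.cast : ℤ → 𝓞 L) hu
    push_cast at hu'
    refine ⟨(u : 𝓞 L), -w, ?_⟩
    rw [hu'] at hw
    simp only [hα]
    linear_combination -hw
  have hN : (p : 𝓞 L) ^ k ∣ ∏ j, ((N : 𝓞 L) - θ j) := by
    rw [← cx_eval_eq_prod g θ hg N]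
    have := map_dvd (Int.castRingHom (𝓞 L)) hdiv
    simpa using this
  choose be hbe using cx_exists_be θ α (N : 𝓞 L) (p : 𝓞 L) k hαd hN
  refine ⟨v, be, c, hc0, hvA, hprod, fun l => ?_⟩
  have hp0 : (p : 𝓞 L) ^ k ≠ 0 := pow_ne_zero _ (Nat.cast_ne_zero.mpr hp.ne')
  apply mul_left_cancel₀ hp0
  have h1 : α l * ∏ j ∈ Finset.univ.erase l, α j = (c : 𝓞 L) * p := by
    rw [Finset.mul_prod_erase _ α (Finset.mem_univ l), hprod]
    push_cast
    rfl
  have h2 : α l ^ k * (∏ j ∈ Finset.univ.erase l, α j) ^ k = (c : 𝓞 L) ^ k * (p : 𝓞 L) ^ k := by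
    rw [← mul_pow, h1, mul_pow]
  have h3 := hbe l
  change (p : 𝓞 L) ^ k * (α l ^ k * be l) = _
  linear_combination (-(α l ^ k)) * h3 + ((N : 𝓞 L) - θ l) * h2

/-- archimedean sizes -/
theorem cx_arch (hd : 1 ≤ d) (x : Fin d → ℝ) (c p A B : ℝ) (hx0 : ∀ l, 0 ≤ x l) (hA : 0 < A)
    (hx : ∀ l, x l ≤ A * B) (hc : 1 ≤ c) (hp : A ^ d ≤ p)
    (hprod : ∏ l, x l = c * p) : c ≤ B ^ d ∧ ∀ l, A ≤ x l * B ^ (d - 1) := by
  classical
  have hAd : 0 < A ^ d := pow_pos hA d
  have hp0 : 0 < p := hAd.trans_le hp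
  constructor
  · have h1 : ∏ l, x l ≤ ∏ _l : Fin d, A * B := Finset.prod_le_prod (fun l _ => hx0 l) fun l _ => hx l
    rw [Finset.prod_const, Finset.card_univ, Fintype.card_fin, hprod, mul_pow] at h1
    have hB : 0 ≤ B ^ d := by
      have : 0 ≤ A * B := (hx0 ⟨0, hd⟩).trans (hx ⟨0, hd⟩)
      exact pow_nonneg (nonneg_of_mul_nonneg_right this hA) _
    have h2 : c * p ≤ B ^ d * p := by nlinarith
    exact le_of_mul_le_mul_right h2 hp0
  · intro l
    have h1 : ∏ j ∈ Finset.univ.erase l, x j ≤ ∏ _j ∈ Finset.univ.erase l, A * B :=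
      Finset.prod_le_prod (fun l _ => hx0 l) fun l _ => hx l
    rw [Finset.prod_const, Finset.card_erase_of_mem (Finset.mem_univ l), Finset.card_univ,
      Fintype.card_fin, mul_pow] at h1
    have h2 : x l * ∏ j ∈ Finset.univ.erase l, x j = c * p := by
      rw [Finset.mul_prod_erase _ x (Finset.mem_univ l), hprod]
    have h3 : A * A ^ (d - 1) = A ^ d := by
      rw [← pow_succ']; congr 1; omega
    have h4 : A * A ^ (d - 1) ≤ (x l * B ^ (d - 1)) * A ^ (d - 1) := by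
      have := mul_le_mul_of_nonneg_left h1 (hx0 l)
      nlinarith
    exact le_of_mul_le_mul_right h4 (pow_pos hA _)

/-- the choice of the exponent -/
theorem cx_exponent (hd : 1 ≤ d) {W : ℕ} (hW : 3 * d ≤ W) (Z p : ℝ) (hZ : 1 < Z)
    (hp : Z ^ W < p) : ∃ e : ℕ, 2 ≤ e ∧ W < d * (e + 2) ∧ Z ^ (d * (e + 1)) < p ∧
      p ≤ Z ^ (d * (e + 2)) := by
  classical
  have hex : ∃ a : ℕ, p ≤ Z ^ (d * a) := by
    obtain ⟨a, ha⟩ := pow_unbounded_of_one_lt p hZ
    exact ⟨a, ha.le.trans (pow_le_pow_right₀ hZ.le (Nat.le_mul_of_pos_left _ hd))⟩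
  have h1 := Nat.find_spec hex
  have h2 : W < d * Nat.find hex := (pow_lt_pow_iff_right₀ hZ).mp (hp.trans_le h1)
  have h3 : 3 < Nat.find hex := by
    by_contra hcon
    have := Nat.mul_le_mul_left d (not_lt.mp hcon)
    omega
  obtain ⟨e, he⟩ : ∃ e, Nat.find hex = e + 2 := ⟨Nat.find hex - 2, by omega⟩
  have h4 := Nat.find_min hex (m := e + 1) (by omega)
  rw [he] at h1 h2
  exact ⟨e, by omega, h2, not_le.mp h4, h1⟩

end Vale.Agent.P018
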