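import Vale.Agent.P018.Defs

open Polynomial Filter Asymptotics Finset

namespace Vale.Agent.P018

/-- a predicate on naturals depending only on the class modulo `q` -/
def ModInv (q : ℕ) (P : ℕ → Prop) : Prop := ∀ a b : ℕ, a ≡ b [MOD q] → P a → P b

theorem ModInv.periodic {q : ℕ} {P : ℕ → Prop} (h : ModInv q P) : Function.Periodic P q := by
  intro a
  have e : a + q ≡ a [MOD q] := by simp [Nat.ModEq]
  exact propext ⟨h _ _ e, h _ _ e.symm⟩

theorem ModInv.not {q : ℕ} {P : ℕ → Prop} (h : ModInv q P) : ModInv q (fun a => ¬ P a) :=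
  fun a b e ha hb => ha (h b a e.symm hb)

theorem modInv_dvd (f : ℤ[X]) (q : ℕ) : ModInv q (fun a : ℕ => (q : ℤ) ∣ f.eval (a : ℤ)) := by
  intro a b e ha
  have h1 : (q : ℤ) ∣ (b : ℤ) - (a : ℤ) := e.dvd
  have h2 := h1.trans (Polynomial.sub_dvd_eval_sub (b : ℤ) (a : ℤ) f)
  simpa using dvd_add h2 ha

theorem sv_card_Ico_mul {q : ℕ} {P : ℕ → Prop} [DecidablePred P] (h : ModInv q P) (n m : ℕ) :
    #{a ∈ Ico n (n + q * m) | P a} = m * #{a ∈ range q | P a} := by
  induction m with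
  | zero => simp
  | succ m ih =>
    have hu : Ico n (n + q * (m + 1)) = Ico n (n + q * m) ∪ Ico (n + q * m) (n + q * m + q) := by
      rw [Finset.Ico_union_Ico_eq_Ico (by omega) (by omega)]
      congr 1; ring
    rw [hu, Finset.filter_union, Finset.card_union_of_disjoint
      (Finset.disjoint_filter_filter (Finset.Ico_disjoint_Ico_consecutive _ _ _)), ih,
      Nat.filter_Ico_card_eq_of_periodic _ _ _ h.periodic, Nat.count_eq_card_filter_range]
    ring

theorem sv_card_Icc_le {q : ℕ} (hq : 0 < q) {P : ℕ → Prop} [DecidablePred P] (h : ModInv q P)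
    (X : ℕ) :
    (#{a ∈ Icc 1 X | P a} : ℝ) ≤ (#{a ∈ range q | P a} : ℝ) * (X / q + 1) := by
  have h1 : #{a ∈ Icc 1 X | P a} ≤ (X / q + 1) * #{a ∈ range q | P a} := by
    rw [← sv_card_Ico_mul h 1]
    refine Finset.card_le_card (Finset.filter_subset_filter _ ?_)
    intro a ha
    rw [Finset.mem_Icc] at ha
    rw [Finset.mem_Ico]
    have := Nat.lt_mul_div_succ X hq
    omega
  have h2 : ((X / q : ℕ) : ℝ) ≤ (X : ℝ) / q := Nat.cast_div_le
  calc (#{a ∈ Icc 1 X | P a} : ℝ) ≤ (((X / q + 1) * #{a ∈ range q | P a} : ℕ) : ℝ) := by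
        exact_mod_cast h1
    _ = (#{a ∈ range q | P a} : ℝ) * (((X / q : ℕ) : ℝ) + 1) := by push_cast; ring
    _ ≤ _ := by gcongr

theorem sv_card_Icc_ge {q : ℕ} (hq : 0 < q) {P : ℕ → Prop} [DecidablePred P] (h : ModInv q P)
    (X : ℕ) :
    (#{a ∈ range q | P a} : ℝ) * (X / q - 1) ≤ (#{a ∈ Icc 1 X | P a} : ℝ) := by
  have h1 : (X / q) * #{a ∈ range q | P a} ≤ #{a ∈ Icc 1 X | P a} := by
    rw [← sv_card_Ico_mul h 1]
    refine Finset.card_le_card (Finset.filter_subset_filter _ ?_)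
    intro a ha
    rw [Finset.mem_Ico] at ha
    rw [Finset.mem_Icc]
    have := Nat.mul_div_le X q
    omega
  have h2 : (X : ℝ) / q - 1 ≤ ((X / q : ℕ) : ℝ) := by
    have hq' : (0 : ℝ) < q := by exact_mod_cast hq
    have h3 : (X : ℝ) < q * (((X / q : ℕ) : ℝ) + 1) := by
      exact_mod_cast Nat.lt_mul_div_succ X hq
    have h4 : (X : ℝ) / q ≤ ((X / q : ℕ) : ℝ) + 1 := by
      rw [div_le_iff₀ hq']; linarith
    linarith
  calc (#{a ∈ range q | P a} : ℝ) * (X / q - 1)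
      ≤ (#{a ∈ range q | P a} : ℝ) * ((X / q : ℕ) : ℝ) := by gcongr
    _ = (((X / q) * #{a ∈ range q | P a} : ℕ) : ℝ) := by push_cast; ring
    _ ≤ _ := by exact_mod_cast h1

theorem sv_crt {q₁ q₂ : ℕ} (h₁ : 0 < q₁) (h₂ : 0 < q₂) (hco : q₁.Coprime q₂) {P₁ P₂ : ℕ → Prop}
    [DecidablePred P₁] [DecidablePred P₂] (hP₁ : ModInv q₁ P₁) (hP₂ : ModInv q₂ P₂) :
    #{a ∈ range (q₁ * q₂) | P₁ a ∧ P₂ a} = #{a ∈ range q₁ | P₁ a} * #{a ∈ range q₂ | P₂ a} := by
  rw [← Finset.card_product]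
  refine Finset.card_bij (fun a _ => (a % q₁, a % q₂)) ?_ ?_ ?_
  · intro a ha
    simp only [Finset.mem_filter, Finset.mem_range, Finset.mem_product] at ha ⊢
    exact ⟨⟨Nat.mod_lt _ h₁, hP₁ _ _ (Nat.mod_modEq a q₁).symm ha.2.1⟩,
      ⟨Nat.mod_lt _ h₂, hP₂ _ _ (Nat.mod_modEq a q₂).symm ha.2.2⟩⟩
  · intro a ha b hb hab
    simp only [Finset.mem_filter, Finset.mem_range] at ha hb
    simp only [Prod.mk.injEq] at hab
    exact ((Nat.modEq_and_modEq_iff_modEq_mul hco).1 ⟨hab.1, hab.2⟩).eq_of_lt_of_lt ha.1 hb.1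
  · rintro ⟨b₁, b₂⟩ hb
    simp only [Finset.mem_filter, Finset.mem_range, Finset.mem_product] at hb
    obtain ⟨⟨hb1, hb2⟩, hb3, hb4⟩ := hb
    have hc := (Nat.chineseRemainder hco b₁ b₂).2
    refine ⟨Nat.chineseRemainder hco b₁ b₂, ?_, ?_⟩
    · simp only [Finset.mem_filter, Finset.mem_range]
      exact ⟨Nat.chineseRemainder_lt_mul hco b₁ b₂ h₁.ne' h₂.ne', hP₁ _ _ hc.1.symm hb2,
        hP₂ _ _ hc.2.symm hb4⟩
    · have e1 := hc.1
      have e2 := hc.2
      unfold Nat.ModEq at e1 e2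
      rw [e1, e2, Nat.mod_eq_of_lt hb1, Nat.mod_eq_of_lt hb3]

open Classical in
theorem sv_crt_prod {ι : Type} (S : Finset ι) (q : ι → ℕ) (hq : ∀ i, 0 < q i)
    (hco : ∀ i j, i ≠ j → (q i).Coprime (q j)) (P : ι → ℕ → Prop) (hP : ∀ i, ModInv (q i) (P i)) :
    #{a ∈ range (∏ i ∈ S, q i) | ∀ i ∈ S, P i a} = ∏ i ∈ S, #{a ∈ range (q i) | P i a} := by
  induction S using Finset.induction_on with
  | empty => simp
  | insert j S hj ih =>
    rw [Finset.prod_insert hj, Finset.prod_insert hj, ← ih,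
      ← sv_crt (hq j) (Finset.prod_pos (fun i _ => hq i))
        (Nat.Coprime.prod_right (fun i hi => hco j i (fun e => hj (e ▸ hi)))) (hP j)
        (fun a b e ha i hi => hP i a b (e.of_dvd (Finset.dvd_prod_of_mem q hi)) (ha i hi))]
    congr 1
    ext a
    simp

theorem sv_rho_eq (f : ℤ[X]) {q : ℕ} (hq : 0 < q) :
    rho f q = #((range q).filter (fun a : ℕ => (q : ℤ) ∣ f.eval (a : ℤ))) := by
  classical
  have : NeZero q := ⟨hq.ne'⟩
  have key : ∀ n : ℕ, aeval (n : ZMod q) f = 0 ↔ (q : ℤ) ∣ f.eval (n : ℤ) := by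
    intro n
    rw [← ZMod.intCast_zmod_eq_zero_iff_dvd]
    have : ((f.eval (n : ℤ) : ℤ) : ZMod q) = aeval (n : ZMod q) f := by
      have h := Polynomial.aeval_algebraMap_apply_eq_algebraMap_eval (A := ZMod q) (n : ℤ) f
      simpa using h.symm
    rw [this]
  unfold rho
  rw [Nat.card_eq_fintype_card, Fintype.card_subtype]
  refine Finset.card_bij (fun a _ => a.val) ?_ ?_ ?_
  · intro a ha
    simp only [Finset.mem_filter, Finset.mem_univ, true_and, Finset.mem_range] at ha ⊢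
    refine ⟨ZMod.val_lt a, (key _).1 ?_⟩
    rwa [ZMod.natCast_zmod_val]
  · intro a _ b _ hab
    exact ZMod.val_injective q hab
  · intro b hb
    simp only [Finset.mem_filter, Finset.mem_range] at hb
    refine ⟨(b : ZMod q), ?_, ZMod.val_cast_of_lt hb.1⟩
    simp only [Finset.mem_filter, Finset.mem_univ, true_and]
    exact (key b).2 hb.2

theorem sv_exists_bezout (f : ℤ[X]) (hf : Irreducible (f.map (Int.castRingHom ℚ))) :
    ∃ (u v : ℤ[X]) (R : ℤ), R ≠ 0 ∧ u * f + v * derivative f = C R := by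
  obtain ⟨a, b, hab⟩ := hf.separable
  obtain ⟨m₁, hm₁, ha⟩ := IsLocalization.integerNormalization_spec (nonZeroDivisors ℤ) a
  obtain ⟨m₂, hm₂, hb⟩ := IsLocalization.integerNormalization_spec (nonZeroDivisors ℤ) b
  refine ⟨C m₂ * IsLocalization.integerNormalization (nonZeroDivisors ℤ) a,
    C m₁ * IsLocalization.integerNormalization (nonZeroDivisors ℤ) b, m₁ * m₂,
    mul_ne_zero (nonZeroDivisors.ne_zero hm₁) (nonZeroDivisors.ne_zero hm₂), ?_⟩
  apply Polynomial.map_injective (algebraMap ℤ ℚ) (RingHom.injective_int _)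
  have e : Int.castRingHom ℚ = algebraMap ℤ ℚ := rfl
  rw [e, Polynomial.derivative_map] at hab
  simp only [Polynomial.map_add, Polynomial.map_mul, ha, hb, zsmul_eq_mul,
    map_mul, eq_intCast, Polynomial.map_intCast]
  linear_combination ((m₁ : ℚ[X]) * (m₂ : ℚ[X])) * hab

theorem sv_rho_le_of_not_dvd {f u v : ℤ[X]} {R : ℤ} (h : u * f + v * derivative f = C R)
    {p : ℕ} (hp : p.Prime) (hR : ¬ (p : ℤ) ∣ R) {k : ℕ} (hk : 1 ≤ k) :
    rho f (p ^ k) ≤ f.natDegree := by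
  classical
  have : Fact p.Prime := ⟨hp⟩
  have hpZ : Prime (p : ℤ) := Nat.prime_iff_prime_int.1 hp
  have hpk : (p : ℤ) ∣ ((p ^ k : ℕ) : ℤ) := by
    push_cast; exact dvd_pow_self _ (by omega)
  rw [sv_rho_eq f (pow_pos hp.pos k)]
  set g := f.map (Int.castRingHom (ZMod p)) with hg
  have hg0 : g ≠ 0 := by
    intro h0
    have h1 := congrArg (Polynomial.map (Int.castRingHom (ZMod p))) h
    rw [Polynomial.map_add, Polynomial.map_mul, Polynomial.map_mul, ← Polynomial.derivative_map,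
      ← hg, h0, Polynomial.map_C] at h1
    simp only [mul_zero, derivative_zero, add_zero] at h1
    have h2 : (Int.castRingHom (ZMod p)) R = 0 := by
      have := h1.symm
      rwa [Polynomial.C_eq_zero] at this
    exact hR ((ZMod.intCast_zmod_eq_zero_iff_dvd R p).1 h2)
  have h3 : g.roots.toFinset.card ≤ f.natDegree :=
    (Multiset.toFinset_card_le _).trans ((Polynomial.card_roots' g).trans natDegree_map_le)
  refine le_trans (Finset.card_le_card_of_injOn (fun a : ℕ => (a : ZMod p)) ?_ ?_) h3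
  · intro a ha
    simp only [Finset.coe_filter, Finset.mem_range, Set.mem_ofPred_eq] at ha
    simp only [Finset.mem_coe, Multiset.mem_toFinset, Polynomial.mem_roots hg0, IsRoot.def]
    have e : g.eval (a : ZMod p) = ((f.eval (a : ℤ) : ℤ) : ZMod p) := by
      have := Polynomial.eval_intCast_map (Int.castRingHom (ZMod p)) f (a : ℤ)
      rw [Int.cast_natCast] at this
      exact this
    rw [e]
    exact (ZMod.intCast_zmod_eq_zero_iff_dvd _ p).2 (hpk.trans ha.2)
  · intro a ha b hb hab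
    simp only [Finset.coe_filter, Finset.mem_range, Set.mem_ofPred_eq] at ha hb
    have hab' : a ≡ b [MOD p] := (ZMod.natCast_eq_natCast_iff a b p).1 hab
    have hy : (p : ℤ) ∣ (b : ℤ) - a := hab'.dvd
    obtain ⟨c, hc⟩ := f.binomExpansion (a : ℤ) ((b : ℤ) - a)
    rw [add_sub_cancel] at hc
    have hd : ((p ^ k : ℕ) : ℤ) ∣ ((derivative f).eval (a : ℤ) + c * ((b : ℤ) - a)) *
        ((b : ℤ) - a) := by
      have e : ((derivative f).eval (a : ℤ) + c * ((b : ℤ) - a)) * ((b : ℤ) - a) =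
          f.eval (b : ℤ) - f.eval (a : ℤ) := by rw [hc]; ring
      rw [e]; exact dvd_sub hb.2 ha.2
    have hnd : ¬ (p : ℤ) ∣ (derivative f).eval (a : ℤ) + c * ((b : ℤ) - a) := by
      intro hdd
      have h4 : (p : ℤ) ∣ (derivative f).eval (a : ℤ) := by
        have := dvd_sub hdd (Dvd.dvd.mul_left hy c)
        simpa using this
      have h5 := congrArg (Polynomial.eval (a : ℤ)) h
      simp only [eval_add, eval_mul, eval_C] at h5
      apply hR
      rw [← h5]
      exact dvd_add (Dvd.dvd.mul_left (hpk.trans ha.2) _) (Dvd.dvd.mul_left h4 _)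
    have h6 : ((p ^ k : ℕ) : ℤ) ∣ (b : ℤ) - a := by
      push_cast at hd ⊢
      exact hpZ.pow_dvd_of_dvd_mul_left k hnd hd
    exact ((Nat.modEq_iff_dvd).2 h6).eq_of_lt_of_lt ha.1 hb.1

theorem sv_rho_le_self (f : ℤ[X]) {q : ℕ} (hq : 0 < q) : rho f q ≤ q := by
  rw [sv_rho_eq f hq]
  exact (Finset.card_filter_le _ _).trans (by simp)

theorem sv_rho_bound (f : ℤ[X]) (hf : Irreducible (f.map (Int.castRingHom ℚ))) {k : ℕ}
    (hk : 1 ≤ k) : ∃ B : ℕ, ∀ p : ℕ, p.Prime → rho f (p ^ k) ≤ B := by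
  obtain ⟨u, v, R, hR, h⟩ := sv_exists_bezout f hf
  refine ⟨f.natDegree + R.natAbs ^ k, fun p hp => ?_⟩
  by_cases hd : (p : ℤ) ∣ R
  · have h1 : p ≤ R.natAbs := Nat.le_of_dvd (Int.natAbs_pos.2 hR) (Int.natCast_dvd.1 hd)
    have h2 := Nat.pow_le_pow_left h1 k
    have h3 := sv_rho_le_self f (pow_pos hp.pos k)
    omega
  · have := sv_rho_le_of_not_dvd h hp hd hk
    omega

theorem sv_primeCounting (K : ℝ) (hK : 0 < K) {ε : ℝ} (hε : 0 < ε) :
    ∀ᶠ X : ℕ in atTop, (Nat.primeCounting ⌊K * X⌋₊ : ℝ) ≤ ε * X := by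
  have ht : Tendsto (fun X : ℕ => K * (X : ℝ)) atTop atTop :=
    tendsto_natCast_atTop_atTop.const_mul_atTop hK
  have h1 := ht.eventually (Chebyshev.eventually_primeCounting_le one_pos)
  have h2 := (Real.tendsto_log_atTop.comp ht).eventually_ge_atTop ((Real.log 4 + 1) * K / ε)
  have hl : 0 < Real.log 4 + 1 := by
    have := Real.log_nonneg (show (1 : ℝ) ≤ 4 by norm_num); linarith
  filter_upwards [h1, h2] with X hX hX2
  refine hX.trans ?_
  simp only [Function.comp_apply] at hX2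
  have h3 : 0 < (Real.log 4 + 1) * K / ε := by positivity
  have h4 : 0 < Real.log (K * X) := lt_of_lt_of_le h3 hX2
  rw [div_le_iff₀ h4]
  rw [div_le_iff₀ hε] at hX2
  have h5 : (0 : ℝ) ≤ X := Nat.cast_nonneg X
  nlinarith

end Vale.Agent.P018
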