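import Vale.Agent.P018.Defs
import Vale.Agent.P018.SieveAux

open Polynomial Filter Asymptotics

namespace Vale.Agent.P018

open Classical in
/-- number of `1 ≤ n ≤ X` such that `p ^ k ∣ f n` for a prime `p > K X` -/
noncomputable def largeCount (f : ℤ[X]) (k : ℕ) (K : ℝ) (X : ℕ) : ℕ :=
  ((Finset.Icc 1 X).filter
    (fun n : ℕ => ∃ p : ℕ, p.Prime ∧ K * X < p ∧ (p : ℤ) ^ k ∣ f.eval (n : ℤ))).card

open Classical in
/-- number of `|N| ≤ X` such that `p ^ k ∣ g N` for a prime `p > X` -/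
noncomputable def monicCount (g : ℤ[X]) (k : ℕ) (X : ℕ) : ℕ :=
  ((Finset.Icc (-(X : ℤ)) X).filter
    (fun N : ℤ => ∃ p : ℕ, p.Prime ∧ X < p ∧ (p : ℤ) ^ k ∣ g.eval N)).card

/-- the large prime estimate for monic irreducible polynomials of degree `d` -/
def MonicBound (d k : ℕ) : Prop :=
  ∀ g : ℤ[X], g.Monic → g.natDegree = d → Irreducible (g.map (Int.castRingHom ℚ)) →
    (fun X : ℕ => (monicCount g k X : ℝ)) =o[atTop] (fun X : ℕ => (X : ℝ))

open Classical in
theorem sv_powFreeCount_eq (f : ℤ[X]) (k : ℕ) {X : ℝ} (hX : 0 ≤ X) :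
    powFreeCount f k X =
      ((Finset.Icc 1 ⌊X⌋₊).filter (fun n : ℕ => PowFree k (f.eval (n : ℤ)))).card := by
  unfold powFreeCount
  rw [← Nat.card_eq_finsetCard]
  refine Nat.card_congr (Equiv.subtypeEquivRight (fun n => ?_))
  simp only [Finset.mem_filter, Finset.mem_Icc, Nat.le_floor_iff hX, and_assoc]

open Classical in
theorem sv_nat (f : ℤ[X]) (k : ℕ) (B : ℕ)
    (hB : ∀ p : ℕ, p.Prime → rho f (p ^ k) ≤ B) (K : ℝ) (hK : 0 < K)
    (hlarge : (fun X : ℕ => (largeCount f k K X : ℝ)) =o[atTop] (fun X : ℕ => (X : ℝ))) (c : ℝ)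
    (hsum : Summable (fun p : Nat.Primes => (rho f ((p : ℕ) ^ k) : ℝ) / ((p : ℕ) : ℝ) ^ k))
    (hc : HasProd (fun p : Nat.Primes => 1 - (rho f ((p : ℕ) ^ k) : ℝ) / ((p : ℕ) : ℝ) ^ k) c) :
    (fun X : ℕ => (((Finset.Icc 1 X).filter (fun n : ℕ => PowFree k (f.eval (n : ℤ)))).card : ℝ)
      - c * X) =o[atTop] (fun X : ℕ => (X : ℝ)) := by
  rw [isLittleO_iff]
  intro ε hε
  set η : ℝ := ε / 5 with hη
  have hη0 : 0 < η := by positivity
  set t : Nat.Primes → ℝ := fun p => (rho f ((p : ℕ) ^ k) : ℝ) / ((p : ℕ) : ℝ) ^ k with ht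
  obtain ⟨S₀, hS₀⟩ := summable_iff_vanishing_norm.1 hsum η hη0
  have hc' : Tendsto (fun S : Finset Nat.Primes => ∏ p ∈ S, (1 - t p)) atTop (nhds c) := hc
  obtain ⟨S₁, hS₁⟩ := eventually_atTop.1 ((Metric.tendsto_nhds.1 hc') η hη0)
  set S := S₀ ∪ S₁ with hS
  have hS2 : |∏ p ∈ S, (1 - t p) - c| < η := by
    have := hS₁ S Finset.subset_union_right
    rwa [Real.dist_eq] at this
  -- the sieved set
  set q : Nat.Primes → ℕ := fun p => (p : ℕ) ^ k with hq
  have hq0 : ∀ p, 0 < q p := fun p => pow_pos p.2.pos k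
  set D : Nat.Primes → ℕ → Prop := fun p n => ((q p : ℕ) : ℤ) ∣ f.eval (n : ℤ) with hD
  have hDm : ∀ p, ModInv (q p) (D p) := fun p => modInv_dvd f (q p)
  have hrho : ∀ p, (((Finset.range (q p)).filter (D p)).card : ℝ) = rho f (q p) := by
    intro p
    rw [sv_rho_eq f (hq0 p)]
  set Q : ℕ := ∏ p ∈ S, q p with hQ
  have hQ0 : 0 < Q := Finset.prod_pos (fun p _ => hq0 p)
  have hQ0' : (0 : ℝ) < Q := by exact_mod_cast hQ0
  have hPS : ModInv Q (fun n => ∀ p ∈ S, ¬ D p n) := fun a b e ha p hp =>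
    (hDm p).not a b (e.of_dvd (Finset.dvd_prod_of_mem q hp)) (ha p hp)
  set cS : ℝ := (((Finset.range Q).filter (fun n => ∀ p ∈ S, ¬ D p n)).card : ℝ) with hcS
  have hcS0 : 0 ≤ cS := Nat.cast_nonneg _
  have hcSQ : cS ≤ Q := by
    rw [hcS]
    exact_mod_cast (Finset.card_filter_le _ _).trans (by simp)
  have hcS2 : cS / Q = ∏ p ∈ S, (1 - t p) := by
    have h1 := sv_crt_prod S q hq0
      (fun i j hij => Nat.Coprime.pow k k ((Nat.coprime_primes i.2 j.2).2
        (fun e => hij (Subtype.ext e)))) (fun p n => ¬ D p n) (fun p => (hDm p).not)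
    have h2 : cS = ∏ p ∈ S, (((Finset.range (q p)).filter (fun n => ¬ D p n)).card : ℝ) := by
      rw [hcS, ← Nat.cast_prod]
      congr 1
      convert h1
    rw [h2, hQ, Nat.cast_prod, ← Finset.prod_div_distrib]
    refine Finset.prod_congr rfl (fun p _ => ?_)
    have h3 := Finset.card_filter_add_card_filter_not (s := Finset.range (q p)) (D p)
    rw [Finset.card_range] at h3
    have h4 : (((Finset.range (q p)).filter (fun n => ¬ D p n)).card : ℝ) =
        q p - rho f (q p) := by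
      have h3' := congrArg (Nat.cast : ℕ → ℝ) h3
      rw [Nat.cast_add, hrho p] at h3'
      linarith
    have h5 : (0 : ℝ) < q p := by exact_mod_cast hq0 p
    rw [h4, sub_div, div_self h5.ne']
    simp [ht, hq]
  have hB' : (0 : ℝ) < (B : ℝ) + 1 := by positivity
  have e1 := sv_primeCounting K hK (ε := η / ((B : ℝ) + 1)) (by positivity)
  have e2 := isLittleO_iff.1 hlarge hη0
  have e3 : ∀ᶠ X : ℕ in atTop, (Q : ℝ) / η ≤ X :=
    tendsto_natCast_atTop_atTop.eventually_ge_atTop _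
  filter_upwards [e1, e2, e3] with X h1 h2 h3
  have hX0 : (0 : ℝ) ≤ X := Nat.cast_nonneg X
  rw [Real.norm_of_nonneg (Nat.cast_nonneg _), Real.norm_of_nonneg hX0] at h2
  rw [div_le_iff₀ hη0] at h3
  set PF := (Finset.Icc 1 X).filter (fun n : ℕ => PowFree k (f.eval (n : ℤ))) with hPF
  set NS := (Finset.Icc 1 X).filter (fun n => ∀ p ∈ S, ¬ D p n) with hNS
  have hup : (NS.card : ℝ) ≤ cS * (X / Q + 1) := by
    have := sv_card_Icc_le hQ0 hPS X
    convert this
  have hlow : cS * (X / Q - 1) ≤ (NS.card : ℝ) := by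
    have := sv_card_Icc_ge hQ0 hPS X
    convert this
  have hsub : PF ⊆ NS := by
    intro n hn
    rw [Finset.mem_filter] at hn ⊢
    refine ⟨hn.1, fun p _ hp => hn.2 p p.2 ?_⟩
    simpa [hD, hq] using hp
  set T : Finset Nat.Primes :=
    ((Nat.primesLE ⌊K * X⌋₊).attach.image
      (fun p => (⟨p.1, Nat.prime_of_mem_primesLE p.2⟩ : Nat.Primes))) \ S with hT
  have hTcard : T.card ≤ Nat.primeCounting ⌊K * X⌋₊ := by
    rw [← Nat.primesLE_card_eq_primeCounting]
    refine (Finset.card_le_card Finset.sdiff_subset).trans (Finset.card_image_le.trans ?_)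
    simp
  have hTdis : Disjoint T S₀ :=
    Finset.disjoint_of_subset_right Finset.subset_union_left Finset.sdiff_disjoint
  have hTsum : ∑ p ∈ T, t p < η := lt_of_le_of_lt (Real.le_norm_self _) (hS₀ T hTdis)
  set Lg := (Finset.Icc 1 X).filter
    (fun n : ℕ => ∃ p : ℕ, p.Prime ∧ K * X < p ∧ (p : ℤ) ^ k ∣ f.eval (n : ℤ)) with hLg
  have hLg' : (Lg.card : ℝ) = largeCount f k K X := by
    rw [hLg, largeCount]
  have hcover : NS ⊆ PF ∪ (T.biUnion (fun p => (Finset.Icc 1 X).filter (D p)) ∪ Lg) := by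
    intro n hn
    rw [Finset.mem_filter] at hn
    by_cases hpf : PowFree k (f.eval (n : ℤ))
    · exact Finset.mem_union_left _ (Finset.mem_filter.2 ⟨hn.1, hpf⟩)
    · refine Finset.mem_union_right _ ?_
      unfold PowFree at hpf
      push Not at hpf
      obtain ⟨p, hp, hd⟩ := hpf
      by_cases hbig : K * X < p
      · exact Finset.mem_union_right _ (Finset.mem_filter.2 ⟨hn.1, p, hp, hbig, hd⟩)
      · refine Finset.mem_union_left _ (Finset.mem_biUnion.2 ⟨⟨p, hp⟩, ?_, ?_⟩)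
        · refine Finset.mem_sdiff.2 ⟨?_, fun hS => hn.2 _ hS (by simpa [hD, hq] using hd)⟩
          have hmem : p ∈ Nat.primesLE ⌊K * X⌋₊ :=
            Nat.mem_primesLE.2 ⟨Nat.le_floor (not_lt.1 hbig), hp⟩
          exact Finset.mem_image.2 ⟨⟨p, hmem⟩, Finset.mem_attach _ _, rfl⟩
        · exact Finset.mem_filter.2 ⟨hn.1, by simpa [hD, hq] using hd⟩
  have hmid : ((T.biUnion (fun p => (Finset.Icc 1 X).filter (D p))).card : ℝ) ≤ 2 * η * X := by
    have h4 : ((T.biUnion (fun p => (Finset.Icc 1 X).filter (D p))).card : ℝ) ≤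
        ∑ p ∈ T, (((Finset.Icc 1 X).filter (D p)).card : ℝ) := by
      exact_mod_cast Finset.card_biUnion_le
    have h5 : ∀ p ∈ T, (((Finset.Icc 1 X).filter (D p)).card : ℝ) ≤ t p * X + B := by
      intro p _
      have h6 := sv_card_Icc_le (hq0 p) (hDm p) X
      rw [hrho p] at h6
      refine h6.trans ?_
      have h7 : (rho f (q p) : ℝ) ≤ B := by exact_mod_cast hB p p.2
      have h8 : (rho f (q p) : ℝ) * (X / q p) = t p * X := by
        simp only [ht, hq]; push_cast; ring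
      rw [mul_add, h8]; linarith
    have h9 := h4.trans (Finset.sum_le_sum h5)
    rw [Finset.sum_add_distrib, ← Finset.sum_mul, Finset.sum_const, nsmul_eq_mul] at h9
    have h10 : (T.card : ℝ) ≤ η / ((B : ℝ) + 1) * X :=
      le_trans (by exact_mod_cast hTcard) h1
    have h11 : (T.card : ℝ) * B ≤ η * X := by
      have h12 : (T.card : ℝ) * B ≤ (η / ((B : ℝ) + 1) * X) * ((B : ℝ) + 1) :=
        mul_le_mul h10 (by linarith) (Nat.cast_nonneg _) (by positivity)
      have h13 : (η / ((B : ℝ) + 1) * X) * ((B : ℝ) + 1) = η * X := by field_simp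
      linarith
    have h14 : (∑ p ∈ T, t p) * X ≤ η * X := mul_le_mul_of_nonneg_right hTsum.le hX0
    linarith
  have hc1 : (PF.card : ℝ) ≤ NS.card := by exact_mod_cast Finset.card_le_card hsub
  have hc2 : (NS.card : ℝ) ≤ PF.card +
      (((T.biUnion (fun p => (Finset.Icc 1 X).filter (D p))).card : ℝ) + Lg.card) := by
    exact_mod_cast (Finset.card_le_card hcover).trans ((Finset.card_union_le _ _).trans
      (Nat.add_le_add_left (Finset.card_union_le _ _) _))
  rw [Real.norm_of_nonneg hX0, Real.norm_eq_abs, abs_le]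
  rw [abs_lt] at hS2
  have hm : cS * (X / Q) = (∏ p ∈ S, (1 - t p)) * X := by rw [← hcS2]; ring
  have hm1 : (∏ p ∈ S, (1 - t p)) * X ≤ (c + η) * X :=
    mul_le_mul_of_nonneg_right (by linarith) hX0
  have hm2 : (c - η) * X ≤ (∏ p ∈ S, (1 - t p)) * X :=
    mul_le_mul_of_nonneg_right (by linarith) hX0
  have hε5 : ε = 5 * η := by rw [hη]; ring
  have hηX : 0 ≤ η * X := by positivity
  rw [mul_add, hm] at hup
  rw [mul_sub, hm] at hlow
  rw [hε5]
  constructor <;> nlinarith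

theorem sieve (f : ℤ[X]) (k : ℕ) (hf : Irreducible (f.map (Int.castRingHom ℚ))) (hk : 2 ≤ k)
    (hloc : LocalCondition f k) (K : ℝ) (hK : 0 < K)
    (hlarge : (fun X : ℕ => (largeCount f k K X : ℝ)) =o[atTop] (fun X : ℕ => (X : ℝ))) :
    PredictedAsymptotic f k := by
  classical
  obtain ⟨B, hB⟩ := sv_rho_bound f hf (k := k) (by omega)
  have hsum : Summable (fun p : Nat.Primes => (rho f ((p : ℕ) ^ k) : ℝ) / ((p : ℕ) : ℝ) ^ k) := by
    have h1 : Summable (fun n : ℕ => (B : ℝ) * (1 / (n : ℝ) ^ k)) :=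
      (Real.summable_one_div_nat_pow.2 (by omega)).mul_left _
    have h2 : Summable (fun p : Nat.Primes => (B : ℝ) * (1 / ((p : ℕ) : ℝ) ^ k)) :=
      h1.comp_injective (i := fun p : Nat.Primes => (p : ℕ)) (fun a b e => Subtype.ext e)
    refine Summable.of_nonneg_of_le (fun p => by positivity) (fun p => ?_) h2
    rw [mul_one_div]
    have : (rho f ((p : ℕ) ^ k) : ℝ) ≤ B := by exact_mod_cast hB p p.2
    gcongr
  have hpos : ∀ p : Nat.Primes, 0 < 1 - (rho f ((p : ℕ) ^ k) : ℝ) / ((p : ℕ) : ℝ) ^ k := by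
    intro p
    have h1 : (rho f ((p : ℕ) ^ k) : ℝ) < ((p : ℕ) : ℝ) ^ k := by exact_mod_cast hloc p p.2
    have h2 : (0 : ℝ) < ((p : ℕ) : ℝ) ^ k := by exact_mod_cast pow_pos p.2.pos k
    rw [sub_pos, div_lt_one h2]; exact h1
  have hlog : Summable (fun p : Nat.Primes =>
      Real.log (1 - (rho f ((p : ℕ) ^ k) : ℝ) / ((p : ℕ) : ℝ) ^ k)) := by
    have := Real.summable_log_one_add_of_summable hsum.neg
    simpa only [sub_eq_add_neg] using this
  have hc := Real.hasProd_of_hasSum_log hpos hlog.hasSum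
  refine ⟨_, Real.exp_pos _, hc, ?_⟩
  set c := Real.exp (∑' p : Nat.Primes,
    Real.log (1 - (rho f ((p : ℕ) ^ k) : ℝ) / ((p : ℕ) : ℝ) ^ k)) with hcdef
  have h1 := (sv_nat f k B hB K hK hlarge c hsum hc).comp_tendsto
    (tendsto_nat_floor_atTop (α := ℝ))
  have h2 : (fun X : ℝ => ((⌊X⌋₊ : ℕ) : ℝ)) =O[atTop] (fun X : ℝ => X) := by
    refine IsBigO.of_bound 1 ?_
    filter_upwards [eventually_ge_atTop 0] with X hX
    rw [Real.norm_of_nonneg (Nat.cast_nonneg _), Real.norm_of_nonneg hX, one_mul]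
    exact Nat.floor_le hX
  have h3 := h1.trans_isBigO h2
  have h4 : (fun X : ℝ => c * (((⌊X⌋₊ : ℕ) : ℝ) - X)) =o[atTop] (fun X : ℝ => X) := by
    have h5 : (fun X : ℝ => (((⌊X⌋₊ : ℕ) : ℝ) - X)) =O[atTop] (fun _ : ℝ => (1 : ℝ)) := by
      refine IsBigO.of_bound 1 ?_
      filter_upwards [eventually_ge_atTop 0] with X hX
      have := Nat.floor_le hX
      have := Nat.lt_floor_add_one X
      rw [Real.norm_eq_abs, norm_one, mul_one, abs_le]
      constructor <;> linarith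
    exact (h5.trans_isLittleO (isLittleO_const_id_atTop (1 : ℝ))).const_mul_left c
  refine (h3.add h4).congr' ?_ EventuallyEq.rfl
  filter_upwards [eventually_ge_atTop 0] with X hX
  simp only [Function.comp_apply]
  rw [sv_powFreeCount_eq f k hX]
  ring

theorem MonicBound.mono {d k k' : ℕ} (h : MonicBound d k) (hk : k ≤ k') : MonicBound d k' := by
  classical
  intro g hg hd hirr
  refine IsBigO.trans_isLittleO (IsBigO.of_bound 1 (Eventually.of_forall (fun X => ?_)))
    (h g hg hd hirr)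
  rw [Real.norm_of_nonneg (Nat.cast_nonneg _), Real.norm_of_nonneg (Nat.cast_nonneg _), one_mul]
  refine Nat.cast_le.2 (Finset.card_le_card ?_)
  intro N hN
  rw [Finset.mem_filter] at hN ⊢
  obtain ⟨h1, p, hp, h2, h3⟩ := hN
  exact ⟨h1, p, hp, h2, (pow_dvd_pow _ hk).trans h3⟩

theorem large_of_monic (f : ℤ[X]) (k : ℕ) (hf : Irreducible (f.map (Int.castRingHom ℚ)))
    (h : MonicBound f.natDegree k) :
    ∃ K : ℝ, 0 < K ∧
      (fun X : ℕ => (largeCount f k K X : ℝ)) =o[atTop] (fun X : ℕ => (X : ℝ)) := by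
  classical
  have hf0 : f ≠ 0 := by
    rintro rfl
    simp at hf
  have hd : 1 ≤ f.natDegree := by
    have h1 := hf.natDegree_pos
    rwa [natDegree_map_eq_of_injective (RingHom.injective_int _)] at h1
  set a := f.leadingCoeff with ha
  have ha0 : a ≠ 0 := leadingCoeff_ne_zero.2 hf0
  set g := integralNormalization f with hg
  have haQ : (a : ℚ) ≠ 0 := by exact_mod_cast ha0
  have hirr : Irreducible (g.map (Int.castRingHom ℚ)) := by
    let _ : Invertible (a : ℚ) := invertibleOfNonzero haQ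
    have e : algEquivCMulXAddC (a : ℚ) 0 (g.map (Int.castRingHom ℚ)) =
        C ((a : ℚ) ^ (f.natDegree - 1)) * f.map (Int.castRingHom ℚ) := by
      apply Polynomial.funext
      intro x
      have h1 := integralNormalization_eval₂_leadingCoeff_mul hd (Int.castRingHom ℚ) x
      rw [algEquivCMulXAddC_apply, ← Polynomial.comp_eq_aeval, eval_comp]
      simp only [eval_add, eval_mul, eval_C, eval_X, add_zero, eval_map]
      exact h1
    rw [← MulEquiv.irreducible_iff (algEquivCMulXAddC (a : ℚ) 0), e]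
    exact (irreducible_isUnit_mul (isUnit_C.2 (pow_ne_zero _ haQ).isUnit)).2 hf
  have h1 := h g (monic_integralNormalization hf0) natDegree_integralNormalization hirr
  have hA : 0 < a.natAbs := Int.natAbs_pos.2 ha0
  have ht : Tendsto (fun X : ℕ => a.natAbs * X) atTop atTop :=
    tendsto_atTop_mono (fun X => Nat.le_mul_of_pos_left X hA) tendsto_id
  have h2 := h1.comp_tendsto ht
  refine ⟨(a.natAbs : ℝ), by exact_mod_cast hA, ?_⟩
  have h3 : ((fun X : ℕ => (X : ℝ)) ∘ fun X : ℕ => a.natAbs * X) =O[atTop]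
      (fun X : ℕ => (X : ℝ)) := by
    refine IsBigO.of_bound (a.natAbs : ℝ) (Eventually.of_forall (fun X => ?_))
    simp only [Function.comp_apply]
    rw [Real.norm_of_nonneg (Nat.cast_nonneg _), Real.norm_of_nonneg (Nat.cast_nonneg _),
      Nat.cast_mul]
  refine IsBigO.trans_isLittleO (IsBigO.of_bound 1 (Eventually.of_forall (fun X => ?_)))
    (h2.trans_isBigO h3)
  simp only [Function.comp_apply]
  rw [Real.norm_of_nonneg (Nat.cast_nonneg _), Real.norm_of_nonneg (Nat.cast_nonneg _), one_mul]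
  refine Nat.cast_le.2 (Finset.card_le_card_of_injOn (fun n : ℕ => a * (n : ℤ)) ?_ ?_)
  · intro n hn
    rw [Finset.mem_coe, Finset.mem_filter] at hn
    obtain ⟨hn1, p, hp, hp1, hp2⟩ := hn
    rw [Finset.mem_Icc] at hn1
    rw [Finset.mem_coe, Finset.mem_filter, Finset.mem_Icc]
    refine ⟨?_, p, hp, by exact_mod_cast hp1, ?_⟩
    · rw [← abs_le, abs_mul]
      push_cast
      rw [abs_of_nonneg (Int.natCast_nonneg n)]
      exact mul_le_mul_of_nonneg_left (by exact_mod_cast hn1.2) (abs_nonneg a)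
    · have h4 := integralNormalization_eval₂_leadingCoeff_mul hd (RingHom.id ℤ) (n : ℤ)
      simp only [eval₂_id, RingHom.id_apply] at h4
      show (p : ℤ) ^ k ∣ g.eval (a * n)
      rw [hg, ha, h4]
      exact Dvd.dvd.mul_left hp2 _
  · intro n _ m _ hnm
    have := mul_left_cancel₀ ha0 hnm
    exact_mod_cast this

theorem large_of_le (f : ℤ[X]) (k : ℕ) (hf : f ≠ 0) (hk : 1 ≤ k) (h : f.natDegree ≤ k) :
    ∃ K : ℝ, 0 < K ∧
      (fun X : ℕ => (largeCount f k K X : ℝ)) =o[atTop] (fun X : ℕ => (X : ℝ)) := by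
  classical
  set C₀ : ℝ := ∑ i ∈ Finset.range (f.natDegree + 1), |(f.coeff i : ℝ)| with hC₀
  have hC : 0 ≤ C₀ := Finset.sum_nonneg (fun _ _ => abs_nonneg _)
  refine ⟨C₀ + 1, by linarith, ?_⟩
  have h1 : (fun _ : ℕ => (f.natDegree : ℝ)) =o[atTop] (fun X : ℕ => (X : ℝ)) :=
    (isLittleO_const_id_atTop (f.natDegree : ℝ)).comp_tendsto tendsto_natCast_atTop_atTop
  refine IsBigO.trans_isLittleO (IsBigO.of_bound 1 (Eventually.of_forall (fun X => ?_))) h1
  rw [Real.norm_of_nonneg (Nat.cast_nonneg _), Real.norm_of_nonneg (Nat.cast_nonneg _), one_mul]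
  have h3 : f.roots.toFinset.card ≤ f.natDegree :=
    (Multiset.toFinset_card_le _).trans (Polynomial.card_roots' f)
  refine Nat.cast_le.2 (le_trans
    (Finset.card_le_card_of_injOn (fun n : ℕ => (n : ℤ)) ?_ ?_) h3)
  · intro n hn
    rw [Finset.mem_coe, Finset.mem_filter] at hn
    obtain ⟨hn1, p, hp, hp1, hp2⟩ := hn
    rw [Finset.mem_Icc] at hn1
    simp only [Finset.mem_coe, Multiset.mem_toFinset, Polynomial.mem_roots hf, IsRoot.def]
    by_contra hne
    have hX1 : (1 : ℝ) ≤ X := by exact_mod_cast hn1.1.trans hn1.2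
    have hnX : (n : ℝ) ≤ X := by exact_mod_cast hn1.2
    have h4 : ((p : ℝ)) ^ k ≤ |((f.eval (n : ℤ) : ℤ) : ℝ)| := by
      have := Int.le_of_dvd (abs_pos.2 hne) ((dvd_abs _ _).2 hp2)
      exact_mod_cast this
    have h5 : |((f.eval (n : ℤ) : ℤ) : ℝ)| ≤ C₀ * (X : ℝ) ^ k := by
      rw [eval_eq_sum_range, hC₀, Finset.sum_mul]
      push_cast
      refine (Finset.abs_sum_le_sum_abs _ _).trans (Finset.sum_le_sum (fun i hi => ?_))
      rw [abs_mul, abs_of_nonneg (pow_nonneg (Nat.cast_nonneg n : (0 : ℝ) ≤ n) i)]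
      refine mul_le_mul_of_nonneg_left ?_ (abs_nonneg _)
      have hi' : i ≤ k := by rw [Finset.mem_range] at hi; omega
      exact (pow_le_pow_left₀ (Nat.cast_nonneg n) hnX i).trans (pow_le_pow_right₀ hX1 hi')
    have h6 : ((C₀ + 1) * X) ^ k ≤ (p : ℝ) ^ k :=
      pow_le_pow_left₀ (by positivity) hp1.le k
    have h7 : C₀ + 1 ≤ (C₀ + 1) ^ k := le_self_pow₀ (by linarith) (by omega)
    have h8 : (0 : ℝ) < (X : ℝ) ^ k := by positivity
    rw [mul_pow] at h6
    nlinarith
  · intro n _ m _ hnm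
    exact Int.natCast_inj.1 hnm

end Vale.Agent.P018
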