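import Vale.Agent.P018.Setting
import Vale.Agent.P018.Sieve
import Vale.Agent.P018.ConstructAux

namespace Vale.Agent.P018

open NumberField Polynomial Filter Asymptotics

/-- the data attached to one solution -/
structure CxGood {d : ℕ} {L : Type} [Field L] (θ : Fin d → 𝓞 L) (k W : ℕ) (Z : ℝ) (x : Pt d L)
    (c : ℤ) (a b : ℕ) : Prop where
  c0 : c ≠ 0
  b1 : 1 ≤ b
  hW : W < d * a
  hab : k * a + b = W + 3 * k + 1
  prod : ∏ l, al θ x l = ((c * x.p : ℤ) : 𝓞 L)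
  rel : ∀ l, al θ x l ^ k * x.be l = (c : 𝓞 L) ^ k * ((x.N : 𝓞 L) - θ l)
  smallA : ∀ l, Small Z a (al θ x l)
  smallB : ∀ l, Small Z b (x.be l)
  smallV : ∀ j, |(x.v j : ℝ)| ≤ Z ^ a
  big : ∀ l, ∀ φ : L →+* ℂ, Z ≤ ‖φ (al θ x l : L)‖

theorem cx_point {d k W : ℕ} {L : Type} [Field L] [NumberField L] (hd : 2 ≤ d) (hk : 1 ≤ k)
    (hW : 3 * d ≤ W) (g : ℤ[X]) (hgd : g.natDegree = d) (θ : Fin d → 𝓞 L)
    (hg : g.map (algebraMap ℤ (𝓞 L)) = ∏ l, (X - C (θ l)))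
    (hmin : ∀ q : ℤ[X], q ≠ 0 → q.natDegree < d → ∀ l, aeval (θ l) q ≠ 0)
    (B : ℝ) (hB1 : 1 ≤ B) (hBθ : ∀ (φ : L →+* ℂ) l, ‖φ (θ l : L)‖ ≤ B)
    (hBv : ∀ (φ : L →+* ℂ) l (v : Fin d → ℤ) (A : ℝ), 0 ≤ A → (∀ j, |(v j : ℝ)| ≤ A) →
        ‖φ ((∑ j : Fin d, (v j : 𝓞 L) * θ l ^ (j : ℕ) : 𝓞 L) : L)‖ ≤ A * B)
    (Z : ℝ) (hZ : 2 * B ^ (d * k) ≤ Z) (N : ℤ) (p : ℕ) (hp : p.Prime)
    (hN : |(N : ℝ)| ≤ Z ^ W) (hpZ : Z ^ W < p) (hdiv : (p : ℤ) ^ k ∣ g.eval N) :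
    ∃ (x : Pt d L) (c : ℤ) (a b : ℕ), x.N = N ∧ x.p = p ∧ |(c : ℝ)| ≤ B ^ d ∧ a < W + 3 ∧
      CxGood θ k W Z x c a b := by
  classical
  have hdk : d ≤ d * k := Nat.le_mul_of_pos_right _ hk
  have hBdk : B ≤ B ^ (d * k) := le_self_pow₀ hB1 (by omega)
  have hBdk' : B ^ (d - 1) ≤ B ^ (d * k) := pow_le_pow_right₀ hB1 (by omega)
  have hZ2 : 2 ≤ Z := by linarith
  have hZ1 : 1 < Z := by linarith
  have hZ0 : 0 < Z := by linarith
  have hZW : Z ≤ Z ^ W := le_self_pow₀ hZ1.le (by omega)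
  have hZW0 : 0 < Z ^ W := pow_pos hZ0 _
  obtain ⟨A, hA1, hA2⟩ := cx_exists_A (d := d) (by omega) p
  obtain ⟨v, be, c, hc0, hvA, hprod, hrel⟩ :=
    cx_alg (by omega) g hgd θ hg hmin hk N p A hp.pos hA2 hdiv
  obtain ⟨e, he2, heW, hep1, hep2⟩ := cx_exponent (d := d) (by omega) hW Z p hZ1 hpZ
  have hA1' : (A : ℝ) ^ d ≤ p := by exact_mod_cast hA1
  have hA2' : (p : ℝ) < ((A : ℝ) + 1) ^ d := by exact_mod_cast hA2
  have hA0 : (0 : ℝ) ≤ A := Nat.cast_nonneg A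
  have hAup : (A : ℝ) ≤ Z ^ (e + 2) := by
    have h1 : (A : ℝ) ^ d ≤ (Z ^ (e + 2)) ^ d := by
      rw [← pow_mul, mul_comm]; exact hA1'.trans hep2
    exact (pow_le_pow_iff_left₀ hA0 (by positivity) (by omega)).mp h1
  have hAlo : Z ^ (e + 1) < (A : ℝ) + 1 := by
    have h1 : (Z ^ (e + 1)) ^ d < ((A : ℝ) + 1) ^ d := by
      rw [← pow_mul, mul_comm]; exact hep1.trans hA2'
    exact lt_of_pow_lt_pow_left₀ d (by positivity) h1
  have hZe : 1 ≤ Z ^ e := one_le_pow₀ hZ1.le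
  have hZe1 : Z ≤ Z ^ e := le_self_pow₀ hZ1.le (by omega)
  have hAlo' : Z ^ e * B ^ (d - 1) ≤ A := by
    rw [pow_succ] at hAlo
    nlinarith
  have hBd1 : 0 < B ^ (d - 1) := by positivity
  have hApos : (0 : ℝ) < A := lt_of_lt_of_le (by positivity) hAlo'
  have hvA' : ∀ j, |(v j : ℝ)| ≤ A := fun j => by exact_mod_cast hvA j
  set α : Fin d → 𝓞 L := fun l => ∑ j : Fin d, (v j : 𝓞 L) * θ l ^ (j : ℕ) with hα
  have hc1 : (1 : ℝ) ≤ |(c : ℝ)| := by exact_mod_cast Int.one_le_abs hc0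
  have harch : ∀ φ : L →+* ℂ, |(c : ℝ)| ≤ B ^ d ∧ ∀ l, (A : ℝ) ≤ ‖φ (α l : L)‖ * B ^ (d - 1) := by
    intro φ
    refine cx_arch (by omega) (fun l => ‖φ (α l : L)‖) |(c : ℝ)| p A B (fun l => norm_nonneg _)
      hApos (fun l => hBv φ l v A hA0 hvA') hc1 hA1' ?_
    have h1 := congrArg (fun z : 𝓞 L => ‖φ (z : L)‖) hprod
    simp only [map_prod, norm_prod, map_intCast, Complex.norm_intCast] at h1
    simp only [RingOfIntegers.coe_eq_algebraMap, hα]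
    rw [h1]
    push_cast
    rw [abs_mul, Nat.abs_cast]
  have hlow : ∀ (φ : L →+* ℂ) l, Z ^ e ≤ ‖φ (α l : L)‖ := fun φ l =>
    le_of_mul_le_mul_right (hAlo'.trans ((harch φ).2 l)) hBd1
  obtain ⟨φ₀⟩ : Nonempty (L →+* ℂ) := inferInstance
  have hcB : |(c : ℝ)| ≤ B ^ d := (harch φ₀).1
  have hNθ : ∀ (φ : L →+* ℂ) l, ‖φ (((N : 𝓞 L) - θ l : 𝓞 L) : L)‖ ≤ 2 * Z ^ W := by
    intro φ l
    have h1 : (((N : 𝓞 L) - θ l : 𝓞 L) : L) = (N : L) - (θ l : L) := by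
      simp [RingOfIntegers.coe_eq_algebraMap]
    rw [h1, map_sub, map_intCast]
    refine (norm_sub_le _ _).trans ?_
    rw [Complex.norm_intCast]
    have := hBθ φ l
    linarith
  have hke : k * (e + 1) ≤ W := by
    have hg0 : g.eval N ≠ 0 := by
      intro h0
      have h1 := cx_eval_eq_prod g θ hg N
      rw [h0, Int.cast_zero] at h1
      obtain ⟨l, -, hl⟩ := Finset.prod_eq_zero_iff.mp h1.symm
      apply hmin (X - C N) (X_sub_C_ne_zero N) (by rw [natDegree_X_sub_C]; omega) l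
      simp only [map_sub, aeval_X, eq_intCast, map_intCast]
      linear_combination -hl
    have h1 : (p : ℤ) ^ k ≤ |g.eval N| := Int.le_of_dvd (abs_pos.mpr hg0) ((dvd_abs _ _).mpr hdiv)
    have h2 : (p : ℝ) ^ k ≤ |((g.eval N : ℤ) : ℝ)| := by exact_mod_cast h1
    have h3 := congrArg (fun z : 𝓞 L => ‖φ₀ (z : L)‖) (cx_eval_eq_prod g θ hg N)
    simp only [map_prod, norm_prod, map_intCast, Complex.norm_intCast] at h3
    have h4 : ∏ l, ‖φ₀ (algebraMap (𝓞 L) L ((N : 𝓞 L) - θ l))‖ ≤ ∏ _l : Fin d, Z ^ (W + 1) := by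
      refine Finset.prod_le_prod (fun l _ => norm_nonneg _) fun l _ => (hNθ φ₀ l).trans ?_
      rw [pow_succ]
      nlinarith
    rw [Finset.prod_const, Finset.card_univ, Fintype.card_fin, ← h3] at h4
    have h5 : (Z ^ (d * (e + 1))) ^ k < (p : ℝ) ^ k :=
      pow_lt_pow_left₀ hep1 (by positivity) (by omega)
    have h6 := (h5.trans_le h2).trans_le h4
    rw [← pow_mul, ← pow_mul, pow_lt_pow_iff_right₀ hZ1] at h6
    have h7 : d * (k * (e + 1)) < d * (W + 1) := by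
      calc d * (k * (e + 1)) = d * (e + 1) * k := by ring
        _ < (W + 1) * d := h6
        _ = d * (W + 1) := by ring
    have := Nat.lt_of_mul_lt_mul_left h7
    omega
  have hke' : e + 1 ≤ k * (e + 1) := Nat.le_mul_of_pos_left _ hk
  have hke2 : k * (e + 1) = k * e + k := by ring
  refine ⟨⟨N, p, v, be⟩, c, e + 3, W + 1 - k * e, rfl, rfl, hcB, by omega,
    hc0, by omega, ?_, ?_, hprod, hrel, ?_, ?_, ?_, ?_⟩
  · have : d * (e + 2) ≤ d * (e + 3) := Nat.mul_le_mul_left _ (by omega)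
    omega
  · have : k * (e + 3) = k * e + 3 * k := by ring
    omega
  · intro l φ
    refine (hBv φ l v A hA0 hvA').trans ?_
    rw [pow_succ Z (e + 2)]
    exact mul_le_mul hAup (by linarith) (by linarith) (by positivity)
  · intro l φ
    have h1 := congrArg (fun z : 𝓞 L => ‖φ (z : L)‖) (hrel l)
    simp only [map_mul, map_pow, norm_mul, norm_pow, map_intCast, Complex.norm_intCast] at h1
    have h2 : (Z ^ e) ^ k ≤ ‖φ (α l : L)‖ ^ k := pow_le_pow_left₀ (by positivity) (hlow φ l) k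
    have h3 : |(c : ℝ)| ^ k ≤ B ^ (d * k) := by
      rw [pow_mul]; exact pow_le_pow_left₀ (abs_nonneg _) hcB k
    have h4 : |(c : ℝ)| ^ k * ‖φ (algebraMap (𝓞 L) L ((N : 𝓞 L) - θ l))‖
        ≤ B ^ (d * k) * (2 * Z ^ W) :=
      mul_le_mul h3 (hNθ φ l) (norm_nonneg _) (by positivity)
    have h5 : B ^ (d * k) * (2 * Z ^ W) ≤ Z ^ (W + 1) := by
      rw [pow_succ]
      nlinarith
    have h6 : Z ^ (W + 1) = (Z ^ e) ^ k * Z ^ (W + 1 - k * e) := by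
      rw [← pow_mul, ← pow_add]; congr 1; rw [mul_comm e k]; omega
    have h7 : (Z ^ e) ^ k * ‖φ (be l : L)‖ ≤ (Z ^ e) ^ k * Z ^ (W + 1 - k * e) := by
      rw [← h6]
      refine le_trans (mul_le_mul_of_nonneg_right h2 (norm_nonneg _)) ?_
      refine le_trans (le_of_eq ?_) (h4.trans h5)
      exact h1
    exact le_of_mul_le_mul_left h7 (by positivity)
  · intro j
    exact ((hvA' j).trans hAup).trans (pow_le_pow_right₀ hZ1.le (by omega))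
  · intro l φ
    exact hZe1.trans (hlow φ l)

/-- the core bound with the pool of primes removed -/
theorem cx_nopool {d k W : ℕ} {L : Type} [Field L] [NumberField L] (θ : Fin d → 𝓞 L) (hW : 2 ≤ W)
    (hcore : ∀ (c : ℤ) (a b : ℕ), c ≠ 0 → 1 ≤ b → W < d * a → k * a + b = W + 3 * k + 1 →
      ∃ M : ℕ, ∀ Λ : ℝ, ∃ C : ℝ, ∀ᶠ Z : ℝ in atTop, ∀ (S : Finset (Pt d L)) (pool : Finset ℕ),
        Adm θ k c a b W Z S pool → (∀ π ∈ pool, (π : ℝ) ≤ Λ * Z) → pool.card = M →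
        (S.card : ℝ) ≤ C * Z ^ (W - 1)) (c : ℤ) (a : ℕ) :
    ∃ C : ℝ, 0 ≤ C ∧ ∀ᶠ Z : ℝ in atTop, ∀ b : ℕ, c ≠ 0 → 1 ≤ b → W < d * a →
      k * a + b = W + 3 * k + 1 → ∀ S : Finset (Pt d L),
      (∀ pool : Finset ℕ, (∀ π ∈ pool, π.Prime ∧ Z ≤ π ∧ (π : ℝ) ≤ Z ^ W) →
        Adm θ k c a b W Z S pool) → (S.card : ℝ) ≤ C * Z ^ (W - 1) := by
  by_cases hex : ∃ b : ℕ, c ≠ 0 ∧ 1 ≤ b ∧ W < d * a ∧ k * a + b = W + 3 * k + 1
  · obtain ⟨b₀, h1, h2, h3, h4⟩ := hex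
    obtain ⟨M, hM⟩ := hcore c a b₀ h1 h2 h3 h4
    obtain ⟨C, hC⟩ := hM (2 ^ (M + 1))
    refine ⟨max C 0, le_max_right _ _, ?_⟩
    filter_upwards [hC, eventually_ge_atTop (1 : ℝ), eventually_ge_atTop ((2 : ℝ) ^ (M + 1))]
      with Z hZ hZ1 hZ2 b _ _ _ hb S hS
    obtain rfl : b = b₀ := by omega
    have hceil : 1 ≤ ⌈Z⌉₊ := Nat.one_le_iff_ne_zero.mpr (by
      rw [Ne, Nat.ceil_eq_zero]; linarith)
    obtain ⟨T, hT, hTp⟩ := cx_pool M ⌈Z⌉₊ hceil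
    have hc1 : Z ≤ ⌈Z⌉₊ := Nat.le_ceil Z
    have hc2 : (⌈Z⌉₊ : ℝ) < Z + 1 := Nat.ceil_lt_add_one (by linarith)
    have hTle : ∀ π ∈ T, (π : ℝ) ≤ 2 ^ (M + 1) * Z := by
      intro π hπ
      have h5 : (π : ℝ) ≤ 2 ^ M * (⌈Z⌉₊ : ℝ) := by exact_mod_cast (hTp π hπ).2.2
      have h6 : (0 : ℝ) < 2 ^ M := by positivity
      rw [pow_succ]
      nlinarith
    have hZW : Z * Z ≤ Z ^ W := by
      rw [← pow_two]; exact pow_le_pow_right₀ hZ1 hW
    refine (hZ S T (hS T fun π hπ => ⟨(hTp π hπ).1, ?_, ?_⟩) hTle hT).trans ?_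
    · have h5 : (⌈Z⌉₊ : ℝ) < π := by exact_mod_cast (hTp π hπ).2.1
      linarith
    · have := hTle π hπ
      nlinarith
    · exact mul_le_mul_of_nonneg_right (le_max_left _ _) (by positivity)
  · exact ⟨0, le_rfl, Eventually.of_forall fun Z b h1 h2 h3 h4 => absurd ⟨b, h1, h2, h3, h4⟩ hex⟩

theorem monicBound_of_core {d k : ℕ} (hd : 2 ≤ d) (hk : 1 ≤ k) (h : CoreBound d k) :
    MonicBound d k := by
  classical
  intro g hm hgd hi
  obtain ⟨W, hW, hcore⟩ := h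
  obtain ⟨L, _, _, θ, hθ, hg, hmin⟩ := cx_exists_roots g hm hgd hi
  obtain ⟨B, hB1, hBθ, hBv⟩ := cx_exists_bound θ
  choose Cf hCf0 hCf using cx_nopool θ (by omega : 2 ≤ W) (hcore L θ hθ)
  let I : Finset (ℤ × ℕ) := Finset.Icc (-⌈B ^ d⌉) ⌈B ^ d⌉ ×ˢ Finset.range (W + 3)
  have hall := (eventually_all_finset I).mpr (fun i _ => hCf i.1 i.2)
  set K : ℝ := ∑ i ∈ I, Cf i.1 i.2 with hK
  have hW0 : W ≠ 0 := by omega
  have hlim : Tendsto (fun X : ℕ => (X : ℝ) ^ ((W : ℝ)⁻¹)) atTop atTop :=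
    (tendsto_rpow_atTop (by positivity)).comp tendsto_natCast_atTop_atTop
  rw [isLittleO_iff]
  intro ε hε
  filter_upwards [hlim.eventually hall, hlim.eventually (eventually_ge_atTop (2 * B ^ (d * k))),
    hlim.eventually (eventually_ge_atTop (K / ε))] with X₀ h1 h2 h3
  have hZW : ((X₀ : ℝ) ^ ((W : ℝ)⁻¹)) ^ W = X₀ := Real.rpow_inv_natCast_pow (Nat.cast_nonneg _) hW0
  generalize (X₀ : ℝ) ^ ((W : ℝ)⁻¹) = Z at h1 h2 h3 hZW
  have hBdk : 1 ≤ B ^ (d * k) := one_le_pow₀ hB1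
  have hZ1 : 1 ≤ Z := by linarith
  have hZW1 : Z ≤ Z ^ W := le_self_pow₀ hZ1 hW0
  set T := (Finset.Icc (-(X₀ : ℤ)) X₀).filter
    (fun N : ℤ => ∃ p : ℕ, p.Prime ∧ X₀ < p ∧ (p : ℤ) ^ k ∣ g.eval N) with hT
  have hTex : ∀ N ∈ T, ∃ (x : Pt d L) (c : ℤ) (a b : ℕ), x.N = N ∧ |N| ≤ X₀ ∧ x.p.Prime ∧
      X₀ < x.p ∧ (x.p : ℤ) ∣ g.eval N ∧ (c, a) ∈ I ∧ CxGood θ k W Z x c a b := by
    intro N hN
    obtain ⟨hN1, p, hp, hXp, hdiv⟩ := Finset.mem_filter.mp hN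
    have hN2 : |N| ≤ X₀ := abs_le.mpr (Finset.mem_Icc.mp hN1)
    obtain ⟨x, c, a, b, e1, e2, e3, e4, e5⟩ := cx_point hd hk hW g hgd θ hg hmin B hB1 hBθ hBv Z h2
      N p hp (by rw [hZW]; exact_mod_cast hN2) (by rw [hZW]; exact_mod_cast hXp) hdiv
    refine ⟨x, c, a, b, e1, hN2, e2 ▸ hp, e2 ▸ hXp,
      e2 ▸ (dvd_pow_self _ (by omega)).trans hdiv, ?_, e5⟩
    refine Finset.mem_product.mpr ⟨Finset.mem_Icc.mpr (abs_le.mp ?_), Finset.mem_range.mpr e4⟩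
    have : ((|c| : ℤ) : ℝ) ≤ (⌈B ^ d⌉ : ℤ) := by
      push_cast
      exact e3.trans (Int.le_ceil _)
    exact_mod_cast this
  have : Nonempty (Pt d L) := ⟨⟨0, 0, 0, 0⟩⟩
  choose! x c a b hxN hNX hxp hXp hxd hI hgood using hTex
  have hcard : T.card = ∑ i ∈ I, (T.filter (fun N => (c N, a N) = i)).card :=
    Finset.card_eq_sum_card_fiberwise (fun N hN => hI N hN)
  have hfib : ∀ i ∈ I, ((T.filter (fun N => (c N, a N) = i)).card : ℝ)
      ≤ Cf i.1 i.2 * Z ^ (W - 1) := by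
    intro i hi
    set U := T.filter (fun N => (c N, a N) = i) with hU
    rcases U.eq_empty_or_nonempty with hUe | ⟨N₀, hN₀⟩
    · rw [hUe, Finset.card_empty, Nat.cast_zero]
      exact mul_nonneg (hCf0 _ _) (by positivity)
    have hUT : ∀ N ∈ U, N ∈ T := fun N hN => (Finset.mem_filter.mp hN).1
    have hUc : ∀ N ∈ U, c N = i.1 := fun N hN => congrArg Prod.fst (Finset.mem_filter.mp hN).2
    have hUa : ∀ N ∈ U, a N = i.2 := fun N hN => congrArg Prod.snd (Finset.mem_filter.mp hN).2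
    have hUg : ∀ N ∈ U, CxGood θ k W Z (x N) i.1 i.2 (b N₀) := by
      intro N hN
      have g1 := hgood N (hUT N hN)
      have g0 := hgood N₀ (hUT N₀ hN₀)
      rw [hUc N hN, hUa N hN] at g1
      rw [hUc N₀ hN₀, hUa N₀ hN₀] at g0
      have : b N = b N₀ := by have := g1.hab; have := g0.hab; omega
      rwa [this] at g1
    have hinj : Set.InjOn x U := by
      intro N hN N' hN' e
      rw [← hxN N (hUT N hN), ← hxN N' (hUT N' hN'), e]
    have g0 := hUg N₀ hN₀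
    rw [← Finset.card_image_of_injOn hinj]
    refine h1 i hi (b N₀) g0.c0 g0.b1 g0.hW g0.hab _ fun pool hpool => ?_
    have hpZ : ∀ N ∈ U, Z ^ W < (x N).p := fun N hN => by
      rw [hZW]; exact_mod_cast hXp N (hUT N hN)
    refine ⟨?_, ?_, ?_, ?_, ?_, ?_, ?_, ?_, ?_, ?_, ?_, ?_⟩
    · intro y hy y' hy' e
      obtain ⟨N, hN, rfl⟩ := Finset.mem_image.mp hy
      obtain ⟨N', hN', rfl⟩ := Finset.mem_image.mp hy'
      rw [hxN N (hUT N hN), hxN N' (hUT N' hN')] at e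
      rw [e]
    · exact Finset.forall_mem_image.mpr fun N hN => hxp N (hUT N hN)
    · exact Finset.forall_mem_image.mpr fun N hN => hZW1.trans (hpZ N hN).le
    · exact Finset.forall_mem_image.mpr fun N hN => (hUg N hN).prod
    · exact Finset.forall_mem_image.mpr fun N hN => (hUg N hN).rel
    · exact Finset.forall_mem_image.mpr fun N hN => (hUg N hN).smallA
    · exact Finset.forall_mem_image.mpr fun N hN => (hUg N hN).smallB
    · refine Finset.forall_mem_image.mpr fun N hN => ?_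
      rw [hZW, hxN N (hUT N hN)]
      exact_mod_cast hNX N (hUT N hN)
    · exact Finset.forall_mem_image.mpr fun N hN => (hUg N hN).smallV
    · exact Finset.forall_mem_image.mpr fun N hN => (hUg N hN).big
    · intro p
      rw [Finset.filter_image]
      refine Finset.card_image_le.trans ?_
      rcases (U.filter (fun N => (x N).p = p)).eq_empty_or_nonempty with he | ⟨N₁, hN₁⟩
      · rw [he]; exact Nat.zero_le _
      obtain ⟨m1, m2⟩ := Finset.mem_filter.mp hN₁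
      refine cx_fiber g hm hgd p X₀ (m2 ▸ hxp N₁ (hUT N₁ m1)) (m2 ▸ hXp N₁ (hUT N₁ m1)) _ ?_
      intro N hN
      obtain ⟨n1, n2⟩ := Finset.mem_filter.mp hN
      exact ⟨hNX N (hUT N n1), n2 ▸ hxd N (hUT N n1)⟩
    · intro π hπ
      obtain ⟨p1, p2, p3⟩ := hpool π hπ
      refine ⟨p1, p2, Finset.forall_mem_image.mpr fun N hN e => ?_⟩
      have := hpZ N hN
      rw [e] at this
      linarith
  have htot : (T.card : ℝ) ≤ K * Z ^ (W - 1) := by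
    rw [hcard, Nat.cast_sum, hK, Finset.sum_mul]
    exact Finset.sum_le_sum hfib
  have hZs : Z * Z ^ (W - 1) = X₀ := by
    rw [← pow_succ', ← hZW]; congr 1; omega
  have hKε : K ≤ ε * Z := by
    rw [div_le_iff₀ hε] at h3; linarith
  have hmc : monicCount g k X₀ = T.card := rfl
  rw [Real.norm_natCast, Real.norm_natCast, hmc, ← hZs, ← mul_assoc]
  exact htot.trans (mul_le_mul_of_nonneg_right hKε (by positivity))

end Vale.Agent.P018
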