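import Mathlib

open Polynomial Filter Asymptotics

namespace Vale.Agent.P018

/-- `a` is `k`-power-free: no `k`-th power of a prime divides `a`. -/
def PowFree (k : ℕ) (a : ℤ) : Prop := ∀ p : ℕ, p.Prime → ¬ (p : ℤ) ^ k ∣ a

/-- The number of residues `a` modulo `q` with `f(a) = 0` modulo `q`. -/
noncomputable def rho (f : ℤ[X]) (q : ℕ) : ℕ := Nat.card {a : ZMod q // aeval a f = 0}

/-- The number of integers `1 ≤ n ≤ X` with `f(n)` being `k`-power-free. -/
noncomputable def powFreeCount (f : ℤ[X]) (k : ℕ) (X : ℝ) : ℕ :=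
  Nat.card {n : ℕ // 1 ≤ n ∧ (n : ℝ) ≤ X ∧ PowFree k (f.eval (n : ℤ))}

/-- The local condition at exponent `k`. -/
def LocalCondition (f : ℤ[X]) (k : ℕ) : Prop := ∀ p : ℕ, p.Prime → rho f (p ^ k) < p ^ k

/-- The predicted asymptotic: the Euler product converges to a positive number `c` and the count is
`c X + o(X)`. -/
def PredictedAsymptotic (f : ℤ[X]) (k : ℕ) : Prop :=
  ∃ c : ℝ, 0 < c ∧
    HasProd (fun p : Nat.Primes => 1 - (rho f ((p : ℕ) ^ k) : ℝ) / ((p : ℕ) : ℝ) ^ k) c ∧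
    (fun X : ℝ => (powFreeCount f k X : ℝ) - c * X) =o[atTop] (fun X : ℝ => X)

end Vale.Agent.P018
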