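import Mathlib

namespace Vale.Agent.P018

variable {O : Type} [CommRing O] {X σ : Type}

/-- `f` is, on `A`, a `q`-adic limit of polynomials in the generators `δ` -/
def InCl (A : Finset X) (q : O) (δ : σ → X → O) (f : X → O) : Prop :=
  ∀ s : ℕ, ∃ P : MvPolynomial σ O, ∀ x ∈ A, q ^ s ∣ f x - MvPolynomial.eval (fun i => δ i x) P

variable {A : Finset X} {q : O} {δ : σ → X → O}

theorem InCl.const (c : O) : InCl A q δ (fun _ => c) := by
  intro s
  exact ⟨MvPolynomial.C c, fun x _ => by simp⟩

theorem InCl.gen (i : σ) : InCl A q δ (δ i) := by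
  intro s
  exact ⟨MvPolynomial.X i, fun x _ => by simp⟩

theorem InCl.congr {f g : X → O} (h : InCl A q δ f) (hfg : ∀ x ∈ A, f x = g x) : InCl A q δ g := by
  intro s
  obtain ⟨P, hP⟩ := h s
  exact ⟨P, fun x hx => hfg x hx ▸ hP x hx⟩

theorem InCl.add {f g : X → O} (hf : InCl A q δ f) (hg : InCl A q δ g) :
    InCl A q δ (fun x => f x + g x) := by
  intro s
  obtain ⟨P, hP⟩ := hf s
  obtain ⟨Q, hQ⟩ := hg s
  refine ⟨P + Q, fun x hx => ?_⟩
  have h := dvd_add (hP x hx) (hQ x hx)
  rw [map_add]
  have e : f x + g x - (MvPolynomial.eval (fun i => δ i x) P + MvPolynomial.eval (fun i => δ i x) Q)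
      = f x - MvPolynomial.eval (fun i => δ i x) P + (g x - MvPolynomial.eval (fun i => δ i x) Q) := by
    ring
  rw [e]; exact h

theorem InCl.sub {f g : X → O} (hf : InCl A q δ f) (hg : InCl A q δ g) :
    InCl A q δ (fun x => f x - g x) := by
  intro s
  obtain ⟨P, hP⟩ := hf s
  obtain ⟨Q, hQ⟩ := hg s
  refine ⟨P - Q, fun x hx => ?_⟩
  have h := dvd_sub (hP x hx) (hQ x hx)
  rw [map_sub]
  have e : f x - g x - (MvPolynomial.eval (fun i => δ i x) P - MvPolynomial.eval (fun i => δ i x) Q)
      = f x - MvPolynomial.eval (fun i => δ i x) P - (g x - MvPolynomial.eval (fun i => δ i x) Q) := by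
    ring
  rw [e]; exact h

theorem InCl.mul {f g : X → O} (hf : InCl A q δ f) (hg : InCl A q δ g) :
    InCl A q δ (fun x => f x * g x) := by
  intro s
  obtain ⟨P, hP⟩ := hf s
  obtain ⟨Q, hQ⟩ := hg s
  refine ⟨P * Q, fun x hx => ?_⟩
  have h := dvd_add (Dvd.dvd.mul_right (hP x hx) (g x))
    (Dvd.dvd.mul_left (hQ x hx) (MvPolynomial.eval (fun i => δ i x) P))
  rw [map_mul]
  have e : f x * g x - (MvPolynomial.eval (fun i => δ i x) P * MvPolynomial.eval (fun i => δ i x) Q)
      = (f x - MvPolynomial.eval (fun i => δ i x) P) * g x +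
        MvPolynomial.eval (fun i => δ i x) P * (g x - MvPolynomial.eval (fun i => δ i x) Q) := by
    ring
  rw [e]; exact h

theorem InCl.pow {f : X → O} (hf : InCl A q δ f) (n : ℕ) : InCl A q δ (fun x => f x ^ n) := by
  induction n with
  | zero => exact (InCl.const 1).congr (fun x _ => by simp)
  | succ n ih => exact (ih.mul hf).congr (fun x _ => by simp [pow_succ])

theorem InCl.sum {ι : Type} (s : Finset ι) {f : ι → X → O} (hf : ∀ i ∈ s, InCl A q δ (f i)) :
    InCl A q δ (fun x => ∑ i ∈ s, f i x) := by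
  classical
  induction s using Finset.induction_on with
  | empty => exact (InCl.const 0).congr (fun x _ => by simp)
  | insert a s ha ih =>
    have h1 := hf a (Finset.mem_insert_self a s)
    have h2 := ih (fun i hi => hf i (Finset.mem_insert_of_mem hi))
    exact (h1.add h2).congr (fun x _ => by simp [Finset.sum_insert ha])

theorem InCl.prod {ι : Type} (s : Finset ι) {f : ι → X → O} (hf : ∀ i ∈ s, InCl A q δ (f i)) :
    InCl A q δ (fun x => ∏ i ∈ s, f i x) := by
  classical
  induction s using Finset.induction_on with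
  | empty => exact (InCl.const 1).congr (fun x _ => by simp)
  | insert a s ha ih =>
    have h1 := hf a (Finset.mem_insert_self a s)
    have h2 := ih (fun i hi => hf i (Finset.mem_insert_of_mem hi))
    exact (h1.mul h2).congr (fun x _ => by simp [Finset.prod_insert ha])

theorem dd_eval_sub_const (v : σ → O) (hv : ∀ i, q ∣ v i) (P : MvPolynomial σ O) :
    q ∣ MvPolynomial.eval v P - MvPolynomial.constantCoeff P := by
  induction P using MvPolynomial.induction_on with
  | C a => simp
  | add P Q hP hQ =>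
    have h := dvd_add hP hQ
    rw [map_add, map_add]
    have e : MvPolynomial.eval v P + MvPolynomial.eval v Q -
        (MvPolynomial.constantCoeff P + MvPolynomial.constantCoeff Q) =
        MvPolynomial.eval v P - MvPolynomial.constantCoeff P +
          (MvPolynomial.eval v Q - MvPolynomial.constantCoeff Q) := by ring
    rw [e]; exact h
  | mul_X P i _ =>
    simp only [map_mul, MvPolynomial.eval_X, MvPolynomial.constantCoeff_X, mul_zero, sub_zero]
    exact Dvd.dvd.mul_left (hv i) _

theorem InCl.dvd_sub (hδ : ∀ i, ∀ x ∈ A, q ∣ δ i x) {f : X → O} (hf : InCl A q δ f) {x y : X}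
    (hx : x ∈ A) (hy : y ∈ A) : q ∣ f x - f y := by
  obtain ⟨P, hP⟩ := hf 1
  have h1 := hP x hx
  have h2 := hP y hy
  rw [pow_one] at h1 h2
  have h3 := dd_eval_sub_const (q := q) (fun i => δ i x) (fun i => hδ i x hx) P
  have h4 := dd_eval_sub_const (q := q) (fun i => δ i y) (fun i => hδ i y hy) P
  have h := _root_.dvd_sub (dvd_add h1 h3) (dvd_add h2 h4)
  have e : f x - f y = f x - MvPolynomial.eval (fun i => δ i x) P +
      (MvPolynomial.eval (fun i => δ i x) P - MvPolynomial.constantCoeff P) -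
      (f y - MvPolynomial.eval (fun i => δ i y) P +
      (MvPolynomial.eval (fun i => δ i y) P - MvPolynomial.constantCoeff P)) := by ring
  rw [e]; exact h

theorem InCl.of_approx {f : X → O}
    (h : ∀ s : ℕ, ∃ g : X → O, InCl A q δ g ∧ ∀ x ∈ A, q ^ s ∣ f x - g x) : InCl A q δ f := by
  intro s
  obtain ⟨g, hg, hfg⟩ := h s
  obtain ⟨P, hP⟩ := hg s
  refine ⟨P, fun x hx => ?_⟩
  have h := dvd_add (hfg x hx) (hP x hx)
  have e : f x - MvPolynomial.eval (fun i => δ i x) P =
      f x - g x + (g x - MvPolynomial.eval (fun i => δ i x) P) := by ring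
  rw [e]; exact h

/-- division by a function whose value at the base point is a unit modulo `q` -/
theorem InCl.div (hδ : ∀ i, ∀ x ∈ A, q ∣ δ i x) {u z : X → O} (hu : InCl A q δ u)
    (huz : InCl A q δ (fun x => u x * z x)) {x₀ : X} (hx₀ : x₀ ∈ A) {u' : O}
    (hu' : q ∣ 1 - u' * u x₀) : InCl A q δ z := by
  have hv : InCl A q δ (fun x => 1 - u' * u x) := (InCl.const 1).sub ((InCl.const u').mul hu)
  have hvq : ∀ x ∈ A, q ∣ 1 - u' * u x := by
    intro x hx
    have h := dvd_add (hv.dvd_sub hδ hx hx₀) hu'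
    simpa using h
  apply InCl.of_approx
  intro s
  refine ⟨fun x => (∑ i ∈ Finset.range s, (1 - u' * u x) ^ i) * (u' * (u x * z x)), ?_, ?_⟩
  · exact (InCl.sum _ (fun i _ => hv.pow i)).mul ((InCl.const u').mul huz)
  · intro x hx
    have h := geom_sum_mul_neg (1 - u' * u x) s
    have e : z x - (∑ i ∈ Finset.range s, (1 - u' * u x) ^ i) * (u' * (u x * z x)) =
        (1 - u' * u x) ^ s * z x := by
      have e2 : (∑ i ∈ Finset.range s, (1 - u' * u x) ^ i) * (u' * (u x * z x)) =
          ((∑ i ∈ Finset.range s, (1 - u' * u x) ^ i) * (1 - (1 - u' * u x))) * z x := by ring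
      rw [e2, h]; ring
    show q ^ s ∣ z x - (∑ i ∈ Finset.range s, (1 - u' * u x) ^ i) * (u' * (u x * z x))
    rw [e]
    exact Dvd.dvd.mul_right (pow_dvd_pow_of_dvd (hvq x hx) s) _

/-- Hensel's lemma: `∑ e ∈ range n, c e x * z x ^ e = 0` with unit derivative at the base point -/
theorem InCl.hensel (hδ : ∀ i, ∀ x ∈ A, q ∣ δ i x) {n : ℕ} {c : ℕ → X → O} {z : X → O}
    (hc : ∀ e, InCl A q δ (c e)) {x₀ : X} (hx₀ : x₀ ∈ A) (hz : ∀ x ∈ A, q ∣ z x - z x₀)
    (heq : ∀ x ∈ A, ∑ e ∈ Finset.range n, c e x * z x ^ e = 0) {u' : O}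
    (hu' : q ∣ 1 - u' * ∑ e ∈ Finset.range n, (e : O) * c e x₀ * z x₀ ^ (e - 1)) :
    InCl A q δ z := by
  have key : ∀ s : ℕ, ∃ g : X → O, InCl A q δ g ∧ ∀ x ∈ A, q ^ (s + 1) ∣ z x - g x := by
    intro s
    induction s with
    | zero => exact ⟨fun _ => z x₀, InCl.const _, fun x hx => by simpa using hz x hx⟩
    | succ s ih =>
      obtain ⟨g, hg, hzg⟩ := ih
      refine ⟨fun x => g x - u' * ∑ e ∈ Finset.range n, c e x * g x ^ e, ?_, ?_⟩
      · exact hg.sub ((InCl.const u').mul (InCl.sum _ (fun e _ => (hc e).mul (hg.pow e))))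
      · intro x hx
        set D : O := ∑ e ∈ Finset.range n,
          c e x * ∑ i ∈ Finset.range e, z x ^ i * g x ^ (e - 1 - i) with hD
        have h1 : D * (z x - g x) = - ∑ e ∈ Finset.range n, c e x * g x ^ e := by
          rw [hD, Finset.sum_mul]
          have : ∀ e ∈ Finset.range n,
              (c e x * ∑ i ∈ Finset.range e, z x ^ i * g x ^ (e - 1 - i)) * (z x - g x) =
              c e x * z x ^ e - c e x * g x ^ e := by
            intro e _
            rw [mul_assoc, geom_sum₂_mul]; ring
          rw [Finset.sum_congr rfl this, Finset.sum_sub_distrib, heq x hx, zero_sub]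
        have h2 : z x - (g x - u' * ∑ e ∈ Finset.range n, c e x * g x ^ e) =
            (z x - g x) * (1 - u' * D) := by
          have : ∑ e ∈ Finset.range n, c e x * g x ^ e = - (D * (z x - g x)) := by
            rw [h1, neg_neg]
          rw [this]; ring
        show q ^ (s + 1 + 1) ∣ z x - (g x - u' * ∑ e ∈ Finset.range n, c e x * g x ^ e)
        rw [h2, pow_succ q (s + 1)]
        refine mul_dvd_mul (hzg x hx) ?_
        -- reduce modulo q
        let π := Ideal.Quotient.mk (Ideal.span {q})
        have hπ : ∀ a : O, π a = 0 ↔ q ∣ a := fun a => by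
          rw [Ideal.Quotient.eq_zero_iff_mem, Ideal.mem_span_singleton]
        have hπ2 : ∀ a b : O, q ∣ a - b → π a = π b := fun a b h => by
          have := (hπ _).2 h
          rwa [map_sub, sub_eq_zero] at this
        have e1 : π (z x) = π (z x₀) := hπ2 _ _ (hz x hx)
        have e2 : π (g x) = π (z x₀) := by
          rw [← e1]
          exact (hπ2 _ _ ((dvd_pow_self q (Nat.succ_ne_zero s)).trans (hzg x hx))).symm
        have e3 : ∀ e, π (c e x) = π (c e x₀) := fun e => hπ2 _ _ ((hc e).dvd_sub hδ hx hx₀)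
        have e4 : π D = π (∑ e ∈ Finset.range n, (e : O) * c e x₀ * z x₀ ^ (e - 1)) := by
          rw [hD]
          simp only [map_sum, map_mul, map_pow, e1, e2, e3, map_natCast]
          refine Finset.sum_congr rfl (fun e _ => ?_)
          rw [geom_sum₂_self]; ring
        have e5 := (hπ _).2 hu'
        rw [← hπ]
        rw [map_sub, map_mul] at e5 ⊢
        rw [e4]; exact e5
  apply InCl.of_approx
  intro s
  obtain ⟨g, hg, hzg⟩ := key s
  exact ⟨g, hg, fun x hx => (pow_dvd_pow q (Nat.le_succ s)).trans (hzg x hx)⟩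

theorem dd_count [Fintype σ] {H : ℕ} (r : Fin H → (σ →₀ ℕ)) (hr : Function.Injective r) (Y : ℕ) :
    ∑ l, (Y + 1 - ∑ i, r l i) ≤ (Y + 1 + Fintype.card σ).choose (Fintype.card σ + 1) := by
  classical
  let S : Finset (Σ _ : Fin H, ℕ) :=
    (Finset.univ : Finset (Fin H)).sigma (fun l => Finset.range (Y + 1 - ∑ i, r l i))
  have hS : S.card = ∑ l, (Y + 1 - ∑ i, r l i) := by
    simp [S, Finset.card_sigma]
  let F : (Σ _ : Fin H, ℕ) → (Option (Option σ) →₀ ℕ) := fun p =>
    Finsupp.equivFunOnFinite.symm (fun o => match o with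
      | none => Y - (∑ i, r p.1 i) - p.2
      | some none => p.2
      | some (some i) => r p.1 i)
  have hT := Finset.card_finsuppAntidiag_nat_eq_choose
    (s := (Finset.univ : Finset (Option (Option σ)))) Y
  have hle : S.card ≤ ((Finset.univ : Finset (Option (Option σ))).finsuppAntidiag Y).card := by
    apply Finset.card_le_card_of_injOn F
    · intro p hp
      have hp' : p.2 < Y + 1 - ∑ i, r p.1 i := by
        simpa [S] using hp
      simp only [Finset.mem_coe, Finset.mem_finsuppAntidiag,
        Finset.subset_univ, and_true]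
      simp only [Fintype.sum_option, F, Finsupp.equivFunOnFinite_symm_apply_apply]
      omega
    · intro p _ p' _ h
      have h1 : p.2 = p'.2 := by
        have := DFunLike.congr_fun h (some none)
        simpa [F] using this
      have h2 : p.1 = p'.1 := by
        apply hr
        ext i
        have := DFunLike.congr_fun h (some (some i))
        simpa [F] using this
      obtain ⟨a, b⟩ := p
      obtain ⟨a', b'⟩ := p'
      simp only at h1 h2
      subst h1 h2
      rfl
  rw [hS, hT] at hle
  refine hle.trans (le_of_eq ?_)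
  simp only [Finset.card_univ, Fintype.card_option]
  rw [show Fintype.card σ + 1 + 1 + Y - 1 = Y + 1 + Fintype.card σ by omega]
  exact Nat.choose_symm_of_eq_add (by omega)

theorem dd_sum_ge [Fintype σ] {H : ℕ} (r : Fin H → (σ →₀ ℕ)) (hr : Function.Injective r) (Y s : ℕ)
    (hs : (Fintype.card σ + 1).factorial * s + (Y + Fintype.card σ) ^ (Fintype.card σ + 1) ≤
      (Fintype.card σ + 1).factorial * (Y * H)) : s ≤ ∑ l, ∑ i, r l i := by
  have hpos := Nat.factorial_pos (Fintype.card σ + 1)
  rcases Y with _ | Y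
  · have : (Fintype.card σ + 1).factorial * s = 0 := by
      simp only [zero_mul, mul_zero] at hs
      omega
    rcases Nat.mul_eq_zero.1 this with h | h
    · omega
    · omega
  · have h1 := dd_count r hr Y
    have h2 : (Fintype.card σ + 1).factorial *
        (Y + 1 + Fintype.card σ).choose (Fintype.card σ + 1) ≤
        (Y + 1 + Fintype.card σ) ^ (Fintype.card σ + 1) := by
      rw [← Nat.descFactorial_eq_factorial_mul_choose]
      exact Nat.descFactorial_le_pow _ _
    have h3 : (Y + 1) * H ≤ ∑ l, ∑ i, r l i + ∑ l, (Y + 1 - ∑ i, r l i) := by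
      rw [← Finset.sum_add_distrib]
      calc (Y + 1) * H = ∑ _l : Fin H, (Y + 1) := by simp [mul_comm]
        _ ≤ _ := Finset.sum_le_sum (fun l _ => by omega)
    have h4 : (Fintype.card σ + 1).factorial * s ≤
        (Fintype.card σ + 1).factorial * ∑ l, ∑ i, r l i := by
      have h5 := Nat.mul_le_mul_left (Fintype.card σ + 1).factorial h3
      have h6 := Nat.mul_le_mul_left (Fintype.card σ + 1).factorial h1
      rw [mul_add] at h5
      omega
    exact Nat.le_of_mul_le_mul_left h4 hpos

theorem InCl.pow_dvd_det [Fintype σ] (hδ : ∀ i, ∀ x ∈ A, q ∣ δ i x) {H : ℕ} {f : Fin H → X → O}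
    (hf : ∀ l, InCl A q δ (f l)) (pts : Fin H → X) (hpts : ∀ j, pts j ∈ A) (Y s : ℕ)
    (hs : (Fintype.card σ + 1).factorial * s + (Y + Fintype.card σ) ^ (Fintype.card σ + 1) ≤
      (Fintype.card σ + 1).factorial * (Y * H)) :
    q ^ s ∣ (Matrix.of (fun l j => f l (pts j))).det := by
  classical
  choose P hP using fun l => hf l s
  choose w hw using fun i j => hδ i (pts j) (hpts j)
  -- monomial rows
  let m : (σ →₀ ℕ) → (Fin H → O) := fun ν j => ∏ i, w i j ^ ν i
  have hrow : ∀ l, (fun j => MvPolynomial.eval (fun i => δ i (pts j)) (P l)) =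
      ∑ ν ∈ (P l).support, ((P l).coeff ν * q ^ (∑ i, ν i)) • m ν := by
    intro l
    funext j
    rw [MvPolynomial.eval_eq', Finset.sum_apply]
    refine Finset.sum_congr rfl (fun ν _ => ?_)
    simp only [Pi.smul_apply, smul_eq_mul, m, hw, mul_pow, Finset.prod_mul_distrib,
      Finset.prod_pow_eq_pow_sum]
    ring
  have hP' : q ^ s ∣ (Matrix.of (fun l j =>
      MvPolynomial.eval (fun i => δ i (pts j)) (P l))).det := by
    have e : (Matrix.of (fun l j => MvPolynomial.eval (fun i => δ i (pts j)) (P l))).det =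
        (Matrix.detRowAlternating : (Fin H → O) [⋀^Fin H]→ₗ[O] O).toMultilinearMap
          (fun l => ∑ ν ∈ (P l).support, ((P l).coeff ν * q ^ (∑ i, ν i)) • m ν) := by
      have : (fun l => ∑ ν ∈ (P l).support, ((P l).coeff ν * q ^ (∑ i, ν i)) • m ν) =
          fun l j => MvPolynomial.eval (fun i => δ i (pts j)) (P l) := by
        funext l; exact (hrow l).symm
      rw [this]; rfl
    rw [e, MultilinearMap.map_sum_finset]
    refine Finset.dvd_sum (fun r _ => ?_)
    rw [MultilinearMap.map_smul_univ]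
    by_cases hr : Function.Injective r
    · rw [Finset.prod_mul_distrib, Finset.prod_pow_eq_pow_sum, smul_eq_mul]
      exact Dvd.dvd.mul_right (Dvd.dvd.mul_left (pow_dvd_pow q (dd_sum_ge r hr Y s hs)) _) _
    · have : (Matrix.detRowAlternating : (Fin H → O) [⋀^Fin H]→ₗ[O] O) (fun l => m (r l)) = 0 := by
        apply AlternatingMap.map_eq_zero_of_not_injective
        intro hinj
        exact hr (Function.Injective.of_comp (f := m) hinj)
      have h2 : (Matrix.detRowAlternating : (Fin H → O) [⋀^Fin H]→ₗ[O] O).toMultilinearMap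
          (fun l => m (r l)) = 0 := this
      rw [h2, smul_zero]
      exact dvd_zero _
  let π := Ideal.Quotient.mk (Ideal.span {q ^ s})
  have hπ : ∀ a : O, π a = 0 ↔ q ^ s ∣ a := fun a => by
    rw [Ideal.Quotient.eq_zero_iff_mem, Ideal.mem_span_singleton]
  have hπ2 : ∀ a b : O, q ^ s ∣ a - b → π a = π b := fun a b h => by
    have := (hπ _).2 h
    rwa [map_sub, sub_eq_zero] at this
  rw [← hπ] at hP' ⊢
  rw [← hP', RingHom.map_det, RingHom.map_det]
  congr 1
  ext l j
  simp only [RingHom.mapMatrix_apply, Matrix.map_apply, Matrix.of_apply]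
  exact hπ2 _ _ (hP l (pts j) (hpts j))

end Vale.Agent.P018
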