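import Vale.Agent.P018.Stage

namespace Vale.Agent.P018

open NumberField Filter Polynomial

variable {d : ℕ} {L : Type} [Field L] [NumberField L] {p : Par d L}

theorem exists_vandermonde_inv (hp : p.Ok) : ∃ w : Fin d → Fin d → L,
    ∀ (x : Pt d L) (j : Fin d), ((x.v j : ℤ) : L) = ∑ l, w j l * p.alL x l := by
  set V : Matrix (Fin d) (Fin d) L := Matrix.vandermonde (fun l => (p.θ l : L)) with hV
  have hinj : Function.Injective (fun l => (p.θ l : L)) := fun a b h =>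
    hp.inj (RingOfIntegers.coe_injective h)
  have hdet : V.det ≠ 0 := Matrix.det_vandermonde_ne_zero_iff.2 hinj
  refine ⟨fun j l => V⁻¹ j l, fun x j => ?_⟩
  have h1 : (fun l => p.alL x l) = V.mulVec (fun j => ((x.v j : ℤ) : L)) := by
    funext l
    simp [Par.alL, al, Matrix.mulVec, dotProduct, hV, Matrix.vandermonde, mul_comm]
  have h2 : V⁻¹.mulVec (fun l => p.alL x l) = fun j => ((x.v j : ℤ) : L) := by
    rw [h1, Matrix.mulVec_mulVec, Matrix.nonsing_inv_mul _ (isUnit_iff_ne_zero.2 hdet),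
      Matrix.one_mulVec]
  have := congrFun h2 j
  simpa [Matrix.mulVec, dotProduct] using this.symm

theorem Par.dim_lev (hp : p.Ok) {r : ℕ} (hr : 1 ≤ r) : p.Dim (p.Lev r) r := by
  intro D
  obtain ⟨C, hC⟩ := classCount d D r hr
  obtain ⟨w, hw⟩ := exists_vandermonde_inv hp
  refine ⟨C, Eventually.of_forall fun Z S pool hA A hS hL π hπ => ?_⟩
  exact hC L (Pt d L) A p.alL Pt.N Pt.v w (fun x _ j => hw x j)
    (hA.injN.mono (by exact_mod_cast hS)) (fun I hI => by simpa [Par.Eqn, Par.evx] using hL I hI) π hπ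

variable {Z : ℝ} {S : Finset (Pt d L)} {pool : Finset ℕ}

omit [NumberField L] in
theorem al_dvd (hA : p.Adm Z S pool) {x : Pt d L} (hx : x ∈ S) (l : Fin d) :
    al p.θ x l ∣ ((p.c * x.p : ℤ) : 𝓞 L) := by
  rw [← hA.prod x hx]
  exact Finset.dvd_prod_of_mem _ (Finset.mem_univ l)

theorem al_ne_zero (hp : p.Ok) (hA : p.Adm Z S pool) {x : Pt d L} (hx : x ∈ S) (l : Fin d) :
    al p.θ x l ≠ 0 := by
  intro h
  have h1 := al_dvd hA hx l
  rw [h, zero_dvd_iff] at h1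
  have h2 : p.c * (x.p : ℤ) = 0 := by exact_mod_cast h1
  have := (hA.prime x hx).ne_zero
  rcases mul_eq_zero.1 h2 with h | h
  · exact hp.c_ne h
  · exact this (by exact_mod_cast h)

theorem alL_ne_zero (hp : p.Ok) (hA : p.Adm Z S pool) {x : Pt d L} (hx : x ∈ S) (l : Fin d) :
    p.alL x l ≠ 0 := by
  intro h
  exact al_ne_zero hp hA hx l (RingOfIntegers.coe_injective (by simpa [Par.alL] using h))

theorem prime_dvd_of_al_dvd (hp : p.Ok) (hA : p.Adm Z S pool) (hZ : |(p.c : ℝ)| < Z) {x : Pt d L}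
    (hx : x ∈ S) (l : Fin d) {M : ℤ} (h : al p.θ x l ∣ (M : 𝓞 L)) : (x.p : ℤ) ∣ M := by
  by_contra hM
  have hpr : Prime (x.p : ℤ) := Nat.prime_iff_prime_int.1 (hA.prime x hx)
  have hco : IsCoprime (x.p : ℤ) M := (hpr.coprime_iff_not_dvd).2 hM
  obtain ⟨u, v, huv⟩ := hco
  have h1 : al p.θ x l ∣ (p.c : 𝓞 L) := by
    have : (p.c : 𝓞 L) = (u : 𝓞 L) * ((p.c * x.p : ℤ) : 𝓞 L) + (p.c * v : ℤ) * (M : 𝓞 L) := by
      have : p.c = u * (p.c * x.p) + (p.c * v) * M := by linear_combination (-p.c) * huv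
      exact_mod_cast congrArg (fun z : ℤ => (z : 𝓞 L)) this
    rw [this]
    exact dvd_add (Dvd.dvd.mul_left (al_dvd hA hx l) _) (Dvd.dvd.mul_left h _)
  obtain ⟨γ, hγ⟩ := h1
  have hγ0 : γ = 0 := by
    refine eq_zero_of_norm_lt_one γ fun φ => ?_
    have h2 := hA.big x hx l φ
    have h3 : ‖φ (al p.θ x l : L)‖ * ‖φ (γ : L)‖ = |(p.c : ℝ)| := by
      rw [← norm_mul, ← map_mul]
      have : ((al p.θ x l : L) * (γ : L)) = (p.c : L) := by
        have := congrArg (fun z : 𝓞 L => (z : L)) hγ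
        simpa using this.symm
      rw [this, map_intCast, Complex.norm_intCast]
    by_contra hcon
    push Not at hcon
    have : ‖φ (al p.θ x l : L)‖ * 1 ≤ ‖φ (al p.θ x l : L)‖ * ‖φ (γ : L)‖ :=
      mul_le_mul_of_nonneg_left hcon (norm_nonneg _)
    linarith
  rw [hγ0, mul_zero] at hγ
  exact hp.c_ne (by exact_mod_cast hγ)

omit [NumberField L] in
theorem not_dvd_of_lt (hA : p.Adm Z S pool) {x : Pt d L} (hx : x ∈ S) {n : ℤ} (hn : n ≠ 0)
    (hZ : |(n : ℝ)| < Z) : ¬ (x.p : ℤ) ∣ n := by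
  intro h
  have h1 := Int.le_of_dvd (abs_pos.2 hn) ((dvd_abs _ _).2 h)
  have h2 : ((x.p : ℤ) : ℝ) ≤ |(n : ℝ)| := by exact_mod_cast h1
  have := hA.large x hx
  push_cast at h2
  linarith

omit [NumberField L] in
theorem card_le_of_p_eq (hA : p.Adm Z S pool) {A : Finset (Pt d L)} (hS : A ⊆ S)
    (h : ∀ x ∈ A, ∀ y ∈ A, x.p = y.p) : A.card ≤ 2 * d := by
  rcases A.eq_empty_or_nonempty with rfl | ⟨y, hy⟩
  · simp
  · refine le_trans (Finset.card_le_card ?_) (hA.fiber y.p)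
    intro x hx
    exact Finset.mem_filter.2 ⟨hS hx, h x hx y hy⟩

omit [NumberField L] in
theorem p_eq_of_dvd (hA : p.Adm Z S pool) {x y : Pt d L} (hx : x ∈ S) (hy : y ∈ S)
    (h : (x.p : ℤ) ∣ (y.p : ℤ)) : x.p = y.p :=
  (Nat.prime_dvd_prime_iff_eq (hA.prime x hx) (hA.prime y hy)).1 (by exact_mod_cast h)

theorem card_le_of_al_eq (hp : p.Ok) (hA : p.Adm Z S pool) (hZ : |(p.c : ℝ)| < Z)
    {A : Finset (Pt d L)} (hS : A ⊆ S) (l : Fin d)
    (h : ∀ x ∈ A, ∀ y ∈ A, p.alL x l = p.alL y l) : A.card ≤ 2 * d := by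
  refine card_le_of_p_eq hA hS fun x hx y hy => ?_
  have h1 : al p.θ x l = al p.θ y l := RingOfIntegers.coe_injective (h x hx y hy)
  have h2 := prime_dvd_of_al_dvd hp hA hZ (hS hx) l (h1 ▸ al_dvd hA (hS hy) l)
  have hpr : Prime (x.p : ℤ) := Nat.prime_iff_prime_int.1 (hA.prime x (hS hx))
  rcases hpr.dvd_or_dvd h2 with h3 | h3
  · exact absurd h3 (not_dvd_of_lt hA (hS hx) hp.c_ne hZ)
  · exact p_eq_of_dvd hA (hS hx) (hS hy) h3

theorem card_le_of_root (hp : p.Ok) (hA : p.Adm Z S pool) (hZ : |(p.c : ℝ)| < Z)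
    {A : Finset (Pt d L)} (hS : A ⊆ S) (l : Fin d) {u : L[X]} (hu : u ≠ 0) {D : ℕ}
    (hD : u.natDegree ≤ D) (h : ∀ x ∈ A, u.eval (p.alL x l) = 0) : A.card ≤ 2 * d * D := by
  classical
  have h1 : A.card ≤ (2 * d) * (u.roots.toFinset).card := by
    refine Finset.card_le_mul_card_image_of_maps_to (f := fun x => p.alL x l) ?_ _ ?_
    · intro x hx
      simp [hu, h x hx]
    · intro z _
      refine card_le_of_al_eq hp hA hZ ((Finset.filter_subset _ _).trans hS) l ?_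
      intro x hx y hy
      rw [(Finset.mem_filter.1 hx).2, (Finset.mem_filter.1 hy).2]
  refine h1.trans (Nat.mul_le_mul_left _ ?_)
  exact (Multiset.toFinset_card_le _).trans ((card_roots' u).trans hD)

theorem card_le_of_ratio (hp : p.Ok) (l l' : Fin d) (hl : l ≠ l') : ∀ᶠ Z : ℝ in atTop,
    ∀ (S : Finset (Pt d L)) (pool : Finset ℕ), p.Adm Z S pool → ∀ A ⊆ S, ∀ κ : L,
      (∀ x ∈ A, p.alL x l' = κ * p.alL x l) → A.card ≤ 2 * d := by
  obtain ⟨n, hn0, hn⟩ := exists_int_multiple (G := p.θ l' - p.θ l)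
    (sub_ne_zero.2 fun h => hl (hp.inj h).symm)
  filter_upwards [eventually_gt_atTop |(p.c : ℝ)|, eventually_gt_atTop |(n : ℝ)|] with Z hZ hZn
    S pool hA A hS κ h
  refine card_le_of_p_eq hA hS fun x hx y hy => ?_
  have h1 : al p.θ x l' * al p.θ y l = al p.θ x l * al p.θ y l' := by
    apply RingOfIntegers.coe_injective
    have a1 := h x hx
    have a2 := h y hy
    simp only [Par.alL] at a1 a2
    simp only [map_mul]
    rw [show algebraMap (𝓞 L) L (al p.θ x l') = _ from a1,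
      show algebraMap (𝓞 L) L (al p.θ y l') = _ from a2]
    change κ * (al p.θ x l : L) * (al p.θ y l : L) = (al p.θ x l : L) * (κ * (al p.θ y l : L))
    ring
  have r1 := hA.rel x (hS hx) l
  have r2 := hA.rel x (hS hx) l'
  have h2 : al p.θ x l ^ p.k * (al p.θ y l ^ p.k * x.be l - al p.θ y l' ^ p.k * x.be l') =
      al p.θ y l ^ p.k * (p.c : 𝓞 L) ^ p.k * (p.θ l' - p.θ l) := by
    have h3 : al p.θ x l' ^ p.k * al p.θ y l ^ p.k = al p.θ x l ^ p.k * al p.θ y l' ^ p.k := by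
      rw [← mul_pow, h1, mul_pow]
    linear_combination (al p.θ y l ^ p.k) * r1 - (al p.θ y l ^ p.k) * r2 + (x.be l') * h3
  have h4 : al p.θ x l ∣ (((p.c * y.p) ^ p.k * p.c ^ p.k * n : ℤ) : 𝓞 L) := by
    have h5 : al p.θ x l ∣ al p.θ y l ^ p.k * (p.c : 𝓞 L) ^ p.k * (p.θ l' - p.θ l) := by
      rw [← h2]
      exact Dvd.dvd.mul_right (dvd_pow_self _ (by have := hp.k_pos; omega)) _
    refine h5.trans ?_
    push_cast
    refine mul_dvd_mul (mul_dvd_mul (pow_dvd_pow_of_dvd ?_ _) dvd_rfl) hn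
    exact_mod_cast al_dvd hA (hS hy) l
  have h6 := prime_dvd_of_al_dvd hp hA hZ (hS hx) l h4
  have hpr : Prime (x.p : ℤ) := Nat.prime_iff_prime_int.1 (hA.prime x (hS hx))
  have hc := not_dvd_of_lt hA (hS hx) hp.c_ne hZ
  rcases hpr.dvd_or_dvd h6 with h7 | h7
  · rcases hpr.dvd_or_dvd h7 with h8 | h8
    · rcases hpr.dvd_or_dvd (hpr.dvd_of_dvd_pow h8) with h9 | h9
      · exact absurd h9 hc
      · exact p_eq_of_dvd hA (hS hx) (hS hy) h9
    · exact absurd (hpr.dvd_of_dvd_pow h8) hc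
  · exact absurd h7 (not_dvd_of_lt hA (hS hx) hn0 hZn)

theorem imp_fin_of_eqn_empty (p : Par d L) : p.Imp (p.Eqn false ∅) FinP := by
  intro D
  refine ⟨D, Eventually.of_forall fun Z S pool hA A hS ⟨Q, h0, hv, hD, h⟩ => ?_⟩
  refine card_le_of_vars_empty h0 hv (by simpa using hD) A p.alL (fun x => ((x.N : ℤ) : L)) ?_ h
  intro x hx y hy hxy
  exact hA.injN (hS hx) (hS hy) (Int.cast_injective (α := L) hxy)

theorem imp_fin_of_eqn_single (hp : p.Ok) (l : Fin d) : p.Imp (p.Eqn true {l}) FinP := by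
  intro D
  refine ⟨2 * d * D, ?_⟩
  filter_upwards [eventually_gt_atTop |(p.c : ℝ)|] with Z hZ S pool hA A hS ⟨Q, h0, hv, hD, h⟩
  obtain ⟨u, hu0, huD, hu⟩ := exists_poly_of_vars_single h0 hv (by simpa using hD)
  refine card_le_of_root hp hA hZ hS l hu0 huD fun x hx => ?_
  rw [← hu (p.alL x) ((x.N : ℤ) : L)]
  exact h x hx

omit [NumberField L] in
theorem imp_eqn_of_fin (p : Par d L) (I : Finset (Fin d)) : p.Imp FinP (p.Eqn false I) := by
  refine Par.Imp.of_forall fun D A h => ?_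
  obtain ⟨Q, h0, hv, hD, hQ⟩ := exists_eq_of_card_le (d := d) A (fun x => ((x.N : ℤ) : L)) h
  exact ⟨Q, h0, hv.trans (Finset.empty_subset _), by simpa using hD.mono (Nat.zero_le _) le_rfl,
    fun x hx => hQ x hx _⟩

omit [NumberField L] in
theorem prod_dvd_of_cong {T : Finset ℕ} (hT : ∀ π ∈ T, π.Prime) {x y : Pt d L}
    (h : Cong key T x y) : ((∏ π ∈ T, π : ℕ) : ℤ) ∣ x.N - y.N ∧
      ∀ j, ((∏ π ∈ T, π : ℕ) : ℤ) ∣ x.v j - y.v j := by
  have hco : (T : Set ℕ).Pairwise (Function.onFun IsCoprime fun π : ℕ => (π : ℤ)) := by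
    intro a ha b hb hab
    exact Nat.isCoprime_iff_coprime.2 ((Nat.coprime_primes (hT a ha) (hT b hb)).2 hab)
  push_cast
  refine ⟨Finset.prod_dvd_of_coprime hco fun π hπ => ?_,
    fun j => Finset.prod_dvd_of_coprime hco fun π hπ => ?_⟩
  · have := congrArg Prod.fst (h π hπ)
    exact (Int.ModEq.dvd (show y.N ≡ x.N [ZMOD π] from this.symm))
  · have := congrFun (congrArg Prod.snd (h π hπ)) j
    exact (Int.ModEq.dvd (show y.v j ≡ x.v j [ZMOD π] from this.symm))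

omit [NumberField L] in
theorem dvd_al_sub_of_cong {T : Finset ℕ} (hT : ∀ π ∈ T, π.Prime) {x y : Pt d L}
    (h : Cong key T x y) (l : Fin d) :
    ((∏ π ∈ T, π : ℕ) : 𝓞 L) ∣ al p.θ x l - al p.θ y l := by
  unfold al
  rw [← Finset.sum_sub_distrib]
  refine Finset.dvd_sum fun j _ => ?_
  rw [← sub_mul]
  refine Dvd.dvd.mul_right ?_ _
  have := (prod_dvd_of_cong hT h).2 j
  exact_mod_cast Int.cast_dvd_cast (α := 𝓞 L) _ _ this

omit [NumberField L] in
theorem dvd_N_sub_of_cong {T : Finset ℕ} (hT : ∀ π ∈ T, π.Prime) {x y : Pt d L}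
    (h : Cong key T x y) : ((∏ π ∈ T, π : ℕ) : 𝓞 L) ∣ (x.N : 𝓞 L) - (y.N : 𝓞 L) := by
  have := (prod_dvd_of_cong hT h).1
  exact_mod_cast Int.cast_dvd_cast (α := 𝓞 L) _ _ this

omit [NumberField L] in
theorem pow_le_prod (hA : p.Adm Z S pool) (hZ : 1 ≤ Z) {T : Finset ℕ} (hT : T ⊆ pool) {t : ℕ}
    (ht : t ≤ T.card) : Z ^ t ≤ ((∏ π ∈ T, π : ℕ) : ℝ) := by
  push_cast
  calc Z ^ t ≤ Z ^ T.card := pow_le_pow_right₀ hZ ht
    _ = ∏ _π ∈ T, Z := by simp
    _ ≤ _ := Finset.prod_le_prod (fun _ _ => by linarith) fun π hπ => (hA.poolPrime π (hT hπ)).2.1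

theorem Par.Stage.trivial_fin (hp : p.Ok) {P : Pred d L} {t cost : ℕ} (h : p.Stage P t cost)
    (ht : p.a + 1 ≤ t) : p.Stage FinP t cost := by
  obtain ⟨D, B, h⟩ := h
  refine ⟨2 * d, B, fun m => ?_⟩
  obtain ⟨M, h⟩ := h m
  refine ⟨M, fun Λ => ?_⟩
  obtain ⟨C, hC, h⟩ := h Λ
  refine ⟨C, hC, ?_⟩
  filter_upwards [h, eventually_gt_atTop |(p.c : ℝ)|, eventually_gt_atTop (2 : ℝ)] with Z h hZ hZ2
    S pool hA hΛ hM
  refine (h S pool hA hΛ hM).mono (fun T hT hc A hS _ hcong => ?_) le_rfl le_rfl le_rfl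
  refine card_le_of_al_eq hp hA hZ hS ⟨0, hp.d_pos⟩ fun x hx y hy => ?_
  have hv : x.v = y.v := by
    funext j
    have h1 := (prod_dvd_of_cong (fun π hπ => (hA.poolPrime π (hT hπ)).1) (hcong x hx y hy)).2 j
    have h2 := pow_le_prod hA (by linarith) hT (ht.trans hc.ge)
    have h3 := hA.smallV x (hS hx) j
    have h4 := hA.smallV y (hS hy) j
    have h5 : |x.v j - y.v j| < ((∏ π ∈ T, π : ℕ) : ℤ) := by
      have h6 : |((x.v j - y.v j : ℤ) : ℝ)| < ((∏ π ∈ T, π : ℕ) : ℝ) := by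
        rw [Int.cast_sub]
        have h7 := abs_sub (x.v j : ℝ) (y.v j : ℝ)
        have h8 : 0 < Z ^ p.a := by positivity
        rw [pow_succ] at h2
        nlinarith
      exact_mod_cast h6
    have := Int.eq_zero_of_abs_lt_dvd h1 h5
    omega
  simp [Par.alL, al, hv]

end Vale.Agent.P018
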