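import Vale.Agent.P018.Mon
import Vale.Agent.P018.Points
import Vale.Agent.P018.DetDiv

namespace Vale.Agent.P018

open NumberField Polynomial Filter

variable {d : ℕ} {L : Type} [Field L] [NumberField L] {p : Par d L}

/-- a linear dependence between monomials of the family `s` on the set `A` -/
def Par.Dep (p : Par d L) (s : Ix d → Prop) (y : ℕ) (A : Finset (Pt d L)) : Prop :=
  ∃ (B : Finset (Ix d)) (lam : Ix d → L), (∀ u ∈ B, s u ∧ p.wt u ≤ y) ∧ (∃ u ∈ B, lam u ≠ 0) ∧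
    ∀ x ∈ A, ∑ u ∈ B, lam u * (p.mon u x : L) = 0

omit [NumberField L] in
theorem Par.Dep.mono {s : Ix d → Prop} {y y' : ℕ} {A : Finset (Pt d L)} (h : p.Dep s y A)
    (hy : y ≤ y') : p.Dep s y' A := by
  obtain ⟨B, lam, h1, h2, h3⟩ := h
  exact ⟨B, lam, fun u hu => ⟨(h1 u hu).1, (h1 u hu).2.trans hy⟩, h2, h3⟩

variable {Z : ℝ} {S : Finset (Pt d L)} {pool : Finset ℕ}

theorem small_N (hA : p.Adm Z S pool) {x : Pt d L} (hx : x ∈ S) : Small Z p.W (x.N : 𝓞 L) :=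
  Small.intCast (hA.smallN x hx)

theorem small_mon (hA : p.Adm Z S pool) {x : Pt d L} (hx : x ∈ S) (u : Ix d) :
    Small Z (p.wt u) (p.mon u x) := by
  unfold Par.wt Par.mon
  refine Small.mul (Small.prod _ fun l _ => ?_) ((small_N hA hx).pow _)
  exact Small.mul ((hA.smallA x hx l).pow _) ((hA.smallB x hx l).pow _)

theorem det_core {s : Ix d → Prop} {r t : ℕ} {δ : ℝ} (hs : p.Shape s r δ)
    (hδ : 1 < δ * (t : ℝ) ^ r) (ht : 1 ≤ t) :
    ∃ y : ℕ, ∀ᶠ Z : ℝ in atTop, ∀ (S : Finset (Pt d L)) (pool : Finset ℕ), p.Adm Z S pool →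
      ∀ T ⊆ pool, t ≤ T.card → ∀ A ⊆ S, ∀ (σ : Type) [Fintype σ] (g : σ → Pt d L → 𝓞 L),
        Fintype.card σ = r → (∀ i, ∀ x ∈ A, ((∏ π ∈ T, π : ℕ) : 𝓞 L) ∣ g i x) →
        (∀ u, s u → InCl A ((∏ π ∈ T, π : ℕ) : 𝓞 L) g (p.mon u)) → p.Dep s y A := by
  classical
  obtain ⟨s₀, hs₀, hF⟩ := hs
  obtain ⟨Y, hY⟩ := exists_Y r t δ s₀ hs₀ hδ ht
  obtain ⟨F, hF1, hF2⟩ := hF (t * Y)
  obtain ⟨sd, h1, h2⟩ := hY _ F p.wt hF2
  set F' := F.filter (fun u => p.wt u ≤ t * Y) with hF'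
  have hH : 0 < F'.card := by
    rcases Nat.eq_zero_or_pos F'.card with h0 | h0
    · exfalso
      rw [h0] at h1
      have h3 : (r + 1).factorial * sd = 0 := by omega
      rcases Nat.mul_eq_zero.1 h3 with h4 | h4
      · exact Nat.factorial_ne_zero _ h4
      · rw [h4] at h2; omega
    · exact h0
  set e : Fin F'.card ≃ F' := F'.equivFin.symm
  refine ⟨t * Y, ?_⟩
  filter_upwards [eventually_gt_atTop ((F'.card.factorial : ℕ) : ℝ), eventually_ge_atTop (1 : ℝ)]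
    with Z hZ hZ1 S pool hA T hT hc A hS σ _ g hσ hg hcl
  have hmem : ∀ l, s (e l : Ix d) := fun l => hF1 _ (Finset.mem_filter.1 (e l).2).1
  obtain ⟨lam, hl0, hl⟩ := exists_dep_of_det (K := L) (fun l x => (p.mon (e l) x : L)) A
    (fun pts hpts => by
      have hdet : (Matrix.of (fun l j => p.mon (e l) (pts j))).det = 0 := by
        refine det_eq_zero_of_small (Z := Z) _ (fun l => p.wt (e l))
          (fun l j => small_mon hA (hS (hpts j)) _) (∏ π ∈ T, π) t sd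
          (pow_le_prod hA hZ1 hT hc) ?_ ?_ hZ
        · refine InCl.pow_dvd_det hg (fun l => hcl _ (hmem l)) pts hpts Y sd ?_
          rw [hσ]; exact h1
        · rw [Equiv.sum_comp e (fun u : F' => p.wt u), Finset.sum_coe_sort F' p.wt]
          exact h2
      have := congrArg (algebraMap (𝓞 L) L) hdet
      rw [RingHom.map_det, map_zero] at this
      exact this) hH
  refine ⟨F', fun u => if h : u ∈ F' then lam (e.symm ⟨u, h⟩) else 0, fun u hu => ?_, ?_, ?_⟩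
  · exact ⟨hF1 _ (Finset.mem_filter.1 hu).1, (Finset.mem_filter.1 hu).2⟩
  · obtain ⟨l, hl0⟩ := hl0
    exact ⟨e l, (e l).2, by simpa [(e l).2] using hl0⟩
  · intro x hx
    rw [← hl x hx, ← Finset.sum_coe_sort F', ← Equiv.sum_comp e]
    refine Finset.sum_congr rfl fun l _ => ?_
    simp [(e l).2]

/-- the coordinates `N` and `α l` -/
noncomputable def Par.coord (p : Par d L) (x : Pt d L) (o : Option (Fin d)) : 𝓞 L :=
  o.elim (x.N : 𝓞 L) (al p.θ x)

/-- the local generators at `x₀` -/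
noncomputable def Par.gen (p : Par d L) (V : Finset (Option (Fin d))) (x₀ : Pt d L) (v : V)
    (x : Pt d L) : 𝓞 L := p.coord x v - p.coord x₀ v

omit [NumberField L] in
theorem Cong.symm' {T : Finset ℕ} {x y : Pt d L} (h : Cong key T x y) : Cong key T y x :=
  fun π hπ => (h π hπ).symm

omit [NumberField L] in
theorem gen_dvd (V : Finset (Option (Fin d))) {T : Finset ℕ} (hT : ∀ π ∈ T, π.Prime)
    {x₀ : Pt d L} {A : Finset (Pt d L)} (h : ∀ x ∈ A, Cong key T x₀ x) (v : V) :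
    ∀ x ∈ A, ((∏ π ∈ T, π : ℕ) : 𝓞 L) ∣ p.gen V x₀ v x := by
  intro x hx
  obtain ⟨o, ho⟩ := v
  cases o with
  | none => exact dvd_N_sub_of_cong hT (h x hx).symm'
  | some l => exact dvd_al_sub_of_cong hT (h x hx).symm' l

omit [NumberField L] in
theorem inCl_coord {V : Finset (Option (Fin d))} (x₀ : Pt d L) (A : Finset (Pt d L)) (q : 𝓞 L)
    {o : Option (Fin d)} (ho : o ∈ V) : InCl A q (p.gen V x₀) (fun x => p.coord x o) :=
  ((InCl.gen (δ := p.gen V x₀) ⟨o, ho⟩).add (InCl.const (p.coord x₀ o))).congr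
    fun x _ => by simp [Par.gen]

theorem exists_inv_al (hp : p.Ok) (hA : p.Adm Z S pool) (hZ : |(p.c : ℝ)| < Z) {T : Finset ℕ}
    (hT : T ⊆ pool) {x : Pt d L} (hx : x ∈ S) (l : Fin d) (n : ℕ) :
    ∃ u' : 𝓞 L, ((∏ π ∈ T, π : ℕ) : 𝓞 L) ∣ 1 - u' * al p.θ x l ^ n := by
  have hco : IsCoprime ((p.c * x.p) ^ n) ((∏ π ∈ T, π : ℕ) : ℤ) := by
    refine IsCoprime.pow_left ?_
    push_cast
    refine IsCoprime.prod_right fun π hπ => ?_
    obtain ⟨h1, h2, h3⟩ := hA.poolPrime π (hT hπ)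
    have hpr : Prime (π : ℤ) := Nat.prime_iff_prime_int.1 h1
    refine (hpr.coprime_iff_not_dvd.2 fun h => ?_).symm
    rcases hpr.dvd_or_dvd h with h | h
    · have h4 := Int.le_of_dvd (abs_pos.2 hp.c_ne) ((dvd_abs _ _).2 h)
      have h5 : ((π : ℤ) : ℝ) ≤ |(p.c : ℝ)| := by exact_mod_cast h4
      push_cast at h5
      linarith
    · exact h3 x hx ((Nat.prime_dvd_prime_iff_eq h1 (hA.prime x hx)).1 (by exact_mod_cast h)).symm
  obtain ⟨a, b, hab⟩ := hco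
  obtain ⟨γ, hγ⟩ := al_dvd hA hx l
  refine ⟨(a : 𝓞 L) * γ ^ n, b, ?_⟩
  have h1 := congrArg (fun z : ℤ => (z : 𝓞 L)) hab
  simp only [Int.cast_add, Int.cast_mul (a), Int.cast_pow, hγ, Int.cast_one, Int.cast_mul b,
    Int.cast_natCast] at h1
  rw [mul_pow] at h1
  linear_combination -h1

variable {σ : Type} {g : σ → Pt d L → 𝓞 L} {T : Finset ℕ} {A : Finset (Pt d L)}

theorem inCl_be (hp : p.Ok) (hA : p.Adm Z S pool) (hZ : |(p.c : ℝ)| < Z) (hT : T ⊆ pool)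
    (hS : A ⊆ S) (hg : ∀ i, ∀ x ∈ A, ((∏ π ∈ T, π : ℕ) : 𝓞 L) ∣ g i x) {x₀ : Pt d L}
    (hx₀ : x₀ ∈ A) {l : Fin d} (h1 : InCl A ((∏ π ∈ T, π : ℕ) : 𝓞 L) g (fun x => al p.θ x l))
    (h2 : InCl A ((∏ π ∈ T, π : ℕ) : 𝓞 L) g (fun x => (x.N : 𝓞 L))) :
    InCl A ((∏ π ∈ T, π : ℕ) : 𝓞 L) g (fun x => x.be l) := by
  obtain ⟨u', hu'⟩ := exists_inv_al hp hA hZ hT (hS hx₀) l p.k
  refine InCl.div hg (h1.pow p.k) ?_ hx₀ hu'
  exact ((InCl.const ((p.c : 𝓞 L) ^ p.k)).mul (h2.sub (InCl.const (p.θ l)))).congr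
    fun x hx => (hA.rel x (hS hx) l).symm

theorem inCl_mon (hp : p.Ok) (hA : p.Adm Z S pool) (hZ : |(p.c : ℝ)| < Z) (hT : T ⊆ pool)
    (hS : A ⊆ S) (hg : ∀ i, ∀ x ∈ A, ((∏ π ∈ T, π : ℕ) : 𝓞 L) ∣ g i x) {x₀ : Pt d L}
    (hx₀ : x₀ ∈ A) {I : Finset (Fin d)}
    (h1 : ∀ l ∈ I, InCl A ((∏ π ∈ T, π : ℕ) : 𝓞 L) g (fun x => al p.θ x l)) {u : Ix d}
    (hu : Supp I u)
    (h2 : gdeg u = 0 ∨ InCl A ((∏ π ∈ T, π : ℕ) : 𝓞 L) g (fun x => (x.N : 𝓞 L))) :
    InCl A ((∏ π ∈ T, π : ℕ) : 𝓞 L) g (p.mon u) := by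
  unfold Par.mon
  refine InCl.mul (InCl.prod _ fun l _ => ?_) ?_
  · by_cases hl : l ∈ I
    · refine ((h1 l hl).pow _).mul ?_
      rcases h2 with h2 | h2
      · have : (u.1 l).2 = 0 := by
          unfold gdeg at h2
          have := Finset.single_le_sum (f := fun l => (u.1 l).2) (fun _ _ => Nat.zero_le _)
            (Finset.mem_univ l)
          omega
        simpa [this] using InCl.const (A := A) (δ := g) (1 : 𝓞 L)
      · exact (inCl_be hp hA hZ hT hS hg hx₀ (h1 l hl) h2).pow _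
    · simpa [hu l hl] using InCl.const (A := A) (δ := g) (1 : 𝓞 L)
  · rcases h2 with h2 | h2
    · have : u.2 = 0 := by unfold gdeg at h2; omega
      simpa [this] using InCl.const (A := A) (δ := g) (1 : 𝓞 L)
    · exact h2.pow _

section deg

omit [NumberField L]

theorem DegLe.zero (D E : ℕ) : DegLe (0 : RR d L) D E := ⟨by simp, by simp⟩

theorem DegLe.add {P Q : RR d L} {D E : ℕ} (hP : DegLe P D E) (hQ : DegLe Q D E) :
    DegLe (P + Q) D E :=
  ⟨(MvPolynomial.totalDegree_add _ _).trans (max_le hP.1 hQ.1), fun m => by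
    rw [MvPolynomial.coeff_add]
    exact (natDegree_add_le _ _).trans (max_le (hP.2 m) (hQ.2 m))⟩

theorem DegLe.sum {ι : Type} (s : Finset ι) {f : ι → RR d L} {D E : ℕ}
    (h : ∀ i ∈ s, DegLe (f i) D E) : DegLe (∑ i ∈ s, f i) D E :=
  Finset.sum_induction f (fun P => DegLe P D E) (fun _ _ => DegLe.add) (DegLe.zero D E) h

theorem DegLe.mul {P Q : RR d L} {D E D' E' : ℕ} (hP : DegLe P D E) (hQ : DegLe Q D' E') :
    DegLe (P * Q) (D + D') (E + E') := by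
  classical
  refine ⟨(MvPolynomial.totalDegree_mul _ _).trans (add_le_add hP.1 hQ.1), fun m => ?_⟩
  rw [MvPolynomial.coeff_mul]
  refine natDegree_sum_le_of_forall_le _ _ fun x _ => ?_
  exact natDegree_mul_le.trans (add_le_add (hP.2 _) (hQ.2 _))

theorem DegLe.C (a : L[X]) {E : ℕ} (h : a.natDegree ≤ E) :
    DegLe (MvPolynomial.C a : RR d L) 0 E := by
  classical
  refine ⟨by simp, fun m => ?_⟩
  rw [MvPolynomial.coeff_C]
  split_ifs
  · exact h
  · simp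

theorem DegLe.X (j : Fin d) : DegLe (MvPolynomial.X j : RR d L) 1 0 := by
  classical
  refine ⟨by simp, fun m => ?_⟩
  rw [MvPolynomial.coeff_X]
  split_ifs <;> simp

theorem DegLe.pow {P : RR d L} {D E : ℕ} (hP : DegLe P D E) (n : ℕ) :
    DegLe (P ^ n) (n * D) (n * E) := by
  induction n with
  | zero => simpa using DegLe.C (d := d) (1 : L[X]) (E := 0) (by simp)
  | succ n ih => rw [pow_succ, Nat.succ_mul, Nat.succ_mul]; exact ih.mul hP

theorem DegLe.prod {ι : Type} (s : Finset ι) {f : ι → RR d L} {D E : ι → ℕ}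
    (h : ∀ i ∈ s, DegLe (f i) (D i) (E i)) :
    DegLe (∏ i ∈ s, f i) (∑ i ∈ s, D i) (∑ i ∈ s, E i) := by
  classical
  induction s using Finset.induction_on with
  | empty => simpa using DegLe.C (d := d) (1 : L[X]) (E := 0) (by simp)
  | insert i s hi ih =>
    rw [Finset.prod_insert hi, Finset.sum_insert hi, Finset.sum_insert hi]
    exact (h i (Finset.mem_insert_self _ _)).mul
      (ih fun j hj => h j (Finset.mem_insert_of_mem hj))

end deg

omit [NumberField L] in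
theorem wt_facts (hp : p.Ok) (u : Ix d) :
    ∑ l, (u.1 l).1 ≤ p.wt u ∧ gdeg u ≤ p.wt u ∧ ∀ l, (u.1 l).2 ≤ p.wt u := by
  have ha := hp.a_pos
  have hb := hp.b_pos
  have hW := hp.W_pos
  have h1 : ∑ l, (u.1 l).1 ≤ ∑ l, pw p.a p.b (u.1 l) :=
    Finset.sum_le_sum fun l _ => by unfold pw; nlinarith [Nat.zero_le (p.b * (u.1 l).2)]
  have h2 : ∑ l, (u.1 l).2 ≤ ∑ l, pw p.a p.b (u.1 l) :=
    Finset.sum_le_sum fun l _ => by unfold pw; nlinarith [Nat.zero_le (p.a * (u.1 l).1)]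
  have h3 : u.2 ≤ p.W * u.2 := Nat.le_mul_of_pos_left _ hW
  refine ⟨by unfold Par.wt; omega, by unfold Par.wt gdeg; omega, fun l => ?_⟩
  have := Finset.single_le_sum (f := fun l => (u.1 l).2) (fun _ _ => Nat.zero_le _)
    (Finset.mem_univ l)
  unfold Par.wt
  omega

omit [NumberField L] in
theorem dep_tilde (hp : p.Ok) (hA : p.Adm Z S pool) (hS : A ⊆ S) {s : Ix d → Prop} {y : ℕ}
    (h : p.Dep s y A) {I : Finset (Fin d)} (hI : ∀ u, s u → Supp I u) {E : ℕ}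
    (hE : y ≤ E ∨ ∀ u, s u → gdeg u = 0) :
    ∃ (B : Finset (Ix d)) (lam : Ix d → L), (∀ u ∈ B, s u ∧ IxOk p.k (p.k * y) I u) ∧
      (∃ u ∈ B, lam u ≠ 0) ∧ (p.tilde (p.k * y) I B lam).vars ⊆ I ∧
      DegLe (p.tilde (p.k * y) I B lam) (y + d * (p.k * y)) E ∧
      ∀ x ∈ A, p.evx x (p.tilde (p.k * y) I B lam) = 0 := by
  classical
  obtain ⟨B, lam, h1, h2, h3⟩ := h
  have hok : ∀ u ∈ B, IxOk p.k (p.k * y) I u := fun u hu l =>
    ⟨hI u (h1 u hu).1 l, Nat.mul_le_mul_left _ (((wt_facts hp u).2.2 l).trans (h1 u hu).2)⟩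
  refine ⟨B, lam, fun u hu => ⟨(h1 u hu).1, hok u hu⟩, h2, ?_, ?_, ?_⟩
  · refine (MvPolynomial.vars_sum_subset _ _).trans (Finset.biUnion_subset.2 fun u hu => ?_)
    refine (MvPolynomial.vars_mul _ _).trans ?_
    rw [MvPolynomial.vars_C, Finset.empty_union]
    exact monoP_vars _ _ _ _ _ _ (hok u hu)
  · refine DegLe.sum _ fun u hu => ?_
    have := (DegLe.C (d := d) (C (lam u)) (E := 0) (by simp)).mul
      (monoP_degLe p.θL p.cL p.k (p.k * y) I u)
    refine this.mono ?_ ?_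
    · have := (wt_facts hp u).1.trans (h1 u hu).2
      omega
    · rcases hE with hE | hE
      · have := (wt_facts hp u).2.1.trans (h1 u hu).2
        omega
      · rw [hE u (h1 u hu).1]; omega
  · intro x hx
    have hrel : ∀ l, p.alL x l ^ p.k * (x.be l : L) = p.cL * (((x.N : ℤ) : L) - p.θL l) := by
      intro l
      have := congrArg (algebraMap (𝓞 L) L) (hA.rel x (hS hx) l)
      simpa [Par.alL, Par.cL, Par.θL] using this
    unfold Par.tilde Par.evx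
    rw [map_sum]
    have h4 : ∀ u ∈ B, ev (p.alL x) ((x.N : ℤ) : L)
        (MvPolynomial.C (C (lam u)) * monoP p.θL p.cL p.k (p.k * y) I u) =
        (∏ l ∈ I, p.alL x l ^ (p.k * y)) * (lam u * (p.mon u x : L)) := by
      intro u hu
      rw [map_mul, ev_monoP _ _ _ _ _ _ (hok u hu) _ (fun l => (x.be l : L)) _ hrel]
      have h5 : (p.mon u x : L) =
          (∏ l, p.alL x l ^ (u.1 l).1 * (x.be l : L) ^ (u.1 l).2) * ((x.N : ℤ) : L) ^ u.2 := by
        simp [Par.mon, Par.alL]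
      rw [h5]
      simp only [ev, MvPolynomial.eval₂Hom_C, coe_evalRingHom, eval_C]
      ring
    rw [Finset.sum_congr rfl h4, ← Finset.mul_sum, h3 x hx, mul_zero]

end Vale.Agent.P018
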