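import Vale.Agent.P018.Levels

namespace Vale.Agent.P018

open NumberField Polynomial Filter

variable {d : ℕ} {L : Type} [Field L] [NumberField L] {p : Par d L}

omit [NumberField L] in
theorem Par.good_genLine (p : Par d L) (j : Fin d) : Good (p.GenLine j) :=
  ⟨fun _ _ _ ⟨κ, κ', h1, h2, h⟩ hs => ⟨κ, κ', h1, h2, fun x hx => h x (hs hx)⟩,
    fun _ _ _ _ h => h⟩

theorem one_lt_of_nat {m n : ℕ} {δ : ℝ} {t r : ℕ} (hm : 0 < m) (hδ : δ = (n : ℝ) / m)
    (h : m < n * t ^ r) : 1 < δ * (t : ℝ) ^ r := by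
  have hm' : (0 : ℝ) < m := by exact_mod_cast hm
  rw [hδ, div_mul_eq_mul_div, one_lt_div hm']
  exact_mod_cast h

omit [NumberField L] in
theorem erase_pair {i j : Fin d} (h : i ≠ j) : ({j, i} : Finset (Fin d)).erase i = {j} := by
  ext l
  simp only [Finset.mem_erase, Finset.mem_insert, Finset.mem_singleton]
  constructor
  · rintro ⟨h1, h2 | h2⟩
    · exact h2
    · exact absurd h2 h1
  · rintro rfl
    exact ⟨h.symm, Or.inl rfl⟩

theorem lin_of_case (hp : p.Ok) {Z : ℝ} {S : Finset (Pt d L)} {pool : Finset ℕ}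
    (hA : p.Adm Z S pool) {Φ : RR d L} {i j : Fin d}
    (h : ∃ κ κ' : L, ∀ (al : Fin d → L) (n : L), (∀ l, al l ≠ 0) → ev al n Φ = 0 →
      al i = κ * al j + κ') (D : ℕ) : p.Lin j i D (p.zs S Φ) := by
  obtain ⟨κ, κ', h⟩ := h
  exact ⟨κ, κ', fun x hx => h _ _ (alL_ne_zero hp hA (mem_zs.1 hx).1) (mem_zs.1 hx).2⟩

theorem step_pair (hp : p.Ok) (hk : p.k = 2) {i j : Fin d} (hij : i ≠ j) {t : ℕ} (ht : 1 ≤ t)
    (h1 : p.a ^ 2 * p.b < (2 * p.a + p.b) * t ^ 2)
    (h2 : p.a * p.b ^ 2 < 2 * (2 * p.a + p.b) * t ^ 2)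
    (h3 : p.a * p.b ^ 2 < (3 * p.a + 2 * p.b) * t ^ 2) :
    p.StepHyp (p.Eqn false {j, i}) (fun D A => p.Eqn false {j} D A ∨ p.Lin j i D A) t := by
  have ha := hp.a_pos
  have hb := hp.b_pos
  have ha' : (p.a : ℝ) ≠ 0 := by positivity
  have hb' : (p.b : ℝ) ≠ 0 := by positivity
  have hc : ({j, i} : Finset (Fin d)).card = 2 := Finset.card_pair hij.symm
  refine hyper_step hp false (i := i) (by simp) ((p.good_eqn _ _).or (p.good_lin _ _))
    (Par.Imp.of_forall fun D A h => Or.inl (by rwa [erase_pair hij] at h))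
    (𝒮 := (typeB p.k {j, i}) '' ({j, i} : Finset (Fin d)) ∪
      (famN1 p.k {j, i}) '' ({j, i} : Finset (Fin d)) ∪ {famN2 p.k i j})
    ((((Finset.finite_toSet _).image _).union ((Finset.finite_toSet _).image _)).union
      (Set.finite_singleton _)) ht (r := 2) (by simp [hc]) ?_ ?_
  · rintro s ((⟨l, hl, rfl⟩ | ⟨l, hl, rfl⟩) | rfl)
    · have := shape_typeB hp hl
      rw [hc] at this
      refine ⟨⟨_, this, one_lt_of_nat (by positivity) ?_ h1⟩, fun u hu => hu.1, by simp⟩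
      unfold Par.ρ
      rw [hk]; push_cast; field_simp; ring
    · refine ⟨⟨_, shape_N1 hp hk.ge hl hc, one_lt_of_nat (by positivity) ?_ h2⟩,
        fun u hu => hu.1, by simp⟩
      unfold Par.ρ
      rw [hk]; push_cast; field_simp; ring
    · refine ⟨⟨_, shape_N2 hp hij, one_lt_of_nat (by positivity) ?_ h3⟩,
        fun u hu => hu.1, by simp⟩
      unfold Par.ρ
      rw [hk]; push_cast; field_simp; ring
  · intro D
    refine ⟨0, Eventually.of_forall fun Z S pool hA Φ a1 a2 a3 _ => ?_⟩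
    rcases case_pair hp hij a1 a2 a3 with h | ⟨l, hl, h | h⟩ | h
    · exact Or.inl (Or.inr (lin_of_case hp hA h _))
    · exact Or.inr ⟨_, Or.inl (Or.inl ⟨l, hl, rfl⟩), h⟩
    · exact Or.inr ⟨_, Or.inl (Or.inr ⟨l, hl, rfl⟩), h⟩
    · exact Or.inr ⟨_, Or.inr rfl, h⟩

theorem step_single (hp : p.Ok) (l : Fin d) {t : ℕ} (h1 : p.a < 2 * t)
    (h2 : p.a * p.b < (p.a + p.b) * t) (h3 : p.b < 3 * t) :
    p.StepHyp (p.Eqn false {l}) (fun D A => FinP D A ∨ p.Pol l D A) t := by
  have ha := hp.a_pos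
  have hb := hp.b_pos
  have ha' : (p.a : ℝ) ≠ 0 := by positivity
  have hb' : (p.b : ℝ) ≠ 0 := by positivity
  have hG : Good (fun D A => FinP D A ∨ p.Pol l D A) := good_fin.or (p.good_pol _)
  refine hyper_step hp false (i := l) (by simp) hG
    (by
      rw [Finset.erase_singleton]
      exact (imp_fin_of_eqn_empty p).trans (Par.Imp.of_forall fun D A h => Or.inl h))
    (𝒮 := {famL1 l, famL2 l, famL3 l}) (Set.toFinite _) (by omega) (r := 1) (by simp) ?_ ?_
  · rintro s (rfl | rfl | rfl)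
    · exact ⟨⟨_, shape_L1 hp l, one_lt_of_nat (n := 2) ha (by simp) (by simpa using h1)⟩,
        fun u hu => hu.1, by simp⟩
    · refine ⟨⟨_, shape_L2 hp l, one_lt_of_nat (n := p.a + p.b) (m := p.a * p.b) (by positivity) ?_
        (by simpa using h2)⟩, fun u hu => hu.1, by simp⟩
      push_cast; field_simp; ring
    · exact ⟨⟨_, shape_L3 hp l, one_lt_of_nat (n := 3) hb (by simp) (by simpa using h3)⟩,
        fun u hu => hu.1, by simp⟩
  · intro D
    obtain ⟨D', hD'⟩ := imp_fin_of_eqn_single hp l D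
    refine ⟨D', ?_⟩
    filter_upwards [hD'] with Z hD' S pool hA Φ a1 a2 _ a4
    have hzs : p.zs S Φ ⊆ S := fun x hx => (mem_zs.1 hx).1
    rcases case_single hp a1.ne_zero a2 with h | ⟨q, hq, h⟩ | h | h | h
    · exact Or.inl (Or.inl (hD' S pool hA _ hzs
        ⟨Φ, a1.ne_zero, a2, ⟨a4.1, by simpa using h⟩, fun x hx => (mem_zs.1 hx).2⟩))
    · refine Or.inl (Or.inr ⟨q, hq, fun x hx => h _ _ _ (alL_ne_zero hp hA (hzs hx) l) ?_
        (mem_zs.1 hx).2⟩)
      have := congrArg (algebraMap (𝓞 L) L) (hA.rel x (hzs hx) l)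
      simpa [Par.alL, Par.cL, Par.θL] using this
    · exact Or.inr ⟨_, by simp, h⟩
    · exact Or.inr ⟨_, by simp, h⟩
    · exact Or.inr ⟨_, by simp, h⟩

theorem step_free (hp : p.Ok) {i j : Fin d} (hij : i ≠ j) {t : ℕ} (h1 : p.a < 2 * t) :
    p.StepHyp (p.Eqn true {j, i}) (fun D A => FinP D A ∨ p.Lin j i D A) t := by
  have ha := hp.a_pos
  have hc : ({j, i} : Finset (Fin d)).card = 2 := Finset.card_pair hij.symm
  refine hyper_step hp true (i := i) (by simp) (good_fin.or (p.good_lin _ _))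
    (by
      rw [erase_pair hij]
      exact (imp_fin_of_eqn_single hp j).trans (Par.Imp.of_forall fun D A h => Or.inl h))
    (𝒮 := (famF1 {j, i}) '' ({j, i} : Finset (Fin d)) ∪ {famF2 i j})
    (((Finset.finite_toSet _).image _).union (Set.finite_singleton _)) (by omega) (r := 1)
    (by simp [hc]) ?_ ?_
  · rintro s (⟨l, hl, rfl⟩ | rfl)
    · exact ⟨⟨_, shape_F1 hp hl hc, one_lt_of_nat (n := 2) ha (by simp) (by simpa using h1)⟩,
        fun u hu => hu.1, fun _ u hu => hu.2.1⟩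
    · exact ⟨⟨_, shape_F2 hp hij, one_lt_of_nat (n := 2) ha (by simp) (by simpa using h1)⟩,
        fun u hu => hu.1, fun _ u hu => hu.2.1⟩
  · intro D
    refine ⟨0, Eventually.of_forall fun Z S pool hA Φ a1 a2 a3 a4 => ?_⟩
    rcases case_free hp hij a1 a2 a3 (by simpa using a4.2) with h | ⟨l, hl, h⟩ | h
    · exact Or.inl (Or.inr (lin_of_case hp hA h _))
    · exact Or.inr ⟨_, Or.inl ⟨l, hl, rfl⟩, h⟩
    · exact Or.inr ⟨_, Or.inr rfl, h⟩

theorem level_two {p : Par 4 L} (hp : p.Ok) (hk : p.k = 2) {t cost : ℕ}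
    (h : p.Stage (p.Lev 2) t cost) (ht : 1 ≤ t)
    (h1 : p.a ^ 2 * p.b < (2 * p.a + p.b) * t ^ 2)
    (h2 : p.a * p.b ^ 2 < 2 * (2 * p.a + p.b) * t ^ 2)
    (h3 : p.a * p.b ^ 2 < (3 * p.a + 2 * p.b) * t ^ 2)
    (h4 : p.a * p.b ^ 2 < (4 * p.a + p.b) * t ^ 2) :
    p.Stage (p.Lev 1) (t + 16) (cost + 2 * 16) := by
  have ha := hp.a_pos
  have hb := hp.b_pos
  have ha' : (p.a : ℝ) ≠ 0 := by positivity
  have hb' : (p.b : ℝ) ≠ 0 := by positivity
  have hd := Par.dim_lev hp (r := 2) (by omega)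
  have hG : ∀ e : Fin 4 × Fin 4, Good (fun D A => p.Eqn false {e.1} D A ∨ p.Lin e.1 e.2 D A) :=
    fun e => (p.good_eqn _ _).or (p.good_lin _ _)
  have s1 := h.swaps (Finset.univ : Finset (Fin 4)).offDiag
    (Q := fun e D A => p.Eqn false {e.1} D A ∨ p.Lin e.1 e.2 D A) (p.good_lev _) hG hd
    (fun e he => by
      have hne : e.2 ≠ e.1 := (Finset.mem_offDiag.1 he).2.2.symm
      exact (step_pair hp hk hne ht h1 h2 h3).of_imp
        (Par.Imp.of_forall fun D A h => h _ (Finset.card_pair hne.symm)))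
  have hc : (Finset.univ : Finset (Fin 4)).offDiag.card = 12 := by decide
  rw [hc] at s1
  have s2 := s1.swaps (Finset.univ : Finset (Fin 4)) (Q := fun j => p.Eqn false {j})
    ((p.good_lev _).and (Good.forall _ hG)) (fun j => p.good_eqn _ _)
    (hd.of_imp (Par.Imp.of_forall fun _ _ h => h.1))
    (fun j _ => by
      have hl := line_step hp j (j₁ := 0) (j₂ := 1) (j₃ := 2) (j₄ := 3) (by decide) (by decide)
        (by decide) (by decide) (by decide) (by decide) ht
        (shape_line hp (by decide) (by decide) (by decide) (by decide) (by decide) (by decide))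
        (one_lt_of_nat (by positivity) (by
          unfold Par.ρ
          rw [hk]; push_cast; field_simp; ring) h4)
      have hG2 : Good (fun D A => p.Eqn false {j} D A ∨ p.GenLine j D A) :=
        (p.good_eqn _ _).or (p.good_genLine _)
      refine ((hl.or (p.good_eqn _ _)).mono (by omega)).of_imp ?_
      refine (Par.Imp.of_forall (P' := fun D A => p.Eqn false {j} D A ∨
        ∀ i, i ≠ j → p.Lin j i D A) fun D A h => ?_).trans ?_
      · by_cases h0 : p.Eqn false {j} D A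
        · exact Or.inl h0
        · exact Or.inr fun i hi =>
            (h.2 (j, i) (Finset.mem_offDiag.2 ⟨by simp, by simp, hi.symm⟩)).resolve_left h0
      · refine Par.Imp.or hG2 (Par.Imp.of_forall fun D A h => Or.inl h)
          ((imp_of_line hp j).trans (Par.Imp.or hG2 ?_ (Par.Imp.of_forall fun D A h => Or.inr h)))
        exact (imp_eqn_of_fin p {j}).trans (Par.Imp.of_forall fun D A h => Or.inl h))
  refine s2.imp (Par.Imp.of_forall fun D A h I hI => ?_) (by simp)
  obtain ⟨j, rfl⟩ := Finset.card_eq_one.1 hI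
  exact h.2 j (Finset.mem_univ _)

theorem level_one {p : Par 4 L} (hp : p.Ok) (hk : p.k = 2) {t cost : ℕ}
    (h : p.Stage (p.Lev 1) t cost) (h1 : p.a < 2 * t)
    (h2 : p.a * p.b < (p.a + p.b) * t) (h3 : p.b < 3 * t) :
    p.Stage FinP (t + 7) (cost + 7) := by
  have hd := Par.dim_lev hp (r := 1) le_rfl
  have hG : ∀ l : Fin 4, Good (fun D A => FinP D A ∨ p.Pol l D A) :=
    fun l => good_fin.or (p.good_pol _)
  have s1 := h.swaps (Finset.univ : Finset (Fin 4))
    (Q := fun l D A => FinP D A ∨ p.Pol l D A) (p.good_lev _) hG hd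
    (fun l _ => (step_single hp l h1 h2 h3).of_imp
      (Par.Imp.of_forall fun D A h => h _ (Finset.card_singleton l)))
  have hG1 : ∀ i : Fin 4, Good (fun D A => FinP D A ∨ p.Lin 0 i D A) :=
    fun l => good_fin.or (p.good_lin _ _)
  have s2 := s1.swaps ((Finset.univ : Finset (Fin 4)).erase 0)
    (Q := fun i D A => FinP D A ∨ p.Lin 0 i D A)
    ((p.good_lev _).and (Good.forall _ hG)) hG1
    (hd.of_imp (Par.Imp.of_forall fun _ _ h => h.1))
    (fun i hi => by
      have hne : i ≠ 0 := Finset.ne_of_mem_erase hi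
      have hG2 : Good (fun D A => (FinP D A ∨ p.Lin 0 i D A) ∨ p.Eqn true {0, i} D A) :=
        (hG1 i).or (p.good_eqn _ _)
      refine (((step_free hp hne h1).or (hG1 i)).mono (by omega)).of_imp ?_
      refine (Par.Imp.of_forall (P' := fun D A => FinP D A ∨ ∀ l, p.Pol l D A)
        fun D A h => ?_).trans ?_
      · by_cases h0 : FinP D A
        · exact Or.inl h0
        · exact Or.inr fun l => (h.2 l (Finset.mem_univ _)).resolve_left h0
      · exact Par.Imp.or hG2 (Par.Imp.of_forall fun D A h => Or.inl (Or.inl h))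
          ((imp_eqn_of_pol hp hne).trans (Par.Imp.of_forall fun D A h => Or.inr h)))
  have hc : ((Finset.univ : Finset (Fin 4)).erase 0).card = 3 := by decide
  rw [hc] at s2
  refine s2.imp ?_ (by simp)
  refine (Par.Imp.of_forall (P' := fun D A => FinP D A ∨
    ((∀ l, p.Pol l D A) ∧ ∀ i, i ≠ 0 → p.Lin 0 i D A)) fun D A h => ?_).trans ?_
  · by_cases h0 : FinP D A
    · exact Or.inl h0
    · exact Or.inr ⟨fun l => (h.1.2 l (Finset.mem_univ _)).resolve_left h0,
        fun i hi => (h.2 i (Finset.mem_erase.2 ⟨hi, Finset.mem_univ _⟩)).resolve_left h0⟩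
  · exact Par.Imp.or good_fin (Par.Imp.refl _) (imp_fin_of_pol_lin hp hk.ge (by omega) 0)

theorem core42 : CoreBound 4 2 := by
  obtain ⟨W, hW, h⟩ := num42
  refine core_of_fin (by omega) (by omega) W hW fun L _ _ p hp hk hW h3 h4 => ?_
  obtain ⟨T₅, T₄, T₃, T₂, T₁, a1, a2, a3, a4, a5, b1, b2, b3, c1, c2, c3, c4, e1, e2, e3, f⟩ :=
    h _ _ hp.b_pos h3 h4
  have s5 := top_stage hp a1 (by rw [hk, hW]; exact b1)
  have s4 := level_step hp (r := 3) le_rfl
    (s5.pad (p.good_lev _) (Par.dim_lev hp (by omega)) (t' := T₄) a2) (by omega)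
    (by rw [hk]; exact b2)
  have s3 := level_step hp (r := 2) (by omega)
    (s4.pad (p.good_lev _) (Par.dim_lev hp (by omega)) (t' := T₃) a3) (by omega)
    (by rw [hk]; exact b3)
  have s2 := level_two hp hk
    (s3.pad (p.good_lev _) (Par.dim_lev hp (by omega)) (t' := T₂) a4) (by omega) c1 c2 c3 c4
  have s1 := level_one hp hk
    (s2.pad (p.good_lev _) (Par.dim_lev hp (by omega)) (t' := T₁) a5) e1 e2 e3
  exact ⟨_, s1.imp (Par.Imp.refl _) (by omega)⟩

end Vale.Agent.P018
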