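import Vale.Agent.P018.DetCore

namespace Vale.Agent.P018

open NumberField Polynomial Filter

variable {d : ℕ} {L : Type} [Field L]

theorem InCl.hensel' {O : Type} [CommRing O] {X σ κ : Type} {A : Finset X} {q : O}
    {δ : σ → X → O} (hδ : ∀ i, ∀ x ∈ A, q ∣ δ i x) (M : Finset κ) (e : κ → ℕ) {c : κ → X → O}
    {z : X → O} (hc : ∀ u ∈ M, InCl A q δ (c u)) {x₀ : X} (hx₀ : x₀ ∈ A)
    (hz : ∀ x ∈ A, q ∣ z x - z x₀) (heq : ∀ x ∈ A, ∑ u ∈ M, c u x * z x ^ e u = 0) {u' : O}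
    (hu' : q ∣ 1 - u' * ∑ u ∈ M, (e u : O) * c u x₀ * z x₀ ^ (e u - 1)) : InCl A q δ z := by
  classical
  have hm : ∀ u ∈ M, e u ∈ Finset.range (M.sup e + 1) := fun u hu =>
    Finset.mem_range.2 (Nat.lt_succ_of_le (Finset.le_sup hu))
  refine InCl.hensel hδ (n := M.sup e + 1) (c := fun j x => ∑ u ∈ M.filter (fun u => e u = j), c u x)
    (fun j => InCl.sum _ fun u hu => hc u (Finset.mem_filter.1 hu).1) hx₀ hz (fun x hx => ?_)
    (u' := u') ?_
  · rw [← heq x hx, ← Finset.sum_fiberwise_of_maps_to hm]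
    refine Finset.sum_congr rfl fun j _ => ?_
    rw [Finset.sum_mul]
    refine Finset.sum_congr rfl fun u hu => ?_
    rw [(Finset.mem_filter.1 hu).2]
  · have : ∑ j ∈ Finset.range (M.sup e + 1),
        (j : O) * (∑ u ∈ M.filter (fun u => e u = j), c u x₀) * z x₀ ^ (j - 1) =
        ∑ u ∈ M, (e u : O) * c u x₀ * z x₀ ^ (e u - 1) := by
      rw [← Finset.sum_fiberwise_of_maps_to hm]
      refine Finset.sum_congr rfl fun j _ => ?_
      rw [Finset.mul_sum, Finset.sum_mul]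
      refine Finset.sum_congr rfl fun u hu => ?_
      rw [(Finset.mem_filter.1 hu).2]
    rw [this]
    exact hu'

/-- the monomials that occur in `Φ` -/
noncomputable def msupp (Φ : RR d L) : Finset ((Fin d →₀ ℕ) × ℕ) :=
  Φ.support.biUnion (fun m => {m} ×ˢ (Φ.coeff m).support)

theorem mem_msupp {Φ : RR d L} {u : (Fin d →₀ ℕ) × ℕ} :
    u ∈ msupp Φ ↔ (Φ.coeff u.1).coeff u.2 ≠ 0 := by
  obtain ⟨m, j⟩ := u
  simp only [msupp, Finset.mem_biUnion, MvPolynomial.mem_support_iff, Finset.mem_product,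
    Finset.mem_singleton, Polynomial.mem_support_iff]
  constructor
  · rintro ⟨m', _, rfl, h⟩
    exact h
  · intro h
    exact ⟨m, fun h0 => h (by simp [h0]), rfl, h⟩

theorem msupp_facts {Φ : RR d L} {D E : ℕ} (hD : DegLe Φ D E) {u : (Fin d →₀ ℕ) × ℕ}
    (hu : u ∈ msupp Φ) : u.1 ∈ Φ.support ∧ ∑ l, u.1 l ≤ D ∧ u.2 ≤ E := by
  have h := mem_msupp.1 hu
  have h1 : u.1 ∈ Φ.support := MvPolynomial.mem_support_iff.2 fun h0 => h (by simp [h0])
  refine ⟨h1, ?_, (le_natDegree_of_ne_zero h).trans (hD.2 _)⟩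
  have := (MvPolynomial.le_totalDegree h1).trans hD.1
  rwa [Finsupp.sum_fintype _ _ (fun _ => rfl)] at this

theorem card_msupp {Φ : RR d L} {D E : ℕ} (hD : DegLe Φ D E) :
    (msupp Φ).card ≤ (D + 1) ^ d * (E + 1) := by
  have : (msupp Φ).card ≤
      (Fintype.piFinset (fun _ : Fin d => Finset.range (D + 1)) ×ˢ Finset.range (E + 1)).card := by
    refine Finset.card_le_card_of_injOn (fun u => (fun l => u.1 l, u.2)) ?_ ?_
    · intro u hu
      obtain ⟨_, h2, h3⟩ := msupp_facts hD hu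
      simp only [Finset.coe_product, Set.mem_prod, Finset.mem_coe, Fintype.mem_piFinset,
        Finset.mem_range]
      refine ⟨fun l => ?_, by omega⟩
      have := Finset.single_le_sum (f := fun l => u.1 l) (fun _ _ => Nat.zero_le _)
        (Finset.mem_univ l)
      omega
    · intro u _ u' _ h
      simp only [Prod.mk.injEq] at h
      exact Prod.ext (Finsupp.ext fun l => congrFun h.1 l) h.2
  simpa using this

/-- the polynomial with given monomials and coefficients -/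
noncomputable def psi (M : Finset ((Fin d →₀ ℕ) × ℕ)) (lam : (Fin d →₀ ℕ) × ℕ → L) : RR d L :=
  ∑ u ∈ M, MvPolynomial.monomial u.1 (Polynomial.monomial u.2 (lam u))

theorem coeff_psi (M : Finset ((Fin d →₀ ℕ) × ℕ)) (lam : (Fin d →₀ ℕ) × ℕ → L)
    (m : Fin d →₀ ℕ) (j : ℕ) :
    ((psi M lam).coeff m).coeff j = if (m, j) ∈ M then lam (m, j) else 0 := by
  classical
  unfold psi
  rw [MvPolynomial.coeff_sum, finsetSum_coeff, ← Finset.sum_ite_eq]
  refine Finset.sum_congr rfl fun u _ => ?_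
  obtain ⟨m', j'⟩ := u
  rw [MvPolynomial.coeff_monomial]
  by_cases h1 : m' = m
  · subst h1
    by_cases h2 : j' = j
    · subst h2; simp
    · simp [coeff_monomial, h2, Ne.symm h2]
  · simp [h1, Ne.symm h1]

theorem psi_self (Φ : RR d L) : psi (msupp Φ) (fun u => (Φ.coeff u.1).coeff u.2) = Φ := by
  ext m j
  rw [coeff_psi]
  split_ifs with h
  · rfl
  · exact (not_not.1 (mem_msupp.not.1 h)).symm

theorem ev_monomial (al : Fin d → L) (n : L) (m : Fin d →₀ ℕ) (a : L[X]) :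
    ev al n (MvPolynomial.monomial m a) = a.eval n * ∏ l, al l ^ m l := by
  unfold ev
  rw [MvPolynomial.eval₂Hom_monomial, Finsupp.prod_fintype _ _ (fun _ => pow_zero _)]
  simp

theorem ev_psi (al : Fin d → L) (n : L) (M : Finset ((Fin d →₀ ℕ) × ℕ))
    (lam : (Fin d →₀ ℕ) × ℕ → L) :
    ev al n (psi M lam) = ∑ u ∈ M, lam u * ((∏ l, al l ^ u.1 l) * n ^ u.2) := by
  unfold psi
  rw [map_sum]
  refine Finset.sum_congr rfl fun u _ => ?_
  rw [ev_monomial, eval_monomial]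
  ring

theorem prod_split {R : Type} [CommRing R] (al : Fin d → R) (m : Fin d →₀ ℕ) (i : Fin d) :
    ∏ l, al l ^ m l = al i ^ m i * ∏ l ∈ Finset.univ.erase i, al l ^ m l :=
  (Finset.mul_prod_erase _ _ (Finset.mem_univ i)).symm

theorem ev_pderiv_psi (al : Fin d → L) (n : L) (M : Finset ((Fin d →₀ ℕ) × ℕ))
    (lam : (Fin d →₀ ℕ) × ℕ → L) (i : Fin d) :
    ev al n (MvPolynomial.pderiv i (psi M lam)) = ∑ u ∈ M, (u.1 i : L) *
      (lam u * ((∏ l ∈ Finset.univ.erase i, al l ^ u.1 l) * n ^ u.2)) * al i ^ (u.1 i - 1) := by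
  unfold psi
  rw [map_sum, map_sum]
  refine Finset.sum_congr rfl fun u _ => ?_
  rw [MvPolynomial.pderiv_monomial, ev_monomial, prod_split _ _ i]
  have : ∏ l ∈ Finset.univ.erase i, al l ^ (u.1 - Finsupp.single i 1 : Fin d →₀ ℕ) l =
      ∏ l ∈ Finset.univ.erase i, al l ^ u.1 l := by
    refine Finset.prod_congr rfl fun l hl => ?_
    simp [Finsupp.single_eq_of_ne (Finset.ne_of_mem_erase hl)]
  rw [this]
  simp
  ring

theorem sub_facts {P Q : RR d L} (hs : ∀ m j, (Q.coeff m).coeff j ≠ 0 → (P.coeff m).coeff j ≠ 0)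
    {D E : ℕ} (hD : DegLe P D E) : Q.vars ⊆ P.vars ∧ DegLe Q D E := by
  have h1 : Q.support ⊆ P.support := by
    intro m hm
    rw [MvPolynomial.mem_support_iff] at hm ⊢
    intro h0
    exact hs m _ (leadingCoeff_ne_zero.2 hm) (by simp [h0])
  refine ⟨fun i hi => ?_, (MvPolynomial.totalDegree_le_of_support_subset h1).trans hD.1,
    fun m => ?_⟩
  · obtain ⟨m, hm, hi⟩ := (MvPolynomial.mem_vars_iff_mem_support i).1 hi
    exact (MvPolynomial.mem_vars_iff_mem_support i).2 ⟨m, h1 hm, hi⟩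
  · by_cases h0 : Q.coeff m = 0
    · simp [h0]
    · exact (le_natDegree_of_ne_zero (hs m _ (leadingCoeff_ne_zero.2 h0))).trans (hD.2 m)

variable [NumberField L] {p : Par d L}

/-- value of a monomial in `α`, `N` -/
noncomputable def Par.mv (p : Par d L) (s : Finset (Fin d)) (u : (Fin d →₀ ℕ) × ℕ) (x : Pt d L) :
    𝓞 L := (∏ l ∈ s, al p.θ x l ^ u.1 l) * (x.N : 𝓞 L) ^ u.2

theorem small_mv {Z : ℝ} {S : Finset (Pt d L)} {pool : Finset ℕ} (hA : p.Adm Z S pool)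
    (hZ : 1 ≤ Z) {x : Pt d L} (hx : x ∈ S) (s : Finset (Fin d)) {u : (Fin d →₀ ℕ) × ℕ} {D E : ℕ}
    (h1 : ∑ l, u.1 l ≤ D) (h2 : u.2 ≤ E) : Small Z (p.a * D + p.W * E) (p.mv s u x) := by
  refine (Small.mul (Small.prod s fun l _ => (hA.smallA x hx l).pow (u.1 l))
    ((small_N hA hx).pow u.2)).mono hZ ?_
  rw [← Finset.mul_sum]
  have h3 : ∑ l ∈ s, u.1 l ≤ D := (Finset.sum_le_sum_of_subset (Finset.subset_univ s)).trans h1
  exact add_le_add (Nat.mul_le_mul_left _ h3) (Nat.mul_le_mul_left _ h2)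

open Classical in
/-- the points of `S` on the hypersurface `Φ` -/
noncomputable def Par.zs (p : Par d L) (S : Finset (Pt d L)) (Φ : RR d L) : Finset (Pt d L) :=
  S.filter (fun x => p.evx x Φ = 0)

omit [NumberField L] in
theorem mem_zs {S : Finset (Pt d L)} {Φ : RR d L} {x : Pt d L} :
    x ∈ p.zs S Φ ↔ x ∈ S ∧ p.evx x Φ = 0 := by
  simp [Par.zs]

theorem hyp_core (D E : ℕ) : ∃ b : ℕ, ∀ᶠ Z : ℝ in atTop, ∀ (S : Finset (Pt d L))
    (pool : Finset ℕ), p.Adm Z S pool → ∀ (I : Finset (Fin d)) (i : Fin d) (Φ : RR d L),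
      Irreducible Φ → Φ.vars ⊆ I → DegLe Φ D E →
      (∃ Q : RR d L, Q ≠ 0 ∧ Q.vars ⊆ I.erase i ∧ DegLe Q ((2 * D + 1) * D) ((2 * D + 1) * E) ∧
        ∀ x ∈ p.zs S Φ, p.evx x Q = 0) ∨
      ∀ x₀ ∈ p.zs S Φ, p.evx x₀ (MvPolynomial.pderiv i Φ) ≠ 0 → ∃ bad : Finset ℕ, bad.card ≤ b ∧
        ∀ T ⊆ pool, Disjoint T bad → ∀ A ⊆ p.zs S Φ, x₀ ∈ A → (∀ x ∈ A, Cong key T x₀ x) →
          ∀ (σ : Type) (g : σ → Pt d L → 𝓞 L),
            (∀ j, ∀ x ∈ A, ((∏ π ∈ T, π : ℕ) : 𝓞 L) ∣ g j x) →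
            (∀ l ∈ I.erase i, InCl A ((∏ π ∈ T, π : ℕ) : 𝓞 L) g (fun x => al p.θ x l)) →
            (E = 0 ∨ InCl A ((∏ π ∈ T, π : ℕ) : 𝓞 L) g (fun x => (x.N : 𝓞 L))) →
            InCl A ((∏ π ∈ T, π : ℕ) : 𝓞 L) g (fun x => al p.θ x i) := by
  classical
  obtain ⟨E₀, hE₀⟩ := exists_small_kernel ((D + 1) ^ d * (E + 1)) (p.a * D + p.W * E)
  refine ⟨(D + (E₀ + (p.a * D + p.W * E)) + p.a * D + (D + 1) ^ d * (E + 1)) *
    Module.finrank ℚ L, ?_⟩
  filter_upwards [eventually_ge_atTop (2 : ℝ)] with Z hZ S pool hA I i Φ hΦ hv hD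
  have hZ1 : (1 : ℝ) ≤ Z := by linarith
  have hmv : ∀ (s : Finset (Fin d)) (u : (Fin d →₀ ℕ) × ℕ) (x : Pt d L), (p.mv s u x : L) =
      (∏ l ∈ s, p.alL x l ^ u.1 l) * ((x.N : ℤ) : L) ^ u.2 := fun s u x => by
    simp [Par.mv, Par.alL]
  obtain ⟨lam, ⟨u₀, hu₀, hl0⟩, hls, hl⟩ := hE₀ L _ _ Z (msupp Φ) (p.zs S Φ) (p.mv Finset.univ) hZ
    (card_msupp hD)
    (fun u hu x hx => small_mv hA hZ1 (mem_zs.1 hx).1 _ (msupp_facts hD hu).2.1
      (msupp_facts hD hu).2.2)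
    ⟨fun u => (Φ.coeff u.1).coeff u.2, by
      obtain ⟨m, hm⟩ := MvPolynomial.ne_zero_iff.1 hΦ.ne_zero
      have := leadingCoeff_ne_zero.2 hm
      exact ⟨(m, (Φ.coeff m).natDegree), mem_msupp.2 this, this⟩, fun x hx => by
      have := (mem_zs.1 hx).2
      rw [← psi_self Φ, Par.evx, ev_psi] at this
      simpa only [hmv] using this⟩
  set Ψ : RR d L := psi (msupp Φ) (fun u => (lam u : L)) with hΨ
  have hsub : ∀ m j, (Ψ.coeff m).coeff j ≠ 0 → (Φ.coeff m).coeff j ≠ 0 := by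
    intro m j h
    rw [hΨ, coeff_psi] at h
    by_cases h1 : (m, j) ∈ msupp Φ
    · exact mem_msupp.1 h1
    · simp [h1] at h
  have hΨ0 : Ψ ≠ 0 := by
    intro h
    have := coeff_psi (msupp Φ) (fun u => (lam u : L)) u₀.1 u₀.2
    rw [← hΨ, h, if_pos hu₀] at this
    exact hl0 (RingOfIntegers.coe_injective (by simpa using this.symm))
  have hΨev : ∀ x ∈ p.zs S Φ, p.evx x Ψ = 0 := by
    intro x hx
    have := congrArg (algebraMap (𝓞 L) L) (hl x hx)
    rw [hΨ, Par.evx, ev_psi]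
    simp only [← hmv]
    simpa using this
  obtain ⟨hΨv, hΨD⟩ := sub_facts hsub hD
  by_cases hdvd : Φ ∣ Ψ
  swap
  · left
    obtain ⟨Q, h1, h2, h3, h4⟩ := elim i hΦ hdvd hv (hΨv.trans hv) hD hΨD
    exact ⟨Q, h1, h2, h3, fun x hx => h4 _ _ (mem_zs.1 hx).2 (hΨev x hx)⟩
  right
  obtain ⟨γ, hγ0, hγ⟩ := eq_smul_of_dvd hdvd hΨ0 hsub
  intro x₀ hx₀ hder
  have hx₀S := (mem_zs.1 hx₀).1
  set G : 𝓞 L := ∑ u ∈ msupp Φ, ((u.1 i : ℕ) : 𝓞 L) * (lam u * p.mv (Finset.univ.erase i) u x₀) *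
    al p.θ x₀ i ^ (u.1 i - 1) with hG
  have hG0 : G ≠ 0 := by
    intro h0
    have h1 : p.evx x₀ (MvPolynomial.pderiv i Ψ) = (G : L) := by
      rw [hΨ, Par.evx, ev_pderiv_psi, hG]
      simp only [← hmv]
      simp [Par.alL]
    rw [hγ, MvPolynomial.pderiv_C_mul, map_mul, h0] at h1
    simp only [Par.evx, ev, MvPolynomial.eval₂Hom_C, coe_evalRingHom, eval_C] at h1
    rcases mul_eq_zero.1 h1 with h | h
    · exact hγ0 h
    · exact hder h
  have hGs : Small Z (D + (E₀ + (p.a * D + p.W * E)) + p.a * D + (D + 1) ^ d * (E + 1)) G := by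
    refine (Small.sum (e := D + (E₀ + (p.a * D + p.W * E)) + p.a * D) _ (fun u hu => ?_) hZ).mono
      hZ1 (Nat.add_le_add_left (card_msupp hD) _)
    obtain ⟨_, h2, h3⟩ := msupp_facts hD hu
    have h4 : u.1 i ≤ D := (Finset.single_le_sum (f := fun l => u.1 l) (fun _ _ => Nat.zero_le _)
        (Finset.mem_univ i)).trans h2
    refine (((Small.natCast (u.1 i) hZ).mono hZ1 h4).mul
      ((hls u hu).mul (small_mv hA hZ1 hx₀S _ h2 h3))).mul
      (((hA.smallA x₀ hx₀S i).pow _).mono hZ1 (Nat.mul_le_mul_left _ (by omega)))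
  obtain ⟨bad, hb, hbad⟩ := exists_bad hG0 hGs hZ
  refine ⟨bad, hb, fun T hT hdis A hAz hx₀A hcong σ g hg hal hN => ?_⟩
  obtain ⟨u', hu'⟩ := hbad T (fun π hπ => ⟨(hA.poolPrime π (hT hπ)).1,
    (hA.poolPrime π (hT hπ)).2.1⟩) hdis
  refine InCl.hensel' hg (msupp Φ) (fun u => u.1 i)
    (c := fun u x => lam u * p.mv (Finset.univ.erase i) u x) (fun u hu => ?_) hx₀A
    (fun x hx => dvd_al_sub_of_cong (fun π hπ => (hA.poolPrime π (hT hπ)).1)
      (hcong x hx).symm' i) (fun x hx => ?_) hu'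
  · refine (InCl.const _).mul ?_
    unfold Par.mv
    obtain ⟨h1, _, h3⟩ := msupp_facts hD hu
    refine InCl.mul (InCl.prod _ fun l hl => ?_) ?_
    · by_cases hlI : l ∈ I
      · exact (hal l (Finset.mem_erase.2 ⟨Finset.ne_of_mem_erase hl, hlI⟩)).pow _
      · have : u.1 l = 0 := by
          by_contra h0
          exact hlI (hv ((MvPolynomial.mem_vars_iff_mem_support l).2 ⟨u.1, h1, Finsupp.mem_support_iff.2 h0⟩))
        simpa [this] using InCl.const (A := A) (δ := g) (1 : 𝓞 L)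
    · rcases hN with hN | hN
      · have : u.2 = 0 := by omega
        simpa [this] using InCl.const (A := A) (δ := g) (1 : 𝓞 L)
      · exact hN.pow _
  · rw [← hl x (hAz hx)]
    refine Finset.sum_congr rfl fun u _ => ?_
    unfold Par.mv
    rw [prod_split _ _ i]
    ring

end Vale.Agent.P018
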