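import Vale.Agent.P018.Poly

namespace Vale.Agent.P018

open Polynomial

variable {d : ℕ} {L : Type} [Field L]

/-- index of the monomial `∏ α ^ i β ^ j * n ^ g` -/
abbrev Ix (d : ℕ) : Type := (Fin d → ℕ × ℕ) × ℕ

/-- degree in `n` -/
def gdeg (u : Ix d) : ℕ := ∑ l, (u.1 l).2 + u.2

/-- exponent of `α l` -/
def iexp (k : ℕ) (u : Ix d) (l : Fin d) : ℤ := ((u.1 l).1 : ℤ) - (k : ℤ) * ((u.1 l).2 : ℤ)

/-- exponent after clearing denominators -/
noncomputable def expo (k E : ℕ) (I : Finset (Fin d)) (u : Ix d) : Fin d →₀ ℕ :=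
  Finsupp.equivFunOnFinite.symm
    (fun l => (u.1 l).1 + (if l ∈ I then E else 0) - k * (u.1 l).2)

/-- the polynomial attached to an index -/
noncomputable def monoP (θ : Fin d → L) (cL : L) (k E : ℕ) (I : Finset (Fin d)) (u : Ix d) :
    RR d L :=
  MvPolynomial.monomial (expo k E I u) ((∏ l, (C cL * (X - C (θ l))) ^ (u.1 l).2) * X ^ u.2)

/-- the index is supported on `I` and the denominators are cleared by `E` -/
def IxOk (k E : ℕ) (I : Finset (Fin d)) (u : Ix d) : Prop :=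
  ∀ l, (l ∉ I → u.1 l = (0, 0)) ∧ k * (u.1 l).2 ≤ E

/-- the semigroup of leading exponents -/
def InE (k : ℕ) (I : Finset (Fin d)) (e : Fin d → ℤ) (g : ℤ) : Prop :=
  ∃ j : Fin d → ℕ, (∀ l ∈ I, 0 ≤ e l + (k : ℤ) * (j l : ℤ)) ∧ ((∑ l ∈ I, j l : ℕ) : ℤ) ≤ g

/-- the coefficient polynomial -/
noncomputable def ldA (θ : Fin d → L) (cL : L) (u : Ix d) : L[X] :=
  (∏ l, (C cL * (X - C (θ l))) ^ (u.1 l).2) * X ^ u.2

theorem ldA_eq (θ : Fin d → L) (cL : L) (u : Ix d) : ldA θ cL u =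
    C (cL ^ ∑ l, (u.1 l).2) * ((∏ l, (X - C (θ l)) ^ (u.1 l).2) * X ^ u.2) := by
  simp only [ldA, mul_pow, Finset.prod_mul_distrib, Finset.prod_pow_eq_pow_sum, map_pow, mul_assoc]

theorem ldA_monic (θ : Fin d → L) (u : Ix d) :
    ((∏ l, (X - C (θ l)) ^ (u.1 l).2) * X ^ u.2).Monic ∧
      ((∏ l, (X - C (θ l)) ^ (u.1 l).2) * X ^ u.2).natDegree = gdeg u := by
  have h := monic_prod_of_monic Finset.univ (fun l => (X - C (θ l)) ^ (u.1 l).2)
    fun l _ => (monic_X_sub_C _).pow _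
  refine ⟨h.mul (monic_X_pow _), ?_⟩
  rw [h.natDegree_mul (monic_X_pow _), natDegree_prod_of_monic _ _
    fun l _ => (monic_X_sub_C _).pow _]
  simp [gdeg, natDegree_pow]

theorem ldA_natDegree (θ : Fin d → L) (cL : L) (u : Ix d) : (ldA θ cL u).natDegree ≤ gdeg u := by
  rw [ldA_eq, ← (ldA_monic θ u).2]
  exact natDegree_C_mul_le _ _

theorem ldA_top (θ : Fin d → L) (cL : L) (u : Ix d) :
    (ldA θ cL u).coeff (gdeg u) = cL ^ ∑ l, (u.1 l).2 := by
  rw [ldA_eq, coeff_C_mul, ← (ldA_monic θ u).2, (ldA_monic θ u).1.coeff_natDegree, mul_one]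

theorem expo_apply (k E : ℕ) (I : Finset (Fin d)) (u : Ix d) (l : Fin d) :
    expo k E I u l = (u.1 l).1 + (if l ∈ I then E else 0) - k * (u.1 l).2 := rfl

theorem expo_cast {k E : ℕ} {I : Finset (Fin d)} {u : Ix d} (hu : IxOk k E I u) (l : Fin d) :
    (expo k E I u l : ℤ) = iexp k u l + if l ∈ I then (E : ℤ) else 0 := by
  obtain ⟨h1, h2⟩ := hu l
  rw [expo_apply, iexp]
  split_ifs with h
  · rw [Nat.cast_sub (by omega)]
    push_cast
    ring
  · simp [h1 h]

theorem coeff_sum_monoP (θ : Fin d → L) (cL : L) (k E : ℕ) (I : Finset (Fin d))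
    (B : Finset (Ix d)) (lam : Ix d → L) (m : Fin d →₀ ℕ) :
    (∑ u ∈ B, MvPolynomial.C (C (lam u)) * monoP θ cL k E I u).coeff m =
      ∑ u ∈ B, if expo k E I u = m then C (lam u) * ldA θ cL u else 0 := by
  rw [MvPolynomial.coeff_sum]
  refine Finset.sum_congr rfl fun u _ => ?_
  rw [MvPolynomial.coeff_C_mul, monoP, MvPolynomial.coeff_monomial]
  split_ifs <;> simp [ldA]

theorem exists_top (B : Finset (Ix d)) (lam : Ix d → L) (hlam : ∃ u ∈ B, lam u ≠ 0) :
    ∃ u ∈ B, lam u ≠ 0 ∧ ∀ u' ∈ B, lam u' ≠ 0 → gdeg u' ≤ gdeg u := by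
  classical
  obtain ⟨u, hu, h⟩ := Finset.exists_max_image (B.filter fun u => lam u ≠ 0) gdeg
    (hlam.imp fun u hu => Finset.mem_filter.2 hu)
  exact ⟨u, (Finset.mem_filter.1 hu).1, (Finset.mem_filter.1 hu).2,
    fun u' h1 h2 => h u' (Finset.mem_filter.2 ⟨h1, h2⟩)⟩

theorem top_coeff (θ : Fin d → L) (cL : L) (hc : cL ≠ 0) (k E : ℕ) (I : Finset (Fin d))
    (B : Finset (Ix d)) (lam : Ix d → L) (hB : ∀ u ∈ B, IxOk k E I u)
    (hinj : ∀ u ∈ B, ∀ u' ∈ B, gdeg u = gdeg u' → (∀ l, iexp k u l = iexp k u' l) → u = u')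
    (u : Ix d) (hu : u ∈ B) (h1 : lam u ≠ 0) (h2 : ∀ u' ∈ B, lam u' ≠ 0 → gdeg u' ≤ gdeg u) :
    ((∑ u ∈ B, MvPolynomial.C (C (lam u)) * monoP θ cL k E I u).coeff (expo k E I u)).coeff
      (gdeg u) ≠ 0 := by
  rw [coeff_sum_monoP, finsetSum_coeff, Finset.sum_eq_single u _ (fun h => (h hu).elim),
    if_pos rfl, coeff_C_mul, ldA_top]
  · exact mul_ne_zero h1 (pow_ne_zero _ hc)
  · intro u' hu' hne
    split_ifs with h
    · by_cases h3 : lam u' = 0
      · simp [h3]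
      rw [coeff_C_mul, coeff_eq_zero_of_natDegree_lt, mul_zero]
      refine (ldA_natDegree θ cL u').trans_lt (lt_of_le_of_ne (h2 u' hu' h3) fun h4 => hne ?_)
      refine hinj u' hu' u hu h4 fun l => ?_
      have a1 := expo_cast (hB u hu) l
      have a2 := expo_cast (hB u' hu') l
      rw [h] at a2
      omega
    · rfl

theorem ev_monoP (θ : Fin d → L) (cL : L) (k E : ℕ) (I : Finset (Fin d)) (u : Ix d)
    (hu : IxOk k E I u) (al be : Fin d → L) (n : L) (h : ∀ l, al l ^ k * be l = cL * (n - θ l)) :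
    ev al n (monoP θ cL k E I u) =
      (∏ l ∈ I, al l ^ E) * ((∏ l, al l ^ (u.1 l).1 * be l ^ (u.1 l).2) * n ^ u.2) := by
  rw [monoP, ev, MvPolynomial.eval₂Hom_monomial, Finsupp.prod_fintype _ _ (by simp),
    ← Finset.univ_inter I, ← Finset.prod_ite_mem, Finset.univ_inter]
  simp only [coe_evalRingHom, eval_mul, eval_prod, eval_pow, eval_C, eval_sub, eval_X, ← h]
  rw [mul_right_comm, ← mul_assoc, ← Finset.prod_mul_distrib, ← Finset.prod_mul_distrib]
  congr 1
  refine Finset.prod_congr rfl fun l _ => ?_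
  obtain ⟨h1, h2⟩ := hu l
  rw [expo_apply]
  split_ifs with hl
  · obtain ⟨c, rfl⟩ := Nat.exists_eq_add_of_le h2
    rw [show (u.1 l).1 + (k * (u.1 l).2 + c) - k * (u.1 l).2 = (u.1 l).1 + c by omega]
    ring
  · simp [h1 hl]

theorem monoP_vars (θ : Fin d → L) (cL : L) (k E : ℕ) (I : Finset (Fin d)) (u : Ix d)
    (hu : IxOk k E I u) : (monoP θ cL k E I u).vars ⊆ I := by
  by_cases h : (∏ l, (C cL * (X - C (θ l))) ^ (u.1 l).2) * X ^ u.2 = 0
  · simp [monoP, h]
  rw [monoP, MvPolynomial.vars_monomial h]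
  intro l hl
  by_contra h'
  apply Finsupp.mem_support_iff.1 hl
  simp [expo_apply, h', (hu l).1 h']

theorem monoP_degLe (θ : Fin d → L) (cL : L) (k E : ℕ) (I : Finset (Fin d)) (u : Ix d) :
    DegLe (monoP θ cL k E I u) (∑ l, (u.1 l).1 + d * E) (gdeg u) := by
  refine ⟨(MvPolynomial.totalDegree_monomial_le _ _).trans ?_, fun m => ?_⟩
  · rw [Finsupp.sum_fintype _ _ (by simp)]
    calc _ ≤ ∑ l, ((u.1 l).1 + E) := Finset.sum_le_sum fun l _ => by
          rw [id, expo_apply]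
          split_ifs <;> omega
      _ = _ := by simp [Finset.sum_add_distrib]
  · rw [monoP, MvPolynomial.coeff_monomial]
    split_ifs
    · exact ldA_natDegree θ cL u
    · simp

theorem sum_monoP_ne_zero (θ : Fin d → L) (cL : L) (hc : cL ≠ 0) (k E : ℕ) (I : Finset (Fin d))
    (B : Finset (Ix d)) (lam : Ix d → L) (hB : ∀ u ∈ B, IxOk k E I u)
    (hinj : ∀ u ∈ B, ∀ u' ∈ B, gdeg u = gdeg u' → (∀ l, iexp k u l = iexp k u' l) → u = u')
    (hlam : ∃ u ∈ B, lam u ≠ 0) :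
    ∑ u ∈ B, MvPolynomial.C (C (lam u)) * monoP θ cL k E I u ≠ 0 := by
  obtain ⟨u, hu, h1, h2⟩ := exists_top B lam hlam
  intro h
  exact top_coeff θ cL hc k E I B lam hB hinj u hu h1 h2 (by rw [h]; simp)

/-- exchange of the variables -/
noncomputable def ldΩ : RR d L →+* (MvPolynomial (Fin d) L)[X] :=
  MvPolynomial.eval₂Hom (mapRingHom MvPolynomial.C) fun i => C (MvPolynomial.X i)

theorem ldΩ_coeff (P : RR d L) (g : ℕ) (m : Fin d →₀ ℕ) :
    ((ldΩ P).coeff g).coeff m = (P.coeff m).coeff g := by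
  induction P using MvPolynomial.induction_on' with
  | add p q hp hq => simp [hp, hq]
  | monomial m' a =>
    have e : ldΩ (MvPolynomial.monomial m' a) =
        a.map MvPolynomial.C * C (MvPolynomial.monomial m' 1) := by
      rw [ldΩ, MvPolynomial.eval₂Hom_monomial, MvPolynomial.monomial_eq, map_one, one_mul,
        map_finsuppProd]
      simp only [coe_mapRingHom, map_pow]
    rw [e, coeff_mul_C, coeff_map, MvPolynomial.coeff_C_mul, MvPolynomial.coeff_monomial,
      MvPolynomial.coeff_monomial]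
    split_ifs <;> simp

theorem ldΩ_ne_zero {P : RR d L} (hP : P ≠ 0) : ldΩ P ≠ 0 := by
  intro h
  apply hP
  ext m g
  rw [← ldΩ_coeff, h]
  simp

/-- grading by the weights `1` on `X l` and `k` on `n - t` -/
noncomputable def ldΘ (t : L) (k : ℕ) (l : Fin d) : RR d L →+* (RR d L)[X] :=
  MvPolynomial.eval₂Hom (eval₂RingHom ((C.comp MvPolynomial.C).comp C)
    (X ^ k * C (MvPolynomial.C X) + C (MvPolynomial.C (C t))))
    fun i => X ^ (if i = l then 1 else 0) * C (MvPolynomial.X i)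

theorem ldΘ_coeff (t : L) (k : ℕ) (l : Fin d) (P : RR d L) (V : ℕ) (m : Fin d →₀ ℕ) (j : ℕ) :
    (((ldΘ t k l P).coeff V).coeff m).coeff j =
      if m l + k * j = V then (taylor t (P.coeff m)).coeff j else 0 := by
  induction P using MvPolynomial.induction_on' with
  | add p q hp hq =>
    simp only [map_add, coeff_add, MvPolynomial.coeff_add, hp, hq]
    split_ifs <;> simp
  | monomial m' a =>
    obtain ⟨b, rfl⟩ : ∃ b, a = taylor (-t) b := ⟨taylor t a, by simp [taylor_taylor]⟩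
    induction b using Polynomial.induction_on' with
    | add p q hp hq =>
      simp only [map_add, coeff_add, MvPolynomial.coeff_add, hp, hq]
      split_ifs <;> simp
    | monomial j' c =>
      have e1 : (m'.prod fun i e => ((X : (RR d L)[X]) ^ (if i = l then 1 else 0) *
          C (MvPolynomial.X i)) ^ e) = X ^ (m' l) * C (MvPolynomial.monomial m' 1) := by
        rw [Finsupp.prod_fintype _ _ (by simp), MvPolynomial.monomial_eq,
          Finsupp.prod_fintype _ _ (by simp)]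
        simp only [mul_pow, Finset.prod_mul_distrib, ← pow_mul, Finset.prod_pow_eq_pow_sum]
        simp
      have e : ldΘ t k l (MvPolynomial.monomial m' (taylor (-t) (monomial j' c))) =
          monomial (m' l + k * j') (MvPolynomial.monomial m' (monomial j' c)) := by
        rw [ldΘ, MvPolynomial.eval₂Hom_monomial, e1, taylor_monomial, ← C_mul_X_pow_eq_monomial,
          ← C_mul_X_pow_eq_monomial, ← mul_one (C c * X ^ j'), ← MvPolynomial.C_mul_monomial]
        simp only [map_mul, map_pow, map_add, coe_eval₂RingHom, eval₂_C, eval₂_X, RingHom.comp_apply,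
          map_neg]
        ring
      rw [e, coeff_monomial, MvPolynomial.coeff_monomial]
      by_cases h1 : m' = m
      · subst h1
        rw [if_pos rfl, taylor_taylor, add_neg_cancel, taylor_zero, coeff_monomial]
        by_cases h2 : j' = j
        · subst h2
          split_ifs <;> simp_all
        · split_ifs <;> simp [coeff_monomial, h2]
      · split_ifs <;> simp [h1]

theorem ldΘ_ne_zero (t : L) (k : ℕ) (l : Fin d) {P : RR d L} (hP : P ≠ 0) : ldΘ t k l P ≠ 0 := by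
  intro h
  apply hP
  refine MvPolynomial.ext _ _ fun m => taylor_injective t ?_
  ext j
  have := ldΘ_coeff t k l P (m l + k * j) m j
  rw [h, if_pos rfl] at this
  rw [← this]
  simp

theorem ldΘ_le (t : L) (k : ℕ) (l : Fin d) (P : RR d L) (m : Fin d →₀ ℕ) (j : ℕ)
    (h : (taylor t (P.coeff m)).coeff j ≠ 0) : (ldΘ t k l P).natTrailingDegree ≤ m l + k * j := by
  refine natTrailingDegree_le_of_ne_zero fun h' => h ?_
  have := ldΘ_coeff t k l P (m l + k * j) m j
  rw [h', if_pos rfl] at this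
  rw [← this]
  simp

theorem inE_of_val (θ : Fin d → L) (hθ : Function.Injective θ) (k : ℕ) (I : Finset (Fin d))
    (a : L[X]) (ha : a ≠ 0) (e : Fin d → ℤ) (g : ℤ) (hg : (a.natDegree : ℤ) ≤ g)
    (h : ∀ l ∈ I, ∀ j, (taylor (θ l) a).coeff j ≠ 0 → 0 ≤ e l + k * j) : InE k I e g := by
  classical
  refine ⟨fun l => rootMultiplicity (θ l) a, fun l hl => h l hl _ ?_, le_trans ?_ hg⟩
  · beta_reduce
    rw [rootMultiplicity_eq_natTrailingDegree, ← taylor_apply, Ne, coeff_natTrailingDegree_eq_zero]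
    exact fun h => ha (taylor_injective (θ l) (h.trans (map_zero _).symm))
  · simp only [← count_roots]
    rw [← Finset.sum_image (f := fun x => a.roots.count x) fun x _ y _ h => hθ h]
    exact_mod_cast ((Finset.sum_le_sum_of_subset Finset.subset_union_left).trans
      (Multiset.sum_count_eq_card fun x hx => Finset.mem_union_right _
        (Multiset.mem_toFinset.2 hx)).le).trans (card_roots' a)

theorem lead_indep (θ : Fin d → L) (hθ : Function.Injective θ) (cL : L) (hc : cL ≠ 0) (k : ℕ)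
    (hk : 1 ≤ k) (I : Finset (Fin d)) (P : RR d L) (hP : P ≠ 0) :
    ∃ (ν : Fin d → ℕ) (ε : Fin d →₀ ℕ) (g : ℕ),
      (P.coeff ε).coeff g ≠ 0 ∧ (∀ m, (P.coeff m).natDegree ≤ g) ∧
      (∀ m, (P.coeff m).coeff g ≠ 0 → m.degree ≤ ε.degree) ∧
      (∀ l ∈ I, ∀ m j, (taylor (θ l) (P.coeff m)).coeff j ≠ 0 → ν l ≤ m l + k * j) ∧
      InE k I (fun l => (ε l : ℤ) - ν l) g ∧
      ∀ (E : ℕ) (B : Finset (Ix d)) (lam : Ix d → L), (∀ u ∈ B, IxOk k E I u) →
        (∀ u ∈ B, ∀ u' ∈ B, gdeg u = gdeg u' → (∀ l, iexp k u l = iexp k u' l) → u = u') →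
        (∃ u ∈ B, lam u ≠ 0) →
        P ∣ ∑ u ∈ B, MvPolynomial.C (C (lam u)) * monoP θ cL k E I u →
        ∃ u ∈ B, InE k I (fun l => iexp k u l - ((ε l : ℤ) - ν l)) ((gdeg u : ℤ) - g) := by
  have top : ∀ {Q : RR d L}, Q ≠ 0 → (Q.coeff (MonomialOrder.degLex.degree
      (ldΩ Q).leadingCoeff)).coeff (ldΩ Q).natDegree ≠ 0 := fun hQ => by
    rw [← ldΩ_coeff]
    exact MonomialOrder.coeff_degree_ne_zero_iff.2 (leadingCoeff_ne_zero.2 (ldΩ_ne_zero hQ))
  have deg : ∀ (Q : RR d L) m, (Q.coeff m).natDegree ≤ (ldΩ Q).natDegree := fun Q m =>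
    natDegree_le_iff_coeff_eq_zero.2 fun N hN => by
      rw [← ldΩ_coeff, coeff_eq_zero_of_natDegree_lt hN, MvPolynomial.coeff_zero]
  refine ⟨fun l => (ldΘ (θ l) k l P).natTrailingDegree,
    MonomialOrder.degLex.degree (ldΩ P).leadingCoeff, (ldΩ P).natDegree, top hP, deg P,
    fun m hm => ?_, fun l _ => ldΘ_le _ k l P, ?_, ?_⟩
  · rw [← ldΩ_coeff] at hm
    exact Finsupp.DegLex.monotone_degree (MonomialOrder.degLex_le_iff.1
      (MonomialOrder.le_degree (MvPolynomial.mem_support_iff.2 hm)))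
  · refine inE_of_val θ hθ k I (P.coeff (MonomialOrder.degLex.degree (ldΩ P).leadingCoeff))
      (fun h => top hP (by rw [h]; simp)) _ _ (by exact_mod_cast deg P _) fun l _ j hj => ?_
    have := ldΘ_le _ k l P _ j hj
    zify at this
    beta_reduce
    omega
  · rintro E B lam hB hinj hlam ⟨G, hG⟩
    have hS := sum_monoP_ne_zero θ cL hc k E I B lam hB hinj hlam
    have hG0 : G ≠ 0 := fun h => hS (by rw [hG, h, mul_zero])
    obtain ⟨u0, hu0, a1, a2⟩ := exists_top B lam hlam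
    have a3 := (le_natDegree_of_ne_zero (top_coeff θ cL hc k E I B lam hB hinj u0 hu0 a1 a2)).trans
      (deg _ _)
    have a4 := top hS
    rw [coeff_sum_monoP, finsetSum_coeff] at a4
    obtain ⟨u, hu, a5⟩ := Finset.exists_ne_zero_of_sum_ne_zero a4
    split_ifs at a5 with a6
    swap
    · exact (a5 rfl).elim
    rw [coeff_C_mul] at a5
    have a7 := (le_natDegree_of_ne_zero (right_ne_zero_of_mul a5)).trans (ldA_natDegree θ cL u)
    have a8 := a2 u hu (left_ne_zero_of_mul a5)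
    have val : ∀ l ∈ I, E ≤ (ldΘ (θ l) k l
        (∑ u ∈ B, MvPolynomial.C (C (lam u)) * monoP θ cL k E I u)).natTrailingDegree := by
      intro l hl
      refine le_natTrailingDegree (ldΘ_ne_zero _ _ _ hS) fun V hV => ?_
      ext m j
      rw [ldΘ_coeff, coeff_sum_monoP, map_sum, finsetSum_coeff]
      split_ifs with h
      swap
      · rfl
      refine Finset.sum_eq_zero fun u' hu' => ?_
      split_ifs with h'
      swap
      · simp
      obtain ⟨c, hc⟩ : (X - C (θ l)) ^ (u'.1 l).2 ∣ C (lam u') * ldA θ cL u' := by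
        rw [ldA_eq]
        exact (((Finset.dvd_prod_of_mem _ (Finset.mem_univ l)).mul_right _).mul_left _).mul_left _
      have b1 : j < (u'.1 l).2 := by
        have b2 := expo_apply k E I u' l
        have b3 := (hB u' hu' l).2
        rw [if_pos hl, h'] at b2
        exact lt_of_mul_lt_mul_left (a := k) (by omega) (Nat.zero_le _)
      rw [hc, taylor_mul, taylor_pow, map_sub, taylor_X, taylor_C, add_sub_cancel_right,
        coeff_X_pow_mul', if_neg (by omega)]
    rw [hG, map_mul] at a3 a6 a7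
    rw [natDegree_mul (ldΩ_ne_zero hP) (ldΩ_ne_zero hG0)] at a3 a7
    rw [leadingCoeff_mul, MonomialOrder.degree_mul (leadingCoeff_ne_zero.2 (ldΩ_ne_zero hP))
      (leadingCoeff_ne_zero.2 (ldΩ_ne_zero hG0))] at a6
    refine ⟨u, hu, inE_of_val θ hθ k I (G.coeff (MonomialOrder.degLex.degree (ldΩ G).leadingCoeff))
      (fun h => top hG0 (by rw [h]; simp)) _ _
      (by have := deg G (MonomialOrder.degLex.degree (ldΩ G).leadingCoeff); omega)
      fun l hl j hj => ?_⟩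
    have b1 := ldΘ_le _ k l G _ j hj
    have b2 := val l hl
    rw [hG, map_mul, natTrailingDegree_mul (ldΘ_ne_zero _ _ _ hP) (ldΘ_ne_zero _ _ _ hG0)] at b2
    have b3 := expo_cast (hB u hu) l
    rw [if_pos hl, a6, Finsupp.add_apply] at b3
    zify at b1
    beta_reduce
    omega

theorem pair_inj {k i j i' j' : ℕ} (h : j = 0 ∨ i < k) (h' : j' = 0 ∨ i' < k)
    (e : i + k * j' = i' + k * j) : (i, j) = (i', j') := by
  rcases lt_trichotomy j j' with h1 | rfl | h1
  · have := Nat.mul_le_mul_left k (Nat.succ_le_of_lt h1)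
    rw [Nat.mul_succ] at this
    omega
  · rw [Nat.add_right_cancel e]
  · have := Nat.mul_le_mul_left k (Nat.succ_le_of_lt h1)
    rw [Nat.mul_succ] at this
    omega

theorem min_indep {ι : Type} (κ κ' : Fin d → L) (hκ : ∀ l, κ l ≠ 0)
    (hr : ∀ l l', l ≠ l' → κ l * κ' l' ≠ κ l' * κ' l) (B : Finset ι) (w : ι → L)
    (e : ι → Fin d → ℕ) (u : ι) (hu : u ∈ B) (hw : w u ≠ 0) (l : Fin d)
    (h : ∀ u' ∈ B, u' ≠ u → w u' = 0 ∨ e u l < e u' l) :
    ∑ u ∈ B, C (w u) * ∏ l', (C (κ l') * X + C (κ' l')) ^ e u l' ≠ 0 := by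
  classical
  intro h0
  rw [← Finset.add_sum_erase _ _ hu] at h0
  have h1 : (C (κ l) * X + C (κ' l)) ^ (e u l + 1) ∣
      C (w u) * ∏ l', (C (κ l') * X + C (κ' l')) ^ e u l' := by
    rw [eq_neg_of_add_eq_zero_left h0, dvd_neg]
    refine Finset.dvd_sum fun u' hu' => ?_
    rcases h u' (Finset.mem_erase.1 hu').2 (Finset.mem_erase.1 hu').1 with h2 | h2
    · simp [h2]
    · exact ((pow_dvd_pow _ h2).trans (Finset.dvd_prod_of_mem
        (fun l' => (C (κ l') * X + C (κ' l')) ^ e u' l') (Finset.mem_univ l))).mul_left _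
  have h2 : C (κ l) * X + C (κ' l) ≠ 0 := fun h => hκ l (by simpa using congrArg (coeff · 1) h)
  rw [← Finset.mul_prod_erase _ _ (Finset.mem_univ l), mul_left_comm, pow_succ,
    mul_dvd_mul_iff_left (pow_ne_zero _ h2)] at h1
  have h3 := eval_eq_zero_of_dvd_of_eval_eq_zero (x := -κ' l / κ l) h1 (by
    have := hκ l
    simp only [eval_add, eval_mul, eval_C, eval_X]
    field_simp
    ring)
  simp only [eval_mul, eval_C, eval_prod, eval_pow, eval_add, eval_X, mul_eq_zero, hw, false_or,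
    Finset.prod_eq_zero_iff] at h3
  obtain ⟨l', hl', h4⟩ := h3
  have h5 := eq_zero_of_pow_eq_zero h4
  have := hκ l
  field_simp at h5
  exact hr l l' (Finset.mem_erase.1 hl').1.symm (by linear_combination h5)

/-- independence on a line: `ℓ l` are the linear polynomials `κ l * T + κ' l` -/
theorem line_indep (θ : Fin d → L) (cL : L) (hc : cL ≠ 0) (k E : ℕ) (hk : 1 ≤ k)
    (j₁ j₂ j₃ j₄ : Fin d) (h12 : j₁ ≠ j₂) (h13 : j₁ ≠ j₃) (h14 : j₁ ≠ j₄) (h23 : j₂ ≠ j₃)
    (h24 : j₂ ≠ j₄) (h34 : j₃ ≠ j₄) (κ κ' : Fin d → L) (hκ : ∀ l, κ l ≠ 0)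
    (hr : ∀ l l', l ≠ l' → κ l * κ' l' ≠ κ l' * κ' l)
    (B : Finset (Ix d)) (lam : Ix d → L) (hB : ∀ u ∈ B, IxOk k E Finset.univ u)
    (hB' : ∀ u ∈ B, u.2 = 0 ∧
      ((((u.1 j₁).2 = 0 ∨ (u.1 j₁).1 < k) ∧ (u.1 j₂).1 = 0 ∧ ∀ l, l ≠ j₁ → l ≠ j₂ → u.1 l = (0, 0)) ∨
       ((1 ≤ (u.1 j₃).2 ∧ (u.1 j₃).1 < k) ∧ (u.1 j₄).1 = 0 ∧
          ∀ l, l ≠ j₃ → l ≠ j₄ → u.1 l = (0, 0))))
    (hlam : ∃ u ∈ B, lam u ≠ 0) (j : Fin d) :
    MvPolynomial.aeval
      (fun l => MvPolynomial.C (C (κ l)) * MvPolynomial.X j + MvPolynomial.C (C (κ' l)) :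
        Fin d → RR d L)
      (∑ u ∈ B, MvPolynomial.C (C (lam u)) * monoP θ cL k E Finset.univ u) ≠ 0 := by
  classical
  intro h0
  let Ψ : RR d L →+* L[X][X] := MvPolynomial.eval₂Hom (mapRingHom C) fun _ => C X
  obtain ⟨u0, hu0, a1, a2⟩ := exists_top B lam hlam
  have h1 := congrArg (fun Q => (Ψ Q).coeff (gdeg u0)) h0
  have h2 : ∀ u, (Ψ (MvPolynomial.aeval (fun l => MvPolynomial.C (C (κ l)) * MvPolynomial.X j +
      MvPolynomial.C (C (κ' l)) : Fin d → RR d L)
      (MvPolynomial.C (C (lam u)) * monoP θ cL k E Finset.univ u))).coeff (gdeg u0) =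
      C (lam u * (ldA θ cL u).coeff (gdeg u0)) *
        ∏ l', (C (κ l') * X + C (κ' l')) ^ expo k E Finset.univ u l' := by
    intro u
    have e : Ψ (MvPolynomial.aeval (fun l => MvPolynomial.C (C (κ l)) * MvPolynomial.X j +
        MvPolynomial.C (C (κ' l)) : Fin d → RR d L)
        (MvPolynomial.C (C (lam u)) * monoP θ cL k E Finset.univ u)) =
        (C (lam u) * ldA θ cL u).map C *
          C (∏ l', (C (κ l') * X + C (κ' l')) ^ expo k E Finset.univ u l') := by
      rw [monoP, MvPolynomial.C_mul_monomial, MvPolynomial.aeval_monomial,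
        Finsupp.prod_fintype _ _ (by simp), map_mul, map_prod, map_prod]
      congr 1
      · exact MvPolynomial.eval₂Hom_C _ _ _
      · exact Finset.prod_congr rfl fun l _ => by simp [Ψ]
    rw [e, coeff_mul_C, coeff_map, coeff_C_mul]
  simp only [map_sum, finsetSum_coeff, h2, map_zero, coeff_zero] at h1
  let B0 := B.filter fun u => lam u ≠ 0 ∧ gdeg u = gdeg u0
  have hw : ∀ u ∈ B, u ∈ B0 ↔ lam u * (ldA θ cL u).coeff (gdeg u0) ≠ 0 := by
    intro u hu
    rw [Finset.mem_filter]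
    constructor
    · rintro ⟨-, b1, b2⟩
      rw [← b2, ldA_top]
      exact mul_ne_zero b1 (pow_ne_zero _ hc)
    · intro h
      exact ⟨hu, left_ne_zero_of_mul h, le_antisymm (a2 u hu (left_ne_zero_of_mul h))
        ((le_natDegree_of_ne_zero (right_ne_zero_of_mul h)).trans (ldA_natDegree θ cL u))⟩
  have fin : ∀ l, ∀ u ∈ B0, (∀ u' ∈ B0, expo k E Finset.univ u l ≤ expo k E Finset.univ u' l) →
      (∀ u' ∈ B0, expo k E Finset.univ u l = expo k E Finset.univ u' l → u' = u) → False := by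
    intro l u hu b1 b2
    have b3 := (Finset.mem_filter.1 hu).1
    refine min_indep κ κ' hκ hr B _ (fun u l => expo k E Finset.univ u l) u b3 ((hw u b3).1 hu) l
      (fun u' hu' hne => ?_) h1
    by_cases b4 : u' ∈ B0
    · exact Or.inr (lt_of_le_of_ne (b1 u' b4) fun h => hne (b2 u' b4 h))
    · exact Or.inl (by_contra fun h => b4 ((hw u' hu').2 h))
  have ext : ∀ a b : Fin d, a ≠ b → ∀ u ∈ B0, ∀ u' ∈ B0, ((u.1 a).2 = 0 ∨ (u.1 a).1 < k) →
      (u.1 b).1 = 0 → (∀ l, l ≠ a → l ≠ b → u.1 l = (0, 0)) → ((u'.1 a).2 = 0 ∨ (u'.1 a).1 < k) →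
      (u'.1 b).1 = 0 → (∀ l, l ≠ a → l ≠ b → u'.1 l = (0, 0)) →
      expo k E Finset.univ u a = expo k E Finset.univ u' a → u' = u := by
    intro a b hab u hu u' hu' c1 c2 c3 c4 c5 c6 c7
    obtain ⟨d1, -, d2⟩ := Finset.mem_filter.1 hu
    obtain ⟨d3, -, d4⟩ := Finset.mem_filter.1 hu'
    have d5 := (hB u d1 a).2
    have d6 := (hB u' d3 a).2
    simp only [expo_apply, Finset.mem_univ, if_true] at c7
    have d7 : u.1 a = u'.1 a := pair_inj (k := k) (i := (u.1 a).1) (j := (u.1 a).2)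
      (i' := (u'.1 a).1) (j' := (u'.1 a).2) c1 c4 (by omega)
    have g : ∀ v : Ix d, v.2 = 0 → (∀ l, l ≠ a → l ≠ b → v.1 l = (0, 0)) →
        gdeg v = (v.1 a).2 + (v.1 b).2 := fun v h h' => by
      rw [gdeg, h, add_zero, Fintype.sum_eq_add a b hab fun l hl => by rw [h' l hl.1 hl.2]]
    have d8 := g u (hB' u d1).1 c3
    have d9 := g u' (hB' u' d3).1 c6
    refine Prod.ext (funext fun l => ?_) ((hB' u' d3).1.trans (hB' u d1).1.symm)
    by_cases e1 : l = a
    · rw [e1, d7]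
    by_cases e2 : l = b
    · rw [e2]
      rw [d7] at d8
      exact Prod.ext (c5.trans c2.symm) (by omega)
    · rw [c3 l e1 e2, c6 l e1 e2]
  have small : ∀ u ∈ B0, 1 ≤ (u.1 j₃).2 → (u.1 j₃).1 < k → expo k E Finset.univ u j₃ < E := by
    intro u hu c1 c2
    have d5 := (hB u (Finset.mem_filter.1 hu).1 j₃).2
    have := Nat.mul_le_mul_left k c1
    simp only [expo_apply, Finset.mem_univ, if_true]
    omega
  have big : ∀ u : Ix d, u.1 j₃ = (0, 0) → expo k E Finset.univ u j₃ = E := fun u h => by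
    simp [expo_apply, h]
  have hne : B0.Nonempty := ⟨u0, Finset.mem_filter.2 ⟨hu0, a1, rfl⟩⟩
  obtain ⟨u, hu, hmin⟩ := Finset.exists_min_image B0 (fun u => expo k E Finset.univ u j₃) hne
  rcases (hB' u (Finset.mem_filter.1 hu).1).2 with ⟨-, -, c3⟩ | ⟨⟨c1, c1'⟩, c2, c3⟩
  · have all : ∀ v ∈ B0, ((v.1 j₁).2 = 0 ∨ (v.1 j₁).1 < k) ∧ (v.1 j₂).1 = 0 ∧
        ∀ l, l ≠ j₁ → l ≠ j₂ → v.1 l = (0, 0) := fun v hv =>
      (hB' v (Finset.mem_filter.1 hv).1).2.resolve_right fun h => by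
        have := small v hv h.1.1 h.1.2
        have := hmin v hv
        have := big u (c3 j₃ h13.symm h23.symm)
        omega
    obtain ⟨v, hv, hmin'⟩ := Finset.exists_min_image B0 (fun u => expo k E Finset.univ u j₁) hne
    exact fin j₁ v hv hmin' fun u' hu' => ext j₁ j₂ h12 v hv u' hu' (all v hv).1 (all v hv).2.1
      (all v hv).2.2 (all u' hu').1 (all u' hu').2.1 (all u' hu').2.2
  · refine fin j₃ u hu hmin fun u' hu' h => ?_
    rcases (hB' u' (Finset.mem_filter.1 hu').1).2 with ⟨-, -, c6⟩ | ⟨⟨-, c4⟩, c5, c6⟩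
    · have := small u hu c1 c1'
      have := big u' (c6 j₃ h13.symm h23.symm)
      omega
    · exact ext j₃ j₄ h34 u hu u' hu' (Or.inr c1') c2 c3 (Or.inr c4) c5 c6 h

end Vale.Agent.P018
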