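import Mathlib

namespace Vale.Agent.P018

/-- the inequalities for degree four and squares -/
def chk42 (W a b T₅ T₄ T₃ T₂ T₁ : ℕ) : Prop :=
  1 ≤ T₅ ∧ T₅ + 16 ≤ T₄ ∧ T₄ + 16 ≤ T₃ ∧ T₃ + 16 ≤ T₂ ∧ T₂ + 16 ≤ T₁ ∧
      W * (a * b) ^ 4 < (2 * a + b) ^ 4 * T₅ ^ 5 ∧
      max a b * (a * b) ^ 3 < (2 * a + b) ^ 3 * T₄ ^ 4 ∧
      max a b * (a * b) ^ 2 < (2 * a + b) ^ 2 * T₃ ^ 3 ∧
      a ^ 2 * b < (2 * a + b) * T₂ ^ 2 ∧ a * b ^ 2 < 2 * (2 * a + b) * T₂ ^ 2 ∧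
      a * b ^ 2 < (3 * a + 2 * b) * T₂ ^ 2 ∧ a * b ^ 2 < (4 * a + b) * T₂ ^ 2 ∧
      a < 2 * T₁ ∧ a * b < (a + b) * T₁ ∧ b < 3 * T₁ ∧
      T₅ + T₄ + T₃ + T₂ + T₁ + 81 ≤ W

instance (W a b T₅ T₄ T₃ T₂ T₁ : ℕ) : Decidable (chk42 W a b T₅ T₄ T₃ T₂ T₁) := by
  unfold chk42; infer_instance

theorem chk42_all : (List.range 5001).all (fun i =>
    if i < 3200 then
      decide (chk42 19993 (4999 + i) (20000 - 2 * (4999 + i)) 3800 3816 4000 4100 4116)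
    else decide (chk42 19993 (4999 + i) (20000 - 2 * (4999 + i)) 2600 2616 2800 3600 5200)) =
    true := by
  decide +kernel

theorem num42' : ∃ W : ℕ, 12 ≤ W ∧ ∀ a b : ℕ, 1 ≤ b → W < 4 * a → 2 * a + b = W + 7 →
    ∃ T₅ T₄ T₃ T₂ T₁ : ℕ, chk42 W a b T₅ T₄ T₃ T₂ T₁ := by
  refine ⟨19993, by norm_num, fun a b hb ha hab => ?_⟩
  have h := List.all_eq_true.mp chk42_all (a - 4999) (List.mem_range.mpr (by omega))
  have e1 : 4999 + (a - 4999) = a := by omega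
  have e2 : 20000 - 2 * a = b := by omega
  rw [e1, e2] at h
  split_ifs at h
  · exact ⟨_, _, _, _, _, of_decide_eq_true h⟩
  · exact ⟨_, _, _, _, _, of_decide_eq_true h⟩

end Vale.Agent.P018
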