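import Vale.Agent.P018.NumHat
import Vale.Agent.P018.Num42

namespace Vale.Agent.P018

open Finset

/-- the numerical criterion for the simple chain -/
def ICrit (d k W a b : ℕ) : Prop :=
  ∃ (r₀ : ℕ) (T : ℕ → ℕ), 1 ≤ r₀ ∧ r₀ ≤ d ∧ 1 ≤ T (d + 1) ∧
    (∀ r, r₀ ≤ r → r ≤ d → T (r + 1) + 2 ^ d ≤ T r) ∧
    W * (a * b) ^ d < (k * a + b) ^ d * T (d + 1) ^ (d + 1) ∧
    (∀ r, r₀ < r → r ≤ d → max a b * (a * b) ^ (r - 1) < (k * a + b) ^ (r - 1) * T r ^ r) ∧
    a + 1 ≤ T r₀ ∧ ∑ r ∈ Ioc r₀ (d + 1), (T r + 2 ^ d) + r₀ * T r₀ + 1 ≤ W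

/-- the criterion holds for a suitable `W` and all admissible `a`, `b` -/
def NumOk (d k : ℕ) : Prop :=
  ∃ W : ℕ, 3 * d ≤ W ∧ ∀ a b : ℕ, 1 ≤ b → W < d * a → k * a + b = W + 3 * k + 1 → ICrit d k W a b

theorem lt_scale {S c t x y r : ℕ} (hS : 0 < S) (hc : 0 < c) (hr : 1 ≤ r) {T : ℕ}
    (hT : t * c / S + 1 ≤ T) (h : x * S ^ r ≤ y * (t * c) ^ r) (hy : 0 < y) : x < y * T ^ r := by
  have _ := hc
  have h1 : t * c < T * S := by
    have := Nat.lt_div_mul_add (a := t * c) hS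
    nlinarith
  have h2 := Nat.mul_lt_mul_of_pos_left (Nat.pow_lt_pow_left h1 (by omega : r ≠ 0)) hy
  rw [mul_pow T, ← mul_assoc] at h2
  exact lt_of_mul_lt_mul_right (h.trans_lt h2) (Nat.zero_le _)

theorem numOk_of_hat {d k : ℕ} (hd : 1 ≤ d) (h : HatOk d k) : NumOk d k := by
  obtain ⟨S, lo, hlo, h⟩ := h
  have hS : 0 < S := by omega
  obtain ⟨K, hK⟩ : ∃ K, K = 1 + (d + 2) * 2 ^ d := ⟨_, rfl⟩
  obtain ⟨W, hW⟩ : ∃ W, W = S * ((d + 1) * K + 3 * k + 3 * d + 2) := ⟨_, rfl⟩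
  have hW1 : (d + 1) * K + 3 * k + 3 * d + 2 ≤ W := hW ▸ Nat.le_mul_of_pos_left _ hS
  refine ⟨W, by omega, fun a b hb ha hab => ?_⟩
  obtain ⟨c, hc⟩ : ∃ c, c = k * a + b := ⟨_, rfl⟩
  have hc0 : 0 < c := by omega
  have hWc : W < c := by omega
  have h3 : S * (3 * k) ≤ W := hW ▸ Nat.mul_le_mul_left _ (by omega)
  obtain ⟨M, m, u, b1, b2, b3, r₀, T, c1, c2, c3, c4, c5, c6, c7⟩ := h a b c hc.symm hc0 (by
    refine Nat.le_of_mul_le_mul_left (c := d) ?_ hd
    have e1 : (d * lo + 1) * c ≤ S * c := Nat.mul_le_mul_right _ hlo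
    have e2 : (W + 1) * S ≤ d * a * S := Nat.mul_le_mul_right _ ha
    have e3 : S * c = (W + 1) * S + S * (3 * k) := by rw [hc, hab]; ring
    nlinarith)
  have hab2 : ∀ r, (a * b) ^ r * S ^ r ≤ m ^ r * (c ^ 2) ^ r := fun r => by
    rw [← mul_pow, ← mul_pow]
    exact Nat.pow_le_pow_left b2 r
  refine ⟨r₀, fun r => T r * c / S + 1 + (d + 1 - r) * 2 ^ d, c1, c2,
    (Nat.le_add_left _ _).trans (Nat.le_add_right _ _),
    fun r e1 e2 => ?_,
    ?_, fun r e1 e2 => ?_, ?_, ?_⟩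
  · have := Nat.div_le_div_right (c := S) (Nat.mul_le_mul_right c (c3 r e1 e2))
    beta_reduce
    rw [show d + 1 - r = (d + 1 - (r + 1)) + 1 by omega, add_mul _ 1]
    omega
  · rw [← hc]
    refine lt_scale hS hc0 (by omega) (Nat.le_add_right _ _) ?_ (by positivity)
    calc W * (a * b) ^ d * S ^ (d + 1) = W * S * ((a * b) ^ d * S ^ d) := by ring
      _ ≤ c * S * (m ^ d * (c ^ 2) ^ d) :=
        Nat.mul_le_mul (Nat.mul_le_mul_right _ hWc.le) (hab2 d)
      _ = c * (c ^ 2) ^ d * (S * m ^ d) := by ring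
      _ ≤ c * (c ^ 2) ^ d * T (d + 1) ^ (d + 1) := by gcongr
      _ = _ := by ring
  · rw [← hc]
    obtain ⟨r, rfl⟩ : ∃ r', r = r' + 1 := ⟨r - 1, by omega⟩
    have := c5 _ e1 e2
    rw [Nat.add_sub_cancel] at this ⊢
    refine lt_scale hS hc0 (by omega) (Nat.le_add_right _ _) ?_ (by positivity)
    calc max a b * (a * b) ^ r * S ^ (r + 1) = max a b * S * ((a * b) ^ r * S ^ r) := by ring
      _ ≤ M * c * (m ^ r * (c ^ 2) ^ r) := Nat.mul_le_mul b1 (hab2 r)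
      _ = c * (c ^ 2) ^ r * (M * m ^ r) := by ring
      _ ≤ c * (c ^ 2) ^ r * T (r + 1) ^ (r + 1) := by gcongr
      _ = _ := by ring
  · have : a ≤ T r₀ * c / S := (Nat.le_div_iff_mul_le hS).mpr
      (b3.trans (Nat.mul_le_mul_right _ c6))
    beta_reduce
    omega
  · have e1 : ∀ r, (T r * c / S + 1 + (d + 1 - r) * 2 ^ d + 2 ^ d) * S ≤ T r * c + K * S := by
      intro r
      have f1 := Nat.div_mul_le_self (T r * c) S
      have f2 : 1 + (d + 1 - r) * 2 ^ d + 2 ^ d ≤ K := by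
        have : (d + 1 - r) * 2 ^ d ≤ (d + 1) * 2 ^ d := Nat.mul_le_mul_right _ (by omega)
        rw [hK, show d + 2 = d + 1 + 1 by ring, add_mul _ 1]
        omega
      have := Nat.mul_le_mul_right S f2
      nlinarith
    have e2 : (∑ r ∈ Ioc r₀ (d + 1), (T r * c / S + 1 + (d + 1 - r) * 2 ^ d + 2 ^ d)) * S ≤
        (∑ r ∈ Ioc r₀ (d + 1), T r) * c + (d + 1 - r₀) * (K * S) := by
      rw [sum_mul, sum_mul]
      refine (sum_le_sum fun r _ => e1 r).trans_eq ?_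
      rw [sum_add_distrib, sum_const, Nat.card_Ioc, smul_eq_mul]
    have e3 : r₀ * (T r₀ * c / S + 1 + (d + 1 - r₀) * 2 ^ d) * S ≤
        r₀ * T r₀ * c + r₀ * (K * S) := by
      rw [mul_assoc, mul_assoc, ← mul_add]
      exact Nat.mul_le_mul_left _ (le_trans (Nat.mul_le_mul_right _ (Nat.le_add_right _ _)) (e1 r₀))
    have e4 := Nat.mul_le_mul_right c (Nat.succ_le_of_lt c7)
    have e5 : (d + 1 - r₀) * (K * S) + r₀ * (K * S) = (d + 1) * K * S := by
      rw [← add_mul, Nat.sub_add_cancel (by omega), mul_assoc]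
    have e6 : S * c = W * S + (3 * k + 1) * S := by rw [hc, hab]; ring
    have e7 : W = (d + 1) * K * S + (3 * k + 1) * S + S + 3 * d * S := by rw [hW]; ring
    refine Nat.le_of_mul_le_mul_right ?_ hS
    beta_reduce
    rw [add_mul, add_mul]
    rw [Nat.succ_eq_add_one, add_mul, add_mul] at e4
    omega

theorem hatOk_of_crit {d k Q : ℕ} (hk : 0 < k) (hQ : 0 < Q)
    (h : HatCrit d (4 * k * Q) (4 * k * Q) Q (4 * Q)) : HatOk d k := by
  refine ⟨4 * k * Q, 0, by positivity, fun a b c hc _ _ => ⟨_, _, _, ?_, ?_, ?_, h⟩⟩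
  · rw [mul_comm]
    refine Nat.mul_le_mul_left _ (max_le ?_ (by omega))
    have := Nat.le_mul_of_pos_left a hk
    omega
  · calc a * b * (4 * k * Q) = Q * (4 * k * (a * b)) := by ring
      _ ≤ _ := Nat.mul_le_mul_left _ (four_mul_le hc)
  · calc a * (4 * k * Q) = 4 * Q * (k * a) := by ring
      _ ≤ _ := Nat.mul_le_mul_left _ (by omega)

theorem prof_le {k Q t s L r : ℕ} (hL : 4 * k ≤ 2 ^ L) (h : 2 * Q ^ s ≤ t ^ s) (hQ : Q ≤ t)
    (hr : s * L ≤ r) (h1 : 1 ≤ r) : 4 * k * Q * Q ^ (r - 1) ≤ t ^ r := by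
  obtain ⟨e, rfl⟩ := Nat.exists_eq_add_of_le hr
  rw [mul_assoc, ← pow_succ', Nat.sub_add_cancel h1, pow_add, pow_add, pow_mul, pow_mul,
    ← mul_assoc]
  refine Nat.mul_le_mul ?_ (Nat.pow_le_pow_left hQ _)
  refine le_trans ?_ (Nat.pow_le_pow_left h _)
  rw [mul_pow]
  exact Nat.mul_le_mul_right _ hL

theorem sum_ite_lt_le (L n D c : ℕ) (hL : 1 ≤ L) :
    ∑ r ∈ Ioc (L - 1) D, (if r < n then c else 0) ≤ (n - L) * c := by
  rw [← sum_filter, sum_const, smul_eq_mul, ← Nat.card_Ico L n]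
  refine Nat.mul_le_mul_right _ (card_le_card fun r hr => ?_)
  simp only [mem_filter, mem_Ioc, mem_Ico] at hr ⊢
  omega

theorem clog_facts {k : ℕ} (hk : 1 ≤ k) :
    ∃ L, 2 ≤ L ∧ 4 * k ≤ 2 ^ L ∧ 2 ^ (L - 1) < 4 * k := by
  have h1 := Nat.le_pow_clog one_lt_two (4 * k)
  refine ⟨Nat.clog 2 (4 * k), ?_, h1, Nat.pow_pred_clog_lt_self one_lt_two (by omega)⟩
  by_contra h
  have := Nat.pow_le_pow_right two_pos (show Nat.clog 2 (4 * k) ≤ 1 by omega)
  omega

theorem hatOk_large {d k : ℕ} (hk : 46 ≤ k) (h1 : d + 4 ≤ 3 * k) (h2 : 3 * k ≤ d + 6) :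
    HatOk d k := by
  obtain ⟨L, a1, a2, a3⟩ := clog_facts (k := k) (by omega)
  have a4 : 3796 * L < 560 * k + 4760 := by
    rcases le_or_gt L 8 with h | h
    · omega
    · have : ∀ n, 3796 * (n + 9) ≤ 140 * 2 ^ (n + 8) + 4760 := by
        intro n
        induction n with
        | zero => norm_num
        | succ n ih =>
          have : 2 ^ 8 ≤ 2 ^ (n + 8) := Nat.pow_le_pow_right two_pos (by omega)
          rw [show n + 1 + 8 = n + 8 + 1 by ring, pow_succ]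
          omega
      have := this (L - 9)
      rw [show L - 9 + 8 = L - 1 by omega] at this
      omega
  have key : ∀ r, L ≤ r → 4 * k * 770 * 770 ^ (r - 1) ≤ (if r < L then 3080 else
      if r < 2 * L then 1540 else if r < 4 * L then 1100 else if r < 8 * L then 924 else 840) ^ r := by
    intro r hr
    rw [if_neg (by omega)]
    split_ifs
    · exact prof_le (s := 1) a2 (by norm_num) (by norm_num) (by omega) (by omega)
    · exact prof_le (s := 2) a2 (by norm_num) (by norm_num) (by omega) (by omega)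
    · exact prof_le (s := 4) a2 (by norm_num) (by norm_num) (by omega) (by omega)
    · exact prof_le (s := 8) a2 (by norm_num) (by norm_num) (by omega) (by omega)
  refine hatOk_of_crit (Q := 770) (by omega) (by norm_num) ⟨L - 1, fun r => if r < L then 3080 else
    if r < 2 * L then 1540 else if r < 4 * L then 1100 else if r < 8 * L then 924 else 840,
    by omega, by omega, fun r _ _ => ?_, key (d + 1) (by omega), fun r e _ => key r (by omega),
    ?_, ?_⟩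
  · beta_reduce
    split_ifs <;> omega
  · beta_reduce
    rw [if_pos (by omega)]
  · have b1 : ∑ r ∈ Ioc (L - 1) (d + 1), (if r < L then 3080 else if r < 2 * L then 1540 else
        if r < 4 * L then 1100 else if r < 8 * L then 924 else 840) ≤
        ∑ r ∈ Ioc (L - 1) (d + 1), (840 + (if r < 8 * L then 84 else 0) +
          (if r < 4 * L then 176 else 0) + (if r < 2 * L then 440 else 0)) := by
      refine sum_le_sum fun r hr => ?_
      have := (mem_Ioc.mp hr).1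
      split_ifs <;> omega
    rw [sum_add_distrib, sum_add_distrib, sum_add_distrib, sum_const, Nat.card_Ioc,
      smul_eq_mul] at b1
    have b2 := sum_ite_lt_le L (8 * L) (d + 1) 84 (by omega)
    have b3 := sum_ite_lt_le L (4 * L) (d + 1) 176 (by omega)
    have b4 := sum_ite_lt_le L (2 * L) (d + 1) 440 (by omega)
    beta_reduce
    rw [if_pos (show L - 1 < L by omega)]
    omega

theorem numOk_main {d : ℕ} (hd : 3 ≤ d) (h4 : d ≠ 4) :
    NumOk d (min ((d + 1) / 2) ((d + 6) / 3)) := by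
  refine numOk_of_hat (by omega) ?_
  rcases lt_or_ge d 132 with h | h
  · exact hatOk_small hd h4 h
  · exact hatOk_large (by omega) (by omega) (by omega)

theorem numOk_quarter (ε : ℝ) (hε : 0 < ε) :
    ∃ d₀ : ℕ, ∀ d k : ℕ, d₀ ≤ d → (1 / 4 + ε) * (d : ℝ) ≤ k → k < d → NumOk d k := by
  obtain ⟨s, hs⟩ := exists_nat_gt (1 / ε)
  have hs0 : 0 < s := by
    have : (0 : ℝ) < s := lt_trans (by positivity) hs
    exact_mod_cast this
  rw [div_lt_iff₀ hε] at hs
  obtain ⟨C, hC⟩ : ∃ C, C = 4 * s ^ 2 + s + 1 := ⟨_, rfl⟩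
  refine ⟨24 * C ^ 2 + 1, fun d k h1 h2 h3 => numOk_of_hat (by omega) ?_⟩
  have h4 : s * d + 2 * d ≤ 4 * k * s := by
    have hd : (0 : ℝ) ≤ d := Nat.cast_nonneg _
    have hs' : (0 : ℝ) ≤ s := Nat.cast_nonneg _
    have e1 := mul_le_mul_of_nonneg_left h2 hs'
    have e2 := mul_le_mul_of_nonneg_left hs.le hd
    have : (s : ℝ) * d + 2 * d ≤ 4 * k * s := by nlinarith
    exact_mod_cast this
  have hk : 1 ≤ k := by
    by_contra h
    have : k = 0 := by omega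
    subst this
    omega
  obtain ⟨L, a1, a2, a3⟩ := clog_facts hk
  have a4 : C * (L + 1) < d := by
    have b1 : ∀ n : ℕ, n * n + n ≤ 2 ^ (n + 1) := by
      intro n
      induction n with
      | zero => norm_num
      | succ n ih =>
        have : n < 2 ^ n := Nat.lt_two_pow_self
        rw [pow_succ] at ih
        rw [pow_succ, pow_succ]
        nlinarith
    have b2 := b1 (L - 1)
    rw [pow_succ] at b2
    obtain ⟨n, rfl⟩ : ∃ n, L = n + 1 := ⟨L - 1, by omega⟩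
    rw [Nat.add_sub_cancel] at b2 a3
    by_contra h
    have b3 := Nat.mul_le_mul (not_lt.mp h) (not_lt.mp h)
    have b4 : (n + 1 + 1) * (n + 1 + 1) ≤ 24 * d := by nlinarith
    have b5 : d * d ≤ 24 * C ^ 2 * d := by
      calc d * d ≤ C ^ 2 * ((n + 1 + 1) * (n + 1 + 1)) := b3.trans_eq (by ring)
        _ ≤ C ^ 2 * (24 * d) := Nat.mul_le_mul_left _ b4
        _ = _ := by ring
    have := Nat.le_of_mul_le_mul_right b5 (by omega)
    omega
  have a5 : 2 * s ^ s ≤ (s + 1) ^ s := by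
    have hs' : (0 : ℝ) < s := by exact_mod_cast hs0
    have e1 := one_add_mul_le_pow (a := 1 / (s : ℝ)) (le_trans (by norm_num) (by positivity : (0 : ℝ) ≤ 1 / s)) s
    rw [mul_one_div_cancel hs'.ne', show 1 + 1 / (s : ℝ) = (s + 1) / s by field_simp, div_pow,
      le_div_iff₀ (by positivity)] at e1
    have : (2 : ℝ) * s ^ s ≤ (s + 1) ^ s := by linarith
    exact_mod_cast this
  have a6 : 2 ≤ s * L := le_trans a1 (Nat.le_mul_of_pos_left _ hs0)
  have a7 : 4 * s * (s * L) + 2 * (s + 1) < d := by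
    rw [hC] at a4
    nlinarith
  have a8 : s * L ≤ 4 * s * (s * L) := Nat.le_mul_of_pos_left _ (by omega)
  have key : ∀ r, s * L ≤ r → 4 * k * s * s ^ (r - 1) ≤ (if r < s * L then 4 * s else s + 1) ^ r := by
    intro r hr
    rw [if_neg (by omega)]
    exact prof_le a2 a5 (by omega) hr (by omega)
  generalize s * L = n at *
  refine hatOk_of_crit hk hs0 ⟨n - 1, fun r => if r < n then 4 * s else s + 1, by omega, by omega,
    fun r _ _ => ?_, key (d + 1) (by omega), fun r e _ => key r (by omega), ?_, ?_⟩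
  · beta_reduce
    split_ifs <;> omega
  · beta_reduce
    rw [if_pos (by omega)]
  · have b1 : ∑ r ∈ Ioc (n - 1) (d + 1), (if r < n then 4 * s else s + 1) ≤ (d + 2) * (s + 1) := by
      refine (sum_le_card_nsmul _ _ (s + 1) fun r hr => ?_).trans ?_
      · have := (mem_Ioc.mp hr).1
        rw [if_neg (by omega)]
      · rw [Nat.card_Ioc, smul_eq_mul]
        exact Nat.mul_le_mul_right _ (by omega)
    have b2 : (n - 1) * (4 * s) ≤ 4 * s * n := by
      rw [mul_comm]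
      exact Nat.mul_le_mul_left _ (by omega)
    beta_reduce
    rw [if_pos (show n - 1 < n by omega)]
    nlinarith

/-- the numerical criterion for degree four and squares -/
theorem num42 : ∃ W : ℕ, 12 ≤ W ∧ ∀ a b : ℕ, 1 ≤ b → W < 4 * a → 2 * a + b = W + 7 →
    ∃ T₅ T₄ T₃ T₂ T₁ : ℕ, 1 ≤ T₅ ∧ T₅ + 16 ≤ T₄ ∧ T₄ + 16 ≤ T₃ ∧ T₃ + 16 ≤ T₂ ∧ T₂ + 16 ≤ T₁ ∧
      W * (a * b) ^ 4 < (2 * a + b) ^ 4 * T₅ ^ 5 ∧
      max a b * (a * b) ^ 3 < (2 * a + b) ^ 3 * T₄ ^ 4 ∧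
      max a b * (a * b) ^ 2 < (2 * a + b) ^ 2 * T₃ ^ 3 ∧
      a ^ 2 * b < (2 * a + b) * T₂ ^ 2 ∧ a * b ^ 2 < 2 * (2 * a + b) * T₂ ^ 2 ∧
      a * b ^ 2 < (3 * a + 2 * b) * T₂ ^ 2 ∧ a * b ^ 2 < (4 * a + b) * T₂ ^ 2 ∧
      a < 2 * T₁ ∧ a * b < (a + b) * T₁ ∧ b < 3 * T₁ ∧
      T₅ + T₄ + T₃ + T₂ + T₁ + 81 ≤ W :=
  num42'

end Vale.Agent.P018
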