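import Vale.Agent.P018.Mon

namespace Vale.Agent.P018

open Finset

/-- generic version of `Par.Shape` -/
def GShape {κ : Type} (w : κ → ℕ) (s : κ → Prop) (r : ℕ) (δ : ℝ) : Prop :=
  ∃ s₀ : ℝ, 0 ≤ s₀ ∧ ∀ G : ℕ, ∃ F : Finset κ, (∀ u ∈ F, s u) ∧ WS F w r δ s₀ G

section generic
variable {κ : Type} {w : κ → ℕ} {s s' : κ → Prop} {r r' : ℕ} {δ δ' : ℝ}

theorem GShape.imp (h : GShape w s r δ) (hs : ∀ u, s u → s' u) (hr : r = r') (hδ : δ = δ') :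
    GShape w s' r' δ' := by
  subst hr hδ
  obtain ⟨s₀, h0, h⟩ := h
  refine ⟨s₀, h0, fun G => ?_⟩
  obtain ⟨F, h1, h2⟩ := h G
  exact ⟨F, fun u hu => hs u (h1 u hu), h2⟩

theorem GShape.union (h : GShape w s r δ) (h' : GShape w s' r δ') (hδ : 0 ≤ δ) (hδ' : 0 ≤ δ')
    (hd : ∀ u, s u → s' u → False) : GShape w (fun u => s u ∨ s' u) r (δ + δ') := by
  classical
  obtain ⟨s₀, h0, h⟩ := h
  obtain ⟨s₁, h1, h'⟩ := h'
  refine ⟨max s₀ s₁, h0.trans (le_max_left _ _), fun G => ?_⟩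
  obtain ⟨F, a1, a2⟩ := h G
  obtain ⟨F', b1, b2⟩ := h' G
  refine ⟨F ∪ F', fun u hu => (mem_union.mp hu).imp (a1 u) (b1 u), ?_⟩
  exact (a2.mono hδ le_rfl (le_max_left _ _) le_rfl).union
    (b2.mono hδ' le_rfl (le_max_right _ _) le_rfl)
    (disjoint_left.mpr fun u hu hu' => hd u (a1 u hu) (b1 u hu'))

theorem gshape_single (w : κ → ℕ) (u : κ) : GShape w (fun v => v = u) 0 1 :=
  ⟨w u, Nat.cast_nonneg _, fun _ => ⟨{u}, fun _ hv => mem_singleton.mp hv, WS.single u w _⟩⟩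

theorem gshape_two (w : κ → ℕ) {u u' : κ} (h : u ≠ u') :
    GShape w (fun v => v = u ∨ v = u') 0 2 :=
  ((gshape_single w u).union (gshape_single w u') zero_le_one zero_le_one
    fun _ a b => h (a.symm.trans b)).imp (fun _ h => h) rfl (by norm_num)

end generic

theorem gshape_strip (a : ℕ) {b : ℕ} (hb : 1 ≤ b) (lo hi j₀ : ℕ) :
    GShape (pw a b) (fun v => lo ≤ v.1 ∧ v.1 < hi ∧ j₀ ≤ v.2) 1 (((hi - lo : ℕ) : ℝ) / b) := by
  refine ⟨_, Nat.cast_nonneg _, fun G => ⟨_, fun v hv => ?_, WS.strip a b lo hi j₀ G hb _ le_rfl⟩⟩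
  obtain ⟨h1, h2⟩ := mem_product.mp hv
  exact ⟨(mem_Ico.mp h1).1, (mem_Ico.mp h1).2, (mem_Ico.mp h2).1⟩

theorem gshape_aray {a : ℕ} (b : ℕ) (ha : 1 ≤ a) (i₀ : ℕ) :
    GShape (pw a b) (fun v => i₀ ≤ v.1 ∧ v.2 = 0) 1 (1 / a) := by
  refine ⟨_, Nat.cast_nonneg _, fun G => ⟨_, fun v hv => ?_, WS.aray a b i₀ G ha _ le_rfl⟩⟩
  obtain ⟨h1, h2⟩ := mem_product.mp hv
  exact ⟨(mem_Ico.mp h1).1, mem_singleton.mp h2⟩

theorem gshape_ray {W : ℕ} (hW : 1 ≤ W) :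
    GShape (fun g : ℕ => W * g) (fun _ => True) 1 (1 / W) := by
  refine ⟨((0 : ℕ) : ℝ), Nat.cast_nonneg _, fun G => ⟨range G, fun _ _ => trivial, ?_⟩⟩
  simpa using WS.ray W 0 G hW _ le_rfl

theorem gshape_normal {a b : ℕ} (ha : 1 ≤ a) (hb : 1 ≤ b) {lo k : ℕ} (h : lo ≤ k) :
    GShape (pw a b) (fun v => lo ≤ v.1 ∧ (v.2 = 0 ∨ v.1 < k)) 1 (1 / a + ((k : ℝ) - lo) / b) := by
  refine ((gshape_aray b ha k).union (gshape_strip a hb lo k 0) (by positivity) (by positivity)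
    fun v h1 h2 => by omega).imp (fun v hv => by omega) rfl ?_
  rw [Nat.cast_sub h]

variable {d : ℕ} {L : Type} [Field L] {p : Par d L}

theorem Par.ρ_nonneg (p : Par d L) : 0 ≤ p.ρ := by unfold Par.ρ; positivity

theorem gshape_norm (hp : p.Ok) :
    GShape (pw p.a p.b) (fun v => v.2 = 0 ∨ v.1 < p.k) 1 p.ρ :=
  (gshape_normal hp.a_pos hp.b_pos (Nat.zero_le p.k)).imp (fun _ h => h.2) rfl
    (by simp [Par.ρ])

theorem shape_pi {s : Fin d → ℕ × ℕ → Prop} {r : Fin d → ℕ} {δ : Fin d → ℝ}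
    (h : ∀ l, GShape (pw p.a p.b) (s l) (r l) (δ l)) (hδ : ∀ l, 0 ≤ δ l) {t : ℕ → Prop} {r' : ℕ}
    {δ' : ℝ} (h' : GShape (fun g : ℕ => p.W * g) t r' δ') (hδ' : 0 ≤ δ') :
    GShape p.wt (fun u => (∀ l, s l (u.1 l)) ∧ t u.2) (∑ l, r l + r') ((∏ l, δ l) * δ') := by
  choose s₀ h0 h using h
  obtain ⟨s₁, h1, h'⟩ := h'
  refine ⟨∑ l, s₀ l + s₁, add_nonneg (sum_nonneg fun l _ => h0 l) h1, fun G => ?_⟩
  choose F a1 a2 using fun l => h l G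
  obtain ⟨F', b1, b2⟩ := h' G
  refine ⟨Fintype.piFinset F ×ˢ F', fun u hu => ?_, ?_⟩
  · obtain ⟨c1, c2⟩ := mem_product.mp hu
    exact ⟨fun l => a1 l _ (Fintype.mem_piFinset.mp c1 l), b1 _ c2⟩
  · exact (WS.pi a2 hδ h0).prod b2 (prod_nonneg fun l _ => hδ l) hδ'
      (sum_nonneg fun l _ => h0 l) h1

theorem shape_on {I : Finset (Fin d)} {l₀ : Fin d} (hl : l₀ ∈ I) {s₀ s₁ : ℕ × ℕ → Prop}
    {r₀ r₁ : ℕ} {δ₀ δ₁ : ℝ} (h₀ : GShape (pw p.a p.b) s₀ r₀ δ₀) (hδ₀ : 0 ≤ δ₀)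
    (h₁ : GShape (pw p.a p.b) s₁ r₁ δ₁) (hδ₁ : 0 ≤ δ₁) {t : ℕ → Prop} {r' : ℕ}
    {δ' : ℝ} (h' : GShape (fun g : ℕ => p.W * g) t r' δ') (hδ' : 0 ≤ δ') :
    GShape p.wt (fun u => s₀ (u.1 l₀) ∧ (∀ l ∈ I, l ≠ l₀ → s₁ (u.1 l)) ∧ Supp I u ∧ t u.2)
      (r₀ + (I.card - 1) * r₁ + r') (δ₀ * δ₁ ^ (I.card - 1) * δ') := by
  classical
  have key := shape_pi (p := p)
    (s := fun l => if l = l₀ then s₀ else if l ∈ I then s₁ else fun v => v = (0, 0))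
    (r := fun l => if l = l₀ then r₀ else if l ∈ I then r₁ else 0)
    (δ := fun l => if l = l₀ then δ₀ else if l ∈ I then δ₁ else 1)
    (fun l => by
      split_ifs
      exacts [h₀, h₁, gshape_single _ _])
    (fun l => by
      split_ifs
      exacts [hδ₀, hδ₁, zero_le_one]) h' hδ'
  refine key.imp (fun u hu => ⟨?_, fun l h1 h2 => ?_, fun l h1 => ?_, hu.2⟩) ?_ ?_
  · simpa using hu.1 l₀
  · simpa [h1, h2] using hu.1 l
  · have h2 : l ≠ l₀ := fun h => h1 (h ▸ hl)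
    simpa [h1, h2] using hu.1 l
  · congr 1
    rw [← add_sum_erase _ _ (mem_univ l₀), if_pos rfl, ← card_erase_of_mem hl, ← smul_eq_mul,
      ← sum_const]
    congr 1
    rw [← sum_subset (erase_subset_erase l₀ (subset_univ I))]
    · refine sum_congr rfl fun l h => ?_
      rw [if_neg (ne_of_mem_erase h), if_pos (mem_of_mem_erase h)]
    · intro l h1 h2
      have h3 := ne_of_mem_erase h1
      rw [if_neg h3, if_neg fun h => h2 (mem_erase.mpr ⟨h3, h⟩)]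
  · congr 1
    rw [← mul_prod_erase _ _ (mem_univ l₀), if_pos rfl, ← card_erase_of_mem hl, ← prod_const]
    congr 1
    rw [← prod_subset (erase_subset_erase l₀ (subset_univ I))]
    · refine prod_congr rfl fun l h => ?_
      rw [if_neg (ne_of_mem_erase h), if_pos (mem_of_mem_erase h)]
    · intro l h1 h2
      have h3 := ne_of_mem_erase h1
      rw [if_neg h3, if_neg fun h => h2 (mem_erase.mpr ⟨h3, h⟩)]

theorem shape_pair {i j : Fin d} (hij : i ≠ j) {s₀ s₁ : ℕ × ℕ → Prop}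
    {r₀ r₁ : ℕ} {δ₀ δ₁ : ℝ} (h₀ : GShape (pw p.a p.b) s₀ r₀ δ₀) (hδ₀ : 0 ≤ δ₀)
    (h₁ : GShape (pw p.a p.b) s₁ r₁ δ₁) (hδ₁ : 0 ≤ δ₁) :
    GShape p.wt (fun u => s₀ (u.1 i) ∧ s₁ (u.1 j) ∧ (∀ l, l ≠ i → l ≠ j → u.1 l = (0, 0)) ∧
      u.2 = 0) (r₀ + r₁) (δ₀ * δ₁) := by
  classical
  refine (shape_on (I := {i, j}) (l₀ := i) (by simp) h₀ hδ₀ h₁ hδ₁ (gshape_single _ 0)
    zero_le_one).imp (fun u hu => ⟨hu.1, hu.2.1 j (by simp) hij.symm, fun l h1 h2 =>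
      hu.2.2.1 l (by simp [h1, h2]), hu.2.2.2⟩) ?_ ?_
  · simp [card_pair hij]
  · simp [card_pair hij]

theorem shape_one (l : Fin d) {s₀ : ℕ × ℕ → Prop} {r₀ : ℕ} {δ₀ : ℝ}
    (h₀ : GShape (pw p.a p.b) s₀ r₀ δ₀) (hδ₀ : 0 ≤ δ₀) {t : ℕ → Prop} {r' : ℕ}
    {δ' : ℝ} (h' : GShape (fun g : ℕ => p.W * g) t r' δ') (hδ' : 0 ≤ δ') :
    GShape p.wt (fun u => s₀ (u.1 l) ∧ Supp {l} u ∧ t u.2) (r₀ + r') (δ₀ * δ') :=
  (shape_on (I := {l}) (l₀ := l) (by simp) h₀ hδ₀ h₀ hδ₀ h' hδ').imp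
    (fun _ hu => ⟨hu.1, hu.2.2⟩) (by simp) (by simp)

theorem normal_of {k : ℕ} {I : Finset (Fin d)} {l₀ : Fin d} {u : Ix d}
    (h0 : (u.1 l₀).2 = 0 ∨ (u.1 l₀).1 < k)
    (h1 : ∀ l ∈ I, l ≠ l₀ → (u.1 l).2 = 0 ∨ (u.1 l).1 < k) (h2 : Supp I u) : Normal k u := by
  intro l
  by_cases a1 : l = l₀
  · exact a1 ▸ h0
  by_cases a2 : l ∈ I
  · exact h1 l a2 a1
  · rw [h2 l a2]
    exact Or.inl rfl

theorem normal_pair {k : ℕ} {i j : Fin d} {u : Ix d}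
    (h0 : (u.1 i).2 = 0 ∨ (u.1 i).1 < k) (h1 : (u.1 j).2 = 0 ∨ (u.1 j).1 < k)
    (h2 : ∀ l, l ≠ i → l ≠ j → u.1 l = (0, 0)) : Normal k u := by
  intro l
  by_cases a1 : l = i
  · exact a1 ▸ h0
  by_cases a2 : l = j
  · exact a2 ▸ h1
  · rw [h2 l a1 a2]
    exact Or.inl rfl

theorem supp_pair {i j : Fin d} {u : Ix d} (h2 : ∀ l, l ≠ i → l ≠ j → u.1 l = (0, 0)) :
    Supp {j, i} u ∧ Supp {i, j} u :=
  ⟨fun l h => h2 l (fun a => h (by simp [a])) (fun a => h (by simp [a])),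
    fun l h => h2 l (fun a => h (by simp [a])) (fun a => h (by simp [a]))⟩

theorem gdeg_eq_zero {u : Ix d} (h : Normal 0 u) (h2 : u.2 = 0) : gdeg u = 0 := by
  rw [gdeg, h2, add_zero]
  exact sum_eq_zero fun l _ => (h l).resolve_right (Nat.not_lt_zero _)

theorem shape_top (hp : p.Ok) : p.Shape (Normal p.k) (d + 1) (p.ρ ^ d / p.W) :=
  (shape_pi (fun _ => gshape_norm hp) (fun _ => p.ρ_nonneg) (gshape_ray hp.W_pos)
    (by positivity)).imp (fun _ hu => hu.1) (by simp) (by simp [div_eq_mul_inv])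

theorem shape_typeA (hp : p.Ok) {I : Finset (Fin d)} {l₀ : Fin d} (h : l₀ ∈ I) :
    p.Shape (typeA p.k I l₀) I.card (p.ρ ^ (I.card - 1) / p.b) := by
  have := hp.k_pos
  have := card_pos.mpr ⟨_, h⟩
  refine (shape_on h (gshape_strip p.a hp.b_pos 0 1 0) (by positivity) (gshape_norm hp)
    p.ρ_nonneg (gshape_single _ 0) zero_le_one).imp (fun u hu =>
      ⟨hu.2.2.1, normal_of (l₀ := l₀) (by omega) hu.2.1 hu.2.2.1, hu.2.2.2, by omega⟩)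
      (by omega) ?_
  simp only [Nat.sub_zero, Nat.cast_one]
  ring

theorem shape_typeB (hp : p.Ok) {I : Finset (Fin d)} {l₀ : Fin d} (h : l₀ ∈ I) :
    p.Shape (typeB p.k I l₀) I.card (p.ρ ^ (I.card - 1) / p.a) := by
  have := card_pos.mpr ⟨_, h⟩
  refine (shape_on h (gshape_aray p.b hp.a_pos 0) (by positivity) (gshape_norm hp)
    p.ρ_nonneg (gshape_single _ 0) zero_le_one).imp (fun u hu =>
      ⟨hu.2.2.1, normal_of (l₀ := l₀) (by omega) hu.2.1 hu.2.2.1, hu.2.2.2, by omega⟩)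
      (by omega) ?_
  ring

theorem shape_N1 (hp : p.Ok) (hk : 2 ≤ p.k) {I : Finset (Fin d)} {l : Fin d} (h : l ∈ I)
    (hI : I.card = 2) : p.Shape (famN1 p.k I l) 2 (2 * p.ρ / p.b) := by
  refine (shape_on h (gshape_strip p.a hp.b_pos 0 2 0) (by positivity) (gshape_norm hp)
    p.ρ_nonneg (gshape_single _ 0) zero_le_one).imp (fun u hu =>
      ⟨hu.2.2.1, normal_of (l₀ := l) (by omega) hu.2.1 hu.2.2.1, hu.2.2.2, by omega⟩)
      (by omega) ?_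
  simp only [hI, Nat.sub_zero, Nat.cast_ofNat]
  ring

theorem shape_N2 (hp : p.Ok) {i j : Fin d} (h : i ≠ j) :
    p.Shape (famN2 p.k i j) 2 ((p.ρ + 1 / p.a + ((p.k : ℝ) - 1) / p.b) / p.b) := by
  have hk := hp.k_pos
  have hk' : (0 : ℝ) ≤ (p.k : ℝ) - ((1 : ℕ) : ℝ) := sub_nonneg.mpr (by exact_mod_cast hk)
  have := p.ρ_nonneg
  refine ((shape_pair h (gshape_strip p.a hp.b_pos 0 1 0) (by positivity) (gshape_norm hp)
    p.ρ_nonneg).union (shape_pair h (gshape_normal hp.a_pos hp.b_pos hk) (by positivity)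
      (gshape_strip p.a hp.b_pos 0 1 0) (by positivity)) (by positivity) (by positivity)
      fun u h1 h2 => by omega).imp (fun u hu => ?_) rfl ?_
  · rcases hu with hu | hu
    · exact ⟨(supp_pair hu.2.2.1).1, normal_pair (by omega) hu.2.1 hu.2.2.1, hu.2.2.2, by omega⟩
    · exact ⟨(supp_pair hu.2.2.1).1, normal_pair hu.1.2 (by omega) hu.2.2.1, hu.2.2.2, by omega⟩
  · simp only [Nat.sub_zero, Nat.cast_one]
    ring

theorem shape_line (hp : p.Ok) {j₁ j₂ j₃ j₄ : Fin d} (h12 : j₁ ≠ j₂) (h13 : j₁ ≠ j₃)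
    (h14 : j₁ ≠ j₄) (h23 : j₂ ≠ j₃) (h24 : j₂ ≠ j₄) (h34 : j₃ ≠ j₄) :
    p.Shape (famLine p.k j₁ j₂ j₃ j₄) 2 ((p.ρ + (p.k : ℝ) / p.b) / p.b) := by
  have := p.ρ_nonneg
  have _ := h14
  have _ := h24
  refine ((shape_pair h12 (gshape_norm hp) p.ρ_nonneg (gshape_strip p.a hp.b_pos 0 1 0)
    (by positivity)).union (shape_pair h34 (gshape_strip p.a hp.b_pos 0 p.k 1) (by positivity)
      (gshape_strip p.a hp.b_pos 0 1 0) (by positivity)) (by positivity) (by positivity)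
      fun u h1 h2 => ?_).imp (fun u hu => ?_) rfl ?_
  · have a1 := h1.2.2.1 j₃ h13.symm h23.symm
    have a2 := h2.1.2.2
    rw [a1] at a2
    omega
  · rcases hu with hu | hu
    · exact ⟨hu.2.2.2, Or.inl ⟨hu.1, by omega, hu.2.2.1⟩⟩
    · exact ⟨hu.2.2.2, Or.inr ⟨by omega, by omega, hu.2.2.1⟩⟩
  · simp only [Nat.sub_zero, Nat.cast_one]
    ring

theorem shape_L1 (hp : p.Ok) (l : Fin d) : p.Shape (famL1 l) 1 (2 / p.a) :=
  (shape_one l (gshape_aray p.b hp.a_pos 0) (by positivity) (gshape_two _ zero_ne_one)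
    zero_le_two).imp (fun u hu => ⟨hu.2.1, hu.1.2, by omega⟩) rfl (by ring)

theorem shape_L2 (hp : p.Ok) (l : Fin d) : p.Shape (famL2 l) 1 (1 / p.a + 1 / p.b) :=
  (shape_one l ((gshape_aray p.b hp.a_pos 0).union (gshape_strip p.a hp.b_pos 0 1 1)
    (by positivity) (by positivity) fun v h1 h2 => by omega) (by positivity)
    (gshape_single _ 0) zero_le_one).imp (fun u hu => ⟨hu.2.1, hu.2.2, by omega⟩) rfl (by simp)

theorem shape_L3 (hp : p.Ok) (l : Fin d) : p.Shape (famL3 l) 1 (3 / p.b) :=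
  (shape_one l (gshape_strip p.a hp.b_pos 0 3 0) (by positivity)
    (gshape_single _ 0) zero_le_one).imp (fun u hu => ⟨hu.2.1, hu.2.2, by omega⟩) rfl (by simp)

theorem shape_F1 (hp : p.Ok) {I : Finset (Fin d)} {l : Fin d} (h : l ∈ I) (hI : I.card = 2) :
    p.Shape (famF1 I l) 1 (2 / p.a) := by
  refine (shape_on h (gshape_two (pw p.a p.b) (u := (0, 0)) (u' := (1, 0)) (by simp)) zero_le_two
    (gshape_aray p.b hp.a_pos 0) (by positivity) (gshape_single _ 0) zero_le_one).imp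
    (fun u hu => ⟨hu.2.2.1, gdeg_eq_zero (normal_of (l₀ := l) ?_
      (fun l' h1 h2 => Or.inl (hu.2.1 l' h1 h2).2) hu.2.2.1) hu.2.2.2, ?_⟩) (by omega) ?_
  · rcases hu.1 with a | a <;> simp [a]
  · rcases hu.1 with a | a <;> simp [a]
  · simp only [hI]
    ring

theorem shape_F2 (hp : p.Ok) {i j : Fin d} (h : i ≠ j) : p.Shape (famF2 i j) 1 (2 / p.a) := by
  have g1 := shape_pair (p := p) h (gshape_single _ (0, 0)) zero_le_one
    (gshape_aray p.b hp.a_pos 0) (by positivity)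
  have g2 := shape_pair (p := p) h (gshape_aray p.b hp.a_pos 1) (by positivity)
    (gshape_single _ (0, 0)) zero_le_one
  refine (g1.union g2 (by positivity) (by positivity) fun u h1 h2 => ?_).imp (fun u hu => ?_) rfl
    (by ring)
  · have a2 := h2.1.1
    rw [h1.1] at a2
    omega
  · rcases hu with hu | hu
    · exact ⟨(supp_pair hu.2.2.1).1, gdeg_eq_zero (normal_pair (by simp [hu.1])
        (Or.inl hu.2.1.2) hu.2.2.1) hu.2.2.2, Or.inl (by simp [hu.1])⟩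
    · exact ⟨(supp_pair hu.2.2.1).1, gdeg_eq_zero (normal_pair (Or.inl hu.1.2)
        (by simp [hu.2.1]) hu.2.2.1) hu.2.2.2, Or.inr (by simp [hu.2.1])⟩

end Vale.Agent.P018
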