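import Vale.Agent.P018.Steps
import Vale.Agent.P018.Shapes
import Vale.Agent.P018.Cases
import Vale.Agent.P018.Numerics

namespace Vale.Agent.P018

open NumberField Polynomial Filter

variable {d : ℕ} {L : Type} [Field L] [NumberField L] {p : Par d L}

omit [NumberField L] in
theorem Par.Stage.pad {P : Pred d L} {t cost r : ℕ} (h : p.Stage P t cost) (hP : Good P)
    (hd : p.Dim P r) {t' : ℕ} (ht : t ≤ t') : p.Stage P t' (cost + r * (t' - t)) := by
  have := h.refine' hP hd (t' - t)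
  rwa [Nat.add_sub_cancel' ht] at this

omit [NumberField L] in
theorem rho_eq (hp : p.Ok) : p.ρ = ((p.k * p.a + p.b : ℕ) : ℝ) / ((p.a * p.b : ℕ) : ℝ) := by
  have ha : (0 : ℝ) < p.a := by exact_mod_cast hp.a_pos
  have hb : (0 : ℝ) < p.b := by exact_mod_cast hp.b_pos
  unfold Par.ρ
  push_cast
  field_simp
  ring

omit [NumberField L] in
theorem one_lt_rho (hp : p.Ok) {m r t n : ℕ} (hm : 1 ≤ m)
    (h : m * (p.a * p.b) ^ r < (p.k * p.a + p.b) ^ r * t ^ n) :
    1 < p.ρ ^ r / (m : ℝ) * (t : ℝ) ^ n := by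
  have ha : (0 : ℝ) < ((p.a * p.b : ℕ) : ℝ) := by exact_mod_cast Nat.mul_pos hp.a_pos hp.b_pos
  have hm' : (0 : ℝ) < m := by exact_mod_cast hm
  rw [rho_eq hp, div_pow, div_div, div_mul_eq_mul_div, one_lt_div (by positivity), mul_comm]
  exact_mod_cast h

theorem zs_empty (hp : p.Ok) {Z : ℝ} {S : Finset (Pt d L)} {pool : Finset ℕ}
    (hA : p.Adm Z S pool) {Φ : RR d L}
    (h : ∀ (al : Fin d → L) (n : L), (∀ l, al l ≠ 0) → ev al n Φ ≠ 0) : p.zs S Φ = ∅ := by
  refine Finset.eq_empty_of_forall_notMem fun x hx => ?_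
  exact h _ _ (alL_ne_zero hp hA (mem_zs.1 hx).1) (mem_zs.1 hx).2

omit [NumberField L] in
theorem eqn_empty (nf : Bool) (I : Finset (Fin d)) (D : ℕ) : p.Eqn nf I D ∅ :=
  ⟨1, one_ne_zero, by simp, by
    simpa using (DegLe.C (d := d) (1 : L[X]) (E := if nf then 0 else D) (by simp)).mono
      (Nat.zero_le D) le_rfl, by simp⟩

theorem step_general (hp : p.Ok) {I : Finset (Fin d)} {i : Fin d} (hi : i ∈ I) {t : ℕ} (ht : 1 ≤ t)
    (h : max p.a p.b * (p.a * p.b) ^ (I.card - 1) <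
      (p.k * p.a + p.b) ^ (I.card - 1) * t ^ I.card) :
    p.StepHyp (p.Eqn false I) (p.Eqn false (I.erase i)) t := by
  refine hyper_step hp false hi (p.good_eqn _ _) (Par.Imp.refl _)
    (𝒮 := (typeA p.k I) '' I ∪ (typeB p.k I) '' I)
    ((I.finite_toSet.image _).union (I.finite_toSet.image _)) ht (r := I.card) (by simp) ?_ ?_
  · rintro s (⟨l, hl, rfl⟩ | ⟨l, hl, rfl⟩)
    · refine ⟨⟨_, shape_typeA hp hl, one_lt_rho hp hp.b_pos (lt_of_le_of_lt ?_ h)⟩,
        fun u hu => hu.1, by simp⟩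
      exact Nat.mul_le_mul_right _ (le_max_right _ _)
    · refine ⟨⟨_, shape_typeB hp hl, one_lt_rho hp hp.a_pos (lt_of_le_of_lt ?_ h)⟩,
        fun u hu => hu.1, by simp⟩
      exact Nat.mul_le_mul_right _ (le_max_left _ _)
  · intro D
    refine ⟨0, Eventually.of_forall fun Z S pool hA Φ h1 h2 _ _ => ?_⟩
    rcases case_general hp ⟨i, hi⟩ h1.ne_zero h2 with h3 | ⟨l, hl, h3 | h3⟩
    · left
      rw [zs_empty hp hA h3]
      exact eqn_empty _ _ _
    · exact Or.inr ⟨_, Or.inl ⟨l, hl, rfl⟩, h3⟩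
    · exact Or.inr ⟨_, Or.inr ⟨l, hl, rfl⟩, h3⟩

theorem level_step (hp : p.Ok) {r t cost : ℕ} (hr : r + 1 ≤ d)
    (h : p.Stage (p.Lev (r + 1)) t cost) (ht : 1 ≤ t)
    (hnum : max p.a p.b * (p.a * p.b) ^ r < (p.k * p.a + p.b) ^ r * t ^ (r + 1)) :
    p.Stage (p.Lev r) (t + 2 ^ d) (cost + (r + 1) * 2 ^ d) := by
  classical
  have hd := Par.dim_lev hp (r := r + 1) (by omega)
  set s := Finset.powersetCard r (Finset.univ : Finset (Fin d)) with hs
  have hc : s.card ≤ 2 ^ d := by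
    rw [hs, Finset.card_powersetCard, Finset.card_univ, Fintype.card_fin]
    exact Nat.choose_le_two_pow _ _
  have h1 := h.swaps s (Q := fun I => p.Eqn false I) (p.good_lev _) (fun I => p.good_eqn _ I) hd
    (fun I hI => by
      have hI' : I.card = r := (Finset.mem_powersetCard.1 hI).2
      obtain ⟨i, hi⟩ : ∃ i, i ∉ I := by
        by_contra hcon
        push Not at hcon
        have := Finset.card_le_card (show Finset.univ ⊆ I from fun i _ => hcon i)
        simp at this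
        omega
      have hc' : (insert i I).card = r + 1 := by rw [Finset.card_insert_of_notMem hi, hI']
      have := step_general hp (Finset.mem_insert_self i I) ht (by rw [hc']; simpa using hnum)
      rw [Finset.erase_insert hi] at this
      exact this.of_imp (Par.Imp.of_forall fun D A h => h _ hc'))
  have h2 := h1.pad ((p.good_lev _).and (Good.forall _ fun I => p.good_eqn _ I))
    (hd.of_imp (Par.Imp.of_forall fun _ _ h => h.1)) (t' := t + 2 ^ d) (by omega)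
  refine h2.imp (Par.Imp.of_forall fun D A h I hI => h.2 I
    (Finset.mem_powersetCard.2 ⟨Finset.subset_univ _, hI⟩)) (le_of_eq ?_)
  rw [add_assoc, ← mul_add]
  congr 2
  omega

theorem top_stage (hp : p.Ok) {t : ℕ} (ht : 1 ≤ t)
    (hnum : p.W * (p.a * p.b) ^ d < (p.k * p.a + p.b) ^ d * t ^ (d + 1)) :
    p.Stage (p.Lev d) (t + 2 ^ d) ((d + 1) * (t + 2 ^ d)) := by
  have hd : p.Dim (fun _ _ => True) (d + 1) :=
    (Par.dim_lev hp (r := d + 1) (by omega)).of_imp (Par.Imp.of_forall fun D A _ I hI => by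
      have := Finset.card_le_univ I
      simp at this
      omega)
  have h1 := (p.stage_init.pad good_true hd (Nat.zero_le t)).swap good_true (p.good_eqn _ _) hd
    (top_step hp ht (shape_top hp) (one_lt_rho hp hp.W_pos hnum))
  have h3 : 1 ≤ 2 ^ d := Nat.one_le_two_pow
  have h2 := h1.pad (good_true.and (p.good_eqn _ _))
    (hd.of_imp (Par.Imp.of_forall fun _ _ h => h.1)) (t' := t + 2 ^ d) (by omega)
  refine h2.imp (Par.Imp.of_forall fun D A h I hI => ?_) (le_of_eq ?_)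
  · rw [Finset.eq_univ_of_card I (by simpa using hI)]
    exact h.2
  · obtain ⟨n, hn⟩ := Nat.exists_eq_add_of_le h3
    rw [hn, show t + (1 + n) - (t + 1) = n by omega]
    simp only [Nat.sub_zero]
    ring

theorem chain_stage (hp : p.Ok) (T : ℕ → ℕ) {r₀ : ℕ} (hr₀ : r₀ ≤ d) (hT : 1 ≤ T (d + 1))
    (hgap : ∀ r, r₀ < r → r ≤ d → T (r + 1) + 2 ^ d ≤ T r)
    (htop : p.W * (p.a * p.b) ^ d < (p.k * p.a + p.b) ^ d * T (d + 1) ^ (d + 1))
    (hlev : ∀ r, r₀ < r → r ≤ d → max p.a p.b * (p.a * p.b) ^ (r - 1) <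
      (p.k * p.a + p.b) ^ (r - 1) * T r ^ r) :
    p.Stage (p.Lev r₀) (T (r₀ + 1) + 2 ^ d)
      (∑ r ∈ Finset.Ioc r₀ (d + 1), (T r + 2 ^ d) + r₀ * (T (r₀ + 1) + 2 ^ d)) := by
  induction hr₀ using Nat.decreasingInduction with
  | self =>
    refine (top_stage hp hT htop).imp (Par.Imp.refl _) (le_of_eq ?_)
    simp only [Nat.Ioc_succ_singleton, Finset.sum_singleton]
    ring
  | of_succ r hr ih =>
    have ih := ih (fun s h1 h2 => hgap s (by omega) h2) (fun s h1 h2 => hlev s (by omega) h2)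
    have hg := hgap (r + 1) (by omega) hr
    have h3 : 1 ≤ 2 ^ d := Nat.one_le_two_pow
    have h1 := level_step hp hr (ih.pad (p.good_lev _) (Par.dim_lev hp (by omega)) hg) (by omega)
      (by simpa using hlev (r + 1) (by omega) hr)
    refine h1.imp (Par.Imp.refl _) (le_of_eq ?_)
    rw [← Finset.insert_Ioc_succ_left_eq_Ioc (show r < d + 1 by omega),
      Finset.sum_insert (by simp)]
    obtain ⟨n, hn⟩ := Nat.exists_eq_add_of_le hg
    simp only [Order.succ_eq_add_one]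
    rw [hn, Nat.add_sub_cancel_left]
    ring

theorem fin_of_icrit (hp : p.Ok) (h : ICrit d p.k p.W p.a p.b) :
    ∃ t, p.Stage FinP t (p.W - 1) := by
  obtain ⟨r₀, T, h1, h2, h3, h4, h5, h6, h7, h8⟩ := h
  have h9 := (chain_stage hp T h2 h3 (fun r a b => h4 r a.le b) h5 h6).pad (p.good_lev _)
    (Par.dim_lev hp h1) (h4 r₀ le_rfl h2)
  refine ⟨_, (h9.trivial_fin hp h7).imp (Par.Imp.refl _) ?_⟩
  obtain ⟨n, hn⟩ := Nat.exists_eq_add_of_le (h4 r₀ le_rfl h2)
  rw [hn, Nat.add_sub_cancel_left, add_assoc, ← mul_add, ← hn]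
  omega

theorem core_of_fin {d k : ℕ} (hd : 1 ≤ d) (hk : 1 ≤ k) (W : ℕ) (hW : 3 * d ≤ W)
    (h : ∀ (L : Type) [Field L] [NumberField L] (p : Par d L), p.Ok → p.k = k → p.W = W →
      W < d * p.a → k * p.a + p.b = W + 3 * k + 1 → ∃ t, p.Stage FinP t (p.W - 1)) :
    CoreBound d k := by
  refine ⟨W, hW, fun L _ _ θ hθ c a b hc hb ha hab => ?_⟩
  obtain ⟨t, ht⟩ := h L ⟨θ, k, c, a, b, W⟩
    ⟨hθ, hc, hk, Nat.pos_of_ne_zero (by rintro (rfl : a = 0); omega), hb, by show 1 ≤ W; omega, hd⟩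
    rfl rfl ha hab
  exact ht.final

theorem core_of_numOk {d k : ℕ} (hd : 1 ≤ d) (hk : 1 ≤ k) (h : NumOk d k) : CoreBound d k := by
  obtain ⟨W, hW, h⟩ := h
  refine core_of_fin hd hk W hW fun L _ _ p hp h1 h2 h3 h4 => fin_of_icrit hp ?_
  rw [h1, h2]
  exact h _ _ hp.b_pos h3 h4

end Vale.Agent.P018
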