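import Vale.Agent.P018.Endgame
import Vale.Agent.P018.Construct

namespace Vale.Agent.P018

open Polynomial Filter

theorem asymp_of_le {f : ℤ[X]} {k : ℕ} (hf : Irreducible (f.map (Int.castRingHom ℚ)))
    (hk : 2 ≤ k) (hloc : LocalCondition f k) (h : f.natDegree ≤ k) : PredictedAsymptotic f k := by
  have h0 : f ≠ 0 := by
    rintro rfl
    simp at hf
  obtain ⟨K, hK, h1⟩ := large_of_le f k h0 (by omega) h
  exact sieve f k hf hk hloc K hK h1

theorem asymp_of_core {f : ℤ[X]} {k k' : ℕ} (hf : Irreducible (f.map (Int.castRingHom ℚ)))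
    (hk : 2 ≤ k) (hloc : LocalCondition f k) (hd : 2 ≤ f.natDegree) (h1 : 1 ≤ k') (h2 : k' ≤ k)
    (h : CoreBound f.natDegree k') : PredictedAsymptotic f k := by
  obtain ⟨K, hK, h1⟩ := large_of_monic f k hf ((monicBound_of_core hd h1 h).mono h2)
  exact sieve f k hf hk hloc K hK h1

theorem asymp_quartic {f : ℤ[X]} {k : ℕ} (hf : Irreducible (f.map (Int.castRingHom ℚ)))
    (hk : 2 ≤ k) (hloc : LocalCondition f k) (h : f.natDegree = 4) : PredictedAsymptotic f k :=
  asymp_of_core hf hk hloc (by omega) (k' := 2) (by omega) hk (h ▸ core42)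

theorem asymp_main {f : ℤ[X]} {k : ℕ} (hf : Irreducible (f.map (Int.castRingHom ℚ)))
    (hk : 2 ≤ k) (hloc : LocalCondition f k) (h : f.natDegree ≤ 2 * k ∨ f.natDegree + 4 ≤ 3 * k) :
    PredictedAsymptotic f k := by
  by_cases h1 : f.natDegree ≤ k
  · exact asymp_of_le hf hk hloc h1
  by_cases h4 : f.natDegree = 4
  · exact asymp_quartic hf hk hloc h4
  exact asymp_of_core hf hk hloc (by omega)
    (k' := min ((f.natDegree + 1) / 2) ((f.natDegree + 6) / 3)) (by omega) (by omega)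
    (core_of_numOk (by omega) (by omega) (numOk_main (by omega) h4))

theorem asymp_quarter (ε : ℝ) (hε : 0 < ε) : ∃ d₀ : ℕ, ∀ (f : ℤ[X]) (k : ℕ),
    Irreducible (f.map (Int.castRingHom ℚ)) → 2 ≤ k → d₀ ≤ f.natDegree →
      (1 / 4 + ε) * (f.natDegree : ℝ) ≤ k → LocalCondition f k → PredictedAsymptotic f k := by
  obtain ⟨d₀, h⟩ := numOk_quarter ε hε
  refine ⟨d₀, fun f k hf hk h0 h1 hloc => ?_⟩
  by_cases h2 : f.natDegree ≤ k
  · exact asymp_of_le hf hk hloc h2
  exact asymp_of_core hf hk hloc (by omega) (k' := k) (by omega) le_rfl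
    (core_of_numOk (by omega) (by omega) (h _ _ h0 h1 (by omega)))

end Vale.Agent.P018
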