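import Mathlib

namespace Vale.Agent.P018

open Finset

/-- truncated divided power -/
noncomputable def Tq (q : ℕ) (y : ℝ) : ℝ := (max y 0) ^ q / (q.factorial : ℝ)

/-- the weighted family `(F, w)` has dimension `r`, density at least `δ`, shift `s`, up to `Ym` -/
def WS {κ : Type} (F : Finset κ) (w : κ → ℕ) (r : ℕ) (δ s Ym : ℝ) : Prop :=
  ∀ q : ℕ, 1 ≤ q → ∀ y : ℝ, y ≤ Ym → δ * Tq (q + r) (y - s) ≤ ∑ u ∈ F, Tq q (y - w u)

variable {κ κ' : Type}

theorem Tq_nonneg (q : ℕ) (y : ℝ) : 0 ≤ Tq q y :=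
  div_nonneg (pow_nonneg (le_max_right _ _) _) (Nat.cast_nonneg _)

theorem Tq_mono (q : ℕ) {y y' : ℝ} (h : y ≤ y') : Tq q y ≤ Tq q y' :=
  div_le_div_of_nonneg_right
    (pow_le_pow_left₀ (le_max_right _ _) (max_le_max h le_rfl) _) (Nat.cast_nonneg _)

theorem Tq_of_nonpos {q : ℕ} (hq : 1 ≤ q) {y : ℝ} (h : y ≤ 0) : Tq q y = 0 := by
  rw [Tq, max_eq_right h, zero_pow (by omega), zero_div]

theorem Tq_sub_le (q : ℕ) (z a : ℝ) (ha : 0 ≤ a) :
    Tq (q + 1) z - Tq (q + 1) (z - a) ≤ a * Tq q z := by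
  have h0 : 0 ≤ max (z - a) 0 := le_max_right _ _
  have h1 : max (z - a) 0 ≤ max z 0 := max_le_max (by linarith) le_rfl
  have h2 : max z 0 - max (z - a) 0 ≤ a := by
    have a1 := le_max_left (z - a) 0
    rcases le_total z 0 with h | h
    · rw [max_eq_right h]
      linarith
    · rw [max_eq_left h]
      linarith
  have h3 := (le_abs_self _).trans (abs_pow_sub_pow_le (max z 0) (max (z - a) 0) (q + 1))
  rw [abs_of_nonneg (sub_nonneg.mpr h1), abs_of_nonneg h0, abs_of_nonneg (h0.trans h1),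
    max_eq_left h1, Nat.add_sub_cancel] at h3
  have h4 : (0 : ℝ) < q.factorial := by exact_mod_cast q.factorial_pos
  have h5 : 0 ≤ max z 0 ^ q := pow_nonneg (h0.trans h1) _
  rw [Tq, Tq, Tq, ← sub_div, Nat.factorial_succ, div_le_iff₀ (by positivity)]
  refine h3.trans ?_
  calc (max z 0 - max (z - a) 0) * ((q + 1 : ℕ) : ℝ) * max z 0 ^ q
      ≤ a * ((q + 1 : ℕ) : ℝ) * max z 0 ^ q := by gcongr
    _ = _ := by
      push_cast
      field_simp

theorem WS.mono {F : Finset κ} {w : κ → ℕ} {r : ℕ} {δ s Ym δ' s' Ym' : ℝ} (h : WS F w r δ s Ym)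
    (hδ0 : 0 ≤ δ') (hδ : δ' ≤ δ) (hs : s ≤ s') (hY : Ym' ≤ Ym) : WS F w r δ' s' Ym' := by
  intro q hq y hy
  refine le_trans ?_ (h q hq y (hy.trans hY))
  exact mul_le_mul hδ (Tq_mono _ (by linarith)) (Tq_nonneg _ _) (hδ0.trans hδ)

theorem WS.single (u : κ) (w : κ → ℕ) (Ym : ℝ) : WS {u} w 0 1 (w u) Ym := by
  intro q _ y _
  simp

/-- an arithmetic progression of weights `s, s + a, s + 2 a, …` -/
theorem WS.ray (a s G : ℕ) (ha : 1 ≤ a) (Ym : ℝ) (hG : Ym ≤ G) :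
    WS (range G) (fun g => s + a * g) 1 (1 / a) s Ym := by
  intro q hq y hy
  have ha' : (1 : ℝ) ≤ a := by exact_mod_cast ha
  have h1 : ∑ g ∈ range G, (Tq (q + 1) (y - s - a * (g : ℕ)) -
      Tq (q + 1) (y - s - a * (g + 1 : ℕ))) ≤ ∑ g ∈ range G, a * Tq q (y - (s + a * g : ℕ)) := by
    refine sum_le_sum fun g _ => ?_
    have := Tq_sub_le q (y - s - a * g) a (by linarith)
    push_cast
    rw [show y - s - a * ((g : ℝ) + 1) = y - s - a * g - a by ring, ← sub_sub]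
    exact this
  rw [sum_range_sub' (fun g : ℕ => Tq (q + 1) (y - s - a * (g : ℕ))), ← mul_sum] at h1
  have h2 : Tq (q + 1) (y - s - a * (G : ℕ)) = 0 := by
    refine Tq_of_nonpos (by omega) ?_
    have a1 : (0 : ℝ) ≤ s := Nat.cast_nonneg _
    have a2 : (0 : ℝ) ≤ G := Nat.cast_nonneg _
    nlinarith
  rw [h2, Nat.cast_zero, mul_zero, sub_zero, sub_zero] at h1
  rw [one_div, inv_mul_le_iff₀ (by linarith)]
  exact h1

/-- transfer along an injection into a larger family with smaller weights -/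
theorem WS.of_injOn {F : Finset κ} {w : κ → ℕ} {F' : Finset κ'} {w' : κ' → ℕ} {r : ℕ}
    {δ s Ym : ℝ} (h : WS F w r δ s Ym) (e : κ → κ') (he : Set.InjOn e F) (hF : ∀ u ∈ F, e u ∈ F')
    (hw : ∀ u ∈ F, w' (e u) ≤ w u) : WS F' w' r δ s Ym := by
  classical
  intro q hq y hy
  refine (h q hq y hy).trans ?_
  calc ∑ u ∈ F, Tq q (y - w u) ≤ ∑ u ∈ F, Tq q (y - w' (e u)) := by
        refine sum_le_sum fun u hu => Tq_mono _ ?_
        have : (w' (e u) : ℝ) ≤ w u := by exact_mod_cast hw u hu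
        linarith
    _ = ∑ v ∈ F.image e, Tq q (y - w' v) := (sum_image (f := fun v => Tq q (y - w' v)) he).symm
    _ ≤ _ := sum_le_sum_of_subset_of_nonneg (image_subset_iff.mpr hF) fun _ _ _ => Tq_nonneg _ _

theorem WS.union [DecidableEq κ] {F F' : Finset κ} {w : κ → ℕ} {r : ℕ} {δ δ' s Ym : ℝ}
    (h : WS F w r δ s Ym) (h' : WS F' w r δ' s Ym) (hd : Disjoint F F') :
    WS (F ∪ F') w r (δ + δ') s Ym := by
  intro q hq y hy
  rw [sum_union hd, add_mul]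
  exact add_le_add (h q hq y hy) (h' q hq y hy)

theorem WS.prod {F : Finset κ} {w : κ → ℕ} {F' : Finset κ'} {w' : κ' → ℕ} {r r' : ℕ}
    {δ s δ' s' Ym : ℝ} (h : WS F w r δ s Ym) (h' : WS F' w' r' δ' s' Ym) (hδ : 0 ≤ δ)
    (hδ' : 0 ≤ δ') (hs : 0 ≤ s) (hs' : 0 ≤ s') :
    WS (F ×ˢ F') (fun u => w u.1 + w' u.2) (r + r') (δ * δ') (s + s') Ym := by
  intro q hq y hy
  have h1 := h (q + r') (by omega) (y - s') (by linarith)
  rw [sum_product]
  calc δ * δ' * Tq (q + (r + r')) (y - (s + s'))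
      = δ' * (δ * Tq (q + r' + r) (y - s' - s)) := by
        rw [show q + (r + r') = q + r' + r by ring, show y - (s + s') = y - s' - s by ring]
        ring
    _ ≤ δ' * ∑ u ∈ F, Tq (q + r') (y - s' - w u) := mul_le_mul_of_nonneg_left h1 hδ'
    _ ≤ _ := by
        rw [mul_sum]
        refine sum_le_sum fun u _ => ?_
        have a1 : (0 : ℝ) ≤ w u := Nat.cast_nonneg _
        have h2 := h' q hq (y - w u) (by linarith)
        rw [sub_right_comm]
        refine h2.trans (le_of_eq (sum_congr rfl fun v _ => ?_))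
        rw [Nat.cast_add, sub_sub]

theorem WS.pi {d : ℕ} [DecidableEq κ] {F : Fin d → Finset κ} {w : κ → ℕ} {r : Fin d → ℕ}
    {δ s : Fin d → ℝ} {Ym : ℝ} (h : ∀ l, WS (F l) w (r l) (δ l) (s l) Ym) (hδ : ∀ l, 0 ≤ δ l)
    (hs : ∀ l, 0 ≤ s l) :
    WS (Fintype.piFinset F) (fun u => ∑ l, w (u l)) (∑ l, r l) (∏ l, δ l) (∑ l, s l) Ym := by
  induction d with
  | zero =>
    intro q _ y _
    simp
  | succ d ih =>
    have h1 := (h 0).prod (ih (fun l => h l.succ) (fun l => hδ l.succ) fun l => hs l.succ)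
      (hδ 0) (prod_nonneg fun l _ => hδ _) (hs 0) (sum_nonneg fun l _ => hs _)
    rw [Fin.sum_univ_succ r, Fin.prod_univ_succ δ, Fin.sum_univ_succ s]
    refine h1.of_injOn (fun p => (Fin.cons p.1 p.2 : Fin (d + 1) → κ)) ?_ ?_ ?_
    · intro p _ p' _ hp
      obtain ⟨a1, a2⟩ := Fin.cons_inj.mp hp
      exact Prod.ext a1 a2
    · intro p hp
      obtain ⟨a1, a2⟩ := mem_product.mp hp
      rw [Fintype.mem_piFinset] at a2 ⊢
      intro l
      refine Fin.cases ?_ (fun l => ?_) l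
      · exact a1
      · exact a2 l
    · intro p _
      simp [Fin.sum_univ_succ]

/-- weight of the monomial `α ^ i β ^ j` -/
def pw (a b : ℕ) (u : ℕ × ℕ) : ℕ := a * u.1 + b * u.2

/-- exponents `(i, j)` with `lo ≤ i < hi`, `j₀ ≤ j < G` -/
theorem WS.strip (a b lo hi j₀ G : ℕ) (hb : 1 ≤ b) (Ym : ℝ) (hG : Ym ≤ G) :
    WS (Ico lo hi ×ˢ Ico j₀ (j₀ + G)) (pw a b) 1 (((hi - lo : ℕ) : ℝ) / b)
      ((a * hi + b * j₀ : ℕ) : ℝ) Ym := by
  intro q hq y hy
  rw [sum_product]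
  have h1 : ∀ i ∈ Ico lo hi, 1 / (b : ℝ) * Tq (q + 1) (y - ((a * hi + b * j₀ : ℕ) : ℝ)) ≤
      ∑ j ∈ Ico j₀ (j₀ + G), Tq q (y - pw a b (i, j)) := by
    intro i hi'
    have h2 := WS.ray b (a * i + b * j₀) G hb Ym hG q hq y hy
    have h3 : ((a * i + b * j₀ : ℕ) : ℝ) ≤ ((a * hi + b * j₀ : ℕ) : ℝ) := by
      have := (mem_Ico.mp hi').2.le
      exact_mod_cast Nat.add_le_add_right (Nat.mul_le_mul_left a this) _
    refine le_trans (mul_le_mul_of_nonneg_left (Tq_mono _ (by linarith)) (by positivity))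
      (h2.trans (le_of_eq ?_))
    rw [sum_Ico_eq_sum_range, Nat.add_sub_cancel_left]
    refine sum_congr rfl fun g _ => ?_
    rw [pw, mul_add, ← add_assoc]
  refine le_trans (le_of_eq ?_) (card_nsmul_le_sum _ _ _ h1)
  rw [Nat.card_Ico, nsmul_eq_mul]
  ring

/-- exponents `(i, 0)` with `i₀ ≤ i` -/
theorem WS.aray (a b i₀ G : ℕ) (ha : 1 ≤ a) (Ym : ℝ) (hG : Ym ≤ G) :
    WS (Ico i₀ (i₀ + G) ×ˢ {0}) (pw a b) 1 (1 / a) ((a * i₀ : ℕ) : ℝ) Ym := by
  refine (WS.ray a (a * i₀) G ha Ym hG).of_injOn (fun g => (i₀ + g, 0)) ?_ ?_ ?_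
  · intro g _ g' _ h
    simpa using h
  · intro g hg
    simpa using hg
  · intro g _
    simp [pw, mul_add]

theorem exists_Y (r t : ℕ) (δ s : ℝ) (hs : 0 ≤ s) (hδ : 1 < δ * (t : ℝ) ^ r) (ht : 1 ≤ t) :
    ∃ Y : ℕ, ∀ (κ : Type) (F : Finset κ) (w : κ → ℕ), WS F w r δ s ((t * Y : ℕ) : ℝ) →
      ∃ sd : ℕ, (r + 1).factorial * sd + (Y + r) ^ (r + 1) ≤
          (r + 1).factorial * (Y * (F.filter (fun u => w u ≤ t * Y)).card) ∧
        ∑ u ∈ F.filter (fun u => w u ≤ t * Y), w u + 1 ≤ t * sd := by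
  have ht' : (1 : ℝ) ≤ t := by exact_mod_cast ht
  obtain ⟨C, hC⟩ : ∃ C : ℝ, C = (r + 1).factorial * (t + 1) := ⟨_, rfl⟩
  have hC0 : 0 ≤ C := by rw [hC]; positivity
  have h0 : ∀ c : ℝ, Filter.Tendsto (fun Y : ℕ => c / (Y : ℝ)) Filter.atTop (nhds 0) :=
    tendsto_const_div_atTop_nhds_zero_nat
  have h1 : Filter.Tendsto
      (fun Y : ℕ => δ * (t - s / Y) ^ (r + 1) - t * (1 + r / Y) ^ (r + 1) - C / Y) Filter.atTop
      (nhds (δ * (t - 0) ^ (r + 1) - t * (1 + 0) ^ (r + 1) - 0)) :=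
    (((((h0 s).const_sub _).pow _).const_mul _).sub
      ((((h0 r).const_add _).pow _).const_mul _)).sub (h0 C)
  have h2 : 0 < δ * ((t : ℝ) - 0) ^ (r + 1) - t * (1 + 0) ^ (r + 1) - 0 := by
    simp only [sub_zero, add_zero, one_pow, mul_one, pow_succ]
    nlinarith
  obtain ⟨Y, ⟨h3, h4⟩, h5⟩ := (((h1.eventually (lt_mem_nhds h2)).and
    (Filter.eventually_ge_atTop 1)).and (Filter.eventually_ge_atTop ⌈s⌉₊)).exists
  have hY1 : (1 : ℝ) ≤ Y := by exact_mod_cast h4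
  have hYs : s ≤ Y := Nat.ceil_le.mp h5
  have h6 : t * ((Y : ℝ) + r) ^ (r + 1) + C ≤ δ * (t * Y - s) ^ (r + 1) := by
    have e1 : (t * Y - s : ℝ) = (t - s / Y) * Y := by field_simp
    have e2 : ((Y : ℝ) + r) = (1 + r / Y) * Y := by field_simp
    have e3 : C ≤ C / Y * Y ^ (r + 1) := by
      rw [pow_succ', ← mul_assoc, div_mul_cancel₀ _ (by linarith)]
      exact le_mul_of_one_le_right hC0 (one_le_pow₀ hY1)
    have e4 := mul_pos h3 (pow_pos (by linarith : (0 : ℝ) < Y) (r + 1))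
    rw [e1, e2, mul_pow, mul_pow]
    linarith
  refine ⟨Y, fun κ F w h => ?_⟩
  have h7 := h 1 le_rfl _ le_rfl
  have h8 : ∑ u ∈ F, Tq 1 (((t * Y : ℕ) : ℝ) - w u) =
      ∑ u ∈ F.filter (fun u => w u ≤ t * Y), (((t * Y : ℕ) : ℝ) - w u) := by
    rw [sum_filter]
    refine sum_congr rfl fun u _ => ?_
    rw [Tq, pow_one, Nat.factorial_one, Nat.cast_one, div_one]
    split_ifs with hu
    · exact max_eq_left (sub_nonneg.mpr (by exact_mod_cast hu))
    · exact max_eq_right (sub_nonpos.mpr (by exact_mod_cast (not_le.mp hu).le))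
  have hf : 0 < (r + 1).factorial := Nat.factorial_pos _
  have hf' : (0 : ℝ) < (r + 1).factorial := by exact_mod_cast hf
  rw [h8, sum_sub_distrib, sum_const, nsmul_eq_mul, Tq, add_comm 1 r, ← mul_div_assoc,
    div_le_iff₀ hf', Nat.cast_mul, max_eq_left (by nlinarith), ← Nat.cast_sum] at h7
  obtain ⟨H, hH⟩ : ∃ H, H = (F.filter (fun u => w u ≤ t * Y)).card := ⟨_, rfl⟩
  obtain ⟨W, hW⟩ : ∃ W, W = ∑ u ∈ F.filter (fun u => w u ≤ t * Y), w u := ⟨_, rfl⟩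
  obtain ⟨f, hf2⟩ : ∃ f, f = (r + 1).factorial := ⟨_, rfl⟩
  obtain ⟨P, hP⟩ : ∃ P, P = (Y + r) ^ (r + 1) := ⟨_, rfl⟩
  have h9 : t * P + f * (t + 1) + f * W ≤ t * (f * (Y * H)) := by
    have : (t : ℝ) * ((Y : ℝ) + r) ^ (r + 1) + (r + 1).factorial * (t + 1) +
        (r + 1).factorial * W ≤ t * ((r + 1).factorial * (Y * H)) := by
      rw [← hH, ← hW] at h7
      rw [← hC]
      linarith
    rw [hP, hf2]
    exact_mod_cast this
  rw [← hH, ← hW, ← hf2, ← hP]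
  rw [← hf2] at hf
  have h10 : P ≤ f * (Y * H) := Nat.le_of_mul_le_mul_left (by omega) ht
  obtain ⟨D, hD⟩ := Nat.exists_eq_add_of_le h10
  refine ⟨D / f, ?_, ?_⟩
  · have := Nat.mul_div_le D f
    omega
  · have a1 : D ≤ f * (D / f) + f := by
      have := Nat.div_add_mod D f
      have := Nat.mod_lt D hf
      omega
    have a2 := Nat.mul_le_mul_left t a1
    refine Nat.le_of_mul_le_mul_left ?_ hf
    rw [hD] at h9
    nlinarith

end Vale.Agent.P018
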