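import Vale.Agent.P018.Stage
import Vale.Agent.P018.Lead
import Vale.Agent.P018.WS

namespace Vale.Agent.P018

open NumberField Polynomial

variable {d : ℕ} {L : Type} [Field L]

/-- the monomial attached to an index -/
noncomputable def Par.mon (p : Par d L) (u : Ix d) (x : Pt d L) : 𝓞 L :=
  (∏ l, al p.θ x l ^ (u.1 l).1 * x.be l ^ (u.1 l).2) * (x.N : 𝓞 L) ^ u.2

/-- the weight of an index -/
def Par.wt (p : Par d L) (u : Ix d) : ℕ := ∑ l, pw p.a p.b (u.1 l) + p.W * u.2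

/-- the family `s` has dimension `r` and density at least `δ` -/
def Par.Shape (p : Par d L) (s : Ix d → Prop) (r : ℕ) (δ : ℝ) : Prop :=
  ∃ s₀ : ℝ, 0 ≤ s₀ ∧ ∀ G : ℕ, ∃ F : Finset (Ix d), (∀ u ∈ F, s u) ∧ WS F p.wt r δ s₀ G

noncomputable def Par.θL (p : Par d L) (l : Fin d) : L := (p.θ l : L)

noncomputable def Par.cL (p : Par d L) : L := (p.c : L) ^ p.k

noncomputable def Par.ρ (p : Par d L) : ℝ := 1 / (p.a : ℝ) + (p.k : ℝ) / (p.b : ℝ)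

/-- the polynomial attached to a linear combination of monomials -/
noncomputable def Par.tilde (p : Par d L) (E : ℕ) (I : Finset (Fin d)) (B : Finset (Ix d))
    (lam : Ix d → L) : RR d L :=
  ∑ u ∈ B, MvPolynomial.C (C (lam u)) * monoP p.θL p.cL p.k E I u

/-- the family `s` is independent modulo `Φ` -/
def Par.Indep (p : Par d L) (I : Finset (Fin d)) (Φ : RR d L) (s : Ix d → Prop) : Prop :=
  ∀ (E : ℕ) (B : Finset (Ix d)) (lam : Ix d → L), (∀ u ∈ B, s u ∧ IxOk p.k E I u) →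
    (∃ u ∈ B, lam u ≠ 0) → ¬ Φ ∣ p.tilde E I B lam

def Normal (k : ℕ) (u : Ix d) : Prop := ∀ l, (u.1 l).2 = 0 ∨ (u.1 l).1 < k

def Supp (I : Finset (Fin d)) (u : Ix d) : Prop := ∀ l, l ∉ I → u.1 l = (0, 0)

def typeA (k : ℕ) (I : Finset (Fin d)) (l₀ : Fin d) (u : Ix d) : Prop :=
  Supp I u ∧ Normal k u ∧ u.2 = 0 ∧ (u.1 l₀).1 = 0

def typeB (k : ℕ) (I : Finset (Fin d)) (l₀ : Fin d) (u : Ix d) : Prop :=
  Supp I u ∧ Normal k u ∧ u.2 = 0 ∧ (u.1 l₀).2 = 0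

def famN1 (k : ℕ) (I : Finset (Fin d)) (l : Fin d) (u : Ix d) : Prop :=
  Supp I u ∧ Normal k u ∧ u.2 = 0 ∧ (u.1 l).1 < 2

def famN2 (k : ℕ) (i j : Fin d) (u : Ix d) : Prop :=
  Supp {j, i} u ∧ Normal k u ∧ u.2 = 0 ∧ ((u.1 i).1 = 0 ∨ (u.1 j).1 = 0)

def famLine (k : ℕ) (j₁ j₂ j₃ j₄ : Fin d) (u : Ix d) : Prop :=
  u.2 = 0 ∧
    ((((u.1 j₁).2 = 0 ∨ (u.1 j₁).1 < k) ∧ (u.1 j₂).1 = 0 ∧ ∀ l, l ≠ j₁ → l ≠ j₂ → u.1 l = (0, 0)) ∨
      ((1 ≤ (u.1 j₃).2 ∧ (u.1 j₃).1 < k) ∧ (u.1 j₄).1 = 0 ∧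
        ∀ l, l ≠ j₃ → l ≠ j₄ → u.1 l = (0, 0)))

def famL1 (l : Fin d) (u : Ix d) : Prop := Supp {l} u ∧ (u.1 l).2 = 0 ∧ u.2 ≤ 1

def famL2 (l : Fin d) (u : Ix d) : Prop :=
  Supp {l} u ∧ u.2 = 0 ∧ ((u.1 l).1 = 0 ∨ (u.1 l).2 = 0)

def famL3 (l : Fin d) (u : Ix d) : Prop := Supp {l} u ∧ u.2 = 0 ∧ (u.1 l).1 < 3

def famF1 (I : Finset (Fin d)) (l : Fin d) (u : Ix d) : Prop :=
  Supp I u ∧ gdeg u = 0 ∧ (u.1 l).1 < 2

def famF2 (i j : Fin d) (u : Ix d) : Prop :=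
  Supp {j, i} u ∧ gdeg u = 0 ∧ ((u.1 i).1 = 0 ∨ (u.1 j).1 = 0)

/-- `α i` is an affine function of `α j` -/
def Par.Lin (p : Par d L) (j i : Fin d) : Pred d L := fun _ A =>
  ∃ κ κ' : L, ∀ x ∈ A, p.alL x i = κ * p.alL x j + κ'

/-- `β l` is a polynomial of degree at most two in `α l` -/
def Par.Pol (p : Par d L) (l : Fin d) : Pred d L := fun _ A =>
  ∃ q : L[X], q.natDegree ≤ 2 ∧ ∀ x ∈ A, (x.be l : L) = q.eval (p.alL x l)

theorem Par.good_lin (p : Par d L) (j i : Fin d) : Good (p.Lin j i) :=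
  ⟨fun _ _ _ ⟨κ, κ', h⟩ hs => ⟨κ, κ', fun x hx => h x (hs hx)⟩, fun _ _ _ _ h => h⟩

theorem Par.good_pol (p : Par d L) (l : Fin d) : Good (p.Pol l) :=
  ⟨fun _ _ _ ⟨q, hq, h⟩ hs => ⟨q, hq, fun x hx => h x (hs hx)⟩, fun _ _ _ _ h => h⟩

theorem normal_inj {k : ℕ} {u u' : Ix d} (hu : Normal k u) (hu' : Normal k u')
    (hg : gdeg u = gdeg u') (hi : ∀ l, iexp k u l = iexp k u' l) : u = u' := by
  have h1 : u.1 = u'.1 := by
    funext l
    have h := hi l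
    unfold iexp at h
    have a1 := hu l
    have a2 := hu' l
    generalize u.1 l = v at *
    generalize u'.1 l = v' at *
    obtain ⟨i, j⟩ := v
    obtain ⟨i', j'⟩ := v'
    simp only at h a1 a2
    have hj : j = j' := by
      rcases lt_trichotomy j j' with hlt | heq | hlt
      · exfalso
        have : (j : ℤ) + 1 ≤ j' := by exact_mod_cast hlt
        have hk : (i' : ℤ) < k := by rcases a2 with a2 | a2 <;> omega
        nlinarith [Int.natCast_nonneg i, Int.natCast_nonneg k]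
      · exact heq
      · exfalso
        have : (j' : ℤ) + 1 ≤ j := by exact_mod_cast hlt
        have hk : (i : ℤ) < k := by rcases a1 with a1 | a1 <;> omega
        nlinarith [Int.natCast_nonneg i', Int.natCast_nonneg k]
    subst hj
    have : i = i' := by omega
    rw [this]
  have h2 : u.2 = u'.2 := by
    unfold gdeg at hg
    rw [h1] at hg
    omega
  exact Prod.ext h1 h2

end Vale.Agent.P018
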