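import Mathlib

namespace Vale.Agent.P018

open Finset

/-- scale-free form of the numerical criterion, in units of `1 / S` -/
def HatCrit (d S M m u : ℕ) : Prop :=
  ∃ (r₀ : ℕ) (T : ℕ → ℕ), 1 ≤ r₀ ∧ r₀ ≤ d ∧ (∀ r, r₀ ≤ r → r ≤ d → T (r + 1) ≤ T r) ∧
    S * m ^ d ≤ T (d + 1) ^ (d + 1) ∧ (∀ r, r₀ < r → r ≤ d → M * m ^ (r - 1) ≤ T r ^ r) ∧
    u ≤ T r₀ ∧ ∑ r ∈ Ioc r₀ (d + 1), T r + r₀ * T r₀ < S

/-- the scale-free criterion holds on the whole range -/
def HatOk (d k : ℕ) : Prop :=
  ∃ S lo : ℕ, d * lo < S ∧ ∀ a b c : ℕ, k * a + b = c → 0 < c → lo * c ≤ a * S →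
    ∃ M m u, max a b * S ≤ M * c ∧ a * b * S ≤ m * c ^ 2 ∧ a * S ≤ u * c ∧ HatCrit d S M m u

/-- evaluate a number before passing it on -/
def force {α : Type} (n : ℕ) (f : ℕ → α) : α :=
  match n with
  | 0 => f 0
  | n + 1 => f (n + 1)

theorem force_eq {α : Type} (n : ℕ) (f : ℕ → α) : force n f = f n := by
  cases n <;> rfl

/-- binary search for a root -/
def bsr (X r : ℕ) : ℕ → ℕ → ℕ
  | 0, T => T
  | j + 1, T => force (if X ≤ (T - 2 ^ j) ^ r then T - 2 ^ j else T) (bsr X r j)

def chkLoop (q e M m u : ℕ) : ℕ → ℕ → ℕ → Bool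
  | 0, _, _ => false
  | r + 1, acc, prev =>
    decide (acc + (r + 1) * max u prev < 2 ^ q) ||
      force (M * m ^ r) fun X => force (max prev (bsr X (r + 1) e (prev - 1 + 2 ^ e))) fun T =>
        decide (X ≤ T ^ (r + 1)) && force (acc + T) fun acc' => chkLoop q e M m u r acc' T

theorem chkLoop_sound {q e M m u d : ℕ} : ∀ (r acc prev : ℕ) (T : ℕ → ℕ),
    chkLoop q e M m u r acc prev = true → r ≤ d → T (r + 1) = prev →
    (∀ s, r + 1 ≤ s → s ≤ d → T (s + 1) ≤ T s) → 2 ^ q * m ^ d ≤ T (d + 1) ^ (d + 1) →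
    (∀ s, r < s → s ≤ d → M * m ^ (s - 1) ≤ T s ^ s) → ∑ s ∈ Ioc r (d + 1), T s = acc →
    HatCrit d (2 ^ q) M m u
  | 0, _, _, _, h, _, _, _, _, _, _ => by simp [chkLoop] at h
  | r + 1, acc, prev, T, h, hr, h1, h2, h3, h4, h5 => by
    have upd : ∀ t, prev ≤ t → (∀ s, r + 1 ≤ s → s ≤ d →
        Function.update T (r + 1) t (s + 1) ≤ Function.update T (r + 1) t s) ∧
        2 ^ q * m ^ d ≤ Function.update T (r + 1) t (d + 1) ^ (d + 1) ∧
        (∀ s, r + 1 < s → s ≤ d → M * m ^ (s - 1) ≤ Function.update T (r + 1) t s ^ s) ∧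
        ∑ s ∈ Ioc (r + 1) (d + 1), Function.update T (r + 1) t s = acc := by
      intro t ht
      refine ⟨fun s a1 a2 => ?_, ?_, fun s a1 a2 => ?_, ?_⟩
      · rw [Function.update_of_ne (by omega)]
        rcases a1.eq_or_lt with rfl | a1
        · rw [Function.update_self, h1]
          exact ht
        · rw [Function.update_of_ne (by omega)]
          exact h2 s a1 a2
      · rwa [Function.update_of_ne (by omega)]
      · rw [Function.update_of_ne (by omega)]
        exact h4 s a1 a2
      · rw [← h5]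
        exact sum_congr rfl fun s hs => Function.update_of_ne (mem_Ioc.mp hs).1.ne' _ _
    simp only [chkLoop, force_eq, Bool.or_eq_true, Bool.and_eq_true, decide_eq_true_eq] at h
    rcases h with h | ⟨h, h'⟩
    · obtain ⟨b1, b2, b3, b4⟩ := upd (max u prev) (le_max_right _ _)
      refine ⟨r + 1, _, by omega, hr, b1, b2, b3, by simp, ?_⟩
      rwa [b4, Function.update_self]
    · obtain ⟨b1, b2, b3, b4⟩ := upd _ (le_max_left prev (bsr (M * m ^ r) (r + 1) e (prev - 1 + 2 ^ e)))
      refine chkLoop_sound r _ _ _ h' (by omega) (Function.update_self ..) b1 b2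
        (fun s a1 a2 => ?_) ?_
      · rcases (Nat.succ_le_of_lt a1).eq_or_lt with rfl | a1
        · rwa [Function.update_self]
        · exact b3 s a1 a2
      · rw [← Finset.insert_Ioc_succ_left_eq_Ioc (by omega), sum_insert (by simp), Order.succ_eq_add_one,
          b4, Function.update_self, add_comm]

def chkStart (d q e M m u : ℕ) : Bool :=
  force (2 ^ q * m ^ d) fun X => force (bsr X (d + 1) e (m + 2 ^ e)) fun T =>
    decide (X ≤ T ^ (d + 1)) && chkLoop q e M m u d T T

theorem chkStart_sound {d q e M m u : ℕ} (h : chkStart d q e M m u = true) :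
    HatCrit d (2 ^ q) M m u := by
  simp only [chkStart, force_eq, Bool.and_eq_true, decide_eq_true_eq] at h
  exact chkLoop_sound d _ _ (fun _ => bsr (2 ^ q * m ^ d) (d + 1) e (m + 2 ^ e)) h.2 le_rfl rfl
    (fun _ _ _ => le_rfl) h.1 (fun s a b => by omega) (by simp)

def chkAll (d k q e N : ℕ) : Bool :=
  force ((2 ^ q - 1) / d) fun lo => force ((2 ^ q / k - lo) / N + 1) fun w =>
    decide (d * lo < 2 ^ q) && decide (2 ^ q < k * (lo + N * w)) &&
      (List.range N).all fun i => force (lo + i * w + w) fun hi =>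
        force (2 ^ q - k * (lo + i * w)) fun v => force (max hi v) fun M =>
          force (min (hi * v / 2 ^ q + 1) (2 ^ q / (4 * k) + 1)) fun m => chkStart d q e M m hi

theorem four_mul_le {k a b c : ℕ} (h : k * a + b = c) : 4 * k * (a * b) ≤ c ^ 2 := by
  subst h
  zify
  nlinarith [sq_nonneg ((k : ℤ) * a - b)]

theorem chkAll_sound {d k q e N : ℕ} (h : chkAll d k q e N = true) : HatOk d k := by
  simp only [chkAll, force_eq, Bool.and_eq_true, decide_eq_true_eq, List.all_eq_true,
    List.mem_range] at h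
  generalize (2 ^ q - 1) / d = lo at h
  have hw : 0 < (2 ^ q / k - lo) / N + 1 := Nat.succ_pos _
  generalize (2 ^ q / k - lo) / N + 1 = w at h hw
  obtain ⟨⟨h1, h2⟩, h3⟩ := h
  have hS : 0 < 2 ^ q := by positivity
  refine ⟨2 ^ q, lo, h1, fun a b c hc hc0 hlo => ?_⟩
  have hk : 0 < k := Nat.pos_of_ne_zero fun h => by simp [h] at h2
  have key := fun i hi => chkStart_sound (h3 i hi)
  clear h3
  generalize 2 ^ q = S at *
  clear e
  obtain ⟨e, he⟩ := Nat.exists_eq_add_of_le hlo
  have hwc : 0 < w * c := Nat.mul_pos hw hc0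
  have a1 : e / (w * c) * (w * c) ≤ e := Nat.div_mul_le_self _ _
  have a2 : e < e / (w * c) * (w * c) + w * c := Nat.lt_div_mul_add hwc
  have a3 : e / (w * c) < N := by
    rw [Nat.div_lt_iff_lt_mul hwc]
    have b1 : k * (a * S) ≤ c * S := by
      rw [← mul_assoc]
      exact Nat.mul_le_mul_right _ (by omega)
    have b2 : c * S < c * (k * (lo + N * w)) := Nat.mul_lt_mul_of_pos_left h2 hc0
    have b3 : k * (lo * c + e) < k * (lo * c + N * (w * c)) := by
      rw [← he]
      calc _ < c * (k * (lo + N * w)) := b1.trans_lt b2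
        _ = _ := by ring
    have := Nat.lt_of_mul_lt_mul_left b3
    omega
  generalize e / (w * c) = i at a1 a2 a3
  have c1 : a * S ≤ (lo + i * w + w) * c := by nlinarith
  have c2 : b * S ≤ (S - k * (lo + i * w)) * c := by
    rw [Nat.sub_mul]
    refine Nat.le_sub_of_add_le ?_
    have : (lo + i * w) * c ≤ a * S := by nlinarith
    have := Nat.mul_le_mul_left k this
    rw [← hc] at this ⊢
    nlinarith
  refine ⟨_, _, _, ?_, ?_, c1, key i a3⟩
  · rw [max_mul, max_mul]
    exact max_le_max c1 c2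
  · rw [min_mul]
    refine le_min ?_ ?_
    · generalize lo + i * w + w = hi at *
      generalize S - k * (lo + i * w) = v at *
      have b1 := Nat.mul_le_mul c1 c2
      have b2 : hi * v ≤ (hi * v / S + 1) * S := by
        have := Nat.lt_div_mul_add (a := hi * v) hS
        nlinarith
      refine Nat.le_of_mul_le_mul_right ?_ hS
      calc a * b * S * S = a * S * (b * S) := by ring
        _ ≤ hi * v * c ^ 2 := b1.trans_eq (by ring)
        _ ≤ (hi * v / S + 1) * S * c ^ 2 := by gcongr
        _ = _ := by ring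
    · have b2 : S ≤ (S / (4 * k) + 1) * (4 * k) := by
        have := Nat.lt_div_mul_add (a := S) (b := 4 * k) (by omega)
        nlinarith
      refine Nat.le_of_mul_le_mul_right ?_ (show 0 < 4 * k by omega)
      calc a * b * S * (4 * k) = 4 * k * (a * b) * S := by ring
        _ ≤ c ^ 2 * ((S / (4 * k) + 1) * (4 * k)) := Nat.mul_le_mul (four_mul_le hc) b2
        _ = _ := by ring

theorem chk_small : (List.range 132).all (fun d => decide (d < 3) || decide (d = 4) ||
    chkAll d (min ((d + 1) / 2) ((d + 6) / 3)) 13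
      (if d < 12 then 11 else if d < 33 then 8 else if d < 57 then 7 else if d < 80 then 6 else 5)
      (if d = 6 then 200 else if d < 12 then 8 else if d < 33 then 6 else if d < 57 then 2 else 1))
      = true := by
  decide +kernel

theorem hatOk_small {d : ℕ} (hd : 3 ≤ d) (h4 : d ≠ 4) (h : d < 132) :
    HatOk d (min ((d + 1) / 2) ((d + 6) / 3)) := by
  have := List.all_eq_true.mp chk_small d (List.mem_range.mpr h)
  simp only [Bool.or_eq_true, decide_eq_true_eq] at this
  exact chkAll_sound (this.resolve_left (by omega))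

end Vale.Agent.P018
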