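import Mathlib

namespace Vale.Agent.P018

open Polynomial

/-- polynomials in `d` variables over `L[n]` -/
abbrev RR (d : ℕ) (L : Type) [Field L] : Type := MvPolynomial (Fin d) L[X]

variable {d : ℕ} {L : Type} [Field L]

/-- evaluation at a point `(al, n)` -/
noncomputable def ev (al : Fin d → L) (n : L) : RR d L →+* L :=
  MvPolynomial.eval₂Hom (Polynomial.evalRingHom n) al

/-- total degree at most `D` in the variables, degree at most `E` in `n` -/
def DegLe (P : RR d L) (D E : ℕ) : Prop :=
  P.totalDegree ≤ D ∧ ∀ m, (P.coeff m).natDegree ≤ E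

theorem DegLe.mono {P : RR d L} {D E D' E' : ℕ} (h : DegLe P D E) (hD : D ≤ D') (hE : E ≤ E') :
    DegLe P D' E' :=
  ⟨h.1.trans hD, fun m => (h.2 m).trans hE⟩

/-- view `n` as the outer variable -/
noncomputable def paOm : RR d L →+* (MvPolynomial (Fin d) L)[X] :=
  MvPolynomial.eval₂Hom (Polynomial.mapRingHom MvPolynomial.C)
    (fun i => Polynomial.C (MvPolynomial.X i))

theorem paOm_monomial (m : Fin d →₀ ℕ) (a : L[X]) : paOm (MvPolynomial.monomial m a) =
    a.map MvPolynomial.C * Polynomial.C (MvPolynomial.monomial m (1 : L)) := by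
  rw [paOm, MvPolynomial.eval₂Hom_monomial, MvPolynomial.monomial_eq]
  simp only [coe_mapRingHom, MvPolynomial.C_1, one_mul, map_finsuppProd, map_pow]

theorem paOm_coeff (P : RR d L) (m : Fin d →₀ ℕ) (g : ℕ) :
    MvPolynomial.coeff m ((paOm P).coeff g) = (P.coeff m).coeff g := by
  induction P using MvPolynomial.induction_on' with
  | monomial u a =>
    rw [paOm_monomial, coeff_mul_C, coeff_map, MvPolynomial.C_mul_monomial,
      MvPolynomial.coeff_monomial, MvPolynomial.coeff_monomial]
    split_ifs <;> simp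
  | add p q hp hq => simp [hp, hq]

theorem paOm_ne_zero {P : RR d L} (h : P ≠ 0) : paOm P ≠ 0 := by
  intro h0
  apply h
  ext m g
  rw [← paOm_coeff, h0]
  simp

theorem paOm_le_iff {P : RR d L} {E : ℕ} :
    (paOm P).natDegree ≤ E ↔ ∀ m, (P.coeff m).natDegree ≤ E := by
  simp only [natDegree_le_iff_coeff_eq_zero]
  constructor
  · intro h m g hg
    rw [← paOm_coeff, h g hg]
    simp
  · intro h g hg
    ext m
    rw [paOm_coeff, h m g hg]
    simp

theorem degLe_iff {P : RR d L} {D E : ℕ} :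
    DegLe P D E ↔ P.totalDegree ≤ D ∧ (paOm P).natDegree ≤ E := by
  rw [DegLe, paOm_le_iff]

theorem pa_const {G : RR d L} (h1 : G.totalDegree = 0) (h2 : (paOm G).natDegree = 0) :
    ∃ g : L, G = MvPolynomial.C (Polynomial.C g) := by
  have h3 := paOm_le_iff.1 h2.le 0
  refine ⟨(G.coeff 0).coeff 0, ?_⟩
  rw [← eq_C_of_natDegree_le_zero h3]
  exact MvPolynomial.totalDegree_eq_zero_iff_eq_C.1 h1

theorem vars_subset_of_dvd {P Q : RR d L} (h : P ∣ Q) (hQ : Q ≠ 0) : P.vars ⊆ Q.vars := by
  obtain ⟨R, rfl⟩ := h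
  intro i hi
  rw [MvPolynomial.mem_vars_iff_degreeOf_ne_zero] at hi ⊢
  rw [MvPolynomial.degreeOf_mul_eq (left_ne_zero_of_mul hQ) (right_ne_zero_of_mul hQ)]
  omega

theorem DegLe.of_dvd {P Q : RR d L} {D E : ℕ} (hD : DegLe Q D E) (h : P ∣ Q) (hQ : Q ≠ 0) :
    DegLe P D E := by
  rw [degLe_iff] at hD ⊢
  exact ⟨(MvPolynomial.totalDegree_le_of_dvd_of_isDomain h hQ).trans hD.1,
    (natDegree_le_of_dvd (map_dvd paOm h) (paOm_ne_zero hQ)).trans hD.2⟩

theorem pa_factors (Q : RR d L) : Q ≠ 0 →
    ∃ s : Finset (RR d L), s.card ≤ Q.totalDegree + (paOm Q).natDegree ∧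
      (∀ P ∈ s, Irreducible P ∧ P ∣ Q) ∧
      ∀ (al : Fin d → L) (n : L), ev al n Q = 0 → ∃ P ∈ s, ev al n P = 0 := by
  classical
  induction Q using WfDvdMonoid.induction_on_irreducible with
  | zero => intro h; exact absurd rfl h
  | unit u hu =>
    intro _
    refine ⟨∅, by simp, by simp, fun al n h => ?_⟩
    exact absurd h (hu.map (ev al n)).ne_zero
  | mul a i ha hi ih =>
    intro _
    obtain ⟨s, h1, h2, h3⟩ := ih ha
    have hi0 : i ≠ 0 := hi.ne_zero
    have hdeg : 1 ≤ i.totalDegree + (paOm i).natDegree := by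
      by_contra hcon
      obtain ⟨g, hg⟩ := pa_const (G := i) (by omega) (by omega)
      have hg0 : g ≠ 0 := by
        rintro rfl
        simp [hg] at hi0
      apply hi.not_isUnit
      rw [hg]
      exact ((IsUnit.mk0 g hg0).map Polynomial.C).map MvPolynomial.C
    refine ⟨insert i s, ?_, fun P hP => ?_, fun al n h => ?_⟩
    · rw [MvPolynomial.totalDegree_mul_of_isDomain hi0 ha, map_mul,
        natDegree_mul (paOm_ne_zero hi0) (paOm_ne_zero ha)]
      have := Finset.card_insert_le i s
      omega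
    · rcases Finset.mem_insert.1 hP with h | h
      · rw [h]; exact ⟨hi, dvd_mul_right _ _⟩
      · exact ⟨(h2 P h).1, (h2 P h).2.mul_left _⟩
    · rw [map_mul] at h
      rcases mul_eq_zero.1 h with h | h
      · exact ⟨i, Finset.mem_insert_self _ _, h⟩
      · obtain ⟨P, hP, h4⟩ := h3 al n h
        exact ⟨P, Finset.mem_insert_of_mem hP, h4⟩

theorem exists_factors {Q : RR d L} {D E : ℕ} (hQ : Q ≠ 0) (hD : DegLe Q D E) :
    ∃ s : Finset (RR d L), s.card ≤ D + E ∧ (∀ P ∈ s, Irreducible P ∧ P ∣ Q) ∧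
      ∀ (al : Fin d → L) (n : L), ev al n Q = 0 → ∃ P ∈ s, ev al n P = 0 := by
  obtain ⟨s, h1, h2, h3⟩ := pa_factors Q hQ
  rw [degLe_iff] at hD
  exact ⟨s, h1.trans (add_le_add hD.1 hD.2), h2, h3⟩

theorem pa_pderiv_support {P : RR d L} {i : Fin d} {m : Fin d →₀ ℕ}
    (h : m ∈ (MvPolynomial.pderiv i P).support) : m + Finsupp.single i 1 ∈ P.support := by
  rw [MvPolynomial.mem_support_iff] at h ⊢
  rw [MvPolynomial.coeff_pderiv] at h
  exact left_ne_zero_of_mul h

theorem pderiv_facts [CharZero L] {P : RR d L} {D E : ℕ} {i : Fin d} (hi : i ∈ P.vars)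
    (hD : DegLe P D E) :
    ¬ P ∣ MvPolynomial.pderiv i P ∧ (MvPolynomial.pderiv i P).vars ⊆ P.vars ∧
      DegLe (MvPolynomial.pderiv i P) D E := by
  classical
  refine ⟨fun hdvd => ?_, fun l hl => ?_, ?_, fun m => ?_⟩
  · obtain ⟨u, hu, hiu⟩ := (MvPolynomial.mem_vars_iff_mem_support i).1 hi
    have hui : u i ≠ 0 := Finsupp.mem_support_iff.1 hiu
    have hne : MvPolynomial.pderiv i P ≠ 0 := by
      intro h0
      have h1 := MvPolynomial.coeff_pderiv (i := i) P (u - Finsupp.single i 1)
      rw [h0, tsub_add_cancel_of_le (Finsupp.single_le_iff.2 (by omega)),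
        MvPolynomial.coeff_zero] at h1
      rcases mul_eq_zero.1 h1.symm with h2 | h2
      · exact MvPolynomial.mem_support_iff.1 hu h2
      · exact Nat.cast_add_one_ne_zero _ h2
    have hpos : 0 < P.degreeOf i :=
      Nat.pos_of_ne_zero (MvPolynomial.mem_vars_iff_degreeOf_ne_zero.1 hi)
    have hlt : (MvPolynomial.pderiv i P).degreeOf i < P.degreeOf i := by
      rw [MvPolynomial.degreeOf_lt_iff hpos]
      intro m hm
      have := MvPolynomial.monomial_le_degreeOf i (pa_pderiv_support hm)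
      simp only [Finsupp.add_apply, Finsupp.single_eq_same] at this
      omega
    obtain ⟨R, hR⟩ := hdvd
    rw [hR] at hne hlt
    rw [MvPolynomial.degreeOf_mul_eq (left_ne_zero_of_mul hne) (right_ne_zero_of_mul hne)] at hlt
    omega
  · obtain ⟨u, hu, hlu⟩ := (MvPolynomial.mem_vars_iff_mem_support l).1 hl
    refine (MvPolynomial.mem_vars_iff_mem_support l).2 ⟨_, pa_pderiv_support hu, ?_⟩
    rw [Finsupp.mem_support_iff] at hlu ⊢
    rw [Finsupp.add_apply]
    omega
  · refine le_trans ?_ hD.1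
    rw [MvPolynomial.totalDegree, Finset.sup_le_iff]
    intro m hm
    refine le_trans ?_ (MvPolynomial.le_totalDegree (pa_pderiv_support hm))
    rw [Finsupp.sum_add_index' (fun _ => rfl) (fun _ _ _ => rfl)]
    omega
  · rw [MvPolynomial.coeff_pderiv]
    refine natDegree_mul_le.trans ?_
    have h1 : (((m i : ℕ) : L[X]) + 1).natDegree = 0 := by
      rw [← Nat.cast_succ, natDegree_natCast]
    rw [h1]
    exact hD.2 _

/-- a nonzero multiple of `P` all of whose monomials occur in `P` is a scalar multiple of `P` -/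
theorem eq_smul_of_dvd {P Q : RR d L} (h : P ∣ Q) (hQ : Q ≠ 0)
    (hs : ∀ m j, (Q.coeff m).coeff j ≠ 0 → (P.coeff m).coeff j ≠ 0) :
    ∃ g : L, g ≠ 0 ∧ Q = MvPolynomial.C (Polynomial.C g) * P := by
  obtain ⟨G, rfl⟩ := h
  have hP := left_ne_zero_of_mul hQ
  have hG := right_ne_zero_of_mul hQ
  have h1 : (P * G).totalDegree ≤ P.totalDegree := by
    refine MvPolynomial.totalDegree_le_of_support_subset fun m hm => ?_
    rw [MvPolynomial.mem_support_iff] at hm ⊢
    intro h0
    apply hm
    ext j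
    by_contra hj
    exact hs m j hj (by rw [h0]; simp)
  have h2 : (paOm (P * G)).natDegree ≤ (paOm P).natDegree := by
    rw [paOm_le_iff]
    intro m
    refine le_trans ?_ (paOm_le_iff.1 (le_refl (paOm P).natDegree) m)
    rw [natDegree_le_iff_coeff_eq_zero]
    intro j hj
    by_contra hne
    exact hs m j hne (coeff_eq_zero_of_natDegree_lt hj)
  rw [MvPolynomial.totalDegree_mul_of_isDomain hP hG] at h1
  rw [map_mul, natDegree_mul (paOm_ne_zero hP) (paOm_ne_zero hG)] at h2
  obtain ⟨g, hg⟩ := pa_const (G := G) (by omega) (by omega)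
  refine ⟨g, ?_, by rw [hg, mul_comm]⟩
  rintro rfl
  simp [hg] at hG

theorem pa_resultant_ne_zero {R : Type} [CommRing R] [IsDomain R] {f g : R[X]} (hf : Prime f)
    (hg : ¬ f ∣ g) : resultant f g ≠ 0 := by
  classical
  intro h0
  rw [resultant, ← toMatrix_sylvesterMap' f g le_rfl le_rfl] at h0
  obtain ⟨v, hv, hv0⟩ := Matrix.exists_mulVec_eq_zero_iff.2 h0
  set b₁ := ((degreeLT.basis R f.natDegree).prod (degreeLT.basis R g.natDegree)).reindex
    finSumFinEquiv with hb₁
  have hv1 : v = b₁.repr (b₁.equivFun.symm v) := by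
    rw [← Module.Basis.equivFun_apply, LinearEquiv.apply_symm_apply]
  set x := b₁.equivFun.symm v with hx
  rw [hv1, LinearMap.toMatrix_mulVec_repr] at hv0
  have h1 : sylvesterMap f g le_rfl le_rfl x = 0 := by
    apply (degreeLT.basis R (f.natDegree + g.natDegree)).repr.injective
    ext k
    simpa using congrFun hv0 k
  have h2 : f * x.2.1 + g * x.1.1 = 0 := congrArg Subtype.val h1
  have h3 : f ∣ g * x.1.1 := ⟨-x.2.1, by linear_combination h2⟩
  have h4 : x.1.1 = 0 := by
    refine eq_zero_of_dvd_of_degree_lt ((hf.dvd_or_dvd h3).resolve_left hg) ?_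
    rw [degree_eq_natDegree hf.ne_zero]
    exact mem_degreeLT.1 x.1.2
  have h5 : x.2.1 = 0 := by
    rw [h4, mul_zero, add_zero] at h2
    exact (mul_eq_zero.1 h2).resolve_left hf.ne_zero
  have h6 : x = 0 := Prod.ext (Subtype.ext h4) (Subtype.ext h5)
  apply hv
  rw [hv1, h6]
  simp

/-- variables in `I` and bounded degrees -/
def paGood (I : Finset (Fin d)) (D E : ℕ) (P : RR d L) : Prop := P.vars ⊆ I ∧ DegLe P D E

theorem paGood.zero (I : Finset (Fin d)) (D E : ℕ) : paGood I D E (0 : RR d L) :=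
  ⟨by simp, by simp, by simp⟩

theorem paGood.one (I : Finset (Fin d)) : paGood I 0 0 (1 : RR d L) :=
  ⟨by simp [MvPolynomial.vars_one], degLe_iff.2 ⟨by simp, by simp⟩⟩

theorem paGood.add {I : Finset (Fin d)} {D E : ℕ} {P Q : RR d L} (hP : paGood I D E P)
    (hQ : paGood I D E Q) : paGood I D E (P + Q) := by
  refine ⟨(MvPolynomial.vars_add_subset _ _).trans (Finset.union_subset hP.1 hQ.1),
    (MvPolynomial.totalDegree_add _ _).trans (max_le hP.2.1 hQ.2.1), fun m => ?_⟩
  rw [MvPolynomial.coeff_add]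
  exact (natDegree_add_le _ _).trans (max_le (hP.2.2 m) (hQ.2.2 m))

theorem paGood.neg {I : Finset (Fin d)} {D E : ℕ} {P : RR d L} (hP : paGood I D E P) :
    paGood I D E (-P) := by
  refine ⟨by rw [MvPolynomial.vars_neg]; exact hP.1,
    by rw [MvPolynomial.totalDegree_neg]; exact hP.2.1, fun m => ?_⟩
  rw [MvPolynomial.coeff_neg, natDegree_neg]
  exact hP.2.2 m

theorem paGood.mul {I : Finset (Fin d)} {D E D' E' : ℕ} {P Q : RR d L} (hP : paGood I D E P)
    (hQ : paGood I D' E' Q) : paGood I (D + D') (E + E') (P * Q) := by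
  refine ⟨(MvPolynomial.vars_mul _ _).trans (Finset.union_subset hP.1 hQ.1), degLe_iff.2
    ⟨(MvPolynomial.totalDegree_mul _ _).trans (add_le_add hP.2.1 hQ.2.1), ?_⟩⟩
  rw [map_mul]
  exact natDegree_mul_le.trans (add_le_add (degLe_iff.1 hP.2).2 (degLe_iff.1 hQ.2).2)

theorem paGood.sum {I : Finset (Fin d)} {D E : ℕ} {ι : Type} (s : Finset ι) (f : ι → RR d L)
    (h : ∀ a ∈ s, paGood I D E (f a)) : paGood I D E (∑ a ∈ s, f a) :=
  Finset.sum_induction f (paGood I D E) (fun _ _ => paGood.add) (paGood.zero I D E) h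

theorem paGood.prod {I : Finset (Fin d)} {D E : ℕ} {ι : Type} (s : Finset ι) (f : ι → RR d L)
    (h : ∀ a ∈ s, paGood I D E (f a)) : paGood I (s.card * D) (s.card * E) (∏ a ∈ s, f a) := by
  classical
  induction s using Finset.induction_on with
  | empty => simpa using paGood.one I
  | insert a s ha ih =>
    rw [Finset.prod_insert ha, Finset.card_insert_of_notMem ha, add_mul, add_mul, one_mul, one_mul,
      add_comm _ D, add_comm _ E]
    exact (h a (Finset.mem_insert_self _ _)).mul
      (ih fun b hb => h b (Finset.mem_insert_of_mem hb))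

theorem paGood.det {I : Finset (Fin d)} {D E n : ℕ} (M : Matrix (Fin n) (Fin n) (RR d L))
    (h : ∀ a b, paGood I D E (M a b)) : paGood I (n * D) (n * E) M.det := by
  rw [Matrix.det_apply]
  refine paGood.sum _ _ fun σ _ => ?_
  have h1 := paGood.prod Finset.univ (fun a => M (σ a) a) fun a _ => h _ _
  rw [Finset.card_univ, Fintype.card_fin] at h1
  rcases Int.units_eq_one_or (Equiv.Perm.sign σ) with h2 | h2
  · rw [h2, one_smul]; exact h1
  · rw [h2, Units.neg_smul, one_smul]; exact h1.neg

/-- view the variable `i` as the outer variable -/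
noncomputable def paPhi (i : Fin d) : RR d L →+* (RR d L)[X] :=
  MvPolynomial.eval₂Hom (Polynomial.C.comp MvPolynomial.C)
    (fun l => if l = i then Polynomial.X else Polynomial.C (MvPolynomial.X l))

theorem paPhi_monomial (i : Fin d) (u : Fin d →₀ ℕ) (a : L[X]) :
    paPhi i (MvPolynomial.monomial u a) =
      Polynomial.monomial (u i) (MvPolynomial.monomial (u.erase i) a) := by
  have h1 : (MvPolynomial.monomial u a : RR d L) =
      MvPolynomial.monomial (u.erase i) a * MvPolynomial.X i ^ (u i) := by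
    rw [MvPolynomial.X_pow_eq_monomial, MvPolynomial.monomial_mul, mul_one,
      Finsupp.erase_add_single]
  have h2 : paPhi i (MvPolynomial.monomial (u.erase i) a) =
      Polynomial.C (MvPolynomial.monomial (u.erase i) a : RR d L) := by
    refine MvPolynomial.hom_congr_vars ?_ (fun l hl _ => ?_) rfl
    · ext1 <;> simp [paPhi]
    · have hli : l ≠ i := by
        obtain ⟨w, hw, hlw⟩ := (MvPolynomial.mem_vars_iff_mem_support l).1 hl
        have := Finset.mem_singleton.1 (MvPolynomial.support_monomial_subset hw)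
        rw [this, Finsupp.support_erase] at hlw
        exact (Finset.mem_erase.1 hlw).1
      simp [paPhi, hli]
  rw [h1, map_mul, h2, map_pow, ← C_mul_X_pow_eq_monomial]
  simp [paPhi]

theorem paPhi_good {I : Finset (Fin d)} {D E : ℕ} {P : RR d L} (i : Fin d) (hP : paGood I D E P)
    (k : ℕ) : paGood (I.erase i) D E ((paPhi i P).coeff k) := by
  rw [P.as_sum, map_sum, finsetSum_coeff]
  refine paGood.sum _ _ fun u hu => ?_
  rw [paPhi_monomial, coeff_monomial]
  split_ifs
  · refine ⟨?_, ?_, fun m => ?_⟩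
    · rw [MvPolynomial.vars_monomial (MvPolynomial.mem_support_iff.1 hu), Finsupp.support_erase]
      exact Finset.erase_subset_erase _
        ((MvPolynomial.support_subset_vars_of_mem_support hu).trans hP.1)
    · rw [MvPolynomial.totalDegree_monomial _ (MvPolynomial.mem_support_iff.1 hu)]
      refine le_trans ?_ ((MvPolynomial.le_totalDegree hu).trans hP.2.1)
      conv_rhs => rw [← Finsupp.erase_add_single i u]
      rw [Finsupp.sum_add_index' (fun _ => rfl) (fun _ _ _ => rfl)]
      omega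
    · rw [MvPolynomial.coeff_monomial]
      split_ifs
      · exact hP.2.2 u
      · simp
  · exact paGood.zero _ _ _

/-- the splitting of the variable `i` -/
noncomputable def paE (i : Fin d) : RR d L ≃ₐ[L[X]] (MvPolynomial {l // l ≠ i} L[X])[X] :=
  (MvPolynomial.renameEquiv L[X] (Equiv.optionSubtypeNe i).symm).trans
    (MvPolynomial.optionEquivLeft L[X] {l // l ≠ i})

/-- inclusion of the polynomials free of `i` -/
noncomputable def paJ (i : Fin d) : MvPolynomial {l // l ≠ i} L[X] →+* RR d L :=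
  (MvPolynomial.rename (Subtype.val : {l // l ≠ i} → Fin d)).toRingHom

theorem paE_map (i : Fin d) (P : RR d L) : (paE i P).map (paJ i) = paPhi i P := by
  have : (Polynomial.mapRingHom (paJ i)).comp (paE (L := L) i).toRingEquiv.toRingHom =
      paPhi i := by
    refine MvPolynomial.ringHom_ext (fun a => ?_) (fun l => ?_)
    · simp [paE, paJ, paPhi]
    · by_cases hl : l = i
      · subst hl
        simp [paE, paJ, paPhi]
      · simp [paE, paJ, paPhi, hl]
  exact DFunLike.congr_fun this P

theorem paPhi_eval (i : Fin d) (P : RR d L) : (paPhi i P).eval (MvPolynomial.X i) = P := by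
  have : (Polynomial.evalRingHom (MvPolynomial.X i)).comp (paPhi (L := L) i) = RingHom.id _ := by
    refine MvPolynomial.ringHom_ext (fun a => ?_) (fun l => ?_)
    · simp [paPhi]
    · by_cases hl : l = i
      · subst hl
        simp [paPhi]
      · simp [paPhi, hl]
  exact DFunLike.congr_fun this P

theorem paE_natDegree (i : Fin d) (P : RR d L) : (paE i P).natDegree = P.degreeOf i := by
  rw [MvPolynomial.degreeOf_eq_natDegree]
  rfl

/-- elimination of the variable `i` -/
theorem elim {P F : RR d L} {D E : ℕ} {I : Finset (Fin d)} (i : Fin d) (hP : Irreducible P)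
    (hF : ¬ P ∣ F) (hPI : P.vars ⊆ I) (hFI : F.vars ⊆ I) (hPD : DegLe P D E) (hFD : DegLe F D E) :
    ∃ Q : RR d L, Q ≠ 0 ∧ Q.vars ⊆ I.erase i ∧ DegLe Q ((2 * D + 1) * D) ((2 * D + 1) * E) ∧
      ∀ (al : Fin d → L) (n : L), ev al n P = 0 → ev al n F = 0 → ev al n Q = 0 := by
  by_cases hi : i ∈ P.vars
  swap
  · refine ⟨P, hP.ne_zero, fun l hl => Finset.mem_erase.2 ⟨fun h => hi (h ▸ hl), hPI hl⟩,
      hPD.mono (by nlinarith) (by nlinarith), fun _ _ h _ => h⟩
  have hm : (paE i P).natDegree ≠ 0 := by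
    rw [paE_natDegree]; exact MvPolynomial.mem_vars_iff_degreeOf_ne_zero.1 hi
  have hmD : (paE i P).natDegree ≤ D := by
    rw [paE_natDegree]; exact (MvPolynomial.degreeOf_le_totalDegree _ _).trans hPD.1
  have hnD : (paE i F).natDegree ≤ D := by
    rw [paE_natDegree]; exact (MvPolynomial.degreeOf_le_totalDegree _ _).trans hFD.1
  have hprime : Prime (paE i P) := (MulEquiv.prime_iff (paE i)).2 hP.prime
  have hnd : ¬ paE i P ∣ paE i F := fun h => hF ((map_dvd_iff (paE i)).1 h)
  have hres := pa_resultant_ne_zero hprime hnd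
  have hinj : Function.Injective (paJ (L := L) i) :=
    MvPolynomial.rename_injective _ Subtype.val_injective
  have hgood : paGood (I.erase i) (((paE i P).natDegree + (paE i F).natDegree) * D)
      (((paE i P).natDegree + (paE i F).natDegree) * E)
      (paJ i (resultant (paE i P) (paE i F))) := by
    rw [← resultant_map_map, paE_map, paE_map, resultant]
    refine paGood.det _ fun a b => ?_
    rw [sylvester, Matrix.of_apply]
    refine Fin.addCases (fun j => ?_) (fun j => ?_) b
    · rw [Fin.addCases_left]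
      split_ifs
      · exact paPhi_good i ⟨hFI, hFD⟩ _
      · exact paGood.zero _ _ _
    · rw [Fin.addCases_right]
      split_ifs
      · exact paPhi_good i ⟨hPI, hPD⟩ _
      · exact paGood.zero _ _ _
  refine ⟨paJ i (resultant (paE i P) (paE i F)), (map_ne_zero_iff _ hinj).2 hres, hgood.1,
    hgood.2.mono (Nat.mul_le_mul_right _ (by omega)) (Nat.mul_le_mul_right _ (by omega)),
    fun al n h1 h2 => ?_⟩
  obtain ⟨p, q, -, -, hpq⟩ :=
    exists_mul_add_mul_eq_C_resultant (paE i P) (paE i F) le_rfl le_rfl (Or.inl hm)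
  have h3 := congrArg (fun z => (z.map (paJ i)).eval (MvPolynomial.X i)) hpq
  simp only [Polynomial.map_add, Polynomial.map_mul, paE_map, eval_add, eval_mul, paPhi_eval,
    map_C, eval_C] at h3
  rw [← h3, map_add, map_mul, map_mul, h1, h2]
  simp

/-- an equation in `n` alone -/
theorem card_le_of_vars_empty {X : Type} {Q : RR d L} {D E : ℕ} (hQ : Q ≠ 0) (hv : Q.vars ⊆ ∅)
    (hD : DegLe Q D E) (A : Finset X) (al : X → Fin d → L) (n : X → L) (hn : Set.InjOn n A)
    (h : ∀ x ∈ A, ev (al x) (n x) Q = 0) : A.card ≤ E := by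
  classical
  have h1 := MvPolynomial.vars_eq_empty_iff_eq_C.1 (Finset.subset_empty.1 hv)
  have h2 : Q.coeff 0 ≠ 0 := by
    intro h0
    rw [h0] at h1
    exact hQ (by simpa using h1)
  rw [← Finset.card_image_of_injOn hn]
  refine le_trans (card_le_degree_of_subset_roots (p := Q.coeff 0) fun z hz => ?_) (hD.2 0)
  obtain ⟨x, hx, rfl⟩ := Finset.mem_image.1 hz
  have h3 := h x hx
  rw [h1, ev, MvPolynomial.eval₂Hom_C] at h3
  exact (mem_roots h2).2 h3

/-- an equation in one variable alone -/
theorem exists_poly_of_vars_single {Q : RR d L} {D : ℕ} {i : Fin d} (hQ : Q ≠ 0)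
    (hv : Q.vars ⊆ {i}) (hD : DegLe Q D 0) :
    ∃ u : L[X], u ≠ 0 ∧ u.natDegree ≤ D ∧
      ∀ (al : Fin d → L) (n : L), ev al n Q = u.eval (al i) := by
  let chi : L[X] →+* RR d L :=
    Polynomial.eval₂RingHom (MvPolynomial.C.comp Polynomial.C) (MvPolynomial.X i)
  have h1 : chi (∑ m ∈ Q.support, Polynomial.monomial (m i) ((Q.coeff m).coeff 0)) = Q := by
    rw [map_sum]
    conv_rhs => rw [Q.as_sum]
    refine Finset.sum_congr rfl fun m hm => ?_
    have h2 : m = Finsupp.single i (m i) := Finsupp.support_subset_singleton.1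
      ((MvPolynomial.support_subset_vars_of_mem_support hm).trans hv)
    have h3 := eq_C_of_natDegree_le_zero (hD.2 m)
    simp only [chi, coe_eval₂RingHom, eval₂_monomial, RingHom.comp_apply]
    rw [← h3, MvPolynomial.C_mul_X_pow_eq_monomial, ← h2]
  refine ⟨∑ m ∈ Q.support, Polynomial.monomial (m i) ((Q.coeff m).coeff 0),
    fun h0 => hQ (by rw [← h1, h0, map_zero]), ?_, fun al n => ?_⟩
  · refine natDegree_sum_le_of_forall_le _ _ fun m hm => (natDegree_monomial_le _).trans ?_
    exact (MvPolynomial.monomial_le_degreeOf i hm).trans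
      ((MvPolynomial.degreeOf_le_totalDegree _ _).trans hD.1)
  · have h4 : (ev al n).comp chi = Polynomial.evalRingHom (al i) := by
      ext1
      · ext a
        simp [chi, ev]
      · simp [chi, ev]
    conv_lhs => rw [← h1]
    exact DFunLike.congr_fun h4 _

/-- a small set satisfies an equation in `n` alone -/
theorem exists_eq_of_card_le {X : Type} (A : Finset X) (n : X → L) {E : ℕ} (h : A.card ≤ E) :
    ∃ Q : RR d L, Q ≠ 0 ∧ Q.vars ⊆ ∅ ∧ DegLe Q 0 E ∧
      ∀ x ∈ A, ∀ al : Fin d → L, ev al (n x) Q = 0 := by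
  classical
  have h1 : (∏ x ∈ A, (Polynomial.X - Polynomial.C (n x))).Monic :=
    monic_prod_of_monic _ _ fun x _ => monic_X_sub_C _
  refine ⟨MvPolynomial.C (∏ x ∈ A, (Polynomial.X - Polynomial.C (n x))),
    MvPolynomial.C_ne_zero.2 h1.ne_zero, by rw [MvPolynomial.vars_C], ⟨by rw [MvPolynomial.totalDegree_C],
    fun m => ?_⟩, fun x hx al => ?_⟩
  · rw [MvPolynomial.coeff_C]
    split_ifs
    · rw [natDegree_prod_of_monic _ _ fun x _ => monic_X_sub_C _]
      simpa using h
    · simp
  · rw [ev, MvPolynomial.eval₂Hom_C, map_prod]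
    exact Finset.prod_eq_zero hx (by simp)

end Vale.Agent.P018
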