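import Vale.Agent.P018.Small

namespace Vale.Agent.P018

open NumberField Filter

/-- a solution: `N`, the prime `p`, the coordinates `v` of `α`, and the conjugates of `β` -/
structure Pt (d : ℕ) (L : Type) [Field L] where
  N : ℤ
  p : ℕ
  v : Fin d → ℤ
  be : Fin d → 𝓞 L

noncomputable instance (d : ℕ) (L : Type) [Field L] : DecidableEq (Pt d L) := Classical.decEq _

variable {d : ℕ} {L : Type} [Field L]

/-- the conjugates of `α` -/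
noncomputable def al (θ : Fin d → 𝓞 L) (x : Pt d L) (l : Fin d) : 𝓞 L :=
  ∑ j : Fin d, (x.v j : 𝓞 L) * θ l ^ (j : ℕ)

/-- admissible data -/
structure Adm (θ : Fin d → 𝓞 L) (k : ℕ) (c : ℤ) (a b W : ℕ) (Z : ℝ) (S : Finset (Pt d L))
    (pool : Finset ℕ) : Prop where
  injN : Set.InjOn Pt.N (S : Set (Pt d L))
  prime : ∀ x ∈ S, x.p.Prime
  large : ∀ x ∈ S, Z ≤ x.p
  prod : ∀ x ∈ S, ∏ l, al θ x l = ((c * x.p : ℤ) : 𝓞 L)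
  rel : ∀ x ∈ S, ∀ l, al θ x l ^ k * x.be l = (c : 𝓞 L) ^ k * ((x.N : 𝓞 L) - θ l)
  smallA : ∀ x ∈ S, ∀ l, Small Z a (al θ x l)
  smallB : ∀ x ∈ S, ∀ l, Small Z b (x.be l)
  smallN : ∀ x ∈ S, |(x.N : ℝ)| ≤ Z ^ W
  smallV : ∀ x ∈ S, ∀ j, |(x.v j : ℝ)| ≤ Z ^ a
  big : ∀ x ∈ S, ∀ l, ∀ φ : L →+* ℂ, Z ≤ ‖φ (al θ x l : L)‖
  fiber : ∀ p : ℕ, (S.filter (fun x => x.p = p)).card ≤ 2 * d
  poolPrime : ∀ π ∈ pool, π.Prime ∧ Z ≤ π ∧ ∀ x ∈ S, x.p ≠ π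

/-- the counting estimate for admissible data -/
def CoreBound (d k : ℕ) : Prop :=
  ∃ W : ℕ, 3 * d ≤ W ∧ ∀ (L : Type) [Field L] [NumberField L] (θ : Fin d → 𝓞 L),
    Function.Injective θ → ∀ (c : ℤ) (a b : ℕ), c ≠ 0 → 1 ≤ b → W < d * a →
    k * a + b = W + 3 * k + 1 →
    ∃ M : ℕ, ∀ Λ : ℝ, ∃ C : ℝ, ∀ᶠ Z : ℝ in atTop, ∀ (S : Finset (Pt d L)) (pool : Finset ℕ),
      Adm θ k c a b W Z S pool → (∀ π ∈ pool, (π : ℝ) ≤ Λ * Z) → pool.card = M →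
      (S.card : ℝ) ≤ C * Z ^ (W - 1)

end Vale.Agent.P018
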