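import Mathlib

namespace Vale.Agent.P018

open NumberField

variable {L : Type} [Field L] [NumberField L]

/-- all conjugates of `z` have absolute value at most `Z ^ e` -/
def Small (Z : ℝ) (e : ℕ) (z : 𝓞 L) : Prop := ∀ φ : L →+* ℂ, ‖φ (z : L)‖ ≤ Z ^ e

theorem eq_zero_of_norm_lt_one (z : 𝓞 L) (h : ∀ φ : L →+* ℂ, ‖φ (z : L)‖ < 1) : z = 0 := by
  by_contra hz
  obtain ⟨σ, hσ⟩ := exists_conjugate_one_le_norm (K := L) (α := z) hz
  exact absurd (h σ) (not_lt.2 hσ)

variable {Z : ℝ}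

theorem Small.mono {e e' : ℕ} {z : 𝓞 L} (h : Small Z e z) (hZ : 1 ≤ Z) (he : e ≤ e') :
    Small Z e' z := by
  intro φ
  exact (h φ).trans (pow_le_pow_right₀ hZ he)

theorem Small.mul {e e' : ℕ} {z z' : 𝓞 L} (h : Small Z e z) (h' : Small Z e' z') :
    Small Z (e + e') (z * z') := by
  intro φ
  have e1 : ((z * z' : 𝓞 L) : L) = (z : L) * (z' : L) := by simp
  rw [e1, map_mul, norm_mul, pow_add]
  exact mul_le_mul (h φ) (h' φ) (norm_nonneg _) ((norm_nonneg _).trans (h φ))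

theorem Small.pow {e : ℕ} {z : 𝓞 L} (h : Small Z e z) (n : ℕ) : Small Z (e * n) (z ^ n) := by
  intro φ
  have e1 : ((z ^ n : 𝓞 L) : L) = (z : L) ^ n := by simp
  rw [e1, map_pow, norm_pow, pow_mul]
  exact pow_le_pow_left₀ (norm_nonneg _) (h φ) n

theorem Small.prod {ι : Type} (s : Finset ι) {e : ι → ℕ} {z : ι → 𝓞 L}
    (h : ∀ i ∈ s, Small Z (e i) (z i)) : Small Z (∑ i ∈ s, e i) (∏ i ∈ s, z i) := by
  classical
  induction s using Finset.induction_on with
  | empty => intro φ; simp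
  | insert a s ha ih =>
    rw [Finset.sum_insert ha, Finset.prod_insert ha]
    exact (h a (Finset.mem_insert_self a s)).mul
      (ih (fun i hi => h i (Finset.mem_insert_of_mem hi)))

theorem Small.neg {e : ℕ} {z : 𝓞 L} (h : Small Z e z) : Small Z e (-z) := by
  intro φ
  have e1 : ((-z : 𝓞 L) : L) = -(z : L) := by simp
  rw [e1, map_neg, norm_neg]
  exact h φ

theorem Small.add {e : ℕ} {z z' : 𝓞 L} (h : Small Z e z) (h' : Small Z e z') (hZ : 2 ≤ Z) :
    Small Z (e + 1) (z + z') := by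
  intro φ
  have e1 : ((z + z' : 𝓞 L) : L) = (z : L) + (z' : L) := by simp
  rw [e1, map_add, pow_succ]
  have h0 : 0 ≤ Z ^ e := pow_nonneg (by linarith) e
  have h1 := h φ
  have h2 := h' φ
  have h3 := norm_add_le (φ (z : L)) (φ (z' : L))
  nlinarith

theorem Small.sub {e : ℕ} {z z' : 𝓞 L} (h : Small Z e z) (h' : Small Z e z') (hZ : 2 ≤ Z) :
    Small Z (e + 1) (z - z') := by
  rw [sub_eq_add_neg]
  exact h.add h'.neg hZ

theorem Small.sum {ι : Type} (s : Finset ι) {e : ℕ} {z : ι → 𝓞 L}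
    (h : ∀ i ∈ s, Small Z e (z i)) (hZ : 2 ≤ Z) : Small Z (e + s.card) (∑ i ∈ s, z i) := by
  classical
  induction s using Finset.induction_on with
  | empty =>
    intro φ
    simp only [Finset.sum_empty, Finset.card_empty, add_zero]
    have e1 : ((0 : 𝓞 L) : L) = 0 := by simp
    rw [e1, map_zero, norm_zero]
    exact pow_nonneg (by linarith) e
  | insert a s ha ih =>
    rw [Finset.sum_insert ha, Finset.card_insert_of_notMem ha, ← add_assoc]
    exact ((h a (Finset.mem_insert_self a s)).mono (by linarith) (Nat.le_add_right _ _)).add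
      (ih (fun i hi => h i (Finset.mem_insert_of_mem hi))) hZ

theorem Small.intCast {e : ℕ} {n : ℤ} (h : |(n : ℝ)| ≤ Z ^ e) : Small Z e (n : 𝓞 L) := by
  intro φ
  have e1 : (((n : 𝓞 L)) : L) = (n : L) := by simp
  rw [e1, map_intCast, Complex.norm_intCast]
  exact h

theorem Small.natCast (n : ℕ) (hZ : 2 ≤ Z) : Small Z n (n : 𝓞 L) := by
  intro φ
  have e1 : (((n : 𝓞 L)) : L) = (n : L) := by simp
  rw [e1, map_natCast, Complex.norm_natCast]
  have h1 : (n : ℝ) ≤ 2 ^ n := by exact_mod_cast (Nat.lt_two_pow_self (n := n)).le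
  exact h1.trans (pow_le_pow_left₀ (by norm_num) hZ n)

/-- a linear dependence can be taken integral and small -/
theorem exists_small_kernel (h e : ℕ) : ∃ E : ℕ, ∀ (L : Type) [Field L] [NumberField L]
    (κ X : Type) [DecidableEq κ] (Z : ℝ) (M : Finset κ) (Y : Finset X) (m : κ → X → 𝓞 L),
    2 ≤ Z → M.card ≤ h → (∀ u ∈ M, ∀ x ∈ Y, Small Z e (m u x)) →
    (∃ lam : κ → L, (∃ u ∈ M, lam u ≠ 0) ∧ ∀ x ∈ Y, ∑ u ∈ M, lam u * (m u x : L) = 0) →
    ∃ lam : κ → 𝓞 L, (∃ u ∈ M, lam u ≠ 0) ∧ (∀ u ∈ M, Small Z E (lam u)) ∧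
      ∀ x ∈ Y, ∑ u ∈ M, lam u * m u x = 0 := by
  induction h generalizing e with
  | zero =>
    refine ⟨0, ?_⟩
    intro L _ _ κ X _ Z M Y m _ hM _ ⟨lam, ⟨u, hu, _⟩, _⟩
    have : M = ∅ := Finset.card_eq_zero.1 (Nat.le_zero.1 hM)
    simp [this] at hu
  | succ h ih =>
    obtain ⟨E', hE'⟩ := ih (e + e + 1)
    refine ⟨E' + e + h, ?_⟩
    intro L _ _ κ X _ Z M Y m hZ hM hs ⟨lam, ⟨u₁, hu₁, hl₁⟩, hlam⟩
    have hZ1 : (1 : ℝ) ≤ Z := by linarith
    by_cases hA : ∀ x ∈ Y, m u₁ x = 0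
    · refine ⟨fun u => if u = u₁ then 1 else 0, ⟨u₁, hu₁, by simp⟩, ?_, ?_⟩
      · intro u _ φ
        have h1 : (1 : ℝ) ≤ Z ^ (E' + e + h) := one_le_pow₀ hZ1
        by_cases hu : u = u₁
        · simpa [hu] using h1
        · simpa [hu] using (zero_le_one.trans h1)
      · intro x hx
        simp [hu₁, hA x hx]
    · push Not at hA
      obtain ⟨x₀, hx₀, ha⟩ := hA
      have hcard : (M.erase u₁).card ≤ h := by
        rw [Finset.card_erase_of_mem hu₁]; omega
      have hsplit : ∀ x ∈ Y, ∑ u ∈ M.erase u₁, lam u * (m u x : L) = - (lam u₁ * (m u₁ x : L)) := by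
        intro x hx
        have := hlam x hx
        rw [← Finset.add_sum_erase M _ hu₁] at this
        linear_combination this
      obtain ⟨lam', ⟨u₂, hu₂, hl₂⟩, hsm, hker⟩ := hE' L κ X Z (M.erase u₁) Y
        (fun u x => m u₁ x₀ * m u x - m u x₀ * m u₁ x) hZ hcard
        (fun u hu x hx => ((hs u₁ hu₁ x₀ hx₀).mul (hs u (Finset.mem_of_mem_erase hu) x hx)).sub
          ((hs u (Finset.mem_of_mem_erase hu) x₀ hx₀).mul (hs u₁ hu₁ x hx)) hZ)
        ⟨lam, by
          by_contra hcon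
          push Not at hcon
          have h1 := hsplit x₀ hx₀
          rw [Finset.sum_eq_zero (fun u hu => by rw [hcon u hu, zero_mul])] at h1
          have h2 : lam u₁ * (m u₁ x₀ : L) = 0 := by linear_combination h1
          rcases mul_eq_zero.1 h2 with h3 | h3
          · exact hl₁ h3
          · exact ha (by simpa using h3), by
          intro x hx
          have e1 : ∀ u ∈ M.erase u₁,
              lam u * ((m u₁ x₀ * m u x - m u x₀ * m u₁ x : 𝓞 L) : L) =
              (m u₁ x₀ : L) * (lam u * (m u x : L)) - (lam u * (m u x₀ : L)) * (m u₁ x : L) := by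
            intro u _
            have : ((m u₁ x₀ * m u x - m u x₀ * m u₁ x : 𝓞 L) : L) =
              (m u₁ x₀ : L) * (m u x : L) - (m u x₀ : L) * (m u₁ x : L) := by simp
            rw [this]; ring
          rw [Finset.sum_congr rfl e1, Finset.sum_sub_distrib, ← Finset.mul_sum, ← Finset.sum_mul,
            hsplit x hx, hsplit x₀ hx₀]
          ring⟩
      refine ⟨fun u => if u = u₁ then - ∑ v ∈ M.erase u₁, lam' v * m v x₀ else m u₁ x₀ * lam' u,
        ⟨u₂, Finset.mem_of_mem_erase hu₂, ?_⟩, ?_, ?_⟩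
      · have hne : u₂ ≠ u₁ := Finset.ne_of_mem_erase hu₂
        simp only [hne, if_false]
        exact mul_ne_zero ha hl₂
      · intro u hu
        by_cases hne : u = u₁
        · simp only [hne, if_true]
          refine Small.neg ((Small.sum (e := E' + e) _ (fun v hv => ?_) hZ).mono hZ1 (by omega))
          exact (hsm v hv).mul (hs v (Finset.mem_of_mem_erase hv) x₀ hx₀)
        · simp only [hne, if_false]
          exact ((hs u₁ hu₁ x₀ hx₀).mul (hsm u (Finset.mem_erase.2 ⟨hne, hu⟩))).mono hZ1 (by omega)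
      · intro x hx
        rw [← Finset.add_sum_erase M _ hu₁]
        have e1 : ∀ u ∈ M.erase u₁,
            (if u = u₁ then - ∑ v ∈ M.erase u₁, lam' v * m v x₀ else m u₁ x₀ * lam' u) * m u x =
            lam' u * (m u₁ x₀ * m u x) := by
          intro u hu
          rw [if_neg (Finset.ne_of_mem_erase hu)]; ring
        rw [Finset.sum_congr rfl e1]
        simp only [if_true]
        have h2 := hker x hx
        have e2 : ∀ u ∈ M.erase u₁, lam' u * (m u₁ x₀ * m u x - m u x₀ * m u₁ x) =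
            lam' u * (m u₁ x₀ * m u x) - (lam' u * m u x₀) * m u₁ x := by
          intro u _; ring
        rw [Finset.sum_congr rfl e2, Finset.sum_sub_distrib, ← Finset.sum_mul] at h2
        linear_combination h2

/-- a small nonzero algebraic integer is a unit modulo all but few large primes -/
theorem exists_bad {e : ℕ} {G : 𝓞 L} (hG : G ≠ 0) (hs : Small Z e G) (hZ : 2 ≤ Z) :
    ∃ bad : Finset ℕ, bad.card ≤ e * Module.finrank ℚ L ∧
      ∀ T : Finset ℕ, (∀ π ∈ T, π.Prime ∧ Z ≤ π) → Disjoint T bad →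
        ∃ u' : 𝓞 L, ((∏ π ∈ T, π : ℕ) : 𝓞 L) ∣ 1 - u' * G := by
  classical
  have hZ1 : (1 : ℝ) < Z := by linarith
  set n : ℕ := Ideal.absNorm (Ideal.span ({G} : Set (𝓞 L))) with hn
  have hn0 : n ≠ 0 := by
    rw [hn, Ne, Ideal.absNorm_eq_zero_iff, Ideal.span_singleton_eq_bot]
    exact hG
  have hGn : G ∣ (n : 𝓞 L) := Ideal.mem_span_singleton.1 (Ideal.absNorm_mem _)
  have hle : (n : ℝ) ≤ Z ^ (e * Module.finrank ℚ L) := by
    have h1 : (n : ℝ) = ‖∏ τ : L →ₐ[ℚ] ℂ, τ (G : L)‖ := by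
      rw [← Algebra.norm_eq_prod_embeddings, ← Algebra.coe_norm_int, hn,
        Ideal.absNorm_span_singleton]
      simp
    rw [h1, norm_prod, pow_mul, ← AlgHom.card ℚ L ℂ, ← Finset.card_univ, ← Finset.prod_const]
    exact Finset.prod_le_prod (fun _ _ => norm_nonneg _) (fun τ _ => hs τ.toRingHom)
  refine ⟨n.primeFactors.filter (fun p : ℕ => Z ≤ (p : ℝ)), ?_, ?_⟩
  · set bad := n.primeFactors.filter (fun p : ℕ => Z ≤ (p : ℝ)) with hbad
    have h1 : Z ^ bad.card ≤ ∏ p ∈ bad, (p : ℝ) := by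
      rw [← Finset.prod_const]
      exact Finset.prod_le_prod (fun _ _ => by linarith) (fun p hp => (Finset.mem_filter.1 hp).2)
    have h2 : ∏ p ∈ bad, p ≤ n := by
      refine Nat.le_of_dvd (Nat.pos_of_ne_zero hn0) ?_
      exact (Finset.prod_dvd_prod_of_subset _ _ _ (Finset.filter_subset _ _)).trans
        (Nat.prod_primeFactors_dvd n)
    have h3 : ∏ p ∈ bad, (p : ℝ) ≤ n := by
      rw [← Nat.cast_prod]; exact Nat.cast_le.2 h2
    exact (pow_le_pow_iff_right₀ hZ1).1 (h1.trans (h3.trans hle))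
  · intro T hT hdis
    have hcop : Nat.Coprime (∏ π ∈ T, π) n := by
      refine Nat.Coprime.prod_left (fun π hπ => ?_)
      rw [(hT π hπ).1.coprime_iff_not_dvd]
      intro hd
      exact Finset.disjoint_left.1 hdis hπ
        (Finset.mem_filter.2 ⟨Nat.mem_primeFactors.2 ⟨(hT π hπ).1, hd, hn0⟩, (hT π hπ).2⟩)
    obtain ⟨a, b, hab⟩ := (Nat.Coprime.cast (R := 𝓞 L) hcop)
    obtain ⟨w, hw⟩ := hGn
    refine ⟨b * w, a, ?_⟩
    rw [hw] at hab
    linear_combination -hab

/-- a nonzero algebraic integer divides a nonzero rational integer -/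
theorem exists_int_multiple {G : 𝓞 L} (hG : G ≠ 0) : ∃ n : ℤ, n ≠ 0 ∧ G ∣ (n : 𝓞 L) := by
  refine ⟨(Ideal.absNorm (Ideal.span ({G} : Set (𝓞 L))) : ℕ), ?_, ?_⟩
  · rw [Ne, Int.natCast_eq_zero, Ideal.absNorm_eq_zero_iff, Ideal.span_singleton_eq_bot]
    exact hG
  · rw [Int.cast_natCast]
    exact Ideal.mem_span_singleton.1 (Ideal.absNorm_mem _)

/-- if all maximal minors vanish the rows are dependent -/
theorem exists_dep_of_det {K : Type} [Field K] {X : Type} {H : ℕ} (f : Fin H → X → K) (A : Finset X)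
    (h : ∀ pts : Fin H → X, (∀ j, pts j ∈ A) → (Matrix.of (fun l j => f l (pts j))).det = 0)
    (hH : 0 < H) :
    ∃ lam : Fin H → K, (∃ l, lam l ≠ 0) ∧ ∀ x ∈ A, ∑ l, lam l * f l x = 0 := by
  classical
  let v : A → (Fin H → K) := fun x l => f l x
  by_cases hW : Submodule.span K (Set.range v) = ⊤
  · exfalso
    obtain ⟨κ, a, ha, hspan, hli⟩ := exists_linearIndependent' K v
    have : Finite κ := Finite.of_injective a ha
    let _ : Fintype κ := Fintype.ofFinite κ
    have hb : Module.finrank K (Fin H → K) = Fintype.card κ :=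
      Module.finrank_eq_card_basis (Module.Basis.mk hli (by rw [hspan, hW]))
    have hc : Fintype.card (Fin H) = Fintype.card κ := by
      rw [← hb]; simp
    let e : Fin H ≃ κ := Fintype.equivOfCardEq hc
    have hdet := h (fun j => (a (e j) : X)) (fun j => (a (e j)).2)
    obtain ⟨c, hc0, hc1⟩ := Matrix.exists_mulVec_eq_zero_iff.2 hdet
    have hli2 : LinearIndependent K ((v ∘ a) ∘ e) := hli.comp e e.injective
    apply hc0
    funext j
    refine Fintype.linearIndependent_iff.1 hli2 c ?_ j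
    funext l
    have := congrFun hc1 l
    simp only [Matrix.mulVec, dotProduct, Matrix.of_apply, Pi.zero_apply] at this
    simp only [Finset.sum_apply, Pi.smul_apply, smul_eq_mul, Function.comp_apply, v,
      Pi.zero_apply]
    rw [← this]
    exact Finset.sum_congr rfl (fun j _ => mul_comm _ _)
  · obtain ⟨φ, hφ0, hφ⟩ := Submodule.exists_le_ker_of_lt_top _ (lt_top_iff_ne_top.2 hW)
    refine ⟨fun l => φ (fun j => if l = j then 1 else 0), ?_, ?_⟩
    · by_contra hcon
      push Not at hcon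
      apply hφ0
      refine LinearMap.ext (fun w => ?_)
      rw [LinearMap.pi_apply_eq_sum_univ]
      simp [hcon]
    · intro x hx
      have h1 : φ (v ⟨x, hx⟩) = 0 := hφ (Submodule.subset_span ⟨⟨x, hx⟩, rfl⟩)
      rw [LinearMap.pi_apply_eq_sum_univ] at h1
      refine Eq.trans ?_ h1
      exact Finset.sum_congr rfl (fun l _ => by simp [v, mul_comm])

theorem det_eq_zero_of_small {H : ℕ} (M : Matrix (Fin H) (Fin H) (𝓞 L)) (w : Fin H → ℕ)
    (hM : ∀ l j, Small Z (w l) (M l j)) (q t s : ℕ) (hq : Z ^ t ≤ q)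
    (hdvd : (q : 𝓞 L) ^ s ∣ M.det) (hw : ∑ l, w l + 1 ≤ t * s) (hZ : (H.factorial : ℝ) < Z) :
    M.det = 0 := by
  have hZ1 : (1 : ℝ) < Z := by
    have : (1 : ℝ) ≤ H.factorial := by exact_mod_cast Nat.factorial_pos H
    linarith
  have hZ0 : (0 : ℝ) < Z := by linarith
  obtain ⟨c, hc⟩ := hdvd
  have hc0 : c = 0 := by
    apply eq_zero_of_norm_lt_one
    intro φ
    have h1 : ‖φ (M.det : L)‖ ≤ H.factorial * Z ^ (∑ l, w l) := by
      let ψ : 𝓞 L →+* ℂ := φ.comp (algebraMap (𝓞 L) L)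
      have e1 : φ (M.det : L) = ψ M.det := rfl
      rw [e1, Matrix.det_apply', map_sum]
      refine (norm_sum_le _ _).trans ?_
      have e2 : ∀ σ ∈ (Finset.univ : Finset (Equiv.Perm (Fin H))),
          ‖ψ (((Equiv.Perm.sign σ : ℤ) : 𝓞 L) * ∏ i, M (σ i) i)‖ ≤ Z ^ (∑ l, w l) := by
        intro σ _
        rw [map_mul, norm_mul, map_intCast, map_prod, norm_prod]
        have e3 : ‖(((Equiv.Perm.sign σ : ℤˣ) : ℤ) : ℂ)‖ = 1 := by
          rcases Int.units_eq_one_or (Equiv.Perm.sign σ) with h | h <;> simp [h]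
        rw [e3, one_mul, ← Equiv.sum_comp σ w, ← Finset.prod_pow_eq_pow_sum]
        exact Finset.prod_le_prod (fun _ _ => norm_nonneg _) (fun i _ => hM (σ i) i φ)
      refine (Finset.sum_le_sum e2).trans ?_
      simp [Fintype.card_perm]
    have h2 : ‖φ (M.det : L)‖ = (q : ℝ) ^ s * ‖φ (c : L)‖ := by
      have : (M.det : L) = (q : L) ^ s * (c : L) := by rw [hc]; simp
      rw [this, map_mul, map_pow, map_natCast, norm_mul, norm_pow, Complex.norm_natCast]
    have h3 : Z ^ (∑ l, w l + 1) ≤ (q : ℝ) ^ s := by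
      calc Z ^ (∑ l, w l + 1) ≤ Z ^ (t * s) := pow_le_pow_right₀ hZ1.le hw
        _ = (Z ^ t) ^ s := pow_mul _ _ _
        _ ≤ _ := pow_le_pow_left₀ (pow_nonneg hZ0.le _) hq s
    have h4 : (H.factorial : ℝ) * Z ^ (∑ l, w l) < Z ^ (∑ l, w l + 1) := by
      rw [pow_succ, mul_comm (Z ^ _)]
      exact mul_lt_mul_of_pos_right hZ (pow_pos hZ0 _)
    have h5 : (0 : ℝ) < (q : ℝ) ^ s := lt_of_lt_of_le (pow_pos hZ0 _) h3
    have h6 : (q : ℝ) ^ s * ‖φ (c : L)‖ < (q : ℝ) ^ s * 1 := by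
      rw [← h2, mul_one]; linarith
    exact lt_of_mul_lt_mul_left h6 h5.le
  rw [hc, hc0, mul_zero]

end Vale.Agent.P018
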