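import Vale.Agent.P018.Setting
import Vale.Agent.P018.Cells
import Vale.Agent.P018.ClassCount

namespace Vale.Agent.P018

open NumberField Filter Polynomial

/-- the fixed parameters -/
structure Par (d : ℕ) (L : Type) [Field L] where
  θ : Fin d → 𝓞 L
  k : ℕ
  c : ℤ
  a : ℕ
  b : ℕ
  W : ℕ

variable {d : ℕ} {L : Type} [Field L]

structure Par.Ok (p : Par d L) : Prop where
  inj : Function.Injective p.θ
  c_ne : p.c ≠ 0
  k_pos : 1 ≤ p.k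
  a_pos : 1 ≤ p.a
  b_pos : 1 ≤ p.b
  W_pos : 1 ≤ p.W
  d_pos : 1 ≤ d

abbrev Par.Adm (p : Par d L) (Z : ℝ) (S : Finset (Pt d L)) (pool : Finset ℕ) : Prop :=
  P018.Adm p.θ p.k p.c p.a p.b p.W Z S pool

noncomputable def Par.alL (p : Par d L) (x : Pt d L) (l : Fin d) : L := (al p.θ x l : L)

noncomputable def Par.evx (p : Par d L) (x : Pt d L) : RR d L →+* L :=
  ev (p.alL x) ((x.N : ℤ) : L)

def key (π : ℕ) (x : Pt d L) : ℤ × (Fin d → ℤ) := resKey π x.N x.v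

abbrev Pred (d : ℕ) (L : Type) [Field L] : Type := ℕ → Finset (Pt d L) → Prop

def Good (P : Pred d L) : Prop :=
  (∀ D, Hered (P D)) ∧ ∀ D D' A, D ≤ D' → P D A → P D' A

/-- an equation in the variables `I` (free of `n` when `nf`) -/
def Par.Eqn (p : Par d L) (nf : Bool) (I : Finset (Fin d)) : Pred d L := fun D A =>
  ∃ Q : RR d L, Q ≠ 0 ∧ Q.vars ⊆ I ∧ DegLe Q D (if nf then 0 else D) ∧ ∀ x ∈ A, p.evx x Q = 0

def Par.Lev (p : Par d L) (r : ℕ) : Pred d L := fun D A =>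
  ∀ I : Finset (Fin d), I.card = r → p.Eqn false I D A

def FinP : Pred d L := fun D A => A.card ≤ D

def Par.Stage (p : Par d L) (P : Pred d L) (t cost : ℕ) : Prop :=
  ∃ D B : ℕ, ∀ m : ℕ, ∃ M : ℕ, ∀ Λ : ℝ, ∃ C : ℝ, 0 ≤ C ∧ ∀ᶠ Z : ℝ in atTop,
    ∀ (S : Finset (Pt d L)) (pool : Finset ℕ), p.Adm Z S pool → (∀ π ∈ pool, (π : ℝ) ≤ Λ * Z) →
      M ≤ pool.card → Cov key S pool (P D) t m B (C * Z ^ cost)

def Par.Dim (p : Par d L) (P : Pred d L) (r : ℕ) : Prop :=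
  ∀ D, ∃ C : ℕ, ∀ᶠ Z : ℝ in atTop, ∀ (S : Finset (Pt d L)) (pool : Finset ℕ), p.Adm Z S pool →
    ∀ A ⊆ S, P D A → ∀ π : ℕ, π.Prime → (A.image (key π)).card ≤ C * π ^ r

def Par.Imp (p : Par d L) (P P' : Pred d L) : Prop :=
  ∀ D, ∃ D', ∀ᶠ Z : ℝ in atTop, ∀ (S : Finset (Pt d L)) (pool : Finset ℕ), p.Adm Z S pool →
    ∀ A ⊆ S, P D A → P' D' A

def Par.StepHyp (p : Par d L) (P Q : Pred d L) (t : ℕ) : Prop :=
  ∀ D, ∃ D' B₁ b : ℕ, ∀ᶠ Z : ℝ in atTop, ∀ (S : Finset (Pt d L)) (pool : Finset ℕ),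
    p.Adm Z S pool → ∃ Valid : Finset (Pt d L) → Prop,
      (∀ A ⊆ S, P D A → ∃ Lab : Finset (Finset (Pt d L)), Lab.card ≤ B₁ ∧ (∀ Y ∈ Lab, Valid Y) ∧
        ∀ x ∈ A, ∃ Y ∈ Lab, x ∈ Y) ∧
      (∀ Y Y', Valid Y → Valid Y' → Y ≠ Y' → Q D' (Y ∩ Y')) ∧
      (∀ Y, Valid Y → ∀ x₀ ∈ Y, ∃ bad : Finset ℕ, bad.card ≤ b ∧
        ∀ T ⊆ pool, t ≤ T.card → Disjoint T bad → Q D' (Y.filter (Cong key T x₀)))

theorem Good.and {P Q : Pred d L} (hP : Good P) (hQ : Good Q) :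
    Good (fun D A => P D A ∧ Q D A) :=
  ⟨fun D A A' h hs => ⟨hP.1 D A A' h.1 hs, hQ.1 D A A' h.2 hs⟩,
    fun D D' A hD h => ⟨hP.2 D D' A hD h.1, hQ.2 D D' A hD h.2⟩⟩

theorem Good.or {P Q : Pred d L} (hP : Good P) (hQ : Good Q) :
    Good (fun D A => P D A ∨ Q D A) :=
  ⟨fun D A A' h hs => h.imp (fun h => hP.1 D A A' h hs) (fun h => hQ.1 D A A' h hs),
    fun D D' A hD h => h.imp (hP.2 D D' A hD) (hQ.2 D D' A hD)⟩

theorem Good.forall {ι : Type} {P : ι → Pred d L} (s : ι → Prop) (hP : ∀ i, Good (P i)) :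
    Good (fun D A => ∀ i, s i → P i D A) :=
  ⟨fun D A A' h hs i hi => (hP i).1 D A A' (h i hi) hs,
    fun D D' A hD h i hi => (hP i).2 D D' A hD (h i hi)⟩

theorem good_true : Good (fun (_ : ℕ) (_ : Finset (Pt d L)) => True) :=
  ⟨fun _ _ _ _ _ => trivial, fun _ _ _ _ _ => trivial⟩

theorem good_fin : Good (FinP : Pred d L) :=
  ⟨fun _ _ _ h hs => (Finset.card_le_card hs).trans h, fun _ _ _ hD h => le_trans h hD⟩

theorem Par.good_eqn (p : Par d L) (nf : Bool) (I : Finset (Fin d)) : Good (p.Eqn nf I) := by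
  refine ⟨fun D A A' ⟨Q, h0, hv, hD, h⟩ hs => ⟨Q, h0, hv, hD, fun x hx => h x (hs hx)⟩,
    fun D D' A hD ⟨Q, h0, hv, hD', h⟩ => ⟨Q, h0, hv, hD'.mono hD ?_, h⟩⟩
  cases nf <;> simp [hD]

theorem Par.good_lev (p : Par d L) (r : ℕ) : Good (p.Lev r) :=
  Good.forall (P := fun I => p.Eqn false I) (fun I : Finset (Fin d) => I.card = r)
    (fun I => p.good_eqn false I)

variable {p : Par d L}

theorem Par.Imp.of_forall {P P' : Pred d L} (h : ∀ D A, P D A → P' D A) : p.Imp P P' :=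
  fun D => ⟨D, Eventually.of_forall fun _ _ _ _ A _ hA => h D A hA⟩

theorem Par.Imp.refl (P : Pred d L) : p.Imp P P := Par.Imp.of_forall fun _ _ h => h

theorem Par.Imp.trans {P P' P'' : Pred d L} (h : p.Imp P P') (h' : p.Imp P' P'') : p.Imp P P'' := by
  intro D
  obtain ⟨D', h1⟩ := h D
  obtain ⟨D'', h2⟩ := h' D'
  refine ⟨D'', ?_⟩
  filter_upwards [h1, h2] with Z h1 h2 S pool hA A hS hP
  exact h2 S pool hA A hS (h1 S pool hA A hS hP)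

theorem Par.Imp.or {P P' Q : Pred d L} (hQ : Good Q) (h : p.Imp P Q) (h' : p.Imp P' Q) :
    p.Imp (fun D A => P D A ∨ P' D A) Q := by
  intro D
  obtain ⟨D', h1⟩ := h D
  obtain ⟨D'', h2⟩ := h' D
  refine ⟨max D' D'', ?_⟩
  filter_upwards [h1, h2] with Z h1 h2 S pool hA A hS hP
  rcases hP with hP | hP
  · exact hQ.2 _ _ _ (le_max_left _ _) (h1 S pool hA A hS hP)
  · exact hQ.2 _ _ _ (le_max_right _ _) (h2 S pool hA A hS hP)

theorem Par.Imp.and {P Q Q' : Pred d L} (hQ : Good Q) (hQ' : Good Q') (h : p.Imp P Q)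
    (h' : p.Imp P Q') : p.Imp P (fun D A => Q D A ∧ Q' D A) := by
  intro D
  obtain ⟨D', h1⟩ := h D
  obtain ⟨D'', h2⟩ := h' D
  refine ⟨max D' D'', ?_⟩
  filter_upwards [h1, h2] with Z h1 h2 S pool hA A hS hP
  exact ⟨hQ.2 _ _ _ (le_max_left _ _) (h1 S pool hA A hS hP),
    hQ'.2 _ _ _ (le_max_right _ _) (h2 S pool hA A hS hP)⟩

theorem Par.Imp.forall {ι : Type} [Finite ι] {P : Pred d L} {Q : ι → Pred d L} (s : ι → Prop)
    (hQ : ∀ i, Good (Q i)) (h : ∀ i, s i → p.Imp P (Q i)) :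
    p.Imp P (fun D A => ∀ i, s i → Q i D A) := by
  intro D
  have h1 : ∀ i : {i // s i}, ∃ D', ∀ᶠ Z : ℝ in atTop, ∀ (S : Finset (Pt d L)) (pool : Finset ℕ),
      p.Adm Z S pool → ∀ A ⊆ S, P D A → Q i D' A := fun i => h i i.2 D
  choose D' hD' using h1
  obtain ⟨D₀, hD₀⟩ := (Set.finite_range D').bddAbove
  refine ⟨D₀, ?_⟩
  filter_upwards [eventually_all.2 hD'] with Z hZ S pool hA A hS hP i hi
  exact (hQ i).2 _ _ _ (hD₀ ⟨⟨i, hi⟩, rfl⟩) (hZ ⟨i, hi⟩ S pool hA A hS hP)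

theorem Par.Dim.of_imp {P P' : Pred d L} {r : ℕ} (h : p.Dim P' r) (hi : p.Imp P P') :
    p.Dim P r := by
  intro D
  obtain ⟨D', h1⟩ := hi D
  obtain ⟨C, h2⟩ := h D'
  refine ⟨C, ?_⟩
  filter_upwards [h1, h2] with Z h1 h2 S pool hA A hS hP
  exact h2 S pool hA A hS (h1 S pool hA A hS hP)

theorem Par.StepHyp.of_imp {P P' Q : Pred d L} {t : ℕ} (h : p.StepHyp P' Q t) (hi : p.Imp P P') :
    p.StepHyp P Q t := by
  intro D
  obtain ⟨D', h1⟩ := hi D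
  obtain ⟨D'', B₁, b, h2⟩ := h D'
  refine ⟨D'', B₁, b, ?_⟩
  filter_upwards [h1, h2] with Z h1 h2 S pool hA
  obtain ⟨V, hV1, hV2, hV3⟩ := h2 S pool hA
  exact ⟨V, fun A hS hP => hV1 A hS (h1 S pool hA A hS hP), hV2, hV3⟩

theorem Par.StepHyp.mono {P Q : Pred d L} {t t' : ℕ} (h : p.StepHyp P Q t) (ht : t ≤ t') :
    p.StepHyp P Q t' := by
  intro D
  obtain ⟨D'', B₁, b, h2⟩ := h D
  refine ⟨D'', B₁, b, ?_⟩
  filter_upwards [h2] with Z h2 S pool hA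
  obtain ⟨V, hV1, hV2, hV3⟩ := h2 S pool hA
  refine ⟨V, hV1, hV2, fun Y hY x hx => ?_⟩
  obtain ⟨bad, hb, h⟩ := hV3 Y hY x hx
  exact ⟨bad, hb, fun T hT hc hd => h T hT (ht.trans hc) hd⟩

theorem Par.StepHyp.or {P Q : Pred d L} {t : ℕ} (h : p.StepHyp P Q t) (hQ : Good Q) :
    p.StepHyp (fun D A => Q D A ∨ P D A) Q t := by
  intro D
  obtain ⟨D', B₁, b, h2⟩ := h D
  refine ⟨max D D', max B₁ 1, b, ?_⟩
  filter_upwards [h2] with Z h2 S pool hA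
  obtain ⟨V, hV1, hV2, hV3⟩ := h2 S pool hA
  refine ⟨fun Y => V Y ∨ Q D Y, ?_, ?_, ?_⟩
  · intro A hS hP
    rcases hP with hP | hP
    · exact ⟨{A}, by simp, by simpa using Or.inr hP, by simp⟩
    · obtain ⟨Lab, h1, h2, h3⟩ := hV1 A hS hP
      exact ⟨Lab, h1.trans (le_max_left _ _), fun Y hY => Or.inl (h2 Y hY), h3⟩
  · intro Y Y' hY hY' hne
    rcases hY with hY | hY
    · rcases hY' with hY' | hY'
      · exact hQ.2 _ _ _ (le_max_right _ _) (hV2 Y Y' hY hY' hne)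
      · exact hQ.2 _ _ _ (le_max_left _ _) (hQ.1 _ _ _ hY' Finset.inter_subset_right)
    · exact hQ.2 _ _ _ (le_max_left _ _) (hQ.1 _ _ _ hY Finset.inter_subset_left)
  · intro Y hY x hx
    rcases hY with hY | hY
    · obtain ⟨bad, hb, h⟩ := hV3 Y hY x hx
      exact ⟨bad, hb, fun T hT hc hd => hQ.2 _ _ _ (le_max_right _ _) (h T hT hc hd)⟩
    · exact ⟨∅, by simp, fun T _ _ _ =>
        hQ.2 _ _ _ (le_max_left _ _) (hQ.1 _ _ _ hY (Finset.filter_subset _ _))⟩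

theorem Par.stage_init (p : Par d L) : p.Stage (fun _ _ => True) 0 0 := by
  refine ⟨0, 1, fun m => ⟨m, fun Λ => ⟨1, zero_le_one, Eventually.of_forall ?_⟩⟩⟩
  intro Z S pool _ _ hm
  simpa using cov_init key S pool (fun _ => True) m trivial hm

theorem Par.Stage.imp {P P' : Pred d L} {t cost cost' : ℕ} (h : p.Stage P t cost)
    (hi : p.Imp P P') (hc : cost ≤ cost') : p.Stage P' t cost' := by
  obtain ⟨D, B, h⟩ := h
  obtain ⟨D', hi⟩ := hi D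
  refine ⟨D', B, fun m => ?_⟩
  obtain ⟨M, h⟩ := h m
  refine ⟨M, fun Λ => ?_⟩
  obtain ⟨C, hC, h⟩ := h Λ
  refine ⟨C, hC, ?_⟩
  filter_upwards [h, hi, eventually_ge_atTop (1 : ℝ)] with Z h hi hZ S pool hA hΛ hM
  refine (h S pool hA hΛ hM).mono (fun T _ _ A hS hP _ => hi S pool hA A hS hP) le_rfl le_rfl ?_
  exact mul_le_mul_of_nonneg_left (pow_le_pow_right₀ hZ hc) hC

theorem class_bound {Λ Z : ℝ} {C π r n : ℕ} (hZ : 0 ≤ Z) (hπ : (π : ℝ) ≤ Λ * Z)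
    (h : n ≤ C * π ^ r) : (n : ℝ) ≤ C * |Λ| ^ r * Z ^ r := by
  have h1 : (π : ℝ) ≤ |Λ| * Z := hπ.trans (mul_le_mul_of_nonneg_right (le_abs_self _) hZ)
  calc (n : ℝ) ≤ C * (π : ℝ) ^ r := by exact_mod_cast h
    _ ≤ C * (|Λ| * Z) ^ r := by gcongr
    _ = _ := by rw [mul_pow, mul_assoc]

theorem Par.Stage.refine {P : Pred d L} {t cost r : ℕ} (h : p.Stage P t cost) (hP : Good P)
    (hd : p.Dim P r) : p.Stage P (t + 1) (cost + r) := by
  obtain ⟨D, B, h⟩ := h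
  obtain ⟨K, hd⟩ := hd D
  refine ⟨D, (t + 1) * B, fun m => ?_⟩
  obtain ⟨M, h⟩ := h m
  refine ⟨M, fun Λ => ?_⟩
  obtain ⟨C, hC, h⟩ := h Λ
  refine ⟨(t + 1) * C * (K * |Λ| ^ r), by positivity, ?_⟩
  filter_upwards [h, hd, eventually_ge_atTop (0 : ℝ)] with Z h hd hZ S pool hA hΛ hM
  have := (h S pool hA hΛ hM).refine (K := K * |Λ| ^ r * Z ^ r) (hP.1 D) (by positivity)
    (by positivity) (fun π hπ A hS hPA =>
      class_bound hZ (hΛ π hπ) (hd S pool hA A hS hPA π (hA.poolPrime π hπ).1))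
  refine this.mono (fun _ _ _ _ _ h _ => h) le_rfl le_rfl (le_of_eq ?_)
  rw [pow_add]; ring

theorem Par.Stage.refine' {P : Pred d L} {t cost r : ℕ} (h : p.Stage P t cost) (hP : Good P)
    (hd : p.Dim P r) (n : ℕ) : p.Stage P (t + n) (cost + r * n) := by
  induction n with
  | zero => simpa using h
  | succ n ih =>
    have := ih.refine hP hd
    rwa [add_assoc, add_assoc, ← Nat.mul_succ] at this

theorem Par.Stage.swap {P Q : Pred d L} {t cost r : ℕ} (h : p.Stage P t cost) (hP : Good P)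
    (hQ : Good Q) (hd : p.Dim P r) (hs : p.StepHyp P Q t) :
    p.Stage (fun D A => P D A ∧ Q D A) (t + 1) (cost + r) := by
  obtain ⟨D, B, h⟩ := h
  obtain ⟨K, hd⟩ := hd D
  obtain ⟨D', B₁, b, hs⟩ := hs D
  refine ⟨max D D', (t + 1) * B * ((t + 1) * B * B₁) ^ 2, fun m => ?_⟩
  obtain ⟨M', hM'⟩ := cov_swap t m b
  obtain ⟨M, h⟩ := h M'
  refine ⟨M, fun Λ => ?_⟩
  obtain ⟨C, hC, h⟩ := h Λ
  refine ⟨(t + 1) * C * (K * |Λ| ^ r) * (((t + 1) * B * B₁ : ℕ) : ℝ) ^ 2, by positivity, ?_⟩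
  filter_upwards [h, hd, hs, eventually_ge_atTop (0 : ℝ)] with Z h hd hs hZ S pool hA hΛ hM
  obtain ⟨V, hV1, hV2, hV3⟩ := hs S pool hA
  have := hM' _ _ key S pool (P D) (Q D') V B B₁ (C * Z ^ cost) (K * |Λ| ^ r * Z ^ r)
    (h S pool hA hΛ hM) (hP.1 D) (hQ.1 D') (by positivity) (by positivity)
    (fun π hπ A hS hPA =>
      class_bound hZ (hΛ π hπ) (hd S pool hA A hS hPA π (hA.poolPrime π hπ).1))
    hV1 hV2 (fun Y hY x hx => by
      obtain ⟨bad, hb, h⟩ := hV3 Y hY x hx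
      exact ⟨bad, hb, fun T hT hc hd => h T hT hc.ge hd⟩)
  refine this.mono (fun _ _ _ A _ h _ => ⟨hP.2 _ _ _ (le_max_left _ _) h.1,
    hQ.2 _ _ _ (le_max_right _ _) h.2⟩) le_rfl le_rfl (le_of_eq ?_)
  rw [pow_add]; ring

theorem Par.Stage.swaps {ι : Type} [DecidableEq ι] (s : Finset ι) {P : Pred d L}
    {Q : ι → Pred d L} {t cost r : ℕ} (h : p.Stage P t cost) (hP : Good P)
    (hQ : ∀ i, Good (Q i)) (hd : p.Dim P r) (hs : ∀ i ∈ s, p.StepHyp P (Q i) t) :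
    p.Stage (fun D A => P D A ∧ ∀ i, i ∈ s → Q i D A) (t + s.card) (cost + r * s.card) := by
  induction s using Finset.induction_on with
  | empty => exact h.imp (Par.Imp.of_forall fun _ _ h => ⟨h, by simp⟩) (by simp)
  | insert i s hi ih =>
    have ih := ih (fun j hj => hs j (Finset.mem_insert_of_mem hj))
    have hG : Good (fun D A => P D A ∧ ∀ i, i ∈ s → Q i D A) :=
      hP.and (Good.forall (fun i => i ∈ s) hQ)
    have hI : p.Imp (fun D A => P D A ∧ ∀ i, i ∈ s → Q i D A) P :=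
      Par.Imp.of_forall fun _ _ h => h.1
    have := ih.swap hG (hQ i) (hd.of_imp hI)
      (((hs i (Finset.mem_insert_self _ _)).of_imp hI).mono (Nat.le_add_right _ _))
    rw [Finset.card_insert_of_notMem hi]
    refine this.imp (Par.Imp.of_forall fun _ _ h => ⟨h.1.1, fun j hj => ?_⟩) (le_of_eq (by ring))
    rcases Finset.mem_insert.1 hj with rfl | hj
    · exact h.2
    · exact h.1.2 j hj

theorem Par.Stage.final {t cost : ℕ} (h : p.Stage FinP t cost) :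
    ∃ M : ℕ, ∀ Λ : ℝ, ∃ C : ℝ, ∀ᶠ Z : ℝ in atTop, ∀ (S : Finset (Pt d L)) (pool : Finset ℕ),
      p.Adm Z S pool → (∀ π ∈ pool, (π : ℝ) ≤ Λ * Z) → pool.card = M →
      (S.card : ℝ) ≤ C * Z ^ cost := by
  obtain ⟨D, B, h⟩ := h
  obtain ⟨M, h⟩ := h t
  refine ⟨M, fun Λ => ?_⟩
  obtain ⟨C, hC, h⟩ := h Λ
  refine ⟨2 ^ M * C * D, ?_⟩
  filter_upwards [h, eventually_ge_atTop (0 : ℝ)] with Z h hZ S pool hA hΛ hM
  have := Cov.final (B₀ := D) (h S pool hA hΛ hM.ge) le_rfl (by positivity)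
  rw [hM] at this
  refine this.trans (le_of_eq ?_)
  ring

end Vale.Agent.P018
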