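import Vale.Agent.P018.HypCore

namespace Vale.Agent.P018

open NumberField Polynomial Filter

variable {d : ℕ} {L : Type} [Field L] [NumberField L] {p : Par d L}

/-- a family that can be used on a variety of dimension `r` with `t` primes -/
def Par.Fam (p : Par d L) (nf : Bool) (I : Finset (Fin d)) (r t : ℕ) (s : Ix d → Prop) : Prop :=
  (∃ δ : ℝ, p.Shape s r δ ∧ 1 < δ * (t : ℝ) ^ r) ∧ (∀ u, s u → Supp I u) ∧
    (nf = true → ∀ u, s u → gdeg u = 0)

omit [NumberField L] in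
theorem eqn_elim {nf : Bool} {I : Finset (Fin d)} (i : Fin d) {P F : RR d L} {D : ℕ}
    (hP : Irreducible P) (hF : ¬ P ∣ F) (hPI : P.vars ⊆ I) (hFI : F.vars ⊆ I)
    (hPD : DegLe P D (if nf then 0 else D)) (hFD : DegLe F D (if nf then 0 else D))
    {A : Finset (Pt d L)} (h1 : ∀ x ∈ A, p.evx x P = 0) (h2 : ∀ x ∈ A, p.evx x F = 0) :
    p.Eqn nf (I.erase i) ((2 * D + 1) * D) A := by
  obtain ⟨Q, a1, a2, a3, a4⟩ := elim i hP hF hPI hFI hPD hFD
  exact ⟨Q, a1, a2, a3.mono le_rfl (by cases nf <;> simp), fun x hx => a4 _ _ (h1 x hx) (h2 x hx)⟩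

open Classical in
/-- the regular points -/
noncomputable def Par.zreg (p : Par d L) (S : Finset (Pt d L)) (i : Fin d) (Φ : RR d L) :
    Finset (Pt d L) := (p.zs S Φ).filter (fun x => p.evx x (MvPolynomial.pderiv i Φ) ≠ 0)

omit [NumberField L] in
theorem mem_zreg {S : Finset (Pt d L)} {i : Fin d} {Φ : RR d L} {x : Pt d L} :
    x ∈ p.zreg S i Φ ↔ x ∈ p.zs S Φ ∧ p.evx x (MvPolynomial.pderiv i Φ) ≠ 0 := by
  simp [Par.zreg]

omit [NumberField L] in
theorem zreg_eq_of_dvd {S : Finset (Pt d L)} {i : Fin d} {Φ Φ' : RR d L} (h : Irreducible Φ)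
    (h' : Irreducible Φ') (hd : Φ ∣ Φ') : p.zreg S i Φ = p.zreg S i Φ' := by
  obtain ⟨w, rfl⟩ := hd
  have hw : IsUnit w := (h'.isUnit_or_isUnit rfl).resolve_left h.not_isUnit
  ext x
  have hw' : p.evx x w ≠ 0 := (hw.map (p.evx x)).ne_zero
  simp only [mem_zreg, mem_zs, map_mul, mul_eq_zero, hw', or_false, Derivation.leibniz,
    smul_eq_mul, map_add]
  refine and_congr_right fun h1 => ?_
  simp [h1.2, hw']

theorem hyper_step (hp : p.Ok) (nf : Bool) {I : Finset (Fin d)} {i : Fin d} (hi : i ∈ I)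
    {Q : Pred d L} (hQ : Good Q) (hQe : p.Imp (p.Eqn nf (I.erase i)) Q)
    {𝒮 : Set (Ix d → Prop)} (hfin : 𝒮.Finite) {t r : ℕ} (ht : 1 ≤ t)
    (hr : r = if nf then I.card - 1 else I.card) (hfam : ∀ s ∈ 𝒮, p.Fam nf I r t s)
    (hcase : ∀ D, ∃ D', ∀ᶠ Z : ℝ in atTop, ∀ (S : Finset (Pt d L)) (pool : Finset ℕ),
      p.Adm Z S pool → ∀ Φ : RR d L, Irreducible Φ → Φ.vars ⊆ I → i ∈ Φ.vars →
        DegLe Φ D (if nf then 0 else D) → Q D' (p.zs S Φ) ∨ ∃ s ∈ 𝒮, p.Indep I Φ s) :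
    p.StepHyp (p.Eqn nf I) Q t := by
  classical
  intro D
  have := hfin.to_subtype
  have h1 : ∀ s : 𝒮, ∃ y : ℕ, ∀ᶠ Z : ℝ in atTop, ∀ (S : Finset (Pt d L)) (pool : Finset ℕ),
      p.Adm Z S pool → ∀ T ⊆ pool, t ≤ T.card → ∀ A ⊆ S, ∀ (σ : Type) [Fintype σ]
        (g : σ → Pt d L → 𝓞 L), Fintype.card σ = r →
        (∀ i, ∀ x ∈ A, ((∏ π ∈ T, π : ℕ) : 𝓞 L) ∣ g i x) →
        (∀ u, s.1 u → InCl A ((∏ π ∈ T, π : ℕ) : 𝓞 L) g (p.mon u)) → p.Dep s.1 y A := by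
    intro s
    obtain ⟨⟨δ, h1, h2⟩, _⟩ := hfam s s.2
    exact det_core h1 h2 ht
  choose y hy using h1
  obtain ⟨y₀, hy₀⟩ := (Set.finite_range y).bddAbove
  obtain ⟨D₁, hD₁⟩ := hcase D
  obtain ⟨b, hb⟩ := hyp_core (p := p) D (if nf then 0 else D)
  set D₂ := D + y₀ + d * (p.k * y₀) with hD₂
  set D₃ := (2 * D₂ + 1) * D₂ with hD₃
  obtain ⟨D₄, hD₄⟩ := hQe D₃
  have hDD₂ : D ≤ D₂ := by omega
  have hD₂₃ : D₂ ≤ D₃ := Nat.le_mul_of_pos_left _ (by omega)
  have hD3 : (2 * D + 1) * D ≤ D₃ := Nat.mul_le_mul (by omega) hDD₂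
  have hmono : ∀ {P : RR d L}, DegLe P D (if nf then 0 else D) →
      DegLe P D₂ (if nf then 0 else D₂) := fun h => h.mono hDD₂ (by cases nf <;> simp [hDD₂])
  refine ⟨max D₁ D₄, 2 * (D + D), b, ?_⟩
  filter_upwards [eventually_all.2 hy, hD₁, hb, hD₄, eventually_gt_atTop |(p.c : ℝ)|] with Z hy
    hD₁ hb hD₄ hZ S pool hA
  have hE : ∀ A ⊆ S, ∀ D', D' ≤ D₃ → p.Eqn nf (I.erase i) D' A → Q (max D₁ D₄) A :=
    fun A hS D' hD' h => hQ.2 _ _ _ (le_max_right _ _)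
      (hD₄ S pool hA A hS ((p.good_eqn _ _).2 _ _ _ hD' h))
  have hzs : ∀ Φ, p.zs S Φ ⊆ S := fun Φ x hx => (mem_zs.1 hx).1
  have hzr : ∀ Φ, p.zreg S i Φ ⊆ p.zs S Φ := fun Φ x hx => (mem_zreg.1 hx).1
  refine ⟨fun Y => Q (max D₁ D₄) Y ∨ ∃ Φ : RR d L, Irreducible Φ ∧ Φ.vars ⊆ I ∧ i ∈ Φ.vars ∧
    DegLe Φ D (if nf then 0 else D) ∧ Y = p.zreg S i Φ, ?_, ?_, ?_⟩
  · rintro A hS ⟨F, hF0, hFv, hFD, hF⟩
    obtain ⟨s, hs1, hs2, hs3⟩ := exists_factors hF0 hFD
    refine ⟨s.image (fun P => if i ∈ P.vars then p.zreg S i P else p.zs S P) ∪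
      s.image (fun P => p.zs S P \ p.zreg S i P), ?_, ?_, ?_⟩
    · refine (Finset.card_union_le _ _).trans ?_
      have a1 := Finset.card_image_le (s := s)
        (f := fun P => if i ∈ P.vars then p.zreg S i P else p.zs S P)
      have a2 := Finset.card_image_le (s := s) (f := fun P => p.zs S P \ p.zreg S i P)
      have a3 : s.card ≤ D + D := hs1.trans (by cases nf <;> simp)
      omega
    · intro Y hY
      have hnot : ∀ P ∈ s, i ∉ P.vars → Q (max D₁ D₄) (p.zs S P) := by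
        intro P hP hiP
        refine hE _ (hzs P) D (hDD₂.trans hD₂₃) ⟨P, (hs2 P hP).1.ne_zero, ?_,
          hFD.of_dvd (hs2 P hP).2 hF0, fun x hx => (mem_zs.1 hx).2⟩
        intro l hl
        exact Finset.mem_erase.2 ⟨fun h => hiP (h ▸ hl),
          hFv (vars_subset_of_dvd (hs2 P hP).2 hF0 hl)⟩
      rcases Finset.mem_union.1 hY with hY | hY
      · obtain ⟨P, hP, rfl⟩ := Finset.mem_image.1 hY
        by_cases hiP : i ∈ P.vars
        · right
          exact ⟨P, (hs2 P hP).1, (vars_subset_of_dvd (hs2 P hP).2 hF0).trans hFv, hiP,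
            hFD.of_dvd (hs2 P hP).2 hF0, if_pos hiP⟩
        · left
          rw [if_neg hiP]
          exact hnot P hP hiP
      · obtain ⟨P, hP, rfl⟩ := Finset.mem_image.1 hY
        left
        by_cases hiP : i ∈ P.vars
        · have hPD := hFD.of_dvd (hs2 P hP).2 hF0
          have hPv := (vars_subset_of_dvd (hs2 P hP).2 hF0).trans hFv
          obtain ⟨b1, b2, b3⟩ := pderiv_facts hiP hPD
          refine hE _ (Finset.sdiff_subset.trans (hzs P)) _ hD3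
            (eqn_elim i (hs2 P hP).1 b1 hPv (b2.trans hPv) hPD b3 (fun x hx => ?_) fun x hx => ?_)
          · exact (mem_zs.1 (Finset.mem_sdiff.1 hx).1).2
          · by_contra h
            exact (Finset.mem_sdiff.1 hx).2 (mem_zreg.2 ⟨(Finset.mem_sdiff.1 hx).1, h⟩)
        · exact hQ.1 _ _ _ (hnot P hP hiP) Finset.sdiff_subset
    · intro x hx
      obtain ⟨P, hP, hPx⟩ := hs3 _ _ (hF x hx)
      have hxz : x ∈ p.zs S P := mem_zs.2 ⟨hS hx, hPx⟩
      by_cases hxr : x ∈ p.zreg S i P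
      · refine ⟨_, Finset.mem_union_left _ (Finset.mem_image_of_mem _ hP), ?_⟩
        split_ifs
        · exact hxr
        · exact hxz
      · exact ⟨_, Finset.mem_union_right _ (Finset.mem_image_of_mem _ hP),
          Finset.mem_sdiff.2 ⟨hxz, hxr⟩⟩
  · intro Y Y' hY hY' hne
    rcases hY with hY | ⟨Φ, a1, a2, a3, a4, rfl⟩
    · exact hQ.1 _ _ _ hY Finset.inter_subset_left
    rcases hY' with hY' | ⟨Φ', b1, b2, b3, b4, rfl⟩
    · exact hQ.1 _ _ _ hY' Finset.inter_subset_right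
    refine hE _ (Finset.inter_subset_left.trans ((hzr _).trans (hzs _))) _ hD3
      (eqn_elim i a1 (fun h => hne (zreg_eq_of_dvd a1 b1 h)) a2 b2 a4 b4 (fun x hx => ?_)
        fun x hx => ?_)
    · exact (mem_zs.1 (hzr _ (Finset.mem_inter.1 hx).1)).2
    · exact (mem_zs.1 (hzr _ (Finset.mem_inter.1 hx).2)).2
  · intro Y hY x₀ hx₀
    rcases hY with hY | ⟨Φ, a1, a2, a3, a4, rfl⟩
    · exact ⟨∅, by simp, fun T _ _ _ => hQ.1 _ _ _ hY (Finset.filter_subset _ _)⟩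
    rcases hD₁ S pool hA Φ a1 a2 a3 a4 with h | ⟨s, hs, hind⟩
    · exact ⟨∅, by simp, fun T _ _ _ => hQ.2 _ _ _ (le_max_left _ _)
        (hQ.1 _ _ _ h ((Finset.filter_subset _ _).trans (hzr _)))⟩
    rcases hb S pool hA I i Φ a1 a2 a4 with ⟨F, b1, b2, b3, b4⟩ | h
    · refine ⟨∅, by simp, fun T _ _ _ => hE _ ((Finset.filter_subset _ _).trans
        ((hzr _).trans (hzs _))) _ hD3 ⟨F, b1, b2, b3.mono le_rfl (by cases nf <;> simp),
          fun x hx => b4 x (hzr _ (Finset.mem_filter.1 hx).1)⟩⟩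
    obtain ⟨bad, hbad1, hbad2⟩ := h x₀ (mem_zreg.1 hx₀).1 (mem_zreg.1 hx₀).2
    refine ⟨bad, hbad1, fun T hT hc hdis => ?_⟩
    set A := (p.zreg S i Φ).filter (Cong key T x₀) with hAdef
    have hAz : A ⊆ p.zs S Φ := (Finset.filter_subset _ _).trans (hzr _)
    have hAS : A ⊆ S := hAz.trans (hzs _)
    have hx₀A : x₀ ∈ A := Finset.mem_filter.2 ⟨hx₀, fun _ _ => rfl⟩
    have hcong : ∀ x ∈ A, Cong key T x₀ x := fun x hx => (Finset.mem_filter.1 hx).2
    set V : Finset (Option (Fin d)) := if nf then (I.erase i).map Function.Embedding.some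
      else Finset.insertNone (I.erase i) with hV
    have hVc : Fintype.card V = r := by
      rw [Fintype.card_coe, hr, hV]
      have := Finset.card_pos.2 ⟨i, hi⟩
      cases nf
      · simp [Finset.card_erase_of_mem hi]; omega
      · rw [if_pos rfl, if_pos rfl, Finset.card_map, Finset.card_erase_of_mem hi]
    have hg := gen_dvd (p := p) V (fun π hπ => (hA.poolPrime π (hT hπ)).1) hcong
    have hal : ∀ l ∈ I.erase i,
        InCl A ((∏ π ∈ T, π : ℕ) : 𝓞 L) (p.gen V x₀) (fun x => al p.θ x l) := by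
      intro l hl
      refine inCl_coord (o := some l) x₀ A _ ?_
      rw [hV]
      cases nf
      · simpa using hl
      · simpa using hl
    have hN : nf = true ∨
        InCl A ((∏ π ∈ T, π : ℕ) : 𝓞 L) (p.gen V x₀) (fun x => (x.N : 𝓞 L)) := by
      cases nf
      · right
        refine inCl_coord (o := none) x₀ A _ ?_
        rw [hV]; simp
      · exact Or.inl rfl
    have hali := hbad2 T hT hdis A hAz hx₀A hcong _ _ hg hal
      (hN.imp (fun h => by simp [h]) id)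
    have hal' : ∀ l ∈ I, InCl A ((∏ π ∈ T, π : ℕ) : 𝓞 L) (p.gen V x₀) (fun x => al p.θ x l) := by
      intro l hl
      by_cases h : l = i
      · rw [h]; exact hali
      · exact hal l (Finset.mem_erase.2 ⟨h, hl⟩)
    obtain ⟨_, hsupp, hnf⟩ := hfam s hs
    have hdep := (hy ⟨s, hs⟩ S pool hA T hT hc A hAS _ _ hVc hg (fun u hu =>
      inCl_mon hp hA hZ hT hAS hg hx₀A hal' (hsupp u hu)
        (hN.imp (fun h => hnf h u hu) id))).mono (hy₀ ⟨⟨s, hs⟩, rfl⟩)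
    obtain ⟨B, lam, c1, c2, c3, c4, c5⟩ := dep_tilde hp hA hAS hdep hsupp
      (E := if nf then 0 else D₂) (by
        cases nf
        · left; simp; omega
        · right; exact hnf rfl)
    exact hE A hAS _ le_rfl (eqn_elim i a1 (hind _ B lam c1 c2) a2 c3 (hmono a4)
      (c4.mono (by omega) le_rfl) (fun x hx => (mem_zs.1 (hAz hx)).2) c5)

theorem cL_ne_zero (hp : p.Ok) : p.cL ≠ 0 :=
  pow_ne_zero _ (by exact_mod_cast hp.c_ne)

theorem top_step (hp : p.Ok) {t : ℕ} (ht : 1 ≤ t) {δ : ℝ} (hs : p.Shape (Normal p.k) (d + 1) δ)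
    (hδ : 1 < δ * (t : ℝ) ^ (d + 1)) :
    p.StepHyp (fun _ _ => True) (p.Eqn false Finset.univ) t := by
  classical
  intro _
  obtain ⟨y, hy⟩ := det_core hs hδ ht
  refine ⟨y + d * (p.k * y), 1, 0, ?_⟩
  filter_upwards [hy, eventually_gt_atTop |(p.c : ℝ)|] with Z hy hZ S pool hA
  refine ⟨fun Y => Y = S, fun A hS _ => ⟨{S}, by simp, by simp, fun x hx => by simpa using hS hx⟩,
    fun Y Y' h h' hne => absurd (h.trans h'.symm) hne, ?_⟩
  rintro Y rfl x₀ hx₀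
  refine ⟨∅, by simp, fun T hT hc _ => ?_⟩
  set A := Y.filter (Cong key T x₀) with hAdef
  have hAS : A ⊆ Y := Finset.filter_subset _ _
  have hx₀A : x₀ ∈ A := Finset.mem_filter.2 ⟨hx₀, fun _ _ => rfl⟩
  have hcong : ∀ x ∈ A, Cong key T x₀ x := fun x hx => (Finset.mem_filter.1 hx).2
  have hg := gen_dvd (p := p) Finset.univ (fun π hπ => (hA.poolPrime π (hT hπ)).1) hcong
  have hsupp : ∀ u : Ix d, Normal p.k u → Supp Finset.univ u := fun u _ l hl => by simp at hl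
  have hdep := hy Y pool hA T hT hc A hAS _ _ (by simp) hg (fun u hu =>
    inCl_mon hp hA hZ hT hAS hg hx₀A (I := Finset.univ)
      (fun l _ => inCl_coord (o := some l) x₀ A _ (Finset.mem_univ _)) (hsupp u hu)
      (Or.inr (inCl_coord (o := none) x₀ A _ (Finset.mem_univ _))))
  obtain ⟨B, lam, c1, c2, c3, c4, c5⟩ := dep_tilde hp hA hAS hdep hsupp
    (E := y + d * (p.k * y)) (Or.inl (by omega))
  refine ⟨_, sum_monoP_ne_zero _ _ (cL_ne_zero hp) _ _ _ B lam (fun u hu => (c1 u hu).2)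
    (fun u hu u' hu' => normal_inj (c1 u hu).1 (c1 u' hu').1) c2, c3, c4.mono le_rfl (by simp), c5⟩

/-- all conjugates are affine functions of `α j`, in general position -/
def Par.GenLine (p : Par d L) (j : Fin d) : Pred d L := fun _ A =>
  ∃ κ κ' : Fin d → L, (∀ l, κ l ≠ 0) ∧ (∀ l l', l ≠ l' → κ l * κ' l' ≠ κ l' * κ' l) ∧
    ∀ x ∈ A, ∀ l, p.alL x l = κ l * p.alL x j + κ' l

omit [NumberField L] in
theorem lin_facts (κ κ' : L) (j : Fin d) :
    (MvPolynomial.C (C κ) * MvPolynomial.X j + MvPolynomial.C (C κ') : RR d L).vars ⊆ {j} ∧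
    DegLe (MvPolynomial.C (C κ) * MvPolynomial.X j + MvPolynomial.C (C κ') : RR d L) 1 0 ∧
    ∀ (al : Fin d → L) (n : L), ev al n
      (MvPolynomial.C (C κ) * MvPolynomial.X j + MvPolynomial.C (C κ')) = κ * al j + κ' := by
  classical
  refine ⟨?_, ?_, fun al n => by simp [ev]⟩
  · refine (MvPolynomial.vars_add_subset _ _).trans (Finset.union_subset ?_ (by simp))
    refine (MvPolynomial.vars_mul _ _).trans ?_
    simp
  · exact ((DegLe.C (C κ) (E := 0) (by simp)).mul (DegLe.X j)).add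
      ((DegLe.C (C κ') (E := 0) (by simp)).mono (by omega) le_rfl)

omit [NumberField L] in
theorem eqn_of_lin {j : Fin d} {κ κ' : L} (h : κ ≠ 0 ∨ κ' ≠ 0) {A : Finset (Pt d L)}
    (hA : ∀ x ∈ A, κ * p.alL x j + κ' = 0) {D : ℕ} (hD : 1 ≤ D) : p.Eqn false {j} D A := by
  obtain ⟨h1, h2, h3⟩ := lin_facts κ κ' j
  refine ⟨_, fun h0 => ?_, h1, h2.mono hD (Nat.zero_le _), fun x hx => (h3 _ _).trans (hA x hx)⟩
  have a1 := h3 (fun _ => 0) 0
  have a2 := h3 (fun _ => 1) 0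
  rw [h0, map_zero] at a1 a2
  rcases h with h | h
  · exact h (by linear_combination a1 - a2)
  · exact h (by linear_combination -a1)

omit [NumberField L] in
theorem aeval_facts (κ κ' : Fin d → L) (j : Fin d) {F : RR d L} {D E : ℕ} (hF : DegLe F D E) :
    let f : Fin d → RR d L :=
      fun l => MvPolynomial.C (C (κ l)) * MvPolynomial.X j + MvPolynomial.C (C (κ' l))
    (MvPolynomial.aeval f F).vars ⊆ {j} ∧ DegLe (MvPolynomial.aeval f F) D E ∧
      ∀ (al : Fin d → L) (n : L), (∀ l, al l = κ l * al j + κ' l) →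
        ev al n (MvPolynomial.aeval f F) = ev al n F := by
  classical
  intro f
  refine ⟨?_, ?_, fun al n h => ?_⟩
  · refine (MvPolynomial.vars_bind₁ f F).trans (Finset.biUnion_subset.2 fun l _ => ?_)
    exact (lin_facts _ _ j).1
  · rw [MvPolynomial.aeval_def, MvPolynomial.eval₂_eq']
    refine DegLe.sum _ fun m hm => ?_
    have h1 := (DegLe.C (F.coeff m) (hF.2 m)).mul
      (DegLe.prod Finset.univ (fun l _ => ((lin_facts (κ l) (κ' l) j).2.1).pow (m l)))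
    refine h1.mono ?_ (by simp)
    have := (MvPolynomial.le_totalDegree hm).trans hF.1
    rw [Finsupp.sum_fintype _ _ (fun _ => rfl)] at this
    simpa using this
  · have : (ev al n).comp (MvPolynomial.aeval f : RR d L →ₐ[L[X]] RR d L).toRingHom = ev al n := by
      refine MvPolynomial.ringHom_ext (fun a => by simp [ev]) fun l => ?_
      have h2 := (lin_facts (κ l) (κ' l) j).2.2 al n
      have h3 : ev al n (MvPolynomial.X l) = al l := by simp [ev]
      rw [h3, h l, ← h2]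
      simp [f]
    exact RingHom.congr_fun this F

theorem line_step (hp : p.Ok) (j : Fin d) {j₁ j₂ j₃ j₄ : Fin d} (h12 : j₁ ≠ j₂) (h13 : j₁ ≠ j₃)
    (h14 : j₁ ≠ j₄) (h23 : j₂ ≠ j₃) (h24 : j₂ ≠ j₄) (h34 : j₃ ≠ j₄) {t : ℕ} (ht : 1 ≤ t) {δ : ℝ}
    (hs : p.Shape (famLine p.k j₁ j₂ j₃ j₄) 2 δ) (hδ : 1 < δ * (t : ℝ) ^ 2) :
    p.StepHyp (p.GenLine j) (p.Eqn false {j}) t := by
  classical
  intro _
  obtain ⟨y, hy⟩ := det_core hs hδ ht
  refine ⟨y + d * (p.k * y) + 1, 1, (p.a + 1) * Module.finrank ℚ L, ?_⟩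
  filter_upwards [hy, eventually_gt_atTop |(p.c : ℝ)|, eventually_ge_atTop (2 : ℝ)] with Z hy hZ
    hZ2 S pool hA
  refine ⟨fun Y => ∃ κ κ' : Fin d → L, (∀ l, κ l ≠ 0) ∧
    (∀ l l', l ≠ l' → κ l * κ' l' ≠ κ l' * κ' l) ∧
    Y = S.filter (fun x => ∀ l, p.alL x l = κ l * p.alL x j + κ' l), ?_, ?_, ?_⟩
  · rintro A hS ⟨κ, κ', h1, h2, h3⟩
    refine ⟨{S.filter (fun x => ∀ l, p.alL x l = κ l * p.alL x j + κ' l)}, by simp, ?_, ?_⟩
    · intro Y hY
      exact ⟨κ, κ', h1, h2, Finset.mem_singleton.1 hY⟩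
    · intro x hx
      exact ⟨_, Finset.mem_singleton_self _, Finset.mem_filter.2 ⟨hS hx, h3 x hx⟩⟩
  · rintro Y Y' ⟨κ, κ', _, _, rfl⟩ ⟨μ, μ', _, _, rfl⟩ hne
    have : ∃ l, κ l - μ l ≠ 0 ∨ κ' l - μ' l ≠ 0 := by
      by_contra h
      push Not at h
      have a1 : κ = μ := funext fun l => sub_eq_zero.1 (h l).1
      have a2 : κ' = μ' := funext fun l => sub_eq_zero.1 (h l).2
      exact hne (by rw [a1, a2])
    obtain ⟨l, hl⟩ := this
    refine eqn_of_lin hl (fun x hx => ?_) (by omega)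
    have a1 := (Finset.mem_filter.1 (Finset.mem_inter.1 hx).1).2 l
    have a2 := (Finset.mem_filter.1 (Finset.mem_inter.1 hx).2).2 l
    linear_combination a2 - a1
  rintro Y ⟨κ, κ', hκ, hκ', hY⟩ x₀ hx₀
  have hYS : Y ⊆ S := hY ▸ Finset.filter_subset _ _
  have hYl : ∀ x ∈ Y, ∀ l, p.alL x l = κ l * p.alL x j + κ' l := fun x hx =>
    (Finset.mem_filter.1 (hY ▸ hx)).2
  by_cases hc : ∀ x ∈ Y, al p.θ x j = al p.θ x₀ j
  · refine ⟨∅, by simp, fun T _ _ _ => eqn_of_lin (κ := 1) (κ' := -p.alL x₀ j)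
      (Or.inl one_ne_zero) (fun x hx => ?_) (by omega)⟩
    simp [Par.alL, hc x (Finset.mem_filter.1 hx).1]
  push Not at hc
  obtain ⟨x₁, hx₁, hne⟩ := hc
  obtain ⟨bad, hb1, hb2⟩ := exists_bad (sub_ne_zero.2 hne)
    ((hA.smallA x₁ (hYS hx₁) j).sub (hA.smallA x₀ (hYS hx₀) j) hZ2) hZ2
  refine ⟨bad, hb1, fun T hT hc hdis => ?_⟩
  obtain ⟨u', hu'⟩ := hb2 T (fun π hπ => ⟨(hA.poolPrime π (hT hπ)).1,
    (hA.poolPrime π (hT hπ)).2.1⟩) hdis
  set A := Y.filter (Cong key T x₀) with hAdef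
  have hAY : A ⊆ Y := Finset.filter_subset _ _
  have hAS : A ⊆ S := hAY.trans hYS
  have hx₀A : x₀ ∈ A := Finset.mem_filter.2 ⟨hx₀, fun _ _ => rfl⟩
  have hcong : ∀ x ∈ A, Cong key T x₀ x := fun x hx => (Finset.mem_filter.1 hx).2
  set V : Finset (Option (Fin d)) := {none, some j} with hV
  have hg := gen_dvd (p := p) V (fun π hπ => (hA.poolPrime π (hT hπ)).1) hcong
  have hj : InCl A ((∏ π ∈ T, π : ℕ) : 𝓞 L) (p.gen V x₀) (fun x => al p.θ x j) :=
    inCl_coord (o := some j) x₀ A _ (by simp [hV])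
  have hal : ∀ l, InCl A ((∏ π ∈ T, π : ℕ) : 𝓞 L) (p.gen V x₀) (fun x => al p.θ x l) := by
    intro l
    have h1 : InCl A ((∏ π ∈ T, π : ℕ) : 𝓞 L) (p.gen V x₀)
        (fun x => al p.θ x l - al p.θ x₀ l) := by
      refine InCl.div hg (InCl.const (al p.θ x₁ j - al p.θ x₀ j)) ?_ hx₀A hu'
      refine ((InCl.const (al p.θ x₁ l - al p.θ x₀ l)).mul
        (hj.sub (InCl.const (al p.θ x₀ j)))).congr fun x hx => ?_
      apply RingOfIntegers.coe_injective
      have a1 := hYl x (hAY hx) l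
      have a2 := hYl x₀ hx₀ l
      have a3 := hYl x₁ hx₁ l
      simp only [map_mul, map_sub]
      change (p.alL x₁ l - p.alL x₀ l) * (p.alL x j - p.alL x₀ j) =
        (p.alL x₁ j - p.alL x₀ j) * (p.alL x l - p.alL x₀ l)
      rw [a1, a2, a3]
      ring
    exact (h1.add (InCl.const (al p.θ x₀ l))).congr fun x _ => by simp
  have hsupp : ∀ u : Ix d, famLine p.k j₁ j₂ j₃ j₄ u → Supp Finset.univ u :=
    fun u _ l hl => by simp at hl
  have hdep := hy S pool hA T hT hc A hAS _ _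
    (by rw [Fintype.card_coe, hV, Finset.card_pair (by simp)]) hg (fun u hu =>
    inCl_mon hp hA hZ hT hAS hg hx₀A (I := Finset.univ) (fun l _ => hal l) (hsupp u hu)
      (Or.inr (inCl_coord (o := none) x₀ A _ (by simp [hV]))))
  obtain ⟨B, lam, c1, c2, c3, c4, c5⟩ := dep_tilde hp hA hAS hdep hsupp
    (E := y + d * (p.k * y)) (Or.inl (by omega))
  obtain ⟨e1, e2, e3⟩ := aeval_facts κ κ' j c4
  refine ⟨_, line_indep p.θL p.cL (cL_ne_zero hp) p.k (p.k * y) hp.k_pos j₁ j₂ j₃ j₄ h12 h13 h14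
    h23 h24 h34 κ κ' hκ hκ' B lam (fun u hu => (c1 u hu).2) (fun u hu => (c1 u hu).1) c2 j, e1,
    e2.mono (by omega) (by simp), fun x hx => ?_⟩
  exact (e3 _ _ (hYl x (hAY hx))).trans (c5 x hx)

end Vale.Agent.P018
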